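import Mathlib

/-!
P046, sharp constant: the polynomial inequality for the mean field equation.
-/

namespace Vale.Agent.P046.CT

/-- `(A-1)² + (B-1)² + (C-1)² + 2 (A+B+C-3) (ABC-1) ≥ 0` for `A, B, C ≥ 0` -/
theorem poly3_pos {A B C : ℝ} (hA : 0 ≤ A) (hB : 0 ≤ B) (hC : 0 ≤ C) :
    0 ≤ (A - 1) ^ 2 + (B - 1) ^ 2 + (C - 1) ^ 2 + 2 * (A + B + C - 3) * (A * B * C - 1) := by
  set u := A + B with hu
  set v := A * B with hv
  have hu0 : 0 ≤ u := add_nonneg hA hB
  have hv0 : 0 ≤ v := mul_nonneg hA hB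
  have hvu : v ≤ u ^ 2 / 4 := by rw [hu, hv]; nlinarith [sq_nonneg (A - B)]
  have hF : (A - 1) ^ 2 + (B - 1) ^ 2 + (C - 1) ^ 2 + 2 * (A + B + C - 3) * (A * B * C - 1) =
      (1 + 2 * v) * C ^ 2 + 2 * (v * (u - 3) - 2) * C + ((A - 2) ^ 2 + (B - 2) ^ 2 + 1) := by
    rw [hu, hv]; ring
  rw [hF]
  rcases le_or_gt 2 (v * (u - 3)) with h | h
  · have h1 : 0 ≤ (v * (u - 3) - 2) * C := mul_nonneg (by linarith) hC
    have h2 : 0 ≤ (1 + 2 * v) * C ^ 2 := by positivity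
    nlinarith [sq_nonneg (A - 2), sq_nonneg (B - 2)]
  · -- the discriminant
    have hG : 0 ≤ -(4 + (u - 3) ^ 2) * v ^ 2 + (2 * u ^ 2 - 4 * u + 4) * v + (u - 2) ^ 2 + 1 := by
      rcases le_or_gt u 4 with h4 | h4
      · rcases hu0.eq_or_lt with h0 | h0
        · have hv' : v = 0 := by
            have : v ≤ 0 := by rw [← h0] at hvu; simpa using hvu
            linarith
          rw [hv', ← h0]; norm_num
        · have hq : 0 ≤ -u ^ 4 + 2 * u ^ 3 + 7 * u ^ 2 + 4 * u + 20 := by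
            nlinarith [mul_nonneg hu0 (sub_nonneg.2 h4), mul_nonneg (mul_nonneg hu0 hu0)
              (sub_nonneg.2 h4), mul_nonneg (mul_nonneg (mul_nonneg hu0 hu0) hu0)
              (sub_nonneg.2 h4)]
          set V := u ^ 2 / 4 with hV
          have hVpos : 0 < V := by positivity
          have key : V * (-(4 + (u - 3) ^ 2) * v ^ 2 + (2 * u ^ 2 - 4 * u + 4) * v +
              (u - 2) ^ 2 + 1) = V * (4 + (u - 3) ^ 2) * (v * (V - v)) +
              v * ((u - 2) ^ 2 * (-u ^ 4 + 2 * u ^ 3 + 7 * u ^ 2 + 4 * u + 20) / 16) +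
              (V - v) * ((u - 2) ^ 2 + 1) := by
            rw [hV]; ring
          have h5 : 0 ≤ V * (-(4 + (u - 3) ^ 2) * v ^ 2 + (2 * u ^ 2 - 4 * u + 4) * v +
              (u - 2) ^ 2 + 1) := by
            rw [key]
            have a1 : 0 ≤ v * (V - v) := mul_nonneg hv0 (sub_nonneg.2 hvu)
            have a2 : 0 ≤ (V - v) * ((u - 2) ^ 2 + 1) :=
              mul_nonneg (sub_nonneg.2 hvu) (by positivity)
            have a3 : 0 ≤ v * ((u - 2) ^ 2 * (-u ^ 4 + 2 * u ^ 3 + 7 * u ^ 2 + 4 * u + 20) / 16) :=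
              mul_nonneg hv0 (div_nonneg (mul_nonneg (sq_nonneg _) hq) (by norm_num))
            have a4 : 0 ≤ V * (4 + (u - 3) ^ 2) * (v * (V - v)) :=
              mul_nonneg (by positivity) a1
            linarith
          exact nonneg_of_mul_nonneg_right h5 hVpos
      · have h5 : v ≤ 2 := by nlinarith
        have h6 : (v * (u - 3)) ^ 2 ≤ 4 := by
          have : 0 ≤ v * (u - 3) := mul_nonneg hv0 (by linarith)
          nlinarith
        have h7 : 4 * v ^ 2 ≤ 8 * v := by nlinarith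
        have h8 : 8 * v ≤ (2 * u ^ 2 - 4 * u + 4) * v :=
          mul_le_mul_of_nonneg_right (by nlinarith) hv0
        nlinarith
    have hid : (1 + 2 * v) * ((1 + 2 * v) * C ^ 2 + 2 * (v * (u - 3) - 2) * C +
        ((A - 2) ^ 2 + (B - 2) ^ 2 + 1)) = ((1 + 2 * v) * C + (v * (u - 3) - 2)) ^ 2 +
        (-(4 + (u - 3) ^ 2) * v ^ 2 + (2 * u ^ 2 - 4 * u + 4) * v + (u - 2) ^ 2 + 1) := by
      rw [hu, hv]; ring
    have h9 : 0 ≤ (1 + 2 * v) * ((1 + 2 * v) * C ^ 2 + 2 * (v * (u - 3) - 2) * C +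
        ((A - 2) ^ 2 + (B - 2) ^ 2 + 1)) := by
      rw [hid]; exact add_nonneg (sq_nonneg _) hG
    exact nonneg_of_mul_nonneg_right h9 (by positivity)

theorem poly3 {x y z : ℝ} (hx : -1 ≤ x) (hy : -1 ≤ y) (hz : -1 ≤ z) :
    2 * (x + y + z) * (1 - (1 + x) * (1 + y) * (1 + z)) ≤ x ^ 2 + y ^ 2 + z ^ 2 := by
  have h := poly3_pos (A := 1 + x) (B := 1 + y) (C := 1 + z) (by linarith) (by linarith)
    (by linarith)
  nlinarith [h]

end Vale.Agent.P046.CT
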