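import Vale.Agent.P046.CT.GGrec
import Vale.Agent.P046.CT.Poly3

/-!
P046, sharp constant, part (A): mean field for the cover system (definitions).
-/

namespace Vale.Agent.P046.CT

open Finset

noncomputable section

variable {α : Type} [DecidableEq α]

/-- label time -/
def uu (h : ℝ) (i : ℕ) : ℝ := 1 - (1 - h) ^ i

/-- degree -/
def dH (H : Finset (Finset α)) (e : α) : ℕ := (H.filter (fun T => e ∈ T)).card

/-- `1 + 2 K u` -/
def Lq (K h : ℝ) (i : ℕ) : ℝ := 1 + 2 * K * uu h i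

def tau (K h : ℝ) (i : ℕ) : ℝ := Real.log (Lq K h i) / 2

def pq (K h : ℝ) (i : ℕ) : ℝ := Real.exp (-(tau K h i))

/-- relative deviation of the degree -/
def xe (H : Finset (Finset α)) (K : ℝ) (e : α) : ℝ := (dH H e : ℝ) / K - 1

def mm (H : Finset (Finset α)) (K h : ℝ) (i : ℕ) (e : α) : ℝ :=
  Real.exp (-((1 + xe H K e) * tau K h i))

def yy (H : Finset (Finset α)) (K h : ℝ) (i : ℕ) (e : α) : ℝ := nn H h i e / mm H K h i e - 1

def NT (H : Finset (Finset α)) (h : ℝ) (i : ℕ) (T : Finset α) : ℝ := ∏ y ∈ T, qq H h i y T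

def JJ (H : Finset (Finset α)) (K h : ℝ) (G : Finset α) (i : ℕ) : ℝ :=
  ∑ e ∈ G, mm H K h i e * yy H K h i e ^ 2 / 2

/-- `∑_{f ∈ T, f ≠ e} x_f` -/
def se (H : Finset (Finset α)) (K : ℝ) (T : Finset α) (e : α) : ℝ := ∑ f ∈ T.erase e, xe H K f

def bG (H : Finset (Finset α)) (K : ℝ) (G : Finset α) (e : α) : ℝ :=
  (∑ T ∈ H.filter (fun T => e ∈ T ∧ T ⊆ G), se H K T e) / K

/-- the standing assumptions -/
structure Dat (H : Finset (Finset α)) (A G : Finset α) (K xi eta h : ℝ) : Prop where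
  card3 : ∀ T ∈ H, T.card = 3
  sub : ∀ T ∈ H, T ⊆ A
  GA : G ⊆ A
  K1 : 1 ≤ K
  good : ∀ e ∈ G, |xe H K e| ≤ xi
  xi0 : 0 ≤ xi
  xieta : xi ≤ eta
  xitau : 3 * xi * Real.log (1 + 2 * K) ≤ 2 * eta
  eta0 : 0 < eta
  eta1 : eta ≤ 1 / 40
  h0 : 0 ≤ h
  h1 : h ≤ 1

end

end Vale.Agent.P046.CT
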