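import Vale.Agent.P046.Kn

/-!
P046, sharp constant: connected configurations of triangles which are not trees are rare
(`2 * #vertices ≤ #edges + 2`), and their number.
-/

namespace Vale.Agent.P046.CTB

open Finset Vale.Agent.P046

noncomputable section

section General

variable {α : Type} [DecidableEq α]

/-- connected sets of blocks -/
inductive Cn (Bl : Finset (Finset α)) : Finset (Finset α) → Prop
  | one {T : Finset α} (hT : T ∈ Bl) : Cn Bl {T}
  | step {c : Finset (Finset α)} {T : Finset α} (hc : Cn Bl c) (hT : T ∈ Bl) (hTc : T ∉ c)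
      (hm : ¬ Disjoint T (c.biUnion id)) : Cn Bl (insert T c)

theorem Cn.sub {Bl c : Finset (Finset α)} (h : Cn Bl c) : c ⊆ Bl := by
  induction h with
  | one hT => exact singleton_subset_iff.mpr hT
  | step _ hT _ _ ih => exact insert_subset hT ih

theorem Cn.nonempty {Bl c : Finset (Finset α)} (h : Cn Bl c) : c.Nonempty := by
  induction h with
  | one hT => exact singleton_nonempty _
  | step _ _ _ _ _ => exact insert_nonempty _ _

theorem Cn.mono {Bl Bl' c : Finset (Finset α)} (h : Cn Bl c) (hc : c ⊆ Bl') : Cn Bl' c := by
  induction h with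
  | one hT => exact Cn.one (hc (mem_singleton_self _))
  | step _ _ hTc hm ih =>
    exact Cn.step (ih ((subset_insert _ _).trans hc)) (hc (mem_insert_self _ _)) hTc hm

theorem bu_insert (T : Finset α) (c : Finset (Finset α)) :
    (insert T c).biUnion id = T ∪ c.biUnion id := by
  rw [biUnion_insert, id]

/-- a connected set of `j` blocks has at most `2 j + 1` points -/
theorem Cn.card_le {Bl c : Finset (Finset α)} (h3 : ∀ T ∈ Bl, T.card = 3) (h : Cn Bl c) :
    (c.biUnion id).card ≤ 2 * c.card + 1 := by
  induction h with
  | one hT =>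
    rw [singleton_biUnion, id, card_singleton, h3 _ hT]
  | @step c T hc hT hTc hm ih =>
    rw [bu_insert, card_insert_of_notMem hTc]
    have h1 := card_union_add_card_inter T (c.biUnion id)
    have h2 : 0 < (T ∩ c.biUnion id).card := by
      rw [card_pos, nonempty_iff_ne_empty]
      intro h
      exact hm (disjoint_iff_inter_eq_empty.mpr h)
    rw [h3 T hT] at h1
    omega

end General

section Kn

variable {n : ℕ}

/-- a triangle which shares an edge with edges inside `V` -/
theorem third {t V : Finset (Fin n)} (ht : t.card = 3) {X : Finset (Sym2 (Fin n))}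
    (hX : X ⊆ tr V) (hm : ¬ Disjoint (tr t) X) :
    ∃ a b w : Fin n, a ≠ b ∧ a ≠ w ∧ b ≠ w ∧ a ∈ V ∧ b ∈ V ∧ t = {a, b, w} ∧ s(a, b) ∈ X := by
  rw [not_disjoint_iff] at hm
  obtain ⟨e, he, heX⟩ := hm
  induction e with
  | h a b =>
    have h1 := mk_mem_tr.mp he
    have h2 := mk_mem_tr.mp (hX heX)
    have h4 : ({a, b} : Finset (Fin n)) ⊆ t := by
      intro x hx
      rw [mem_insert, mem_singleton] at hx
      rcases hx with rfl | rfl
      · exact h1.1
      · exact h1.2.1
    have h5 : (t \ {a, b}).card = 1 := by
      have := card_sdiff_add_card_eq_card h4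
      rw [card_pair h1.2.2] at this
      omega
    obtain ⟨w, hw⟩ := card_eq_one.mp h5
    have h6 : w ∈ t \ {a, b} := by
      rw [hw]
      exact mem_singleton_self w
    rw [mem_sdiff, mem_insert, mem_singleton, not_or] at h6
    refine ⟨a, b, w, h1.2.2, fun h => h6.2.1 h.symm, fun h => h6.2.2 h.symm, h2.1, h2.2.1, ?_, heX⟩
    ext x
    rw [mem_insert, mem_insert, mem_singleton]
    constructor
    · intro hx
      by_cases hxa : x = a
      · exact Or.inl hxa
      by_cases hxb : x = b
      · exact Or.inr (Or.inl hxb)
      have h7 : x ∈ t \ {a, b} := by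
        rw [mem_sdiff, mem_insert, mem_singleton, not_or]
        exact ⟨hx, hxa, hxb⟩
      rw [hw, mem_singleton] at h7
      exact Or.inr (Or.inr h7)
    · rintro (rfl | rfl | rfl)
      · exact h1.1
      · exact h1.2.1
      · exact h6.1

/-- the two cases for a connected configuration -/
theorem verts {c : Finset (Finset (Sym2 (Fin n)))} (h : Cn (BK n) c) :
    ∃ V : Finset (Fin n), (c.biUnion id) ⊆ tr V ∧
      ((2 * V.card = (c.biUnion id).card + 3 ∧ (c.biUnion id).card = 2 * c.card + 1 ∧
        ∀ T ∈ BK n, T ⊆ c.biUnion id → T ∈ c) ∨ 2 * V.card ≤ (c.biUnion id).card + 2) := by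
  induction h with
  | @one T hT =>
    obtain ⟨t, ht, rfl⟩ := mem_BK.mp hT
    refine ⟨t, ?_, Or.inl ⟨?_, ?_, ?_⟩⟩
    · rw [singleton_biUnion, id]
    · rw [singleton_biUnion, id, card_tr, ht]
      rfl
    · rw [singleton_biUnion, id, card_singleton, card_tr, ht]
      rfl
    · intro T' hT' hsub
      rw [singleton_biUnion, id] at hsub
      rw [mem_singleton]
      refine eq_of_subset_of_card_le hsub ?_
      rw [(lin3_BK n).card3 _ hT, (lin3_BK n).card3 _ hT']
  | @step c T hc hT hTc hm ih =>
    obtain ⟨V, hXV, hcase⟩ := ih
    obtain ⟨t, ht, rfl⟩ := mem_BK.mp hT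
    rw [bu_insert, card_insert_of_notMem hTc]
    set X := c.biUnion id with hX
    obtain ⟨a, b, w, hab, haw, hbw, haV, hbV, hte, habX⟩ := third ht hXV hm
    have hcard := card_union_add_card_inter (tr t) X
    have hc3 : (tr t).card = 3 := (lin3_BK n).card3 _ hT
    have hint : 0 < (tr t ∩ X).card := by
      rw [card_pos, nonempty_iff_ne_empty]
      intro h
      exact hm (disjoint_iff_inter_eq_empty.mpr h)
    by_cases hwV : w ∈ V
    · have htV : t ⊆ V := by
        rw [hte]
        intro x hx
        rw [mem_insert, mem_insert, mem_singleton] at hx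
        rcases hx with rfl | rfl | rfl
        · exact haV
        · exact hbV
        · exact hwV
      refine ⟨V, union_subset ((tr_subset_iff (by omega)).mpr htV) hXV, Or.inr ?_⟩
      rcases hcase with ⟨h1, h2, h3⟩ | h1
      · have h4 : ¬ tr t ⊆ X := fun h => hTc (h3 _ hT h)
        have h5 : X ⊂ tr t ∪ X := by
          refine Finset.ssubset_iff_subset_ne.mpr ⟨subset_union_right, fun h => h4 ?_⟩
          rw [h]
          exact subset_union_left
        have h6 := card_lt_card h5
        omega
      · have h6 : X.card ≤ (tr t ∪ X).card := card_le_card subset_union_right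
        omega
    · have hwt : w ∈ t := by
        rw [hte]
        simp
      have hat : a ∈ t := by
        rw [hte]
        simp
      have hbt : b ∈ t := by
        rw [hte]
        simp
      have hnX : ∀ x, s(w, x) ∉ X := fun x hx => hwV (mk_mem_tr.mp (hXV hx)).1
      have hpair : s(w, a) ≠ s(w, b) := by
        intro h
        rw [Sym2.eq_iff] at h
        rcases h with ⟨-, h⟩ | ⟨h, -⟩
        · exact hab h
        · exact hbw h.symm
      have h7 : X.card + 2 ≤ (tr t ∪ X).card := by
        have h8 : ({s(w, a), s(w, b)} : Finset (Sym2 (Fin n))) ∪ X ⊆ tr t ∪ X := by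
          refine union_subset_union_left ?_
          intro e he
          rw [mem_insert, mem_singleton] at he
          rcases he with rfl | rfl
          · exact mk_mem_tr.mpr ⟨hwt, hat, haw.symm⟩
          · exact mk_mem_tr.mpr ⟨hwt, hbt, hbw.symm⟩
        have h9 : Disjoint ({s(w, a), s(w, b)} : Finset (Sym2 (Fin n))) X := by
          rw [disjoint_left]
          intro e he
          rw [mem_insert, mem_singleton] at he
          rcases he with rfl | rfl
          · exact hnX a
          · exact hnX b
        have h10 := card_le_card h8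
        rw [card_union_of_disjoint h9, card_pair hpair] at h10
        omega
      have hVc : (insert w V).card = V.card + 1 := card_insert_of_notMem hwV
      have htV : t ⊆ insert w V := by
        rw [hte]
        intro x hx
        rw [mem_insert, mem_insert, mem_singleton] at hx
        rcases hx with rfl | rfl | rfl
        · exact mem_insert_of_mem haV
        · exact mem_insert_of_mem hbV
        · exact mem_insert_self _ _
      have hVV : tr V ⊆ tr (insert w V) := by
        intro e
        induction e with
        | h x y =>
          rw [mk_mem_tr, mk_mem_tr]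
          rintro ⟨h1, h2, h3⟩
          exact ⟨mem_insert_of_mem h1, mem_insert_of_mem h2, h3⟩
      refine ⟨insert w V, union_subset ((tr_subset_iff (by omega)).mpr htV) (hXV.trans hVV), ?_⟩
      rcases hcase with ⟨h1, h2, h3⟩ | h1
      · left
        refine ⟨by omega, by omega, ?_⟩
        intro T' hT' hsub
        by_cases hT'X : T' ⊆ X
        · exact mem_insert_of_mem (h3 T' hT' hT'X)
        · obtain ⟨t', ht', rfl⟩ := mem_BK.mp hT'
          -- an edge of `t'` is not in `X`, so it is in `tr t` and contains `w`
          have h11 : w ∈ t' := by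
            by_contra hwt'
            refine hT'X fun e he => ?_
            have h12 := hsub he
            rw [mem_union] at h12
            rcases h12 with h12 | h12
            · induction e with
              | h x y =>
                rw [mk_mem_tr] at he h12
                have hxw : x ≠ w := fun h => hwt' (h ▸ he.1)
                have hyw : y ≠ w := fun h => hwt' (h ▸ he.2.1)
                have hx : x = a ∨ x = b := by
                  have := h12.1
                  rw [hte, mem_insert, mem_insert, mem_singleton] at this
                  tauto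
                have hy : y = a ∨ y = b := by
                  have := h12.2.1
                  rw [hte, mem_insert, mem_insert, mem_singleton] at this
                  tauto
                rcases hx with rfl | rfl <;> rcases hy with rfl | rfl
                · exact absurd rfl he.2.2
                · exact habX
                · rw [Sym2.eq_swap]
                  exact habX
                · exact absurd rfl he.2.2
            · exact h12
          have h13 : t' ⊆ t := by
            intro y hy
            by_cases hyw : y = w
            · rw [hyw]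
              exact hwt
            · have h14 : s(w, y) ∈ tr t' := mk_mem_tr.mpr ⟨h11, hy, fun h => hyw h.symm⟩
              have h15 := hsub h14
              rw [mem_union] at h15
              rcases h15 with h15 | h15
              · exact (mk_mem_tr.mp h15).2.1
              · exact absurd h15 (hnX y)
          have h16 : t' = t := eq_of_subset_of_card_le h13 (by omega)
          rw [h16]
          exact mem_insert_self _ _
      · right
        omega

/-- a connected configuration which is not a tree has few vertices -/
theorem bad_verts {c : Finset (Finset (Sym2 (Fin n)))} (h : Cn (BK n) c)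
    (hbad : (c.biUnion id).card ≤ 2 * c.card) :
    ∃ V : Finset (Fin n), (c.biUnion id) ⊆ tr V ∧ 2 * V.card ≤ (c.biUnion id).card + 2 := by
  obtain ⟨V, h1, h2⟩ := verts h
  rcases h2 with ⟨_, h3, _⟩ | h2
  · omega
  · exact ⟨V, h1, h2⟩

open Classical in
/-- connected configurations with at most `m` blocks, exactly `l` points, which are not trees -/
def CB (n m l : ℕ) : Finset (Finset (Finset (Sym2 (Fin n)))) :=
  (BK n).powerset.filter (fun c => Cn (BK n) c ∧ c.card ≤ m ∧ (c.biUnion id).card = l ∧
    l ≤ 2 * c.card)

theorem mem_CB {m l : ℕ} {c : Finset (Finset (Sym2 (Fin n)))} :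
    c ∈ CB n m l ↔ Cn (BK n) c ∧ c.card ≤ m ∧ (c.biUnion id).card = l ∧ l ≤ 2 * c.card := by
  classical
  unfold CB
  rw [mem_filter, mem_powerset]
  constructor
  · exact fun h => h.2
  · exact fun h => ⟨h.1.sub, h⟩

/-- configurations inside a vertex set -/
theorem card_inside (k : ℕ) : (((univ : Finset (Fin n)).powersetCard k).biUnion
      (fun V => ((V.powersetCard 3).image tr).powerset)).card ≤
      n ^ k * 2 ^ (k.choose 3) := by
  have h1 : ∀ V ∈ (univ : Finset (Fin n)).powersetCard k,
      (((V.powersetCard 3).image tr).powerset).card ≤ 2 ^ (k.choose 3) := by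
    intro V hV
    rw [mem_powersetCard] at hV
    rw [card_powerset]
    refine Nat.pow_le_pow_right (by norm_num) ?_
    refine card_image_le.trans ?_
    rw [card_powersetCard, hV.2]
  refine (card_biUnion_le_card_mul _ _ _ h1).trans ?_
  rw [card_powersetCard, card_univ, Fintype.card_fin]
  exact Nat.mul_le_mul_right _ (Nat.choose_le_pow n k)

/-- the number of connected bad configurations -/
theorem card_CB (n m l : ℕ) (hn : 1 ≤ n) :
    (CB n m l).card ≤ (m + 2) * 2 ^ ((m + 1) ^ 3) * n ^ ((l + 2) / 2) := by
  by_cases hl : 2 * m < l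
  · have h1 : CB n m l = ∅ := by
      rw [eq_empty_iff_forall_notMem]
      intro c hc
      rw [mem_CB] at hc
      omega
    rw [h1, card_empty]
    exact Nat.zero_le _
  push Not at hl
  have h1 : CB n m l ⊆ (range (m + 2)).biUnion (fun k => if k ≤ (l + 2) / 2 then
      ((univ : Finset (Fin n)).powersetCard k).biUnion
      (fun V => ((V.powersetCard 3).image tr).powerset) else ∅) := by
    intro c hc
    rw [mem_CB] at hc
    obtain ⟨h2, h3, h4, h5⟩ := hc
    obtain ⟨V, h6, h7⟩ := bad_verts h2 (by omega)
    rw [mem_biUnion]
    refine ⟨V.card, mem_range.mpr (by omega), ?_⟩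
    rw [if_pos (by omega), mem_biUnion]
    refine ⟨V, mem_powersetCard.mpr ⟨subset_univ _, rfl⟩, mem_powerset.mpr ?_⟩
    intro T hT
    obtain ⟨t, ht, rfl⟩ := mem_BK.mp (h2.sub hT)
    rw [mem_image]
    refine ⟨t, mem_powersetCard.mpr ⟨?_, ht⟩, rfl⟩
    refine (tr_subset_iff (by omega)).mp (Subset.trans ?_ h6)
    exact subset_biUnion_of_mem id hT
  refine (card_le_card h1).trans ?_
  have h8 : ∀ k ∈ range (m + 2), ((if k ≤ (l + 2) / 2 then
      ((univ : Finset (Fin n)).powersetCard k).biUnion
      (fun V => ((V.powersetCard 3).image tr).powerset) else ∅ :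
        Finset (Finset (Finset (Sym2 (Fin n)))))).card ≤
      2 ^ ((m + 1) ^ 3) * n ^ ((l + 2) / 2) := by
    intro k hk
    rw [mem_range] at hk
    split_ifs with h9
    · refine (card_inside k).trans ?_
      rw [mul_comm]
      refine Nat.mul_le_mul (Nat.pow_le_pow_right (by norm_num) ?_) (Nat.pow_le_pow_right hn h9)
      exact (Nat.choose_le_pow k 3).trans (Nat.pow_le_pow_left (by omega) 3)
    · rw [card_empty]
      exact Nat.zero_le _
  refine (card_biUnion_le_card_mul _ _ _ h8).trans ?_
  rw [card_range, mul_assoc]

/-- real form -/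
theorem card_CB_real (m : ℕ) : ∃ C : ℝ, 0 < C ∧ ∀ n l : ℕ, 1 ≤ n →
    ((CB n m l).card : ℝ) ≤ C * (n : ℝ) ^ (((l : ℝ) + 2) / 2) := by
  refine ⟨((m + 2) * 2 ^ ((m + 1) ^ 3) : ℕ), by positivity, fun n l hn => ?_⟩
  have h1 : ((CB n m l).card : ℝ) ≤ (((m + 2) * 2 ^ ((m + 1) ^ 3) * n ^ ((l + 2) / 2) : ℕ) : ℝ) := by
    exact_mod_cast card_CB n m l hn
  refine h1.trans ?_
  rw [Nat.cast_mul, Nat.cast_pow n]
  refine mul_le_mul_of_nonneg_left ?_ (Nat.cast_nonneg _)
  rw [← Real.rpow_natCast]
  refine Real.rpow_le_rpow_of_exponent_le (by exact_mod_cast hn) ?_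
  have h2 : (((l + 2) / 2 : ℕ) : ℝ) ≤ ((l + 2 : ℕ) : ℝ) / 2 := Nat.cast_div_le
  refine h2.trans (le_of_eq ?_)
  push_cast
  ring

end Kn

end

end Vale.Agent.P046.CTB
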