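import Vale.Agent.P046.CT.Tgb
import Vale.Agent.P046.CT.Bad
import Vale.Agent.P046.NL.Defs5

/-!
P046, sharp constant, part C: deletion of the bad configurations, and their number at the start.
-/

namespace Vale.Agent.P046.CT

open Finset Vale.Agent.P046

noncomputable section

namespace BadDel

variable {α : Type} [DecidableEq α]

theorem cn_conv {H : Finset (Finset α)} {j : ℕ} {c : Finset (Finset α)} (h : Cn H j c) :
    CTB.Cn H c := by
  induction h with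
  | one T hT => exact CTB.Cn.one hT
  | step j c _ T hT hn hd ih => exact CTB.Cn.step ih hT hn hd

end BadDel

variable {n : ℕ}

/-- deletion of all bad configurations -/
theorem bad_del {J : ℕ} (s : NL.St (Sym2 (Fin n))) {B' : Finset (Sym2 (Fin n))}
    (hW : bl (BK n) B' ⊆ s.W) :
    ∃ B'' : Finset (Sym2 (Fin n)), B'' ⊆ B' ∧ (∀ c, ¬ BadC (bl (BK n) B'') J c) ∧
      ((B' \ B'').card : ℝ) ≤ 3 * J * ∑ l ∈ range (2 * J + 1), NL.Nc (CTB.CB n J l) s := by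
  set F := (range (2 * J + 1)).biUnion
    (fun l => (CTB.CB n J l).filter (fun c => c ⊆ s.W)) with hF
  set U := F.biUnion (fun c => c.biUnion id) with hU
  refine ⟨B' \ U, sdiff_subset, ?_, ?_⟩
  · rintro c ⟨j, hj, hc, hcard⟩
    have h1 : c ⊆ bl (BK n) (B' \ U) := Tgb.cn_sub hc
    have h2 : c ⊆ s.W := fun T hT => hW (by
      have h3 := mem_bl.mp (h1 hT)
      exact mem_bl.mpr ⟨h3.1, h3.2.trans sdiff_subset⟩)
    have h3 : c ⊆ BK n := fun T hT => (mem_bl.mp (h1 hT)).1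
    have h4 : CTB.Cn (BK n) c := (BadDel.cn_conv hc).mono h3
    have h5 := Tgb.cn_card hc
    have h6 : c ∈ CTB.CB n J (c.biUnion id).card := by
      rw [CTB.mem_CB]
      exact ⟨h4, by omega, rfl, by omega⟩
    have h7 : c ∈ F := by
      rw [hF, mem_biUnion]
      exact ⟨(c.biUnion id).card, mem_range.mpr (by omega), mem_filter.mpr ⟨h6, h2⟩⟩
    obtain ⟨T, hT⟩ := h4.nonempty
    have h8 := (lin3_BK n).card3 T (h3 hT)
    have h9 : T.Nonempty := by
      rw [← card_pos]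
      omega
    obtain ⟨x, hx⟩ := h9
    have h10 : x ∈ B' \ U := (mem_bl.mp (h1 hT)).2 hx
    rw [mem_sdiff] at h10
    refine h10.2 ?_
    rw [hU, mem_biUnion]
    exact ⟨c, h7, mem_biUnion.mpr ⟨T, hT, hx⟩⟩
  · have h1 : B' \ (B' \ U) ⊆ U := by
      intro x hx
      rw [mem_sdiff, mem_sdiff] at hx
      by_contra h
      exact hx.2 ⟨hx.1, h⟩
    have h2 : ∀ c ∈ F, (c.biUnion id).card ≤ 3 * J := by
      intro c hc
      rw [hF, mem_biUnion] at hc
      obtain ⟨l, _, hc⟩ := hc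
      rw [mem_filter, CTB.mem_CB] at hc
      have h3 : ∀ T ∈ c, (id T).card ≤ 3 := fun T hT =>
        le_of_eq ((lin3_BK n).card3 T (hc.1.1.sub hT))
      have h4 := card_biUnion_le_card_mul c id 3 h3
      have h5 := hc.1.2.1
      omega
    have h3 : U.card ≤ F.card * (3 * J) := card_biUnion_le_card_mul _ _ _ h2
    have h4 : F.card ≤ ∑ l ∈ range (2 * J + 1),
        ((CTB.CB n J l).filter (fun c => c ⊆ s.W)).card := card_biUnion_le
    have h5 : (F.card : ℝ) ≤ ∑ l ∈ range (2 * J + 1), NL.Nc (CTB.CB n J l) s := by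
      unfold NL.Nc
      exact_mod_cast h4
    have h6 : ((B' \ (B' \ U)).card : ℝ) ≤ (F.card : ℝ) * (3 * J) := by
      exact_mod_cast (card_le_card h1).trans h3
    have h7 : (F.card : ℝ) * (3 * J) ≤
        (∑ l ∈ range (2 * J + 1), NL.Nc (CTB.CB n J l) s) * (3 * J) :=
      mul_le_mul_of_nonneg_right h5 (by positivity)
    linarith

/-- the hypotheses of `n_core` -/
theorem CB_hyp (J : ℕ) : ∀ l ∈ range (2 * J + 1), ∀ c ∈ CTB.CB n J l,
    c.card ≤ J ∧ l ≤ (c.biUnion id).card ∧ 1 ≤ l := by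
  intro l _ c hc
  rw [CTB.mem_CB] at hc
  obtain ⟨h1, h2, h3, _⟩ := hc
  refine ⟨h2, h3.ge, ?_⟩
  obtain ⟨T, hT⟩ := h1.nonempty
  have h4 := (lin3_BK n).card3 T (h1.sub hT)
  have h5 : T.card ≤ (c.biUnion id).card := card_le_card (subset_biUnion_of_mem id hT)
  omega

/-- the value at the start -/
theorem PsiN_start (J : ℕ) : ∃ C : ℝ, 0 < C ∧ ∀ (n : ℕ), 3 ≤ n → ∀ t : ℝ, 0 ≤ t → t ≤ 1 / 3 →
    ∀ s : NL.St (Sym2 (Fin n)),
    NL.PsiN t (2 * J) (CTB.CB n J) (1 / ((n : ℝ) - 2)) s ≤ C * (n : ℝ) ^ (1 + 3 * J * t) := by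
  obtain ⟨C, hC, hCB⟩ := CTB.card_CB_real J
  refine ⟨(2 * J + 1) * (3 ^ (J : ℝ) * C), by positivity, ?_⟩
  intro n hn t ht0 ht1 s
  have hn3 : (3 : ℝ) ≤ n := by exact_mod_cast hn
  have hn0 : (0 : ℝ) < n := by linarith
  unfold NL.PsiN
  have h1 : ∀ l ∈ range (2 * J + 1), (1 / ((n : ℝ) - 2)) ^ ((l : ℝ) / 2 * (1 - 3 * t)) *
      NL.Nc (CTB.CB n J l) s ≤ 3 ^ (J : ℝ) * C * (n : ℝ) ^ (1 + 3 * J * t) := by
    intro l hl
    rw [mem_range] at hl
    have hl2 : (l : ℝ) ≤ 2 * J := by exact_mod_cast (by omega : l ≤ 2 * J)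
    have he0 : 0 ≤ (l : ℝ) / 2 * (1 - 3 * t) := mul_nonneg (by positivity) (by linarith)
    have heJ : (l : ℝ) / 2 * (1 - 3 * t) ≤ J := by
      have h2 : (l : ℝ) / 2 * (1 - 3 * t) ≤ (l : ℝ) / 2 * 1 :=
        mul_le_mul_of_nonneg_left (by linarith) (by positivity)
      linarith
    have h2 : 1 / ((n : ℝ) - 2) ≤ 3 / n := by
      rw [div_le_div_iff₀ (by linarith) hn0]
      linarith
    have h3 : (1 / ((n : ℝ) - 2)) ^ ((l : ℝ) / 2 * (1 - 3 * t)) ≤
        3 ^ (J : ℝ) * (n : ℝ) ^ (-((l : ℝ) / 2 * (1 - 3 * t))) := by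
      refine (Real.rpow_le_rpow (by
        have : (0 : ℝ) < (n : ℝ) - 2 := by linarith
        positivity) h2 he0).trans ?_
      rw [Real.div_rpow (by norm_num) hn0.le, Real.rpow_neg hn0.le, div_eq_mul_inv]
      refine mul_le_mul_of_nonneg_right ?_ (by positivity)
      exact Real.rpow_le_rpow_of_exponent_le (by norm_num) heJ
    have h4 : NL.Nc (CTB.CB n J l) s ≤ C * (n : ℝ) ^ (((l : ℝ) + 2) / 2) := by
      refine le_trans ?_ (hCB n l (by omega))
      unfold NL.Nc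
      exact_mod_cast card_filter_le _ _
    have h5 : 0 ≤ NL.Nc (CTB.CB n J l) s := by
      unfold NL.Nc
      positivity
    calc (1 / ((n : ℝ) - 2)) ^ ((l : ℝ) / 2 * (1 - 3 * t)) * NL.Nc (CTB.CB n J l) s
        ≤ (3 ^ (J : ℝ) * (n : ℝ) ^ (-((l : ℝ) / 2 * (1 - 3 * t)))) *
            (C * (n : ℝ) ^ (((l : ℝ) + 2) / 2)) :=
          mul_le_mul h3 h4 h5 (by positivity)
      _ = 3 ^ (J : ℝ) * C * ((n : ℝ) ^ (-((l : ℝ) / 2 * (1 - 3 * t))) *
            (n : ℝ) ^ (((l : ℝ) + 2) / 2)) := by ring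
      _ = 3 ^ (J : ℝ) * C * (n : ℝ) ^ (1 + 3 * ((l : ℝ) / 2) * t) := by
          rw [← Real.rpow_add hn0]
          congr 2
          ring
      _ ≤ 3 ^ (J : ℝ) * C * (n : ℝ) ^ (1 + 3 * J * t) := by
          refine mul_le_mul_of_nonneg_left ?_ (by positivity)
          refine Real.rpow_le_rpow_of_exponent_le (by linarith) ?_
          have h6 : 3 * ((l : ℝ) / 2) * t ≤ 3 * J * t := by
            refine mul_le_mul_of_nonneg_right ?_ ht0
            linarith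
          linarith
  refine (sum_le_sum h1).trans (le_of_eq ?_)
  rw [sum_const, card_range, nsmul_eq_mul]
  push_cast
  ring

/-- the value at the end -/
theorem Nc_le_PsiN {J : ℕ} {t u : ℝ} (ht0 : 0 ≤ t) (ht1 : t ≤ 1 / 3) (hu : 0 < u) (hu1 : u ≤ 1)
    (s : NL.St (Sym2 (Fin n))) :
    ∑ l ∈ range (2 * J + 1), NL.Nc (CTB.CB n J l) s ≤
      u ^ (-(J : ℝ)) * NL.PsiN t (2 * J) (CTB.CB n J) u s := by
  unfold NL.PsiN
  rw [mul_sum]
  refine sum_le_sum fun l hl => ?_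
  rw [mem_range] at hl
  have hl2 : (l : ℝ) ≤ 2 * J := by exact_mod_cast (by omega : l ≤ 2 * J)
  have h5 : 0 ≤ NL.Nc (CTB.CB n J l) s := by
    unfold NL.Nc
    positivity
  have heJ : (l : ℝ) / 2 * (1 - 3 * t) ≤ J := by
    have h2 : (l : ℝ) / 2 * (1 - 3 * t) ≤ (l : ℝ) / 2 * 1 :=
      mul_le_mul_of_nonneg_left (by linarith) (by positivity)
    linarith
  have h6 : 1 ≤ u ^ (-(J : ℝ)) * u ^ ((l : ℝ) / 2 * (1 - 3 * t)) := by
    rw [← Real.rpow_add hu]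
    refine Real.one_le_rpow_of_pos_of_le_one_of_nonpos hu hu1 ?_
    linarith
  calc NL.Nc (CTB.CB n J l) s = 1 * NL.Nc (CTB.CB n J l) s := by rw [one_mul]
    _ ≤ u ^ (-(J : ℝ)) * u ^ ((l : ℝ) / 2 * (1 - 3 * t)) * NL.Nc (CTB.CB n J l) s :=
        mul_le_mul_of_nonneg_right h6 h5
    _ = u ^ (-(J : ℝ)) * (u ^ ((l : ℝ) / 2 * (1 - 3 * t)) * NL.Nc (CTB.CB n J l) s) := by ring

end

end Vale.Agent.P046.CT
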