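import Vale.Agent.P046.CT.Poly3

/-!
P046, sharp constant, row BLK: the inequality for one block.
-/

namespace Vale.Agent.P046.CT

namespace BlkAux

/-- arithmetic-geometric mean for three numbers of sum at most three -/
theorem amgm {a b c : ℝ} (ha : 0 ≤ a) (hb : 0 ≤ b) (hc : 0 ≤ c) (h : a + b + c ≤ 3) :
    a * b * c ≤ 1 := by
  have h1 : 27 * (a * b * c) ≤ (a + b + c) ^ 3 := by
    have h0 : (a + b + c) ^ 3 - 27 * (a * b * c) =
        (a + b + c) / 2 * ((a - b) ^ 2 + (b - c) ^ 2 + (c - a) ^ 2) +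
        3 * (a * (b - c) ^ 2 + b * (c - a) ^ 2 + c * (a - b) ^ 2) := by ring
    have h3 : 0 ≤ (a + b + c) / 2 * ((a - b) ^ 2 + (b - c) ^ 2 + (c - a) ^ 2) +
        3 * (a * (b - c) ^ 2 + b * (c - a) ^ 2 + c * (a - b) ^ 2) := by positivity
    linarith
  have h2 : (a + b + c) ^ 3 ≤ 3 ^ 3 := pow_le_pow_left₀ (by positivity) h 3
  linarith

end BlkAux

/-- [BLK] -/
theorem blk {x y z M k η : ℝ} (hx : -1 ≤ x) (hy : -1 ≤ y) (hz : -1 ≤ z) (hM : 0 ≤ M)
    (hk : 0 ≤ k) (he : 0 < η) :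
    -(M * (1 + k) * ((1 + x) * (1 + y) * (1 + z)) * (x + y + z))
      + M * ((x + y + z) + (x ^ 2 + y ^ 2 + z ^ 2) / 2) ≤
      M * (1 + η) * (x ^ 2 + y ^ 2 + z ^ 2) + M * k ^ 2 / η := by
  have hp := poly3 hx hy hz
  set R := (1 + x) * (1 + y) * (1 + z) with hR
  have hR0 : 0 ≤ R := mul_nonneg (mul_nonneg (by linarith) (by linarith)) (by linarith)
  set s := x + y + z with hs
  set q := x ^ 2 + y ^ 2 + z ^ 2 with hq
  have hsq : s ^ 2 ≤ 3 * q := by
    rw [hs, hq]
    nlinarith [sq_nonneg (x - y), sq_nonneg (y - z), sq_nonneg (z - x)]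
  have h2 : -(k * R * s) ≤ η * q + k ^ 2 / η := by
    have hq0 : 0 ≤ q := by positivity
    rcases le_or_gt 0 s with h | h
    · have : 0 ≤ k * R * s := mul_nonneg (mul_nonneg hk hR0) h
      have h3 : 0 ≤ η * q := mul_nonneg he.le hq0
      have h4 : 0 ≤ k ^ 2 / η := by positivity
      linarith
    · have hR1 : R ≤ 1 := by
        apply BlkAux.amgm (by linarith) (by linarith) (by linarith)
        linarith
      have h3 : -(k * R * s) ≤ k * (-s) := by
        have : 0 ≤ k * (-s) * (1 - R) :=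
          mul_nonneg (mul_nonneg hk (by linarith)) (by linarith)
        have h14 : k * (-s) * (1 - R) = k * (-s) + k * R * s := by ring
        linarith
      have h4 : k * (-s) ≤ η * q + k ^ 2 / η := by
        have h5 : η * (k * (-s)) ≤ η * (η * q + k ^ 2 / η) := by
          have h6 : η * (η * q + k ^ 2 / η) = η ^ 2 * q + k ^ 2 := by
            field_simp
          rw [h6]
          have h9 : η ^ 2 * s ^ 2 ≤ η ^ 2 * (3 * q) := mul_le_mul_of_nonneg_left hsq (sq_nonneg η)
          have h10 : 0 ≤ (η * (-s) / 2 - k) ^ 2 := sq_nonneg _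
          have h11 : 0 ≤ η ^ 2 * s ^ 2 := by positivity
          have h12 : 0 ≤ η ^ 2 * q := by positivity
          have h13 : (η * (-s) / 2 - k) ^ 2 = η ^ 2 * s ^ 2 / 4 - η * (k * (-s)) + k ^ 2 := by ring
          rw [h13] at h10
          linarith
        exact le_of_mul_le_mul_left h5 he
      linarith
  have h1 : s * (1 - R) ≤ q / 2 := by linarith
  have h7 : M * (s * (1 - R) + -(k * R * s)) ≤ M * (q / 2 + (η * q + k ^ 2 / η)) :=
    mul_le_mul_of_nonneg_left (by linarith) hM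
  have h8 : M * k ^ 2 / η = M * (k ^ 2 / η) := by ring
  rw [h8]
  have h15 : -(M * (1 + k) * R * s) + M * (s + q / 2) =
      M * (s * (1 - R) + -(k * R * s)) + M * (q / 2) := by ring
  have h16 : M * (q / 2 + (η * q + k ^ 2 / η)) + M * (q / 2) =
      M * (1 + η) * q + M * (k ^ 2 / η) := by ring
  linarith

end Vale.Agent.P046.CT
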