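import Vale.Agent.P046.CT.GGrec

/-!
P046, sharp constant: comparison of the real hierarchy with the cover hierarchy on tree-like
neighbourhoods.
-/

namespace Vale.Agent.P046.CT

open Finset

noncomputable section

namespace CMP

theorem X_step {x0 c θ h : ℝ} (hc : 0 ≤ c) (hh : 0 ≤ h) (hpos : 0 < x0 - c * (θ + h)) (m : ℕ) :
    (1 / (x0 - c * θ)) ^ m + m * c * h * (1 / (x0 - c * θ)) ^ (m + 1) ≤
      (1 / (x0 - c * (θ + h))) ^ m := by
  have hch : 0 ≤ c * h := mul_nonneg hc hh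
  have hp0 : 0 < x0 - c * θ := by nlinarith
  set X := 1 / (x0 - c * θ) with hX
  have hXpos : 0 < X := by positivity
  have hXe : X * (x0 - c * θ) = 1 := by
    rw [hX]
    field_simp
  have hY : X * (1 + c * h * X) ≤ 1 / (x0 - c * (θ + h)) := by
    rw [le_div_iff₀ hpos]
    have : X * (1 + c * h * X) * (x0 - c * (θ + h)) =
        1 - (c * h * X) ^ 2 + (1 + c * h * X) * (X * (x0 - c * θ) - 1) := by ring
    rw [this, hXe]
    nlinarith [sq_nonneg (c * h * X)]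
  have h2 : 0 ≤ c * h * X := mul_nonneg hch hXpos.le
  have h3 : 1 + (m : ℝ) * (c * h * X) ≤ (1 + c * h * X) ^ m :=
    one_add_mul_le_pow (by linarith) m
  calc X ^ m + m * c * h * X ^ (m + 1) = X ^ m * (1 + (m : ℝ) * (c * h * X)) := by ring
    _ ≤ X ^ m * (1 + c * h * X) ^ m :=
        mul_le_mul_of_nonneg_left h3 (pow_nonneg hXpos.le m)
    _ = (X * (1 + c * h * X)) ^ m := by rw [mul_pow]
    _ ≤ _ := pow_le_pow_left₀ (by positivity) hY m

/-- supersolution -/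
def UU (e1 : ℝ) (D m M : ℕ) (θ : ℝ) : ℝ :=
  2 * e1 * (1 / (1 - 4 * D * θ)) ^ m + (1 / 2) ^ M * (1 / (1 / 2 - 4 * D * θ)) ^ m

theorem UU_step {e1 : ℝ} (he : 0 ≤ e1) {D : ℕ} {m M : ℕ} {θ h : ℝ} (hh : 0 ≤ h)
    (hθ : (D : ℝ) * (θ + h) ≤ 1 / 16) :
    UU e1 D m M θ + 4 * m * D * h * UU e1 D (m + 1) M θ ≤ UU e1 D m M (θ + h) := by
  unfold UU
  have hD0 : (0 : ℝ) ≤ D := Nat.cast_nonneg D
  have s1 := X_step (x0 := 1) (c := 4 * D) (θ := θ) (h := h) (by positivity) hh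
    (by linarith) m
  have s2 := X_step (x0 := 1 / 2) (c := 4 * D) (θ := θ) (h := h) (by positivity) hh
    (by linarith) m
  have h5 : (0 : ℝ) ≤ (1 / 2) ^ M := by positivity
  have t1 := mul_le_mul_of_nonneg_left s1 (by linarith : 0 ≤ 2 * e1)
  have t2 := mul_le_mul_of_nonneg_left s2 h5
  nlinarith

theorem UU_ge {e1 : ℝ} (he : 0 ≤ e1) {D : ℕ} {m M : ℕ} {θ : ℝ} (hθ0 : 0 ≤ θ)
    (hθ : (D : ℝ) * θ ≤ 1 / 16) : 2 * e1 ≤ UU e1 D m M θ := by
  unfold UU
  have hD0 : (0 : ℝ) ≤ D * θ := mul_nonneg (Nat.cast_nonneg D) hθ0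
  have a1 : 1 ≤ 1 / (1 - 4 * D * θ) := by
    rw [le_div_iff₀ (by linarith)]
    linarith
  have a2 : (1 : ℝ) ≤ (1 / (1 - 4 * D * θ)) ^ m := one_le_pow₀ a1
  have a3 : (0 : ℝ) ≤ (1 / 2) ^ M * (1 / (1 / 2 - 4 * D * θ)) ^ m := by
    have : 0 < 1 / 2 - 4 * (D : ℝ) * θ := by linarith
    positivity
  nlinarith

theorem UU_top {e1 : ℝ} (he : 0 ≤ e1) {D : ℕ} {M : ℕ} {θ : ℝ} (hθ0 : 0 ≤ θ)
    (hθ : (D : ℝ) * θ ≤ 1 / 16) : 1 ≤ UU e1 D M M θ := by
  unfold UU
  have hD0 : (0 : ℝ) ≤ D * θ := mul_nonneg (Nat.cast_nonneg D) hθ0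
  have a1 : 2 ≤ 1 / (1 / 2 - 4 * D * θ) := by
    rw [le_div_iff₀ (by linarith)]
    linarith
  have a2 : (2 : ℝ) ^ M ≤ (1 / (1 / 2 - 4 * D * θ)) ^ M := pow_le_pow_left₀ (by norm_num) a1 M
  have a3 : (1 : ℝ) = (1 / 2) ^ M * 2 ^ M := by rw [← mul_pow]; norm_num
  have a4 : (0 : ℝ) ≤ 2 * e1 * (1 / (1 - 4 * D * θ)) ^ M := by
    have : 0 < 1 - 4 * (D : ℝ) * θ := by linarith
    positivity
  have a5 := mul_le_mul_of_nonneg_left a2 (by positivity : (0 : ℝ) ≤ (1 / 2) ^ M)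
  linarith

theorem UU_le {e1 : ℝ} (he : 0 ≤ e1) {D : ℕ} {m M : ℕ} {θ : ℝ} (hθ0 : 0 ≤ θ)
    (hθ : (D : ℝ) * θ ≤ 1 / 16) : UU e1 D m M θ ≤ 2 * e1 * 2 ^ m + (1 / 2) ^ M * 4 ^ m := by
  unfold UU
  have hD0 : (0 : ℝ) ≤ D * θ := mul_nonneg (Nat.cast_nonneg D) hθ0
  have a1 : 1 / (1 - 4 * D * θ) ≤ 2 := by
    rw [div_le_iff₀ (by linarith)]
    linarith
  have a2 : 1 / (1 / 2 - 4 * D * θ) ≤ 4 := by
    rw [div_le_iff₀ (by linarith)]
    linarith
  have b1 : (1 / (1 - 4 * D * θ)) ^ m ≤ 2 ^ m :=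
    pow_le_pow_left₀ (by have : 0 < 1 - 4 * (D : ℝ) * θ := by linarith
                         positivity) a1 m
  have b2 : (1 / (1 / 2 - 4 * D * θ)) ^ m ≤ 4 ^ m :=
    pow_le_pow_left₀ (by have : 0 < 1 / 2 - 4 * (D : ℝ) * θ := by linarith
                         positivity) a2 m
  have c1 := mul_le_mul_of_nonneg_left b1 (by linarith : 0 ≤ 2 * e1)
  have c2 := mul_le_mul_of_nonneg_left b2 (by positivity : (0 : ℝ) ≤ (1 / 2) ^ M)
  linarith

variable {α : Type} [DecidableEq α]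

theorem TL_succ_le {H : Finset (Finset α)} {D : ℕ} {S0 : Finset α} (R : ℕ) :
    ∀ Bs, TL H D S0 (R + 1) Bs → TL H D S0 R Bs := by
  induction R with
  | zero => intro Bs _; trivial
  | succ R ih =>
    intro Bs h
    refine ⟨h.1, fun T hT hd => ?_⟩
    exact ⟨(h.2 T hT hd).1, ih _ (h.2 T hT hd).2⟩

theorem TL_mono {H : Finset (Finset α)} {D : ℕ} {S0 : Finset α} {R R' : ℕ} (hR : R ≤ R')
    {Bs : Finset (Finset α)} (h : TL H D S0 R' Bs) : TL H D S0 R Bs := by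
  induction R', hR using Nat.le_induction with
  | base => exact h
  | succ n _ ih => exact ih (TL_succ_le n Bs h)

/-- one step of the error -/
theorem err_step (H : Finset (Finset α)) {D s0 : ℕ} {S0 : Finset α} {h : ℝ} (hh : 0 ≤ h)
    (h1 : h ≤ 1) (h3 : ∀ T ∈ H, T.card = 3) (hs : S0.card ≤ s0) {R : ℕ}
    {Bs : Finset (Finset α)} (hB : Bs ⊆ H) (htl : TL H D S0 (R + 1) Bs) (i : ℕ) {m : ℕ}
    (hm : Bs.card + s0 + 1 ≤ m) {u : ℝ}
    (hu : ∀ T ∈ H, ¬ Disjoint T (pts S0 Bs) →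
      |FF H h i (pts S0 (insert T Bs)) - GG H h i S0 (insert T Bs)| ≤ u) (hu0 : 0 ≤ u) :
    |FF H h (i + 1) (pts S0 Bs) - GG H h (i + 1) S0 Bs| ≤
      |FF H h i (pts S0 Bs) - GG H h i S0 Bs| + h * (3 * m * D * u) +
        (h * (m + 3 * m * D)) ^ 2 := by
  have hne : ∀ T ∈ H, T.Nonempty := fun T hT => by
    rw [← card_pos, h3 T hT]
    norm_num
  have htr : ∀ T ∈ H, T ∉ Bs → ¬ Disjoint T (pts S0 Bs) → (T ∩ pts S0 Bs).card = 1 :=
    fun T hT hTB hd => (htl.2 T hT hd).1 hTB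
  have g1 := GGrec.GG_succ H hh h1 i S0 Bs hB hne htr
  have g2 := GGrec.FF_succ H h i S0 Bs
  set N := H.filter (fun T => ¬ Disjoint T (pts S0 Bs)) with hN
  set err := GG H h (i + 1) S0 Bs - GG H h i S0 Bs + h * ∑ T ∈ N, GG H h i S0 (insert T Bs)
    with herr
  have cp : (pts S0 Bs).card ≤ 3 * m := by
    have := GGrec.card_pts_le S0 Bs fun T hT => h3 T (hB hT)
    omega
  have cN : N.card ≤ 3 * m * D := by
    refine (GGrec.card_meet_le H (pts S0 Bs) D htl.1).trans ?_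
    exact Nat.mul_le_mul_right D cp
  have cprs : (prs H S0 Bs).card ≤ 3 * m * D := by
    refine (GGrec.card_prs_le H S0 Bs D htl.1).trans ?_
    exact Nat.mul_le_mul_right D cp
  have cNr : (N.card : ℝ) ≤ 3 * m * D := by exact_mod_cast cN
  have cpr : ((prs H S0 Bs).card : ℝ) ≤ 3 * m * D := by exact_mod_cast cprs
  have cb : (Bs.card : ℝ) ≤ m := by
    have : Bs.card ≤ m := by omega
    exact_mod_cast this
  have e1 : FF H h (i + 1) (pts S0 Bs) - GG H h (i + 1) S0 Bs =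
      (FF H h i (pts S0 Bs) - GG H h i S0 Bs) -
        h * ∑ T ∈ N, (FF H h i (pts S0 (insert T Bs)) - GG H h i S0 (insert T Bs)) - err := by
    rw [g2, herr, sum_sub_distrib]
    ring
  have e2 : |∑ T ∈ N, (FF H h i (pts S0 (insert T Bs)) - GG H h i S0 (insert T Bs))| ≤
      3 * m * D * u := by
    calc |∑ T ∈ N, (FF H h i (pts S0 (insert T Bs)) - GG H h i S0 (insert T Bs))| ≤
          ∑ T ∈ N, |FF H h i (pts S0 (insert T Bs)) - GG H h i S0 (insert T Bs)| :=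
          abs_sum_le_sum_abs _ _
      _ ≤ ∑ _T ∈ N, u := sum_le_sum fun T hT =>
          hu T (mem_filter.1 hT).1 (mem_filter.1 hT).2
      _ = N.card * u := by rw [sum_const, nsmul_eq_mul]
      _ ≤ _ := mul_le_mul_of_nonneg_right cNr hu0
  have e3 : |err| ≤ (h * (m + 3 * m * D)) ^ 2 := by
    refine g1.trans (pow_le_pow_left₀ (by positivity) ?_ 2)
    rw [mul_add]
    exact add_le_add (mul_le_mul_of_nonneg_left cb hh) (mul_le_mul_of_nonneg_left cpr hh)
  rw [e1]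
  set a := FF H h i (pts S0 Bs) - GG H h i S0 Bs
  set b := ∑ T ∈ N, (FF H h i (pts S0 (insert T Bs)) - GG H h i S0 (insert T Bs))
  have e4 : |h * b| ≤ h * (3 * m * D * u) := by
    rw [abs_mul, abs_of_nonneg hh]
    exact mul_le_mul_of_nonneg_left e2 hh
  have e5 := abs_sub (a - h * b) err
  have e6 := abs_sub a (h * b)
  linarith

/-- one time slot -/
theorem slot (H : Finset (Finset α)) {D s0 j L R0 : ℕ} {S0 : Finset α} {h e1 : ℝ}
    (hD : 1 ≤ D) (hh : 0 < h) (h1 : h ≤ 1) (h3 : ∀ T ∈ H, T.card = 3) (hs : S0.card ≤ s0)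
    (hFF : ∀ i S, 0 ≤ FF H h i S ∧ FF H h i S ≤ 1) (he : 0 ≤ e1)
    (hC : h * (((j + L + s0 + 1 : ℕ) : ℝ) + 3 * ((j + L + s0 + 1 : ℕ) : ℝ) * D) ^ 2 ≤
      2 * D * e1) (i0 : ℕ)
    (hinit : ∀ Bs ⊆ H, Bs.card ≤ j + L → TL H D S0 R0 Bs →
      |FF H h i0 (pts S0 Bs) - GG H h i0 S0 Bs| ≤ e1) (i : ℕ) :
    (D : ℝ) * (i * h) ≤ 1 / 16 → ∀ l ≤ L, ∀ Bs ⊆ H, Bs.card ≤ j + l →
      TL H D S0 (R0 + (L - l)) Bs →
      |FF H h (i0 + i) (pts S0 Bs) - GG H h (i0 + i) S0 Bs| ≤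
        UU e1 D (j + l + s0 + 1) (j + L + s0 + 1) (i * h) := by
  have hD0 : (1 : ℝ) ≤ D := by exact_mod_cast hD
  induction i with
  | zero =>
    intro _ l hl Bs hB hc ht
    have h5 := hinit Bs hB (by omega) (TL_mono (by omega) ht)
    rw [add_zero]
    refine h5.trans (le_trans ?_ (UU_ge he (by simp) (by simp)))
    linarith
  | succ i ih =>
    intro hi l hl Bs hB hc ht
    have hi0 : (0 : ℝ) ≤ i * h := by positivity
    have hcast : ((i + 1 : ℕ) : ℝ) * h = i * h + h := by push_cast; ring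
    rw [hcast] at hi ⊢
    have hDh : 0 ≤ (D : ℝ) * h := by positivity
    have hi' : (D : ℝ) * (i * h) ≤ 1 / 16 := by
      have : (D : ℝ) * (i * h + h) = D * (i * h) + D * h := by ring
      linarith
    rcases Nat.lt_or_ge l L with hlL | hlL
    · -- inner levels
      obtain ⟨r, hr⟩ : ∃ r, L - l = r + 1 := ⟨L - l - 1, by omega⟩
      have hr' : L - (l + 1) = r := by omega
      rw [hr, ← add_assoc] at ht
      set m := j + l + s0 + 1 with hm
      set M := j + L + s0 + 1 with hM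
      have hUpos : 0 ≤ UU e1 D (m + 1) M (i * h) := by
        have := UU_ge (m := m + 1) (M := M) he hi0 hi'
        linarith
      have st := err_step H hh.le h1 h3 hs hB ht (i0 + i) (m := m) (by omega)
        (u := UU e1 D (m + 1) M (i * h)) (by
          intro T hT hd
          have k1 := ih hi' (l + 1) (by omega) (insert T Bs) (insert_subset hT hB)
            ((card_insert_le _ _).trans (by omega)) (by
              rw [hr']
              exact (ht.2 T hT hd).2)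
          have k2 : j + (l + 1) + s0 + 1 = m + 1 := by omega
          rw [k2] at k1
          exact k1) hUpos
      have k0 := ih hi' l hl Bs hB hc (by rw [hr, ← add_assoc]; exact ht)
      have su := UU_step (m := m) (M := M) he hh.le hi
      have hm1 : (1 : ℝ) ≤ m := by
        have : 1 ≤ m := by omega
        exact_mod_cast this
      have hmM : (m : ℝ) ≤ M := by
        have : m ≤ M := by omega
        exact_mod_cast this
      -- the slack
      have sl : (h * ((m : ℝ) + 3 * m * D)) ^ 2 ≤ m * D * h * UU e1 D (m + 1) M (i * h) := by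
        have q1 : ((m : ℝ) + 3 * m * D) ^ 2 ≤ ((M : ℝ) + 3 * M * D) ^ 2 := by
          apply pow_le_pow_left₀ (by positivity)
          nlinarith
        have q2 : (h * ((m : ℝ) + 3 * m * D)) ^ 2 ≤ h * (2 * D * e1) := by
          calc (h * ((m : ℝ) + 3 * m * D)) ^ 2 = h * (h * ((m : ℝ) + 3 * m * D) ^ 2) := by ring
            _ ≤ h * (h * ((M : ℝ) + 3 * M * D) ^ 2) := by
                apply mul_le_mul_of_nonneg_left _ hh.le
                exact mul_le_mul_of_nonneg_left q1 hh.le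
            _ ≤ _ := mul_le_mul_of_nonneg_left hC hh.le
        have q3 := UU_ge (m := m + 1) (M := M) he hi0 hi'
        have q4 : D * h * (2 * e1) ≤ D * h * UU e1 D (m + 1) M (i * h) :=
          mul_le_mul_of_nonneg_left q3 (by positivity)
        have q5 : D * h * UU e1 D (m + 1) M (i * h) ≤ m * (D * h * UU e1 D (m + 1) M (i * h)) := by
          have : 0 ≤ D * h * UU e1 D (m + 1) M (i * h) := by positivity
          nlinarith
        linarith
      have hadd : i0 + (i + 1) = i0 + i + 1 := by omega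
      rw [hadd]
      linarith
    · -- top level
      have hl' : l = L := le_antisymm hl hlL
      subst hl'
      have f1 := hFF (i0 + (i + 1)) (pts S0 Bs)
      have g1 := GGrec.GG_bd H hh.le h1 (i0 + (i + 1)) S0 Bs
      have u1 := UU_top (M := j + l + s0 + 1) he (by positivity : 0 ≤ i * h + h) hi
      refine le_trans ?_ u1
      rw [abs_le]
      constructor
      · linarith
      · linarith

/-- comparison of the two hierarchies on tree-like neighbourhoods -/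
theorem hier (D s0 : ℕ) (hD : 1 ≤ D) (k : ℕ) : ∀ (j : ℕ) (ε : ℝ), 0 < ε →
    ∃ (R : ℕ) (h0 : ℝ), 0 < h0 ∧ ∀ (α : Type) [DecidableEq α] (H : Finset (Finset α)) (h : ℝ),
      0 < h → h ≤ h0 → (∀ T ∈ H, T.card = 3) → (∀ i S, 0 ≤ FF H h i S ∧ FF H h i S ≤ 1) →
      ∀ S0 : Finset α, S0.card ≤ s0 → ∀ Bs ⊆ H, Bs.card ≤ j → TL H D S0 R Bs →
      ∀ i : ℕ, 32 * D * (i * h) ≤ k →
        |FF H h i (pts S0 Bs) - GG H h i S0 Bs| ≤ ε := by
  have hD0 : (1 : ℝ) ≤ D := by exact_mod_cast hD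
  induction k with
  | zero =>
    intro j ε hε
    refine ⟨0, 1, one_pos, ?_⟩
    intro α _ H h hh _ _ _ S0 _ Bs _ _ _ i hi
    have : (i : ℝ) * h ≤ 0 := by
      by_contra hcon
      push Not at hcon
      have : 0 < 32 * (D : ℝ) * (i * h) := by positivity
      simp only [Nat.cast_zero] at hi
      linarith
    have hi0 : i = 0 := by
      by_contra hne
      have h5 : (1 : ℝ) ≤ i := by exact_mod_cast Nat.one_le_iff_ne_zero.2 hne
      nlinarith
    subst hi0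
    rw [GGrec.GG_zero]
    simp only [FF, sub_self, abs_zero]
    exact hε.le
  | succ k ih =>
    intro j ε hε
    -- the number of levels
    obtain ⟨L, hL⟩ : ∃ L : ℕ, (1 / 2 : ℝ) ^ L < ε / 2 / 2 ^ (j + s0 + 1) :=
      exists_pow_lt_of_lt_one (by positivity) (by norm_num)
    set e1 : ℝ := ε / 4 / 2 ^ (j + s0 + 1) with he1
    have he1pos : 0 < e1 := by positivity
    obtain ⟨R0, h0, hh0, key⟩ := ih (j + L) e1 he1pos
    set C : ℝ := (((j + L + s0 + 1 : ℕ) : ℝ) + 3 * ((j + L + s0 + 1 : ℕ) : ℝ) * D) ^ 2 with hC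
    have hCpos : 0 < C := by positivity
    refine ⟨R0 + L, min (min h0 (1 / (32 * D))) (2 * D * e1 / C), ?_, ?_⟩
    · exact lt_min (lt_min hh0 (by positivity)) (by positivity)
    intro α _ H h hh hle h3 hFF S0 hs Bs hB hc ht i hi
    have hle0 : h ≤ h0 := hle.trans ((min_le_left _ _).trans (min_le_left _ _))
    have hle1 : h ≤ 1 / (32 * D) := hle.trans ((min_le_left _ _).trans (min_le_right _ _))
    have hle2 : h ≤ 2 * D * e1 / C := hle.trans (min_le_right _ _)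
    have hC' : h * C ≤ 2 * D * e1 := by
      rwa [le_div_iff₀ hCpos] at hle2
    have hDh : 32 * D * h ≤ 1 := by
      rw [le_div_iff₀ (by positivity)] at hle1
      linarith
    have h1 : h ≤ 1 := by nlinarith
    have hkey := key α H h hh hle0 h3 hFF S0 hs
    -- the start of the slot
    have hex : ∃ i0 : ℕ, i0 ≤ i ∧ 32 * D * (i0 * h) ≤ k ∧ (D : ℝ) * (((i - i0 : ℕ) : ℝ) * h) ≤ 1 / 16 := by
      by_cases hik : 32 * D * (i * h) ≤ k
      · exact ⟨i, le_rfl, hik, by simp⟩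
      · push Not at hik
        set i0 := ⌊(k : ℝ) / (32 * D * h)⌋₊ with hi0
        have hpos : (0 : ℝ) < 32 * D * h := by positivity
        have b1 : (i0 : ℝ) ≤ (k : ℝ) / (32 * D * h) := Nat.floor_le (by positivity)
        have b2 : (k : ℝ) / (32 * D * h) < i0 + 1 := Nat.lt_floor_add_one _
        rw [le_div_iff₀ hpos] at b1
        rw [div_lt_iff₀ hpos] at b2
        have b3 : i0 ≤ i := by
          have : (i0 : ℝ) * (32 * D * h) < i * (32 * D * h) := by nlinarith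
          have := lt_of_mul_lt_mul_right this hpos.le
          exact_mod_cast this.le
        refine ⟨i0, b3, by linarith, ?_⟩
        rw [Nat.cast_sub b3]
        push_cast at hi
        nlinarith
    obtain ⟨i0, hi0, hk0, hslot⟩ := hex
    have sl := slot H hD hh h1 h3 hs hFF he1pos.le (j := j) (L := L) (R0 := R0)
      hC' i0 (fun Bs' hB' hc' ht' => hkey Bs' hB' hc' ht' i0 hk0) (i - i0) hslot 0 (Nat.zero_le _)
      Bs hB (by omega) (by rw [Nat.sub_zero]; exact ht)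
    have hii : i0 + (i - i0) = i := by omega
    rw [hii] at sl
    refine sl.trans ((UU_le he1pos.le (by positivity) hslot).trans ?_)
    have z1 : j + 0 + s0 + 1 = j + s0 + 1 := by omega
    have z2 : j + L + s0 + 1 = L + (j + s0 + 1) := by omega
    rw [z1, z2, pow_add (1 / 2 : ℝ) L (j + s0 + 1)]
    have z3 : (4 : ℝ) ^ (j + s0 + 1) = 2 ^ (j + s0 + 1) * 2 ^ (j + s0 + 1) := by
      rw [← mul_pow]
      norm_num
    have z4 : (1 / 2 : ℝ) ^ (j + s0 + 1) * 2 ^ (j + s0 + 1) = 1 := by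
      rw [← mul_pow]
      norm_num
    have z5 : (0 : ℝ) < 2 ^ (j + s0 + 1) := by positivity
    have z6 : (1 / 2 : ℝ) ^ L * 2 ^ (j + s0 + 1) ≤ ε / 2 := by
      rw [lt_div_iff₀ z5] at hL
      exact hL.le
    have z7 : 2 * e1 * 2 ^ (j + s0 + 1) = ε / 2 := by
      rw [he1]
      field_simp
      norm_num
    rw [z7, z3]
    have z8 : (1 / 2 : ℝ) ^ L * (1 / 2) ^ (j + s0 + 1) * (2 ^ (j + s0 + 1) * 2 ^ (j + s0 + 1)) =
        (1 / 2 : ℝ) ^ L * 2 ^ (j + s0 + 1) * ((1 / 2 : ℝ) ^ (j + s0 + 1) * 2 ^ (j + s0 + 1)) := by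
      ring
    rw [z8, z4, mul_one]
    linarith

/-- one point: joint survival against survival in the cover -/
theorem one_point (D : ℕ) (hD : 1 ≤ D) (t ε : ℝ) (hε : 0 < ε) :
    ∃ (R : ℕ) (h0 : ℝ), 0 < h0 ∧ ∀ (α : Type) [DecidableEq α] (H : Finset (Finset α)) (h : ℝ),
      0 < h → h ≤ h0 → (∀ T ∈ H, T.card = 3) → (∀ i S, 0 ≤ FF H h i S ∧ FF H h i S ≤ 1) →
      ∀ e : α, TL H D {e} R ∅ → ∀ i : ℕ, i * h ≤ t → |FF H h i {e} - nn H h i e| ≤ ε := by
  obtain ⟨k, hk⟩ := exists_nat_ge (32 * D * t)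
  obtain ⟨R, h0, hh0, key⟩ := hier D 1 hD k 0 ε hε
  refine ⟨R, h0, hh0, ?_⟩
  intro α _ H h hh hle h3 hFF e ht i hi
  have k1 := key α H h hh hle h3 hFF {e} (by simp) ∅ (empty_subset _) (by simp) ht i (by
    have : 32 * (D : ℝ) * (i * h) ≤ 32 * D * t := mul_le_mul_of_nonneg_left hi (by positivity)
    linarith)
  rw [GGrec.GG_one] at k1
  have k2 : pts {e} (∅ : Finset (Finset α)) = {e} := by
    unfold pts
    simp
  rwa [k2] at k1

/-- two points: the joint survival factorises -/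
theorem two_points (D : ℕ) (hD : 1 ≤ D) (t ε : ℝ) (hε : 0 < ε) :
    ∃ (R : ℕ) (h0 : ℝ), 0 < h0 ∧ ∀ (α : Type) [DecidableEq α] (H : Finset (Finset α)) (h : ℝ),
      0 < h → h ≤ h0 → (∀ T ∈ H, T.card = 3) → (∀ i S, 0 ≤ FF H h i S ∧ FF H h i S ≤ 1) →
      ∀ e f : α, e ≠ f → TL H D {e, f} R ∅ → ∀ i : ℕ, i * h ≤ t →
        |FF H h i {e, f} - nn H h i e * nn H h i f| ≤ ε := by
  obtain ⟨k, hk⟩ := exists_nat_ge (32 * D * t)
  obtain ⟨R, h0, hh0, key⟩ := hier D 2 hD k 0 ε hε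
  refine ⟨R, h0, hh0, ?_⟩
  intro α _ H h hh hle h3 hFF e f hef ht i hi
  have k1 := key α H h hh hle h3 hFF {e, f} (card_le_two) ∅ (empty_subset _) (by simp) ht i (by
    have : 32 * (D : ℝ) * (i * h) ≤ 32 * D * t := mul_le_mul_of_nonneg_left hi (by positivity)
    linarith)
  rw [GGrec.GG_two H h i e f hef] at k1
  have k2 : pts {e, f} (∅ : Finset (Finset α)) = {e, f} := by
    unfold pts
    simp
  rwa [k2] at k1

end CMP

end

end Vale.Agent.P046.CT
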