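import Mathlib

/-!
P046, sharp constant, row [CMP]: two bounded solutions of an infinite linear hierarchy with the
same initial values are close (small time slots, supersolution `(1 - 2 D v)^{-a/2}`).
-/

namespace Vale.Agent.P046.CT

open Finset

noncomputable section

namespace Cmp

/-- the structure of the hierarchy -/
structure Hy (D : ℕ) {ι κ : Type} (Ch : ι → Finset κ) (ch : ι → κ → ι) (sz : ι → ℕ)
    (Good : ℕ → ι → Prop) (Δ : ι → ℝ → ℝ) : Prop where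
  rule : ∀ r S, Good (r + 1) S → ((Ch S).card ≤ D * sz S ∧
      (∀ T ∈ Ch S, Good r (ch S T) ∧ sz (ch S T) = sz S + 2) ∧
      ∀ u ∈ Set.Ico (0 : ℝ) 1, HasDerivAt (Δ S) (-∑ T ∈ Ch S, Δ (ch S T) u) u)
  bd : ∀ S, ∀ u ∈ Set.Ico (0 : ℝ) 1, |Δ S u| ≤ 1
  ini : ∀ S, Δ S 0 = 0

/-- supersolution -/
def Bf (D a j : ℕ) (e w : ℝ) : ℝ :=
  e * (1 - 2 * D * w) ^ (-(a : ℝ) / 2) + (1 / 2) ^ j * (1 - 4 * D * w) ^ (-(a : ℝ) / 2)

theorem Bf_der {D a j : ℕ} {e w : ℝ} (h4 : 0 < 1 - 4 * (D : ℝ) * w)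
    (h2 : 0 < 1 - 2 * (D : ℝ) * w) :
    HasDerivAt (Bf D a (j + 1) e) (D * a * Bf D (a + 2) j e w) w := by
  have d2 : HasDerivAt (fun w : ℝ => 1 - 2 * (D : ℝ) * w) (-(2 * D)) w := by
    have := ((hasDerivAt_id w).const_mul (2 * (D : ℝ))).const_sub 1
    simpa using this
  have d4 : HasDerivAt (fun w : ℝ => 1 - 4 * (D : ℝ) * w) (-(4 * D)) w := by
    have := ((hasDerivAt_id w).const_mul (4 * (D : ℝ))).const_sub 1
    simpa using this
  have e2 := (d2.rpow_const (p := -(a : ℝ) / 2) (Or.inl h2.ne')).const_mul e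
  have e4 := (d4.rpow_const (p := -(a : ℝ) / 2) (Or.inl h4.ne')).const_mul ((1 / 2 : ℝ) ^ (j + 1))
  have h := e2.add e4
  have hx : -(a : ℝ) / 2 - 1 = -((a + 2 : ℕ) : ℝ) / 2 := by push_cast; ring
  refine h.congr_deriv ?_
  rw [hx]
  unfold Bf
  rw [pow_succ]
  push_cast
  ring

theorem slot {D : ℕ} {ι κ : Type} {Ch : ι → Finset κ} {ch : ι → κ → ι} {sz : ι → ℕ}
    {Good : ℕ → ι → Prop} {Δ : ι → ℝ → ℝ} (hy : Hy D Ch ch sz Good Δ) {u0 u1 e : ℝ} {R M : ℕ}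
    (hu0 : 0 ≤ u0) (hu1 : u1 < 1) (he : 0 ≤ e) (hth : 4 * (D : ℝ) * (u1 - u0) ≤ 1 / 2)
    (hini : ∀ r, R ≤ r → ∀ S, Good r S → sz S ≤ M → |Δ S u0| ≤ e) :
    ∀ j r, R + j ≤ r → ∀ S, Good r S → sz S + 2 * j ≤ M → ∀ u ∈ Set.Icc u0 u1,
      |Δ S u| ≤ Bf D (sz S) j e (u - u0) := by
  have hpos : ∀ u ∈ Set.Icc u0 u1, 1 / 2 ≤ 1 - 4 * (D : ℝ) * (u - u0) ∧
      1 / 2 ≤ 1 - 2 * (D : ℝ) * (u - u0) ∧ 1 - 4 * (D : ℝ) * (u - u0) ≤ 1 := by
    intro u hu
    have h1 : 0 ≤ u - u0 := by linarith [hu.1]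
    have h2 : u - u0 ≤ u1 - u0 := by linarith [hu.2]
    have h3 : (0 : ℝ) ≤ D := Nat.cast_nonneg D
    have h4 : (D : ℝ) * (u - u0) ≤ D * (u1 - u0) := mul_le_mul_of_nonneg_left h2 h3
    have h5 : 0 ≤ (D : ℝ) * (u - u0) := mul_nonneg h3 h1
    refine ⟨by nlinarith, by nlinarith, by nlinarith⟩
  intro j
  induction j with
  | zero =>
    intro r _ S _ _ u hu
    obtain ⟨p4, p2, p1⟩ := hpos u hu
    have hb : |Δ S u| ≤ 1 := hy.bd S u ⟨by linarith [hu.1], by linarith [hu.2]⟩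
    have hx : 0 ≤ e * (1 - 2 * (D : ℝ) * (u - u0)) ^ (-(sz S : ℝ) / 2) :=
      mul_nonneg he (Real.rpow_nonneg (by linarith) _)
    have hyy : 1 ≤ (1 - 4 * (D : ℝ) * (u - u0)) ^ (-(sz S : ℝ) / 2) := by
      refine Real.one_le_rpow_of_pos_of_le_one_of_nonpos (by linarith) p1 ?_
      have : (0 : ℝ) ≤ sz S := Nat.cast_nonneg _
      linarith
    unfold Bf
    rw [pow_zero, one_mul]
    linarith
  | succ j ih =>
    intro r hr S hS hM
    obtain ⟨r', rfl⟩ : ∃ r', r = r' + 1 := ⟨r - 1, by omega⟩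
    obtain ⟨hc, hch, hder⟩ := hy.rule r' S hS
    have hcont : ContinuousOn (Δ S) (Set.Icc u0 u1) := fun u hu =>
      (hder u ⟨by linarith [hu.1], by linarith [hu.2]⟩).continuousAt.continuousWithinAt
    have hd' : ∀ u ∈ Set.Ico u0 u1, HasDerivWithinAt (Δ S) (-∑ T ∈ Ch S, Δ (ch S T) u)
        (Set.Ici u) u := fun u hu =>
      (hder u ⟨by linarith [hu.1], by linarith [hu.2]⟩).hasDerivWithinAt
    have hB : ∀ u ∈ Set.Icc u0 u1, HasDerivAt (fun u => Bf D (sz S) (j + 1) e (u - u0))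
        (D * sz S * Bf D (sz S + 2) j e (u - u0)) u := by
      intro u hu
      obtain ⟨p4, p2, -⟩ := hpos u hu
      have h1 := Bf_der (D := D) (a := sz S) (j := j) (e := e) (w := u - u0)
        (by linarith) (by linarith)
      have h2 : HasDerivAt (fun u : ℝ => u - u0) 1 u := (hasDerivAt_id u).sub_const u0
      have := HasDerivAt.comp u h1 h2
      rw [mul_one] at this
      exact this
    have hfin := image_norm_le_of_norm_deriv_right_le_deriv_boundary' (f := Δ S)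
      (f' := fun u => -∑ T ∈ Ch S, Δ (ch S T) u) (a := u0) (b := u1) hcont hd'
      (B := fun u => Bf D (sz S) (j + 1) e (u - u0))
      (B' := fun u => D * sz S * Bf D (sz S + 2) j e (u - u0)) ?_ ?_ ?_ ?_
    · intro u hu
      exact hfin hu
    · rw [Real.norm_eq_abs, sub_self]
      have h0 := hini (r' + 1) (by omega) S hS (by omega)
      have : Bf D (sz S) (j + 1) e 0 = e + (1 / 2) ^ (j + 1) := by
        unfold Bf; simp
      rw [this]
      have : (0 : ℝ) ≤ (1 / 2) ^ (j + 1) := by positivity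
      linarith
    · intro u hu
      exact (hB u hu).continuousAt.continuousWithinAt
    · intro u hu
      exact (hB u ⟨hu.1, hu.2.le⟩).hasDerivWithinAt
    · intro u hu
      rw [norm_neg, Real.norm_eq_abs]
      have h1 : ∀ T ∈ Ch S, |Δ (ch S T) u| ≤ Bf D (sz S + 2) j e (u - u0) := by
        intro T hT
        have h2 := hch T hT
        have h3 := ih r' (by omega) (ch S T) h2.1 (by rw [h2.2]; omega) u ⟨hu.1, hu.2.le⟩
        rwa [h2.2] at h3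
      have hnn : 0 ≤ Bf D (sz S + 2) j e (u - u0) := by
        obtain ⟨p4, p2, -⟩ := hpos u ⟨hu.1, hu.2.le⟩
        unfold Bf
        have a1 := Real.rpow_nonneg (show 0 ≤ 1 - 2 * (D : ℝ) * (u - u0) by linarith)
          (-((sz S + 2 : ℕ) : ℝ) / 2)
        have a2 := Real.rpow_nonneg (show 0 ≤ 1 - 4 * (D : ℝ) * (u - u0) by linarith)
          (-((sz S + 2 : ℕ) : ℝ) / 2)
        positivity
      calc |∑ T ∈ Ch S, Δ (ch S T) u| ≤ ∑ T ∈ Ch S, |Δ (ch S T) u| := abs_sum_le_sum_abs _ _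
        _ ≤ ∑ _T ∈ Ch S, Bf D (sz S + 2) j e (u - u0) := sum_le_sum h1
        _ = (Ch S).card * Bf D (sz S + 2) j e (u - u0) := by rw [sum_const, nsmul_eq_mul]
        _ ≤ (D * sz S : ℕ) * Bf D (sz S + 2) j e (u - u0) :=
            mul_le_mul_of_nonneg_right (by exact_mod_cast hc) hnn
        _ = D * sz S * Bf D (sz S + 2) j e (u - u0) := by push_cast; ring

theorem Bf_le {D a m j : ℕ} {e w : ℝ} (he : 0 ≤ e) (ham : a ≤ m)
    (h4 : 1 / 2 ≤ 1 - 4 * (D : ℝ) * w) (h2 : 1 / 2 ≤ 1 - 2 * (D : ℝ) * w) :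
    Bf D a j e w ≤ e * 2 ^ m + (1 / 2) ^ j * 2 ^ m := by
  have key : ∀ x : ℝ, 1 / 2 ≤ x → x ^ (-(a : ℝ) / 2) ≤ 2 ^ m := by
    intro x hx
    have ha : (0 : ℝ) ≤ a := Nat.cast_nonneg a
    have h1 : x ^ (-(a : ℝ) / 2) ≤ (1 / 2 : ℝ) ^ (-(a : ℝ) / 2) :=
      Real.rpow_le_rpow_of_nonpos (by norm_num) hx (by linarith)
    have h3 : (1 / 2 : ℝ) ^ (-(a : ℝ) / 2) ≤ (2 : ℝ) ^ (m : ℝ) := by
      rw [one_div, Real.inv_rpow (by norm_num), ← Real.rpow_neg (by norm_num)]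
      refine Real.rpow_le_rpow_of_exponent_le (by norm_num) ?_
      have : (a : ℝ) ≤ m := by exact_mod_cast ham
      linarith
    rw [Real.rpow_natCast] at h3
    exact h1.trans h3
  unfold Bf
  have a1 := mul_le_mul_of_nonneg_left (key _ h2) he
  have a2 := mul_le_mul_of_nonneg_left (key _ h4) (show (0 : ℝ) ≤ (1 / 2) ^ j by positivity)
  linarith

theorem claim (D : ℕ) : ∀ k m : ℕ, ∀ e : ℝ, 0 < e → ∃ R : ℕ, ∀ (ι κ : Type)
    (Ch : ι → Finset κ) (ch : ι → κ → ι) (sz : ι → ℕ) (Good : ℕ → ι → Prop) (Δ : ι → ℝ → ℝ),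
    Hy D Ch ch sz Good Δ → ∀ r, R ≤ r → ∀ S, Good r S → sz S ≤ m → ∀ u : ℝ, 0 ≤ u →
    u ≤ k / (8 * D + 8) → u < 1 → |Δ S u| ≤ e := by
  intro k
  induction k with
  | zero =>
    intro m e he
    refine ⟨0, fun ι κ Ch ch sz Good Δ hy r _ S _ _ u h0 h1 _ => ?_⟩
    have : u = 0 := by
      have : u ≤ 0 := by simpa using h1
      linarith
    rw [this, hy.ini, abs_zero]
    exact he.le
  | succ k ih =>
    intro m e he
    have h2m : (0 : ℝ) < 2 ^ m := by positivity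
    obtain ⟨J, hJ⟩ := exists_pow_lt_of_lt_one (show 0 < e / (2 * 2 ^ m) by positivity)
      (show (1 / 2 : ℝ) < 1 by norm_num)
    obtain ⟨R, hR⟩ := ih (m + 2 * J) (e / (2 * 2 ^ m)) (by positivity)
    refine ⟨R + J, fun ι κ Ch ch sz Good Δ hy r hr S hS hm u h0 h1 hu1 => ?_⟩
    have h8 : (0 : ℝ) < 8 * D + 8 := by positivity
    rcases le_or_gt u (k / (8 * D + 8)) with hk | hk
    · refine (hR ι κ Ch ch sz Good Δ hy r (by omega) S hS (by omega) u h0 hk hu1).trans ?_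
      rw [div_le_iff₀ (by positivity)]
      have : (1 : ℝ) ≤ 2 ^ m := one_le_pow₀ (by norm_num)
      nlinarith
    · set u0 : ℝ := k / (8 * D + 8) with hu0
      have hu00 : 0 ≤ u0 := by positivity
      have hth : 4 * (D : ℝ) * (u - u0) ≤ 1 / 2 := by
        have h2 : u - u0 ≤ 1 / (8 * D + 8) := by
          rw [hu0]
          have : ((k + 1 : ℕ) : ℝ) / (8 * D + 8) = k / (8 * D + 8) + 1 / (8 * D + 8) := by
            push_cast; ring
          rw [this] at h1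
          linarith
        have h3 : 4 * (D : ℝ) * (u - u0) ≤ 4 * D * (1 / (8 * D + 8)) :=
          mul_le_mul_of_nonneg_left h2 (by positivity)
        have h4 : 4 * (D : ℝ) * (1 / (8 * D + 8)) ≤ 1 / 2 := by
          rw [mul_one_div, div_le_iff₀ h8]
          linarith
        linarith
      have he' : 0 ≤ e / (2 * 2 ^ m) := by positivity
      have hs := slot hy (u0 := u0) (u1 := u) (e := e / (2 * 2 ^ m)) (R := R) (M := m + 2 * J)
        hu00 hu1 he' hth (fun r' hr' S' hS' hM' =>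
          hR ι κ Ch ch sz Good Δ hy r' hr' S' hS' hM' u0 hu00 le_rfl (by linarith))
        J r hr S hS (by omega) u ⟨hk.le, le_rfl⟩
      have hD0 : (0 : ℝ) ≤ D := Nat.cast_nonneg D
      have hp : 0 ≤ (D : ℝ) * (u - u0) := mul_nonneg hD0 (by linarith)
      have hb := Bf_le (D := D) (a := sz S) (m := m) (j := J) (e := e / (2 * 2 ^ m))
        (w := u - u0) he' hm (by linarith) (by nlinarith)
      have h5 : e / (2 * 2 ^ m) * 2 ^ m = e / 2 := by field_simp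
      have h6 : (1 / 2 : ℝ) ^ J * 2 ^ m ≤ e / 2 := by
        calc (1 / 2 : ℝ) ^ J * 2 ^ m ≤ e / (2 * 2 ^ m) * 2 ^ m :=
              mul_le_mul_of_nonneg_right hJ.le h2m.le
          _ = e / 2 := h5
      linarith

end Cmp

/-- [CMP] abstract comparison of bounded solutions of the hierarchy (small time steps, Taylor) -/
theorem cmp (D s : ℕ) {η : ℝ} (he : 0 < η) : ∃ R : ℕ, ∀ (ι κ : Type) (Ch : ι → Finset κ)
    (ch : ι → κ → ι) (sz : ι → ℕ) (Good : ℕ → ι → Prop) (Δ : ι → ℝ → ℝ),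
    (∀ r S, Good (r + 1) S → ((Ch S).card ≤ D * sz S ∧
      (∀ T ∈ Ch S, Good r (ch S T) ∧ sz (ch S T) = sz S + 2) ∧
      ∀ u ∈ Set.Ico (0 : ℝ) 1, HasDerivAt (Δ S) (-∑ T ∈ Ch S, Δ (ch S T) u) u)) →
    (∀ S, ∀ u ∈ Set.Ico (0 : ℝ) 1, |Δ S u| ≤ 1) → (∀ S, Δ S 0 = 0) →
    ∀ S, Good R S → sz S ≤ s → ∀ u ∈ Set.Ico (0 : ℝ) 1, |Δ S u| ≤ η := by
  obtain ⟨R, hR⟩ := Cmp.claim D (8 * D + 8) s η he
  refine ⟨R, fun ι κ Ch ch sz Good Δ h1 h2 h3 S hS hs u hu => ?_⟩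
  refine hR ι κ Ch ch sz Good Δ ⟨h1, h2, h3⟩ R le_rfl S hS hs u hu.1 ?_ hu.2
  have h8 : (0 : ℝ) < 8 * D + 8 := by positivity
  have : ((8 * D + 8 : ℕ) : ℝ) / (8 * D + 8) = 1 := by
    push_cast
    exact div_self h8.ne'
  rw [this]
  exact hu.2.le

end

end Vale.Agent.P046.CT
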