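import Mathlib

/-!
P046 CONST, row COOP: cooperative linear differential inequalities.
-/

namespace Vale.Agent.P046.CT

open Finset Filter Topology

/-- [COOP] cooperative linear differential inequalities -/
theorem coop {ι : Type} [Fintype ι] (Q : ι → ι → ℝ) (hQ : ∀ i j, i ≠ j → 0 ≤ Q i j)
    (y y' : ι → ℝ → ℝ) {t1 : ℝ} (hy : ∀ i, ∀ t ∈ Set.Icc 0 t1, HasDerivAt (y i) (y' i t) t)
    (h0 : ∀ i, y i 0 ≤ 0) (hle : ∀ i, ∀ t ∈ Set.Icc 0 t1, y' i t ≤ ∑ j, Q i j * y j t) :
    ∀ i, ∀ t ∈ Set.Icc 0 t1, y i t ≤ 0 := by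
  classical
  set C : ℝ := 1 + ∑ i, ∑ j, |Q i j| with hC
  have hrow : ∀ i, ∑ j, Q i j ≤ C - 1 := by
    intro i
    have h1 : ∑ j, Q i j ≤ ∑ j, |Q i j| := Finset.sum_le_sum fun j _ => le_abs_self _
    have h2 : ∑ j, |Q i j| ≤ ∑ i, ∑ j, |Q i j| :=
      Finset.single_le_sum (f := fun i => ∑ j, |Q i j|)
        (fun i _ => Finset.sum_nonneg fun j _ => abs_nonneg _) (Finset.mem_univ i)
    rw [hC]; linarith
  -- key: strict bound for every ε > 0
  have key : ∀ ε : ℝ, 0 < ε → ∀ i, ∀ t ∈ Set.Icc 0 t1, y i t < ε * Real.exp (C * t) := by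
    intro ε hε
    by_contra hcon
    push Not at hcon
    obtain ⟨i0, t0, ht0, hge0⟩ := hcon
    have hcont : ∀ i, ContinuousOn (y i) (Set.Icc 0 t1) := fun i t ht =>
      (hy i t ht).continuousAt.continuousWithinAt
    have hcexp : Continuous fun t : ℝ => ε * Real.exp (C * t) := by fun_prop
    have hcl : IsClosed (⋃ i, {t ∈ Set.Icc 0 t1 | ε * Real.exp (C * t) ≤ y i t}) :=
      isClosed_iUnion_of_finite fun i =>
        isClosed_Icc.isClosed_le hcexp.continuousOn (hcont i)
    have hcomp : IsCompact (⋃ i, {t ∈ Set.Icc 0 t1 | ε * Real.exp (C * t) ≤ y i t}) := by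
      refine IsCompact.of_isClosed_subset (isCompact_Icc (a := (0 : ℝ)) (b := t1)) hcl ?_
      intro t ht
      obtain ⟨i, hi⟩ := Set.mem_iUnion.1 ht
      exact hi.1
    obtain ⟨s, hs⟩ := hcomp.exists_isLeast ⟨t0, Set.mem_iUnion.2 ⟨i0, ht0, hge0⟩⟩
    obtain ⟨i, hsI, hsi⟩ := Set.mem_iUnion.1 hs.1
    have hbefore : ∀ j, ∀ t ∈ Set.Icc 0 t1, t < s → y j t < ε * Real.exp (C * t) := by
      intro j t ht hts
      by_contra hc
      push Not at hc
      have := hs.2 (Set.mem_iUnion.2 ⟨j, ht, hc⟩)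
      linarith
    have hspos : 0 < s := by
      rcases lt_or_eq_of_le hsI.1 with h | h
      · exact h
      · exfalso
        rw [← h] at hsi
        have h3 := h0 i
        have h4 : ε * Real.exp (C * 0) = ε := by simp
        linarith
    have hleft : ∀ᶠ t in 𝓝[<] s, t ∈ Set.Icc 0 t1 ∧ t < s := by
      have h1 : ∀ᶠ t in 𝓝[<] s, t ∈ Set.Ioo 0 s := Ioo_mem_nhdsLT hspos
      filter_upwards [h1] with t ht
      exact ⟨⟨ht.1.le, ht.2.le.trans hsI.2⟩, ht.2⟩
    have hat : ∀ j, y j s ≤ ε * Real.exp (C * s) := by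
      intro j
      have h1 : Tendsto (y j) (𝓝[<] s) (𝓝 (y j s)) :=
        (hy j s hsI).continuousAt.tendsto.mono_left nhdsWithin_le_nhds
      have h2 : Tendsto (fun t : ℝ => ε * Real.exp (C * t)) (𝓝[<] s)
          (𝓝 (ε * Real.exp (C * s))) :=
        hcexp.continuousAt.tendsto.mono_left nhdsWithin_le_nhds
      refine le_of_tendsto_of_tendsto h1 h2 ?_
      filter_upwards [hleft] with t ht
      exact (hbefore j t ht.1 ht.2).le
    have heq : y i s = ε * Real.exp (C * s) := le_antisymm (hat i) hsi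
    set E : ℝ := ε * Real.exp (C * s) with hE
    have hEpos : 0 < E := by positivity
    -- derivative of the difference
    have hz : HasDerivAt (fun t => y i t - ε * Real.exp (C * t)) (y' i s - C * E) s := by
      have h1 : HasDerivAt (fun t : ℝ => ε * Real.exp (C * t)) (C * E) s := by
        have h2 : HasDerivAt (fun t : ℝ => C * t) (C * 1) s := (hasDerivAt_id s).const_mul C
        have h3 := (h2.exp).const_mul ε
        refine h3.congr_deriv ?_
        rw [hE]; ring
      exact (hy i s hsI).sub h1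
    have hge : 0 ≤ y' i s - C * E := by
      have h1 : Tendsto (slope (fun t => y i t - ε * Real.exp (C * t)) s) (𝓝[<] s)
          (𝓝 (y' i s - C * E)) := by
        have h2 := hasDerivAt_iff_tendsto_slope.1 hz
        refine h2.mono_left ?_
        exact nhdsWithin_mono _ fun t (ht : t < s) => ht.ne
      refine ge_of_tendsto h1 ?_
      filter_upwards [hleft] with t ht
      rw [slope_def_field]
      have h3 := hbefore i t ht.1 ht.2
      refine div_nonneg_of_nonpos ?_ (by linarith [ht.2])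
      linarith
    have hub : y' i s ≤ (C - 1) * E := by
      calc y' i s ≤ ∑ j, Q i j * y j s := hle i s hsI
        _ ≤ ∑ j, Q i j * E := by
            refine Finset.sum_le_sum fun j _ => ?_
            by_cases hij : i = j
            · subst hij; rw [heq]
            · exact mul_le_mul_of_nonneg_left (hat j) (hQ i j hij)
        _ = (∑ j, Q i j) * E := by rw [Finset.sum_mul]
        _ ≤ (C - 1) * E := mul_le_mul_of_nonneg_right (hrow i) hEpos.le
    nlinarith
  intro i t ht
  by_contra hcon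
  push Not at hcon
  have h1 := key (y i t / Real.exp (C * t)) (by positivity) i t ht
  rw [div_mul_cancel₀ _ (Real.exp_pos _).ne'] at h1
  exact lt_irrefl _ h1

end Vale.Agent.P046.CT
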