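import Vale.Agent.P046.Defs

/-!
P046, the sharp constant: definitions for the final phase.
`H` = a finite linear 3-uniform hypergraph (in the application the alive blocks at the time when
the expected degree is a large constant `K`).
-/

namespace Vale.Agent.P046.CT

open Finset Vale.Agent.P046

noncomputable section

variable {α : Type} [DecidableEq α]

/-- message from `f` away from the block `T` -/
def qm (H : Finset (Finset α)) (a : α → Finset α → ℝ → ℝ) (f : α) (T : Finset α) (u : ℝ) : ℝ :=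
  ∏ S ∈ H.filter (fun S => f ∈ S ∧ S ≠ T), (1 - a f S u)

/-- the solution of the system of the universal cover: `a e T u` is the probability that the block
`T` kills `e` before time `u` on the cover -/
structure Cov (H : Finset (Finset α)) (a : α → Finset α → ℝ → ℝ) : Prop where
  zero : ∀ T ∈ H, ∀ e ∈ T, a e T 0 = 0
  der : ∀ T ∈ H, ∀ e ∈ T, ∀ u ∈ Set.Icc (0 : ℝ) 1,
    HasDerivAt (a e T) (∏ f ∈ T.erase e, qm H a f T u) u
  nonneg : ∀ T ∈ H, ∀ e ∈ T, ∀ u ∈ Set.Icc (0 : ℝ) 1, 0 ≤ a e T u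
  le : ∀ T ∈ H, ∀ e ∈ T, ∀ u ∈ Set.Icc (0 : ℝ) 1, a e T u ≤ u

/-- `n_e`: probability that `e` is alive at time `u` on the cover -/
def nn (H : Finset (Finset α)) (a : α → Finset α → ℝ → ℝ) (e : α) (u : ℝ) : ℝ :=
  ∏ S ∈ H.filter (fun S => e ∈ S), (1 - a e S u)

/-- rate of the block `T` on the cover -/
def NT (H : Finset (Finset α)) (a : α → Finset α → ℝ → ℝ) (T : Finset α) (u : ℝ) : ℝ :=
  ∏ f ∈ T, qm H a f T u

/-- degree in `H` -/
def dH (H : Finset (Finset α)) (e : α) : ℝ := ((H.filter (fun T => e ∈ T)).card : ℝ)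

/-- relative deviation of the degree -/
def xx (H : Finset (Finset α)) (K : ℝ) (e : α) : ℝ := dH H e / K - 1

/-- ideal density -/
def pp (K u : ℝ) : ℝ := (1 + 2 * K * u) ^ (-(1 / 2) : ℝ)

/-- corrected reference density; `G` = regular points -/
def mm (H : Finset (Finset α)) (G : Finset α) (K : ℝ) (e : α) (u : ℝ) : ℝ :=
  if e ∈ G then (1 + 2 * K * u) ^ (-((1 + xx H K e) / 2) : ℝ) else pp K u

/-- the functional -/
def JJ (H : Finset (Finset α)) (a : α → Finset α → ℝ → ℝ) (G : Finset α) (K u : ℝ) : ℝ :=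
  ∑ e ∈ G, (nn H a e u - mm H G K e u) ^ 2 / (2 * mm H G K e u)

/-- `beta` with the values of regular points only -/
def bG (H : Finset (Finset α)) (G : Finset α) (K : ℝ) (e : α) : ℝ :=
  (1 / K) * ∑ T ∈ H.filter (fun T => e ∈ T), ∑ f ∈ (T.erase e).filter (fun f => f ∈ G), xx H K f

/-- the source of the final phase; `A` = all points, `G ⊆ A` the regular ones -/
def Src (H : Finset (Finset α)) (A G : Finset α) (K : ℝ) : ℝ :=
  ∑ e ∈ G, bG H G K e ^ 2 + ∑ e ∈ G, xx H K e ^ 4 + (A.card : ℝ) / K ^ 2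
    + ∑ e ∈ A \ G, (1 + dH H e / K)

/-- tree-like up to depth `R` around the set `S`, with at most `D` blocks per point -/
def TG (H : Finset (Finset α)) (D : ℕ) : ℕ → Finset α → Prop
  | 0, _ => True
  | r + 1, S => (H.filter (fun T => ¬ Disjoint T S ∧ ¬ T ⊆ S)).card ≤ D * S.card ∧
      ∀ T ∈ H, ¬ Disjoint T S → ¬ T ⊆ S →
        (T ∩ S).card = 1 ∧ bl H (S ∪ T) = insert T (bl H S) ∧ TG H D r (S ∪ T)

/-- the same product for a set of points -/
def GG (H : Finset (Finset α)) (a : α → Finset α → ℝ → ℝ) (S : Finset α) (u : ℝ) : ℝ :=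
  ∏ x ∈ S, ∏ T ∈ H.filter (fun T => x ∈ T ∧ ¬ T ⊆ S), (1 - a x T u)

/-- generator of the process on `H` -/
def LL (H : Finset (Finset α)) (f : Finset α → ℝ) (A : Finset α) : ℝ :=
  ∑ T ∈ bl H A, (f (A \ T) - f A)

/-- a semigroup for the generator `LL H` (exists by [SG]) -/
structure Smg (H : Finset (Finset α)) (sg : ℝ → (Finset α → ℝ) → Finset α → ℝ) : Prop where
  zero : ∀ f, sg 0 f = f
  add : ∀ t f g, sg t (f + g) = sg t f + sg t g
  smul : ∀ t (c : ℝ) f, sg t (c • f) = c • sg t f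
  der : ∀ f A t, HasDerivAt (fun t => sg t f A) (sg t (LL H f) A) t
  back : ∀ f A t, HasDerivAt (fun t => sg t f A) (LL H (sg t f) A) t
  mono : ∀ t, 0 ≤ t → ∀ f g : Finset α → ℝ, ∀ A, (∀ A' ⊆ A, f A' ≤ g A') → sg t f A ≤ sg t g A

/-- indicator of `S ⊆ A` -/
def chi (S : Finset α) (A : Finset α) : ℝ := if S ⊆ A then 1 else 0

/-- connected families of blocks -/
inductive Cn (H : Finset (Finset α)) : ℕ → Finset (Finset α) → Prop
  | one (T : Finset α) (hT : T ∈ H) : Cn H 1 {T}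
  | step (j : ℕ) (c : Finset (Finset α)) (hc : Cn H j c) (T : Finset α) (hT : T ∈ H)
      (hn : T ∉ c) (hd : ¬ Disjoint T (c.biUnion id)) : Cn H (j + 1) (insert T c)

/-- bad (cyclic) configuration with at most `J` blocks -/
def BadC (H : Finset (Finset α)) (J : ℕ) (c : Finset (Finset α)) : Prop :=
  ∃ j, j ≤ J ∧ Cn H j c ∧ (c.biUnion id).card ≤ 2 * j

/-- product of the reference densities over a block -/
def MT (H : Finset (Finset α)) (G : Finset α) (K : ℝ) (T : Finset α) (u : ℝ) : ℝ :=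
  ∏ f ∈ T, mm H G K f u

/-- relative deviation of `n_e` from the reference density -/
def yy (H : Finset (Finset α)) (a : α → Finset α → ℝ → ℝ) (G : Finset α) (K : ℝ) (e : α)
    (u : ℝ) : ℝ := nn H a e u / mm H G K e u - 1

/-- error of the reference density -/
def er (H : Finset (Finset α)) (G : Finset α) (K : ℝ) (e : α) (u : ℝ) : ℝ :=
  ∑ T ∈ H.filter (fun T => e ∈ T), (pp K u ^ 2 * mm H G K e u - MT H G K T u)

/-- sum of `n_e` over the exceptional points -/
def NE (H : Finset (Finset α)) (a : α → Finset α → ℝ → ℝ) (A G : Finset α) (u : ℝ) : ℝ :=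
  ∑ e ∈ A \ G, nn H a e u

/-- standing hypotheses of part (A) -/
structure Hyp (H : Finset (Finset α)) (A G : Finset α) (a : α → Finset α → ℝ → ℝ) (K η : ℝ) :
    Prop where
  lin : Lin3 H
  sub : ∀ T ∈ H, T ⊆ A
  GA : G ⊆ A
  cov : Cov H a
  K1 : 1 ≤ K
  small : ∀ e ∈ G, |xx H K e| * (1 + Real.log (1 + 2 * K)) ≤ η
  eta0 : 0 < η
  eta1 : η ≤ 1 / 8

end

end Vale.Agent.P046.CT
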