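import Vale.Agent.P046.CT.Sgf

/-!
P046, sharp constant, row DEL: cost of the deletion of a set of points.
-/

namespace Vale.Agent.P046.CT

open Finset Vale.Agent.P046

noncomputable section

variable {α : Type} [DecidableEq α]

namespace Del

theorem dg_mono (H : Finset (Finset α)) {A B : Finset α} (h : A ⊆ B) (x : α) :
    dg H A x ≤ dg H B x := by
  unfold dg
  refine Finset.card_le_card ?_
  intro T hT
  rw [mem_filter] at hT ⊢
  unfold bl at hT ⊢
  rw [mem_filter] at hT ⊢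
  exact ⟨⟨hT.1.1, hT.1.2.trans h⟩, hT.2⟩

/-- one deletion after the other; `F` is the functional, `c` the weight of a point -/
theorem tel {F : Finset α → ℝ} {c : α → ℝ} {A : Finset α} : ∀ (n : ℕ) (B : Finset α), A ⊆ B →
    (B \ A).card = n →
    (∀ B' ⊆ B, ∀ x ∈ B', |F (B' \ {x}) - F B'| ≤ c x) →
    |F B - F A| ≤ ∑ x ∈ B \ A, c x := by
  intro n
  induction n with
  | zero =>
    intro B hAB hn _
    have h1 : B \ A = ∅ := Finset.card_eq_zero.1 hn
    have h2 : B = A := Finset.Subset.antisymm (Finset.sdiff_eq_empty_iff_subset.1 h1) hAB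
    subst h2
    rw [h1]
    simp
  | succ n ih =>
    intro B hAB hn hc
    have hne : (B \ A).Nonempty := by
      rw [← Finset.card_pos]
      omega
    obtain ⟨x, hx⟩ := hne
    have hxB : x ∈ B := (mem_sdiff.1 hx).1
    have hxA : x ∉ A := (mem_sdiff.1 hx).2
    have hAB' : A ⊆ B \ {x} := by
      intro y hy
      rw [mem_sdiff, mem_singleton]
      exact ⟨hAB hy, fun h => hxA (h ▸ hy)⟩
    have hsd : (B \ {x}) \ A = (B \ A).erase x := by
      ext y
      simp only [mem_sdiff, mem_singleton, mem_erase]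
      tauto
    have hn' : ((B \ {x}) \ A).card = n := by
      rw [hsd, Finset.card_erase_of_mem hx, hn]
      rfl
    have h1 := ih (B \ {x}) hAB' hn'
      (fun B' hB' y hy => hc B' (hB'.trans Finset.sdiff_subset) y hy)
    have h2 := hc B (Finset.Subset.refl B) x hxB
    rw [hsd] at h1
    have h3 : ∑ y ∈ B \ A, c y = c x + ∑ y ∈ (B \ A).erase x, c y :=
      (Finset.add_sum_erase (B \ A) c hx).symm
    rw [h3]
    have h4 : F B - F A = -(F (B \ {x}) - F B) + (F (B \ {x}) - F A) := by ring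
    rw [h4]
    refine (abs_add_le _ _).trans ?_
    rw [abs_neg]
    linarith

end Del

open Del

/-- [DEL] from the sensitivity bound -/
theorem del_cost_of {H : Finset (Finset α)}
    {sg : ℝ → (Finset α → ℝ) → Finset α → ℝ} {Φ : Finset α → ℝ} {t : ℝ} (ht : 0 ≤ t)
    (hsens : ∀ (A : Finset α) (x : α), x ∈ A →
      |sg t Φ (A \ {x}) - sg t Φ A| ≤ Real.sqrt (1 + 2 * (dg H A x : ℝ) * t))
    {A B C : Finset α} (h1 : A ⊆ B) (h2 : B ⊆ C) :
    |sg t Φ C - sg t Φ A| ≤ ∑ x ∈ B \ A, Real.sqrt (1 + 2 * (dg H B x : ℝ) * t)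
      + ∑ x ∈ C \ B, Real.sqrt (1 + 2 * (dg H C x : ℝ) * t) := by
  have key : ∀ A B : Finset α, A ⊆ B → |sg t Φ B - sg t Φ A| ≤
      ∑ x ∈ B \ A, Real.sqrt (1 + 2 * (dg H B x : ℝ) * t) := by
    intro A B hAB
    refine tel (F := sg t Φ) (c := fun x => Real.sqrt (1 + 2 * (dg H B x : ℝ) * t))
      (B \ A).card B hAB rfl ?_
    intro B' hB' x hx
    refine (hsens B' x hx).trans ?_
    refine Real.sqrt_le_sqrt ?_
    have h3 : (dg H B' x : ℝ) ≤ (dg H B x : ℝ) := by exact_mod_cast dg_mono H hB' x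
    have h4 : (dg H B' x : ℝ) * t ≤ (dg H B x : ℝ) * t := mul_le_mul_of_nonneg_right h3 ht
    linarith
  have h3 := key A B h1
  have h4 := key B C h2
  have h5 : sg t Φ C - sg t Φ A = (sg t Φ C - sg t Φ B) + (sg t Φ B - sg t Φ A) := by ring
  rw [h5]
  refine (abs_add_le _ _).trans ?_
  linarith

/-- [RDEL] from the sensitivity bound and the tail bound of the final state -/
theorem run_del_of {H : Finset (Finset α)}
    {sg : ℝ → (Finset α → ℝ) → Finset α → ℝ} {Φ : Finset α → ℝ} {t : ℝ} (ht : 0 ≤ t)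
    (hsens : ∀ (A : Finset α) (x : α), x ∈ A →
      |sg t Φ (A \ {x}) - sg t Φ A| ≤ Real.sqrt (1 + 2 * (dg H A x : ℝ) * t))
    (hrun : ∀ A : Finset α, |run H Φ A.card A - sg t Φ A| ≤ Real.exp (-t) * (A.card : ℝ))
    {A B C : Finset α} (h1 : A ⊆ B) (h2 : B ⊆ C) :
    |run H Φ C.card C - run H Φ A.card A| ≤ 2 * Real.exp (-t) * (C.card : ℝ)
      + ∑ x ∈ B \ A, Real.sqrt (1 + 2 * (dg H B x : ℝ) * t)
      + ∑ x ∈ C \ B, Real.sqrt (1 + 2 * (dg H C x : ℝ) * t) := by
  have h3 := del_cost_of ht hsens h1 h2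
  have h4 := hrun C
  have h5 := hrun A
  have h6 : (A.card : ℝ) ≤ (C.card : ℝ) := by
    exact_mod_cast Finset.card_le_card (h1.trans h2)
  have h7 : Real.exp (-t) * (A.card : ℝ) ≤ Real.exp (-t) * (C.card : ℝ) :=
    mul_le_mul_of_nonneg_left h6 (Real.exp_pos _).le
  rw [abs_le] at h3 h4 h5 ⊢
  constructor <;> linarith [h3.1, h3.2, h4.1, h4.2, h5.1, h5.2]

end

end Vale.Agent.P046.CT
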