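import Vale.Agent.P046.CT.Defs
import Vale.Agent.P046.Chain

/-! P046, sharp constant: deletion of a set of points, and the final state against the state at
time `t` (auxiliary facts for the rows DEL and RDEL). -/

namespace Vale.Agent.P046.CT.DelAux

open Finset Vale.Agent.P046 Vale.Agent.P046.CT

noncomputable section

variable {α : Type} [DecidableEq α]

theorem dg_mono (H : Finset (Finset α)) {A B : Finset α} (h : A ⊆ B) (x : α) :
    dg H A x ≤ dg H B x := by
  unfold dg bl
  refine card_le_card ?_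
  intro T hT
  rw [mem_filter, mem_filter] at hT ⊢
  exact ⟨⟨hT.1.1, hT.1.2.trans h⟩, hT.2⟩

/-- deletion of a set, point by point -/
theorem chain_cost {H : Finset (Finset α)} {g : Finset α → ℝ} {t : ℝ} (ht : 0 ≤ t)
    (hs : ∀ A : Finset α, ∀ x ∈ A,
      |g (A \ {x}) - g A| ≤ Real.sqrt (1 + 2 * (dg H A x : ℝ) * t)) :
    ∀ (m : ℕ) (A B : Finset α), A ⊆ B → (B \ A).card = m →
    |g B - g A| ≤ ∑ x ∈ B \ A, Real.sqrt (1 + 2 * (dg H B x : ℝ) * t) := by
  intro m
  induction m with
  | zero =>
    intro A B hAB hm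
    have h0 : B \ A = ∅ := card_eq_zero.mp hm
    have h1 : B = A := Subset.antisymm (sdiff_eq_empty_iff_subset.mp h0) hAB
    rw [h1]
    simp
  | succ m ih =>
    intro A B hAB hm
    obtain ⟨x, hx⟩ : (B \ A).Nonempty := card_pos.mp (by omega)
    have hxB : x ∈ B := (mem_sdiff.mp hx).1
    have hxA : x ∉ A := (mem_sdiff.mp hx).2
    have h1 : A ⊆ B \ {x} := by
      intro y hy
      rw [mem_sdiff, mem_singleton]
      refine ⟨hAB hy, ?_⟩
      rintro rfl
      exact hxA hy
    have h2 : (B \ {x}) \ A = (B \ A).erase x := by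
      ext y
      simp only [mem_sdiff, mem_singleton, mem_erase]
      tauto
    have h3 : ((B \ {x}) \ A).card = m := by
      rw [h2, card_erase_of_mem hx]
      omega
    have h4 := ih A (B \ {x}) h1 h3
    have h5 := hs B x hxB
    have h6 : ∑ y ∈ (B \ {x}) \ A, Real.sqrt (1 + 2 * (dg H (B \ {x}) y : ℝ) * t) ≤
        ∑ y ∈ (B \ A).erase x, Real.sqrt (1 + 2 * (dg H B y : ℝ) * t) := by
      rw [h2]
      refine sum_le_sum fun y _ => Real.sqrt_le_sqrt ?_
      have h7 : (dg H (B \ {x}) y : ℝ) ≤ (dg H B y : ℝ) := by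
        exact_mod_cast dg_mono H sdiff_subset y
      nlinarith
    rw [← add_sum_erase _ _ hx]
    have h8 : |g B - g A| ≤ |g (B \ {x}) - g B| + |g (B \ {x}) - g A| := by
      have h9 : g B - g A = -(g (B \ {x}) - g B) + (g (B \ {x}) - g A) := by ring
      rw [h9]
      refine (abs_add_le _ _).trans ?_
      rw [abs_neg]
    linarith

theorem two_step {H : Finset (Finset α)} {g : Finset α → ℝ} {t : ℝ} (ht : 0 ≤ t)
    (hs : ∀ A : Finset α, ∀ x ∈ A,
      |g (A \ {x}) - g A| ≤ Real.sqrt (1 + 2 * (dg H A x : ℝ) * t))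
    {A B C : Finset α} (h1 : A ⊆ B) (h2 : B ⊆ C) :
    |g C - g A| ≤ ∑ x ∈ B \ A, Real.sqrt (1 + 2 * (dg H B x : ℝ) * t)
      + ∑ x ∈ C \ B, Real.sqrt (1 + 2 * (dg H C x : ℝ) * t) := by
  have h3 := chain_cost ht hs _ A B h1 rfl
  have h4 := chain_cost ht hs _ B C h2 rfl
  have h5 : |g C - g A| ≤ |g C - g B| + |g B - g A| := by
    have h9 : g C - g A = (g C - g B) + (g B - g A) := by ring
    rw [h9]
    exact abs_add_le _ _
  linarith

theorem sg_zero' {H : Finset (Finset α)} {sg : ℝ → (Finset α → ℝ) → Finset α → ℝ}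
    (hs : Smg H sg) (t : ℝ) (A : Finset α) : sg t (fun _ => (0 : ℝ)) A = 0 := by
  have h1 := hs.smul t 0 (fun _ => (0 : ℝ))
  have h2 : ((0 : ℝ) • (fun _ : Finset α => (0 : ℝ))) = fun _ => (0 : ℝ) := by
    ext A
    simp
  rw [h2] at h1
  rw [h1]
  simp

theorem sg_neg {H : Finset (Finset α)} {sg : ℝ → (Finset α → ℝ) → Finset α → ℝ}
    (hs : Smg H sg) (t : ℝ) (f : Finset α → ℝ) (A : Finset α) :
    sg t (fun A => - f A) A = - sg t f A := by
  have h1 := hs.smul t (-1) f
  have h2 : ((-1 : ℝ) • f) = fun A => - f A := by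
    ext A
    simp
  rw [h2] at h1
  rw [h1]
  simp

theorem sg_sub {H : Finset (Finset α)} {sg : ℝ → (Finset α → ℝ) → Finset α → ℝ}
    (hs : Smg H sg) (t : ℝ) (f g : Finset α → ℝ) (A : Finset α) :
    sg t (fun A => f A - g A) A = sg t f A - sg t g A := by
  have h1 := hs.add t f (fun A => - g A)
  have h2 : (f + fun A => - g A) = fun A => f A - g A := by
    ext A
    simp [sub_eq_add_neg]
  rw [h2] at h1
  rw [h1, Pi.add_apply, sg_neg hs]
  ring

/-- `|sg t f A| ≤ sg t g A` if `|f| ≤ g` below `A` -/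
theorem sg_abs {H : Finset (Finset α)} {sg : ℝ → (Finset α → ℝ) → Finset α → ℝ}
    (hs : Smg H sg) {t : ℝ} (ht : 0 ≤ t) {f g : Finset α → ℝ} {A : Finset α}
    (h : ∀ A' ⊆ A, |f A'| ≤ g A') : |sg t f A| ≤ sg t g A := by
  rw [abs_le]
  constructor
  · rw [neg_le, ← sg_neg hs]
    exact hs.mono t ht _ _ A fun A' hA' => by
      have := neg_abs_le (f A')
      have := h A' hA'
      linarith
  · exact hs.mono t ht _ _ A fun A' hA' => (le_abs_self _).trans (h A' hA')

/-- the generator kills the harmonic function `run` -/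
theorem LL_run {H : Finset (Finset α)} (hL : Lin3 H) (Φ : Finset α → ℝ) (A : Finset α) :
    LL H (fun A => run H Φ A.card A) A = 0 := by
  unfold LL
  rw [sum_sub_distrib, sum_const, nsmul_eq_mul]
  by_cases h1 : (bl H A).Nonempty
  · have h2 : ((bl H A).card : ℝ) ≠ 0 := by
      exact_mod_cast (card_pos.mpr h1).ne'
    have h3 := run_card H hL Φ A
    rw [if_pos h1, eq_div_iff h2] at h3
    rw [← h3]
    ring
  · rw [not_nonempty_iff_eq_empty] at h1
    simp [h1]

/-- the semigroup fixes the harmonic function `run` -/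
theorem sg_run {H : Finset (Finset α)} {sg : ℝ → (Finset α → ℝ) → Finset α → ℝ}
    (hs : Smg H sg) (hL : Lin3 H) (Φ : Finset α → ℝ) (t : ℝ) (A : Finset α) :
    sg t (fun A => run H Φ A.card A) A = run H Φ A.card A := by
  have h1 : ∀ s, HasDerivAt (fun t => sg t (fun A => run H Φ A.card A) A) 0 s := by
    intro s
    have h2 := hs.der (fun A => run H Φ A.card A) A s
    have h3 : LL H (fun A => run H Φ A.card A) = fun _ => (0 : ℝ) := by
      ext A
      exact LL_run hL Φ A
    rw [h3, sg_zero' hs] at h2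
    exact h2
  have h4 := is_const_of_deriv_eq_zero (f := fun t => sg t (fun A => run H Φ A.card A) A)
    (fun s => (h1 s).differentiableAt) (fun s => (h1 s).deriv) t 0
  rw [h4, hs.zero]

/-- number of points which are still to be removed -/
def RR (H : Finset (Finset α)) (A : Finset α) : ℝ :=
  (A.card : ℝ) - run H (fun A => (A.card : ℝ)) A.card A

theorem card_step {H : Finset (Finset α)} (hL : Lin3 H) {A T : Finset α} (hT : T ∈ bl H A) :
    (A \ T).card + 3 = A.card := by
  have hT' := mem_bl.mp hT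
  have h3 := hL.card3 T hT'.1
  have h4 := card_sdiff_add_card_eq_card hT'.2
  omega

/-- block average -/
theorem run_avg {H : Finset (Finset α)} (hL : Lin3 H) (Φ : Finset α → ℝ) {A : Finset α}
    (h1 : (bl H A).Nonempty) :
    ((bl H A).card : ℝ) * run H Φ A.card A = ∑ T ∈ bl H A, run H Φ (A \ T).card (A \ T) := by
  have h2 : ((bl H A).card : ℝ) ≠ 0 := by
    exact_mod_cast (card_pos.mpr h1).ne'
  have h3 := run_card H hL Φ A
  rw [if_pos h1, eq_div_iff h2] at h3
  rw [← h3]
  ring

theorem run_nonneg {H : Finset (Finset α)} (hL : Lin3 H) {Φ : Finset α → ℝ}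
    (h0 : ∀ A, 0 ≤ Φ A) : ∀ (m : ℕ) (A : Finset α), A.card ≤ m → 0 ≤ run H Φ A.card A := by
  intro m
  induction m with
  | zero =>
    intro A hA
    have : A.card = 0 := by omega
    rw [this]
    exact h0 A
  | succ m ih =>
    intro A hA
    rw [run_card H hL]
    split_ifs with h1
    · refine div_nonneg (sum_nonneg fun T hT => ?_) (Nat.cast_nonneg _)
      have := card_step hL hT
      exact ih _ (by omega)
    · exact h0 A

theorem RR_le_card {H : Finset (Finset α)} (hL : Lin3 H) (A : Finset α) :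
    RR H A ≤ (A.card : ℝ) := by
  unfold RR
  have := run_nonneg hL (Φ := fun A => (A.card : ℝ)) (fun A => Nat.cast_nonneg _) _ A le_rfl
  linarith

/-- the expected change of a 1-Lipschitz function until the end of the process -/
theorem run_abs {H : Finset (Finset α)} (hL : Lin3 H) {Φ : Finset α → ℝ}
    (hΦ : ∀ A : Finset α, ∀ T ∈ bl H A, |Φ (A \ T) - Φ A| ≤ 3) :
    ∀ (m : ℕ) (A : Finset α), A.card ≤ m → |run H Φ A.card A - Φ A| ≤ RR H A := by
  intro m
  induction m with
  | zero =>
    intro A hA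
    have h0 : A.card = 0 := by omega
    unfold RR
    rw [h0]
    unfold run
    simp [h0]
  | succ m ih =>
    intro A hA
    by_cases h1 : (bl H A).Nonempty
    · have h2 : (0 : ℝ) < ((bl H A).card : ℝ) := by
        exact_mod_cast card_pos.mpr h1
      have h3 := run_avg hL Φ h1
      have h4 := run_avg hL (fun A => (A.card : ℝ)) h1
      have h5 : ((bl H A).card : ℝ) * (run H Φ A.card A - Φ A) =
          ∑ T ∈ bl H A, (run H Φ (A \ T).card (A \ T) - Φ A) := by
        rw [mul_sub, h3, sum_sub_distrib, sum_const, nsmul_eq_mul]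
      have h6 : ((bl H A).card : ℝ) * RR H A =
          ∑ T ∈ bl H A, ((A.card : ℝ) - run H (fun A => (A.card : ℝ)) (A \ T).card (A \ T)) := by
        unfold RR
        rw [mul_sub, h4, sum_sub_distrib, sum_const, nsmul_eq_mul]
      have h7 : |∑ T ∈ bl H A, (run H Φ (A \ T).card (A \ T) - Φ A)| ≤
          ∑ T ∈ bl H A, ((A.card : ℝ) - run H (fun A => (A.card : ℝ)) (A \ T).card (A \ T)) := by
        refine (abs_sum_le_sum_abs _ _).trans (sum_le_sum fun T hT => ?_)
        have h8 := card_step hL hT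
        have h9 := ih (A \ T) (by omega)
        have h10 := hΦ A T hT
        have h11 : run H Φ (A \ T).card (A \ T) - Φ A =
            (run H Φ (A \ T).card (A \ T) - Φ (A \ T)) + (Φ (A \ T) - Φ A) := by ring
        rw [h11]
        refine (abs_add_le _ _).trans ?_
        have h12 : ((A \ T).card : ℝ) + 3 = (A.card : ℝ) := by exact_mod_cast h8
        unfold RR at h9
        linarith
      rw [← h5, ← h6, abs_mul, abs_of_pos h2] at h7
      exact le_of_mul_le_mul_left h7 h2
    · have h3 := run_card H hL Φ A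
      have h4 := run_card H hL (fun A => (A.card : ℝ)) A
      rw [if_neg h1] at h3 h4
      unfold RR
      rw [h3, h4]
      simp

/-- at most three points per alive block are removed -/
theorem RR_le {H : Finset (Finset α)} (hL : Lin3 H) :
    ∀ (m : ℕ) (A : Finset α), A.card ≤ m → RR H A ≤ 3 * ((bl H A).card : ℝ) := by
  intro m
  induction m with
  | zero =>
    intro A hA
    have h0 : A.card = 0 := by omega
    have h1 : RR H A = 0 := by
      unfold RR
      rw [h0]
      unfold run
      simp [h0]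
    rw [h1]
    positivity
  | succ m ih =>
    intro A hA
    by_cases h1 : (bl H A).Nonempty
    · have h2 : (0 : ℝ) < ((bl H A).card : ℝ) := by
        exact_mod_cast card_pos.mpr h1
      have h4 := run_avg hL (fun A => (A.card : ℝ)) h1
      have h6 : ((bl H A).card : ℝ) * RR H A =
          ∑ T ∈ bl H A, ((A.card : ℝ) - run H (fun A => (A.card : ℝ)) (A \ T).card (A \ T)) := by
        unfold RR
        rw [mul_sub, h4, sum_sub_distrib, sum_const, nsmul_eq_mul]
      have h7 : ∑ T ∈ bl H A,
          ((A.card : ℝ) - run H (fun A => (A.card : ℝ)) (A \ T).card (A \ T)) ≤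
          ∑ _T ∈ bl H A, 3 * ((bl H A).card : ℝ) := by
        refine sum_le_sum fun T hT => ?_
        have h8 := card_step hL hT
        have h9 := ih (A \ T) (by omega)
        have h12 : ((A \ T).card : ℝ) + 3 = (A.card : ℝ) := by exact_mod_cast h8
        have h13 : (bl H (A \ T)).card + 1 ≤ (bl H A).card := by
          have h14 : bl H (A \ T) ⊆ (bl H A).erase T := by
            intro S hS
            have hS' := mem_bl.mp hS
            rw [mem_erase, mem_bl]
            refine ⟨?_, hS'.1, hS'.2.trans sdiff_subset⟩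
            rintro rfl
            have h15 := hL.card3 S hS'.1
            have h16 : S = ∅ := by
              rw [eq_empty_iff_forall_notMem]
              intro x hx
              exact (mem_sdiff.mp (hS'.2 hx)).2 hx
            rw [h16, card_empty] at h15
            omega
          have h17 := card_le_card h14
          rw [card_erase_of_mem hT] at h17
          have h18 := card_pos.mpr h1
          omega
        have h19 : ((bl H (A \ T)).card : ℝ) + 1 ≤ ((bl H A).card : ℝ) := by
          exact_mod_cast h13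
        unfold RR at h9
        linarith
      rw [← h6, sum_const, nsmul_eq_mul] at h7
      exact le_of_mul_le_mul_left h7 h2
    · have h4 := run_card H hL (fun A => (A.card : ℝ)) A
      rw [if_neg h1] at h4
      unfold RR
      rw [h4]
      simp

theorem LL_RR {H : Finset (Finset α)} (hL : Lin3 H) (A : Finset α) :
    LL H (RR H) A = -(3 * ((bl H A).card : ℝ)) := by
  have h1 := LL_run hL (fun A => (A.card : ℝ)) A
  unfold LL at h1 ⊢
  have h2 : ∑ T ∈ bl H A, (RR H (A \ T) - RR H A) = ∑ T ∈ bl H A, (-(3 : ℝ) -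
      (run H (fun A => (A.card : ℝ)) (A \ T).card (A \ T)
        - run H (fun A => (A.card : ℝ)) A.card A)) := by
    refine sum_congr rfl fun T hT => ?_
    have h8 := card_step hL hT
    have h12 : ((A \ T).card : ℝ) + 3 = (A.card : ℝ) := by exact_mod_cast h8
    unfold RR
    linarith
  rw [h2, sum_sub_distrib, h1, sum_const, nsmul_eq_mul]
  ring

/-- exponential decay of the number of points which are still to be removed -/
theorem rho_decay {H : Finset (Finset α)} {sg : ℝ → (Finset α → ℝ) → Finset α → ℝ}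
    (hs : Smg H sg) (hL : Lin3 H) (A : Finset α) {s t : ℝ} (hs0 : 0 ≤ s) (hst : s ≤ t) :
    sg t (RR H) A ≤ Real.exp (-(t - s)) * sg s (RR H) A := by
  have h1 : ∀ r : ℝ, HasDerivAt (fun r => Real.exp r * sg r (RR H) A)
      (Real.exp r * sg r (RR H) A + Real.exp r * sg r (LL H (RR H)) A) r := by
    intro r
    exact (Real.hasDerivAt_exp r).mul (hs.der (RR H) A r)
  have h2 : AntitoneOn (fun r => Real.exp r * sg r (RR H) A) (Set.Icc s t) := by
    refine antitoneOn_of_deriv_nonpos (convex_Icc s t) ?_ ?_ ?_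
    · exact fun r _ => (h1 r).continuousAt.continuousWithinAt
    · exact fun r _ => (h1 r).differentiableAt.differentiableWithinAt
    · intro r hr
      rw [interior_Icc] at hr
      rw [(h1 r).deriv]
      have h3 : sg r (LL H (RR H)) A ≤ sg r (fun A => - RR H A) A := by
        refine hs.mono r (by linarith [hr.1]) _ _ A fun A' _ => ?_
        rw [LL_RR hL]
        have := RR_le hL _ A' le_rfl
        linarith
      rw [sg_neg hs] at h3
      have h4 := Real.exp_pos r
      nlinarith
  have h5 := h2 (Set.left_mem_Icc.mpr hst) (Set.right_mem_Icc.mpr hst) hst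
  simp only at h5
  have h6 := Real.exp_pos t
  have h7 : Real.exp (-(t - s)) = Real.exp s / Real.exp t := by
    rw [← Real.exp_sub]
    congr 1
    ring
  rw [h7, div_mul_eq_mul_div, le_div_iff₀ h6]
  linarith

/-- the final state against the state at time `t` -/
theorem run_sg {H : Finset (Finset α)} {sg : ℝ → (Finset α → ℝ) → Finset α → ℝ}
    (hs : Smg H sg) (hL : Lin3 H) {Φ : Finset α → ℝ}
    (hΦ : ∀ A : Finset α, ∀ T ∈ bl H A, |Φ (A \ T) - Φ A| ≤ 3) (A : Finset α) {t : ℝ}
    (ht : 0 ≤ t) : |run H Φ A.card A - sg t Φ A| ≤ sg t (RR H) A := by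
  rw [← sg_run hs hL Φ t A, ← sg_sub hs]
  exact sg_abs hs ht fun A' _ => run_abs hL hΦ _ A' le_rfl

theorem run_exp {H : Finset (Finset α)} {sg : ℝ → (Finset α → ℝ) → Finset α → ℝ}
    (hs : Smg H sg) (hL : Lin3 H) {Φ : Finset α → ℝ}
    (hΦ : ∀ A : Finset α, ∀ T ∈ bl H A, |Φ (A \ T) - Φ A| ≤ 3) (A : Finset α) {t : ℝ}
    (ht : 0 ≤ t) : |run H Φ A.card A - sg t Φ A| ≤ Real.exp (-t) * (A.card : ℝ) := by
  refine (run_sg hs hL hΦ A ht).trans ?_
  refine (rho_decay hs hL A le_rfl ht).trans ?_
  rw [hs.zero, sub_zero]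
  exact mul_le_mul_of_nonneg_left (RR_le_card hL A) (Real.exp_pos _).le

/-- Lipschitz for points gives Lipschitz for blocks -/
theorem lip3 {H : Finset (Finset α)} (hL : Lin3 H) {Φ : Finset α → ℝ}
    (hΦ : ∀ A, ∀ x ∈ A, |Φ (A \ {x}) - Φ A| ≤ 1) (A : Finset α) (T : Finset α)
    (hT : T ∈ bl H A) : |Φ (A \ T) - Φ A| ≤ 3 := by
  have h1 : ∀ (m : ℕ) (A B : Finset α), A ⊆ B → (B \ A).card = m → |Φ A - Φ B| ≤ (m : ℝ) := by
    intro m
    induction m with
    | zero =>
      intro A B hAB hm
      have h0 : B \ A = ∅ := card_eq_zero.mp hm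
      have h1 : B = A := Subset.antisymm (sdiff_eq_empty_iff_subset.mp h0) hAB
      rw [h1]
      simp
    | succ m ih =>
      intro A B hAB hm
      obtain ⟨x, hx⟩ : (B \ A).Nonempty := card_pos.mp (by omega)
      have hxB : x ∈ B := (mem_sdiff.mp hx).1
      have hxA : x ∉ A := (mem_sdiff.mp hx).2
      have h1 : A ⊆ B \ {x} := by
        intro y hy
        rw [mem_sdiff, mem_singleton]
        refine ⟨hAB hy, ?_⟩
        rintro rfl
        exact hxA hy
      have h2 : (B \ {x}) \ A = (B \ A).erase x := by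
        ext y
        simp only [mem_sdiff, mem_singleton, mem_erase]
        tauto
      have h3 : ((B \ {x}) \ A).card = m := by
        rw [h2, card_erase_of_mem hx]
        omega
      have h4 := ih A (B \ {x}) h1 h3
      have h5 := hΦ B x hxB
      have h9 : Φ A - Φ B = (Φ A - Φ (B \ {x})) + (Φ (B \ {x}) - Φ B) := by ring
      rw [h9]
      refine (abs_add_le _ _).trans ?_
      push_cast
      linarith
  have h2 := mem_bl.mp hT
  have h3 := h1 3 (A \ T) A sdiff_subset (by
    rw [Finset.sdiff_sdiff_eq_self h2.2]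
    exact hL.card3 T h2.1)
  exact_mod_cast h3

end

end Vale.Agent.P046.CT.DelAux
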