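import Vale.Agent.P046.CT.Defs

/-! Row EX: existence of the solution of the cover system. -/

namespace Vale.Agent.P046.CT

open Finset Vale.Agent.P046 Metric

noncomputable section

variable {α : Type} [DecidableEq α]

namespace EX

/-- clamp to `[0,1]` -/
def cl (y : ℝ) : ℝ := max 0 (min 1 y)

theorem cl_mem (y : ℝ) : 0 ≤ 1 - cl y ∧ 1 - cl y ≤ 1 := by
  unfold cl
  constructor
  · have : max 0 (min 1 y) ≤ 1 := max_le zero_le_one (min_le_left _ _)
    linarith
  · have : 0 ≤ max 0 (min 1 y) := le_max_left _ _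
    linarith

theorem cl_of_mem {y : ℝ} (h0 : 0 ≤ y) (h1 : y ≤ 1) : cl y = y := by
  unfold cl
  rw [min_eq_right h1, max_eq_right h0]

theorem cl_lip (x y : ℝ) : |(1 - cl x) - (1 - cl y)| ≤ |x - y| := by
  have h1 : |cl x - cl y| ≤ |x - y| := by
    unfold cl
    calc |max 0 (min 1 x) - max 0 (min 1 y)| = |max (min 1 x) 0 - max (min 1 y) 0| := by
          rw [max_comm, max_comm 0 (min 1 y)]
      _ ≤ |min 1 x - min 1 y| := abs_max_sub_max_le_abs _ _ _
      _ ≤ max |(1 : ℝ) - 1| |x - y| := abs_min_sub_min_le_max _ _ _ _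
      _ ≤ |x - y| := by simp
  have h2 : (1 - cl x) - (1 - cl y) = -(cl x - cl y) := by ring
  rw [h2, abs_neg]
  exact h1

theorem prod_mem {ι : Type*} (s : Finset ι) (g : ι → ℝ) (h : ∀ i ∈ s, 0 ≤ g i ∧ g i ≤ 1) :
    0 ≤ ∏ i ∈ s, g i ∧ ∏ i ∈ s, g i ≤ 1 :=
  ⟨Finset.prod_nonneg fun i hi => (h i hi).1,
    Finset.prod_le_one (fun i hi => (h i hi).1) fun i hi => (h i hi).2⟩

theorem prod_lip {ι : Type*} [DecidableEq ι] (s : Finset ι) (g g' : ι → ℝ) (c : ℝ) (hc : 0 ≤ c)
    (h : ∀ i ∈ s, 0 ≤ g i ∧ g i ≤ 1) (h' : ∀ i ∈ s, 0 ≤ g' i ∧ g' i ≤ 1)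
    (hl : ∀ i ∈ s, |g i - g' i| ≤ c) : |∏ i ∈ s, g i - ∏ i ∈ s, g' i| ≤ s.card * c := by
  induction s using Finset.induction_on with
  | empty => simp
  | insert i s hi ih =>
    rw [Finset.prod_insert hi, Finset.prod_insert hi, Finset.card_insert_of_notMem hi]
    have h1 := ih (fun j hj => h j (Finset.mem_insert_of_mem hj))
      (fun j hj => h' j (Finset.mem_insert_of_mem hj))
      (fun j hj => hl j (Finset.mem_insert_of_mem hj))
    have h2 := prod_mem s g (fun j hj => h j (Finset.mem_insert_of_mem hj))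
    have h3 := h' i (Finset.mem_insert_self _ _)
    have h4 := hl i (Finset.mem_insert_self _ _)
    have e : g i * ∏ j ∈ s, g j - g' i * ∏ j ∈ s, g' j =
        (g i - g' i) * ∏ j ∈ s, g j + g' i * (∏ j ∈ s, g j - ∏ j ∈ s, g' j) := by ring
    rw [e]
    calc |(g i - g' i) * ∏ j ∈ s, g j + g' i * (∏ j ∈ s, g j - ∏ j ∈ s, g' j)|
        ≤ |(g i - g' i) * ∏ j ∈ s, g j| + |g' i * (∏ j ∈ s, g j - ∏ j ∈ s, g' j)| :=
          abs_add_le _ _
      _ = |g i - g' i| * (∏ j ∈ s, g j) + g' i * |∏ j ∈ s, g j - ∏ j ∈ s, g' j| := by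
          rw [abs_mul, abs_mul, abs_of_nonneg h2.1, abs_of_nonneg h3.1]
      _ ≤ c * 1 + 1 * (s.card * c) := by
          apply add_le_add
          · exact mul_le_mul h4 h2.2 h2.1 hc
          · exact mul_le_mul h3.2 h1 (abs_nonneg _) zero_le_one
      _ = ((s.card + 1 : ℕ) : ℝ) * c := by push_cast; ring

variable [Fintype α]

/-- the clamped vector field -/
def fld (H : Finset (Finset α)) (x : α × Finset α → ℝ) : α × Finset α → ℝ := fun p =>
  if p.2 ∈ H ∧ p.1 ∈ p.2 then
    ∏ f ∈ p.2.erase p.1, ∏ S ∈ H.filter (fun S => f ∈ S ∧ S ≠ p.2), (1 - cl (x (f, S)))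
  else 0

theorem fld_mem (H : Finset (Finset α)) (x : α × Finset α → ℝ) (p : α × Finset α) :
    0 ≤ fld H x p ∧ fld H x p ≤ 1 := by
  unfold fld
  split_ifs
  · exact prod_mem _ _ fun f _ => prod_mem _ _ fun S _ => cl_mem _
  · exact ⟨le_rfl, zero_le_one⟩

theorem fld_lip (H : Finset (Finset α)) (x y : α × Finset α → ℝ) (p : α × Finset α) :
    |fld H x p - fld H y p| ≤ (Fintype.card α * H.card : ℕ) * dist x y := by
  unfold fld
  split_ifs
  · have h1 := prod_lip (p.2.erase p.1)
      (fun f => ∏ S ∈ H.filter (fun S => f ∈ S ∧ S ≠ p.2), (1 - cl (x (f, S))))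
      (fun f => ∏ S ∈ H.filter (fun S => f ∈ S ∧ S ≠ p.2), (1 - cl (y (f, S))))
      (H.card * dist x y) (by positivity)
      (fun f _ => prod_mem _ _ fun S _ => cl_mem _) (fun f _ => prod_mem _ _ fun S _ => cl_mem _)
      (fun f _ => by
        refine (prod_lip _ _ _ (dist x y) dist_nonneg (fun S _ => cl_mem _) (fun S _ => cl_mem _)
          (fun S _ => (cl_lip _ _).trans ?_)).trans ?_
        · have := dist_le_pi_dist x y (f, S)
          rwa [Real.dist_eq] at this
        · apply mul_le_mul_of_nonneg_right _ dist_nonneg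
          exact_mod_cast Finset.card_filter_le _ _)
    refine h1.trans ?_
    have h2 : ((p.2.erase p.1).card : ℝ) ≤ Fintype.card α := by
      exact_mod_cast Finset.card_le_univ _
    calc ((p.2.erase p.1).card : ℝ) * (H.card * dist x y)
        ≤ (Fintype.card α : ℝ) * (H.card * dist x y) :=
          mul_le_mul_of_nonneg_right h2 (by positivity)
      _ = ((Fintype.card α * H.card : ℕ) : ℝ) * dist x y := by push_cast; ring
  · simp only [sub_self, abs_zero]
    positivity

theorem exists_sol (H : Finset (Finset α)) : ∃ β : ℝ → α × Finset α → ℝ, β 0 = 0 ∧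
    ∀ t ∈ Set.Icc (-1 : ℝ) 2, HasDerivWithinAt β (fld H (β t)) (Set.Icc (-1) 2) t := by
  have h0 : (0 : ℝ) ∈ Set.Icc (-1 : ℝ) 2 := ⟨by norm_num, by norm_num⟩
  have hp : IsPicardLindelof (fun _ => fld H) (⟨0, h0⟩ : Set.Icc (-1 : ℝ) 2)
      (0 : α × Finset α → ℝ) 2 0 1 ((Fintype.card α * H.card : ℕ) : NNReal) := by
    apply IsPicardLindelof.of_time_independent
    · intro x _
      rw [pi_norm_le_iff_of_nonneg (by norm_num)]
      intro p
      have := fld_mem H x p
      rw [Real.norm_eq_abs, abs_of_nonneg this.1]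
      simpa using this.2
    · apply LipschitzWith.lipschitzOnWith
      apply LipschitzWith.of_dist_le_mul
      intro x y
      rw [dist_pi_le_iff (by positivity)]
      intro p
      rw [Real.dist_eq]
      simpa using fld_lip H x y p
    · norm_num
  exact hp.exists_eq_forall_mem_Icc_hasDerivWithinAt₀

end EX

/-- [EX] existence (clamp the factors to `[0,1]`, Picard-Lindelof on `[-1,2]`, ball of radius 2) -/
theorem cov_exists [Fintype α] (H : Finset (Finset α)) (h3 : ∀ T ∈ H, T.card = 3) :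
    ∃ a, Cov H a := by
  obtain ⟨β, h0, hd⟩ := EX.exists_sol H
  have hder : ∀ (p : α × Finset α), ∀ t ∈ Set.Icc (0 : ℝ) 1,
      HasDerivAt (fun u => β u p) (EX.fld H (β t) p) t := by
    intro p t ht
    have h1 : HasDerivAt β (EX.fld H (β t)) t :=
      (hd t ⟨by linarith [ht.1], by linarith [ht.2]⟩).hasDerivAt
        (Icc_mem_nhds (by linarith [ht.1]) (by linarith [ht.2]))
    exact (hasDerivAt_pi.1 h1) p
  have hcont : ∀ p : α × Finset α, ContinuousOn (fun u => β u p) (Set.Icc (0 : ℝ) 1) :=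
    fun p t ht => (hder p t ht).continuousAt.continuousWithinAt
  have hnn : ∀ p : α × Finset α, ∀ u ∈ Set.Icc (0 : ℝ) 1, 0 ≤ β u p := by
    intro p u hu
    have hm : MonotoneOn (fun u => β u p) (Set.Icc (0 : ℝ) 1) := by
      apply monotoneOn_of_deriv_nonneg (convex_Icc _ _) (hcont p)
      · intro x hx
        exact (hder p x (interior_subset hx)).differentiableAt.differentiableWithinAt
      · intro x hx
        rw [(hder p x (interior_subset hx)).deriv]
        exact (EX.fld_mem H _ p).1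
    have := hm ⟨le_rfl, zero_le_one⟩ hu hu.1
    simpa [h0] using this
  have hle : ∀ p : α × Finset α, ∀ u ∈ Set.Icc (0 : ℝ) 1, β u p ≤ u := by
    intro p u hu
    have hm : MonotoneOn (fun u => u - β u p) (Set.Icc (0 : ℝ) 1) := by
      apply monotoneOn_of_deriv_nonneg (convex_Icc _ _) (continuousOn_id.sub (hcont p))
      · intro x hx
        exact ((hasDerivAt_id x).sub
          (hder p x (interior_subset hx))).differentiableAt.differentiableWithinAt
      · intro x hx
        rw [((hasDerivAt_id x).sub (hder p x (interior_subset hx))).deriv]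
        have := (EX.fld_mem H (β x) p).2
        linarith
    have := hm ⟨le_rfl, zero_le_one⟩ hu hu.1
    simp only [h0, Pi.zero_apply, sub_zero] at this
    linarith
  refine ⟨fun e T u => β u (e, T), ?_, ?_, ?_, ?_⟩
  · intro T _ e _
    simp [h0]
  · intro T hT e he u hu
    have h1 := hder (e, T) u hu
    have h2 : EX.fld H (β u) (e, T) = ∏ f ∈ T.erase e, qm H (fun e T u => β u (e, T)) f T u := by
      unfold EX.fld qm
      rw [if_pos ⟨hT, he⟩]
      refine Finset.prod_congr rfl fun f _ => Finset.prod_congr rfl fun S _ => ?_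
      rw [EX.cl_of_mem (hnn _ u hu) ((hle _ u hu).trans hu.2)]
    rw [← h2]
    exact h1
  · intro T _ e _ u hu
    exact hnn _ u hu
  · intro T _ e _ u hu
    exact hle _ u hu

end

end Vale.Agent.P046.CT
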