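import Vale.Agent.P046.CT.Defs

/-! P046 CONST, row J1: facts about the reference densities. -/

namespace Vale.Agent.P046.CT

open Finset Vale.Agent.P046

noncomputable section

variable {α : Type} [DecidableEq α]

namespace J1

theorem one_le_L {K u : ℝ} (hK : 1 ≤ K) (hu : 0 ≤ u) : 1 ≤ 1 + 2 * K * u := by
  have : 0 ≤ 2 * K * u := by positivity
  linarith

theorem pp_pos {K u : ℝ} (hK : 1 ≤ K) (hu : 0 ≤ u) : 0 < pp K u :=
  Real.rpow_pos_of_pos (lt_of_lt_of_le one_pos (one_le_L hK hu)) _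

theorem pp_le_one {K u : ℝ} (hK : 1 ≤ K) (hu : 0 ≤ u) : pp K u ≤ 1 :=
  Real.rpow_le_one_of_one_le_of_nonpos (one_le_L hK hu) (by norm_num)

theorem log_bd {K u : ℝ} (hK : 1 ≤ K) (hu : u ∈ Set.Icc (0 : ℝ) 1) :
    0 ≤ Real.log (1 + 2 * K * u) ∧ Real.log (1 + 2 * K * u) ≤ Real.log (1 + 2 * K) := by
  have h1 := one_le_L hK hu.1
  refine ⟨Real.log_nonneg h1, Real.log_le_log (by linarith) ?_⟩
  have : 2 * K * u ≤ 2 * K * 1 := mul_le_mul_of_nonneg_left hu.2 (by linarith)
  linarith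

/-- the ratio of the two densities -/
theorem mm_eq {H : Finset (Finset α)} {G : Finset α} {K u : ℝ} (hK : 1 ≤ K) (hu : 0 ≤ u) {e : α}
    (he : e ∈ G) :
    mm H G K e u = pp K u * Real.exp (-(xx H K e * (Real.log (1 + 2 * K * u) / 2))) := by
  have hL : 0 < 1 + 2 * K * u := lt_of_lt_of_le one_pos (one_le_L hK hu)
  unfold mm pp
  rw [if_pos he, Real.rpow_def_of_pos hL, Real.rpow_def_of_pos hL, ← Real.exp_add]
  congr 1
  ring

end J1

theorem pp_sq {K u : ℝ} (hK : 1 ≤ K) (hu : 0 ≤ u) : pp K u ^ 2 = 1 / (1 + 2 * K * u) := by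
  have hL : 0 < 1 + 2 * K * u := lt_of_lt_of_le one_pos (J1.one_le_L hK hu)
  unfold pp
  rw [← Real.rpow_natCast, ← Real.rpow_mul hL.le]
  norm_num
  rw [Real.rpow_neg_one]

theorem mm_bd {H : Finset (Finset α)} {A G : Finset α} {a : α → Finset α → ℝ → ℝ} {K η : ℝ}
    (hh : Hyp H A G a K η) (e : α) {u : ℝ} (hu : u ∈ Set.Icc (0 : ℝ) 1) :
    0 < mm H G K e u ∧ mm H G K e u ≤ 1 ∧ (1 - η) * pp K u ≤ mm H G K e u ∧
      mm H G K e u ≤ (1 + η) * pp K u := by
  have hK := hh.K1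
  have hp := J1.pp_pos hK hu.1
  have hp1 := J1.pp_le_one hK hu.1
  have h0 := hh.eta0
  have h1 := hh.eta1
  by_cases he : e ∈ G
  · have hs := hh.small e he
    obtain ⟨hl0, hl1⟩ := J1.log_bd hK hu
    have hy : |-(xx H K e * (Real.log (1 + 2 * K * u) / 2))| ≤ η / 2 := by
      rw [abs_neg, abs_mul, abs_of_nonneg (by linarith : 0 ≤ Real.log (1 + 2 * K * u) / 2)]
      have h2 : |xx H K e| * Real.log (1 + 2 * K * u) ≤ |xx H K e| * (1 + Real.log (1 + 2 * K)) :=
        mul_le_mul_of_nonneg_left (by linarith) (abs_nonneg _)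
      nlinarith
    set y := -(xx H K e * (Real.log (1 + 2 * K * u) / 2)) with hydef
    have hexp := Real.abs_exp_sub_one_sub_id_le (x := y) (by linarith)
    have hy2 : y ^ 2 ≤ (η / 2) ^ 2 := by
      rw [← sq_abs y]
      exact pow_le_pow_left₀ (abs_nonneg _) hy 2
    obtain ⟨hya, hyb⟩ := abs_le.1 hy
    obtain ⟨hea, heb⟩ := abs_le.1 hexp
    have hm := J1.mm_eq (H := H) hK hu.1 he
    rw [← hydef] at hm
    have hm1 : mm H G K e u ≤ 1 := by
      unfold mm
      rw [if_pos he]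
      refine Real.rpow_le_one_of_one_le_of_nonpos (J1.one_le_L hK hu.1) ?_
      have : 0 ≤ dH H e / K := div_nonneg (Nat.cast_nonneg _) (by linarith)
      unfold xx
      linarith
    refine ⟨?_, hm1, ?_, ?_⟩
    · rw [hm]
      exact mul_pos hp (Real.exp_pos _)
    · rw [hm, mul_comm (1 - η)]
      exact mul_le_mul_of_nonneg_left (by nlinarith) hp.le
    · rw [hm, mul_comm (1 + η)]
      exact mul_le_mul_of_nonneg_left (by nlinarith) hp.le
  · have hm : mm H G K e u = pp K u := by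
      unfold mm
      rw [if_neg he]
    rw [hm]
    exact ⟨hp, hp1, by nlinarith, by nlinarith⟩

theorem mm_der {H : Finset (Finset α)} {A G : Finset α} {a : α → Finset α → ℝ → ℝ} {K η : ℝ}
    (hh : Hyp H A G a K η) {e : α} (he : e ∈ G) {u : ℝ} (hu : u ∈ Set.Icc (0 : ℝ) 1) :
    HasDerivAt (mm H G K e) (-(K * (1 + xx H K e) * pp K u ^ 2 * mm H G K e u)) u := by
  have hK := hh.K1
  have hL : 0 < 1 + 2 * K * u := lt_of_lt_of_le one_pos (J1.one_le_L hK hu.1)
  have hf : mm H G K e = fun v => (1 + 2 * K * v) ^ (-((1 + xx H K e) / 2) : ℝ) := by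
    funext v
    unfold mm
    rw [if_pos he]
  have h1 : HasDerivAt (fun v : ℝ => 1 + 2 * K * v) (2 * K) u := by
    have := ((hasDerivAt_id u).const_mul (2 * K)).const_add 1
    simpa using this
  have h2 := h1.rpow_const (p := -((1 + xx H K e) / 2)) (Or.inl hL.ne')
  rw [pp_sq hK hu.1, hf]
  refine h2.congr_deriv ?_
  rw [Real.rpow_sub_one hL.ne']
  field_simp

theorem sum_MT {H : Finset (Finset α)} {A G : Finset α} {a : α → Finset α → ℝ → ℝ} {K η : ℝ}
    (hh : Hyp H A G a K η) {e : α} (he : e ∈ G) {u : ℝ} (hu : u ∈ Set.Icc (0 : ℝ) 1) :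
    ∑ T ∈ H.filter (fun T => e ∈ T), MT H G K T u ≤
      (1 + 4 * η) * K * pp K u ^ 2 * mm H G K e u := by
  have hK := hh.K1
  have hp := J1.pp_pos hK hu.1
  have h0 := hh.eta0
  have h1 := hh.eta1
  have hme := (mm_bd hh e hu).1
  have hT : ∀ T ∈ H.filter (fun T => e ∈ T), MT H G K T u ≤
      mm H G K e u * ((1 + η) * pp K u) ^ 2 := by
    intro T hT
    obtain ⟨hTH, heT⟩ := mem_filter.1 hT
    unfold MT
    rw [← Finset.mul_prod_erase T _ heT]
    refine mul_le_mul_of_nonneg_left ?_ hme.le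
    have hc : (T.erase e).card = 2 := by
      rw [card_erase_of_mem heT, hh.lin.card3 T hTH]
    rw [← hc]
    refine (Finset.prod_le_prod (fun f _ => (mm_bd hh f hu).1.le)
      (fun f _ => (mm_bd hh f hu).2.2.2)).trans ?_
    rw [Finset.prod_const]
  refine (Finset.sum_le_card_nsmul _ _ _ hT).trans ?_
  rw [nsmul_eq_mul]
  have hd : ((H.filter (fun T => e ∈ T)).card : ℝ) = K * (1 + xx H K e) := by
    have : dH H e = K * (1 + xx H K e) := by
      unfold xx
      field_simp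
      ring
    exact this
  rw [hd]
  have hx : xx H K e ≤ η := by
    have hs := hh.small e he
    have hl : 0 ≤ Real.log (1 + 2 * K) := Real.log_nonneg (by linarith)
    have : |xx H K e| * 1 ≤ |xx H K e| * (1 + Real.log (1 + 2 * K)) :=
      mul_le_mul_of_nonneg_left (by linarith) (abs_nonneg _)
    have := le_abs_self (xx H K e)
    linarith
  have hP : 0 < K * pp K u ^ 2 * mm H G K e u := by positivity
  have hx2 : (1 + xx H K e) * (1 + η) ^ 2 ≤ 1 + 4 * η := by
    have : (1 + xx H K e) * (1 + η) ^ 2 ≤ (1 + η) * (1 + η) ^ 2 :=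
      mul_le_mul_of_nonneg_right (by linarith) (by positivity)
    nlinarith [mul_pos h0 h0, mul_pos (mul_pos h0 h0) h0]
  calc K * (1 + xx H K e) * (mm H G K e u * ((1 + η) * pp K u) ^ 2)
      = (K * pp K u ^ 2 * mm H G K e u) * ((1 + xx H K e) * (1 + η) ^ 2) := by ring
    _ ≤ (K * pp K u ^ 2 * mm H G K e u) * (1 + 4 * η) := mul_le_mul_of_nonneg_left hx2 hP.le
    _ = (1 + 4 * η) * K * pp K u ^ 2 * mm H G K e u := by ring

end

end Vale.Agent.P046.CT
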