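import Vale.Agent.P046.CT.Defs
import Vale.Agent.P046.Chain

/-! P046, sharp constant, row RUNT: the final state against the state at time `t`. -/

namespace Vale.Agent.P046.CT

open Finset Vale.Agent.P046

noncomputable section

variable {α : Type} [DecidableEq α]

namespace Runt

theorem lip {Φ : Finset α → ℝ} (hΦ : ∀ A, ∀ x ∈ A, |Φ (A \ {x}) - Φ A| ≤ 1) (A : Finset α)
    (S : Finset α) : S ⊆ A → |Φ (A \ S) - Φ A| ≤ (S.card : ℝ) := by
  induction S using Finset.induction_on with
  | empty =>
    intro _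
    rw [sdiff_empty, sub_self, abs_zero, card_empty, Nat.cast_zero]
  | insert x S hx ih =>
    intro hS
    have h1 := ih ((subset_insert _ _).trans hS)
    have h2 : x ∈ A \ S := mem_sdiff.mpr ⟨hS (mem_insert_self _ _), hx⟩
    have h3 := hΦ (A \ S) x h2
    have h4 : A \ insert x S = (A \ S) \ {x} := by
      ext y
      simp only [mem_sdiff, mem_insert, mem_singleton]
      tauto
    rw [h4, card_insert_of_notMem hx]
    push_cast
    have h5 : Φ ((A \ S) \ {x}) - Φ A = (Φ ((A \ S) \ {x}) - Φ (A \ S)) + (Φ (A \ S) - Φ A) := by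
      ring
    rw [h5]
    have h6 := abs_add_le (Φ ((A \ S) \ {x}) - Φ (A \ S)) (Φ (A \ S) - Φ A)
    linarith

/-- expected number of points that are still removed -/
def RR (H : Finset (Finset α)) (A : Finset α) : ℝ :=
  (A.card : ℝ) - run H (fun A => (A.card : ℝ)) A.card A

theorem card_sd {H : Finset (Finset α)} (hL : Lin3 H) {A T : Finset α} (hT : T ∈ bl H A) :
    (A \ T).card + 3 = A.card := by
  have hT' := mem_bl.mp hT
  have h3 := hL.card3 T hT'.1
  have h4 := card_sdiff_add_card_eq_card hT'.2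
  omega

theorem LL_run {H : Finset (Finset α)} (hL : Lin3 H) (Φ : Finset α → ℝ) :
    LL H (fun A => run H Φ A.card A) = 0 := by
  funext A
  have h1 := congrFun (lz_run H hL Φ) A
  unfold lz at h1
  unfold LL
  by_cases h2 : (bl H A).Nonempty
  · have h3 : (H.card : ℝ) ≠ 0 := by
      obtain ⟨T, hT⟩ := h2
      have h4 : 0 < H.card := card_pos.mpr ⟨T, (mem_bl.mp hT).1⟩
      exact_mod_cast h4.ne'
    have h5 : (∑ T ∈ bl H A, (run H Φ (A \ T).card (A \ T) - run H Φ A.card A)) / (H.card : ℝ)
        = 0 := by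
      linarith
    rw [div_eq_zero_iff] at h5
    rcases h5 with h5 | h5
    · exact h5
    · exact absurd h5 h3
  · rw [not_nonempty_iff_eq_empty] at h2
    rw [h2, sum_empty]
    rfl

theorem RR_rec {H : Finset (Finset α)} (hL : Lin3 H) {A : Finset α} (h : (bl H A).Nonempty) :
    RR H A * ((bl H A).card : ℝ) = ∑ T ∈ bl H A, (RR H (A \ T) + 3) := by
  have h2 : ((bl H A).card : ℝ) ≠ 0 := by exact_mod_cast (card_pos.mpr h).ne'
  have h3 := run_card H hL (fun A => (A.card : ℝ)) A
  rw [if_pos h, eq_div_iff h2] at h3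
  unfold RR
  rw [sub_mul, h3]
  have h4 : ∀ T ∈ bl H A, (((A \ T).card : ℝ) - run H (fun A => (A.card : ℝ)) (A \ T).card (A \ T)
      + 3) = (A.card : ℝ) - run H (fun A => (A.card : ℝ)) (A \ T).card (A \ T) := by
    intro T hT
    have h5 : (((A \ T).card : ℝ)) + 3 = (A.card : ℝ) := by exact_mod_cast card_sd hL hT
    linarith
  rw [sum_congr rfl h4, sum_sub_distrib, sum_const, nsmul_eq_mul]
  ring

theorem RR_zero {H : Finset (Finset α)} (hL : Lin3 H) {A : Finset α} (h : ¬ (bl H A).Nonempty) :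
    RR H A = 0 := by
  unfold RR
  rw [run_card H hL, if_neg h, sub_self]

theorem run_diff {H : Finset (Finset α)} (hL : Lin3 H) {Φ : Finset α → ℝ}
    (hΦ : ∀ A, ∀ x ∈ A, |Φ (A \ {x}) - Φ A| ≤ 1) : ∀ (m : ℕ) (A : Finset α), A.card ≤ m →
    |run H Φ A.card A - Φ A| ≤ RR H A := by
  intro m
  induction m with
  | zero =>
    intro A hA
    have h0 : A = ∅ := card_eq_zero.mp (by omega)
    have h1 : ¬ (bl H A).Nonempty := by
      rintro ⟨T, hT⟩
      have := card_sd hL hT
      rw [h0, card_empty] at this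
      omega
    rw [RR_zero hL h1, run_card H hL, if_neg h1, sub_self, abs_zero]
  | succ m ih =>
    intro A hA
    by_cases h : (bl H A).Nonempty
    · have h2 : (0 : ℝ) < ((bl H A).card : ℝ) := by exact_mod_cast card_pos.mpr h
      refine le_of_mul_le_mul_right ?_ h2
      have h0 : |run H Φ A.card A - Φ A| * ((bl H A).card : ℝ) =
          |(run H Φ A.card A - Φ A) * ((bl H A).card : ℝ)| := by
        rw [abs_mul, abs_of_pos h2]
      rw [RR_rec hL h, h0, sub_mul]
      have h3 := run_card H hL Φ A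
      rw [if_pos h, eq_div_iff h2.ne'] at h3
      rw [h3]
      have h4 : ∑ T ∈ bl H A, run H Φ (A \ T).card (A \ T) - Φ A * ((bl H A).card : ℝ) =
          ∑ T ∈ bl H A, (run H Φ (A \ T).card (A \ T) - Φ A) := by
        rw [sum_sub_distrib, sum_const, nsmul_eq_mul]
        ring
      rw [h4]
      refine (abs_sum_le_sum_abs _ _).trans (sum_le_sum fun T hT => ?_)
      have h5 := ih (A \ T) (by have := card_sd hL hT; omega)
      have h6 := lip hΦ A T (mem_bl.mp hT).2
      rw [hL.card3 T (mem_bl.mp hT).1] at h6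
      have h7 : run H Φ (A \ T).card (A \ T) - Φ A =
          (run H Φ (A \ T).card (A \ T) - Φ (A \ T)) + (Φ (A \ T) - Φ A) := by ring
      rw [h7]
      have h8 := abs_add_le (run H Φ (A \ T).card (A \ T) - Φ (A \ T)) (Φ (A \ T) - Φ A)
      push_cast at h6
      linarith
    · rw [RR_zero hL h, run_card H hL, if_neg h, sub_self, abs_zero]

theorem card_lip (A : Finset α) (x : α) (hx : x ∈ A) :
    |(((A \ {x}).card : ℕ) : ℝ) - (A.card : ℝ)| ≤ 1 := by
  have h1 := card_sdiff_add_card_eq_card (singleton_subset_iff.mpr hx)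
  rw [card_singleton] at h1
  have h2 : (((A \ {x}).card : ℕ) : ℝ) + 1 = (A.card : ℝ) := by exact_mod_cast h1
  rw [abs_le]
  constructor <;> linarith

theorem RR_nonneg {H : Finset (Finset α)} (hL : Lin3 H) (A : Finset α) : 0 ≤ RR H A :=
  (abs_nonneg _).trans (run_diff hL (Φ := fun A => (A.card : ℝ)) card_lip A.card A le_rfl)

theorem run_nonneg {H : Finset (Finset α)} {Φ : Finset α → ℝ} (hΦ : ∀ A, 0 ≤ Φ A) :
    ∀ (k : ℕ) (A : Finset α), 0 ≤ run H Φ k A := by
  intro k
  induction k with
  | zero => exact hΦ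
  | succ k ih =>
    intro A
    rw [run]
    split_ifs
    · exact div_nonneg (sum_nonneg fun T _ => ih _) (Nat.cast_nonneg _)
    · exact hΦ A

theorem RR_le_card (H : Finset (Finset α)) (A : Finset α) : RR H A ≤ (A.card : ℝ) := by
  have := run_nonneg (H := H) (Φ := fun A => (A.card : ℝ)) (fun A => Nat.cast_nonneg _) A.card A
  unfold RR
  linarith

theorem RR_le {H : Finset (Finset α)} (hL : Lin3 H) : ∀ (m : ℕ) (A : Finset α), A.card ≤ m →
    RR H A ≤ 3 * ((bl H A).card : ℝ) := by
  intro m
  induction m with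
  | zero =>
    intro A hA
    have h1 := RR_le_card H A
    have h2 : A.card = 0 := by omega
    rw [h2, Nat.cast_zero] at h1
    exact h1.trans (by positivity)
  | succ m ih =>
    intro A hA
    by_cases h : (bl H A).Nonempty
    · have h2 : (0 : ℝ) < ((bl H A).card : ℝ) := by exact_mod_cast card_pos.mpr h
      refine le_of_mul_le_mul_right ?_ h2
      rw [RR_rec hL h]
      have h3 : ∀ T ∈ bl H A, RR H (A \ T) + 3 ≤ 3 * ((bl H A).card : ℝ) := by
        intro T hT
        have h4 := ih (A \ T) (by have := card_sd hL hT; omega)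
        have h5 : bl H (A \ T) ⊆ (bl H A).erase T := by
          intro S hS
          rw [mem_bl] at hS
          rw [mem_erase, mem_bl]
          refine ⟨?_, hS.1, hS.2.trans sdiff_subset⟩
          rintro rfl
          have h6 := hL.card3 S hS.1
          have h7 : S = ∅ := by
            rw [← subset_empty]
            intro x hx
            exact absurd hx (mem_sdiff.mp (hS.2 hx)).2
          rw [h7, card_empty] at h6
          omega
        have h8 := card_le_card h5
        rw [card_erase_of_mem hT] at h8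
        have h9 : (((bl H (A \ T)).card : ℕ) : ℝ) + 1 ≤ ((bl H A).card : ℝ) := by
          have : 0 < (bl H A).card := card_pos.mpr h
          exact_mod_cast (by omega : (bl H (A \ T)).card + 1 ≤ (bl H A).card)
        linarith
      refine (sum_le_sum h3).trans (le_of_eq ?_)
      rw [sum_const, nsmul_eq_mul]
      ring
    · rw [RR_zero hL h]
      positivity

theorem LL_RR {H : Finset (Finset α)} (hL : Lin3 H) (A : Finset α) :
    LL H (RR H) A ≤ - RR H A := by
  have h1 : LL H (RR H) A = - (3 * ((bl H A).card : ℝ)) := by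
    have h2 := congrFun (LL_run hL (fun A => (A.card : ℝ))) A
    have h3 : LL H (fun A => run H (fun A => (A.card : ℝ)) A.card A) A = 0 := h2
    unfold LL at h3 ⊢
    have h4 : ∀ T ∈ bl H A, RR H (A \ T) - RR H A = -3 -
        (run H (fun A => (A.card : ℝ)) (A \ T).card (A \ T)
          - run H (fun A => (A.card : ℝ)) A.card A) := by
      intro T hT
      have h5 : (((A \ T).card : ℝ)) + 3 = (A.card : ℝ) := by exact_mod_cast card_sd hL hT
      unfold RR
      linarith
    rw [sum_congr rfl h4, sum_sub_distrib, h3, sum_const, nsmul_eq_mul]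
    ring
  rw [h1]
  have := RR_le hL A.card A le_rfl
  linarith

section Sg

variable {H : Finset (Finset α)} {sg : ℝ → (Finset α → ℝ) → Finset α → ℝ}

theorem sg_zero (hs : Smg H sg) (t : ℝ) : sg t 0 = 0 := by
  have h := hs.smul t 0 0
  rw [zero_smul, zero_smul] at h
  exact h

theorem sg_neg (hs : Smg H sg) (t : ℝ) (f : Finset α → ℝ) : sg t (-f) = - sg t f := by
  have h := hs.smul t (-1) f
  rw [neg_one_smul, neg_one_smul] at h
  exact h

theorem sg_sub (hs : Smg H sg) (t : ℝ) (f g : Finset α → ℝ) : sg t (f - g) = sg t f - sg t g := by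
  rw [sub_eq_add_neg, hs.add, sg_neg hs, ← sub_eq_add_neg]

/-- the final expectation is invariant -/
theorem sg_run (hs : Smg H sg) (hL : Lin3 H) (Φ : Finset α → ℝ) (t : ℝ) (A : Finset α) :
    sg t (fun A => run H Φ A.card A) A = run H Φ A.card A := by
  have hd : ∀ s, HasDerivAt (fun t => sg t (fun A => run H Φ A.card A) A) 0 s := by
    intro s
    have h := hs.der (fun A => run H Φ A.card A) A s
    rw [LL_run hL, sg_zero hs] at h
    exact h
  have h1 := is_const_of_deriv_eq_zero (fun s => (hd s).differentiableAt)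
    (fun s => (hd s).deriv) t 0
  have h2 : sg t (fun A => run H Φ A.card A) A = sg 0 (fun A => run H Φ A.card A) A := h1
  rw [h2, hs.zero]

/-- the number of points that are still removed decreases exponentially -/
theorem rho_le (hs : Smg H sg) (hL : Lin3 H) {s t : ℝ} (h0 : 0 ≤ s) (hst : s ≤ t)
    (A : Finset α) : sg t (RR H) A ≤ Real.exp (-(t - s)) * sg s (RR H) A := by
  have hd : ∀ v, HasDerivAt (fun v => Real.exp v * sg v (RR H) A)
      (Real.exp v * sg v (RR H) A + Real.exp v * sg v (LL H (RR H)) A) v := fun v =>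
    (Real.hasDerivAt_exp v).mul (hs.der (RR H) A v)
  have hanti : AntitoneOn (fun v => Real.exp v * sg v (RR H) A) (Set.Icc s t) := by
    refine antitoneOn_of_deriv_nonpos (convex_Icc s t)
      (fun v _ => (hd v).continuousAt.continuousWithinAt)
      (fun v _ => (hd v).differentiableAt.differentiableWithinAt) ?_
    intro v hv
    rw [interior_Icc] at hv
    rw [(hd v).deriv]
    have hv0 : 0 ≤ v := h0.trans hv.1.le
    have h1 : sg v (LL H (RR H)) A ≤ sg v (-(RR H)) A :=
      hs.mono v hv0 _ _ A fun A' _ => LL_RR hL A'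
    rw [sg_neg hs] at h1
    have h2 : sg v (LL H (RR H)) A ≤ - sg v (RR H) A := h1
    have h3 := Real.exp_pos v
    nlinarith
  have h1 := hanti (Set.left_mem_Icc.mpr hst) (Set.right_mem_Icc.mpr hst) hst
  simp only at h1
  have h2 : Real.exp (-(t - s)) = Real.exp s / Real.exp t := by
    rw [← Real.exp_sub]
    congr 1
    ring
  rw [h2, div_mul_eq_mul_div, le_div_iff₀ (Real.exp_pos t)]
  linarith

theorem run_sg (hs : Smg H sg) (hL : Lin3 H)
    {Φ : Finset α → ℝ} (hΦ : ∀ A, ∀ x ∈ A, |Φ (A \ {x}) - Φ A| ≤ 1) {t : ℝ} (ht : 0 ≤ t)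
    (A : Finset α) :
    |run H Φ A.card A - sg t Φ A| ≤ sg t (RR H) A := by
  have h1 : run H Φ A.card A - sg t Φ A = sg t ((fun A => run H Φ A.card A) - Φ) A := by
    rw [sg_sub hs]
    rw [Pi.sub_apply, sg_run hs hL]
  rw [h1, abs_le]
  constructor
  · have h2 : sg t (-(RR H)) A ≤ sg t ((fun A => run H Φ A.card A) - Φ) A :=
      hs.mono t ht _ _ A fun A' _ => by
        have := (abs_le.mp (run_diff hL hΦ A'.card A' le_rfl)).1
        exact this
    rw [sg_neg hs] at h2
    exact h2
  · exact hs.mono t ht _ _ A fun A' _ => (abs_le.mp (run_diff hL hΦ A'.card A' le_rfl)).2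

/-- crude form, for the deletion row -/
theorem run_sg_exp (hs : Smg H sg) (hL : Lin3 H)
    {Φ : Finset α → ℝ} (hΦ : ∀ A, ∀ x ∈ A, |Φ (A \ {x}) - Φ A| ≤ 1) {t : ℝ} (ht : 0 ≤ t)
    (A : Finset α) :
    |run H Φ A.card A - sg t Φ A| ≤ Real.exp (-t) * (A.card : ℝ) := by
  refine (run_sg hs hL hΦ ht A).trans ((rho_le hs hL le_rfl ht A).trans ?_)
  rw [hs.zero, sub_zero]
  exact mul_le_mul_of_nonneg_left (RR_le_card H A) (Real.exp_pos _).le

end Sg

end Runt

open Runt

/-- [RUNT] the final state against the state at time `t` -/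
theorem run_tail [Fintype α] {H : Finset (Finset α)}
    {sg : ℝ → (Finset α → ℝ) → Finset α → ℝ} (hs : Smg H sg) (hL : Lin3 H)
    {Φ : Finset α → ℝ} (hΦ : ∀ A, ∀ x ∈ A, |Φ (A \ {x}) - Φ A| ≤ 1) {t : ℝ} (ht : 0 < t)
    (A : Finset α) :
    |run H Φ A.card A - sg t Φ A| ≤
      (sg (t / 2) (fun A' => (A'.card : ℝ)) A) / (Real.exp (t / 2) - 1) := by
  refine (run_sg hs hL hΦ ht.le A).trans ?_
  have h1 := rho_le hs hL (show (0 : ℝ) ≤ t / 2 by linarith) (show t / 2 ≤ t by linarith) A
  refine h1.trans ?_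
  have h2 : sg (t / 2) (RR H) A ≤ sg (t / 2) (fun A' => (A'.card : ℝ)) A :=
    hs.mono _ (by linarith) _ _ A fun A' _ => RR_le_card H A'
  have h3 : 0 ≤ sg (t / 2) (RR H) A := by
    have := hs.mono (t / 2) (by linarith) 0 (RR H) A fun A' _ => RR_nonneg hL A'
    rw [sg_zero hs] at this
    exact this
  have h4 : (1 : ℝ) < Real.exp (t / 2) := Real.one_lt_exp_iff.mpr (by linarith)
  rw [le_div_iff₀ (by linarith)]
  have h5 : Real.exp (-(t - t / 2)) * Real.exp (t / 2) = 1 := by
    rw [← Real.exp_add]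
    have : -(t - t / 2) + t / 2 = 0 := by ring
    rw [this, Real.exp_zero]
  have h6 := Real.exp_pos (-(t - t / 2))
  calc Real.exp (-(t - t / 2)) * sg (t / 2) (RR H) A * (Real.exp (t / 2) - 1)
      = sg (t / 2) (RR H) A * (Real.exp (-(t - t / 2)) * Real.exp (t / 2))
        - Real.exp (-(t - t / 2)) * sg (t / 2) (RR H) A := by ring
    _ = sg (t / 2) (RR H) A - Real.exp (-(t - t / 2)) * sg (t / 2) (RR H) A := by
        rw [h5, mul_one]
    _ ≤ sg (t / 2) (RR H) A := by
        have := mul_nonneg h6.le h3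
        linarith
    _ ≤ _ := h2

end

end Vale.Agent.P046.CT
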