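import Vale.Agent.P046.CT.Defs

/-! P046, sharp constant, row SG: existence of the semigroup. -/

namespace Vale.Agent.P046.CT

open Finset Vale.Agent.P046

noncomputable section

variable {α : Type} [DecidableEq α]

namespace Sg

variable [Fintype α]

/-- the generator as a continuous linear map -/
def L0 (H : Finset (Finset α)) : (Finset α → ℝ) →L[ℝ] (Finset α → ℝ) :=
  LinearMap.toContinuousLinearMap
    { toFun := LL H
      map_add' := by
        intro f g
        funext A
        simp only [LL, Pi.add_apply]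
        rw [← Finset.sum_add_distrib]
        refine Finset.sum_congr rfl fun T _ => ?_
        ring
      map_smul' := by
        intro c f
        funext A
        simp only [LL, Pi.smul_apply, smul_eq_mul, RingHom.id_apply]
        rw [Finset.mul_sum]
        refine Finset.sum_congr rfl fun T _ => ?_
        ring }

theorem L0_apply (H : Finset (Finset α)) (f : Finset α → ℝ) : L0 H f = LL H f := rfl

/-- the semigroup -/
def sg (H : Finset (Finset α)) (t : ℝ) (f : Finset α → ℝ) : Finset α → ℝ :=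
  (NormedSpace.exp (t • L0 H)) f

/-- evaluation at a vector and at a coordinate -/
def ev (f : Finset α → ℝ) (A : Finset α) :
    ((Finset α → ℝ) →L[ℝ] (Finset α → ℝ)) →L[ℝ] ℝ :=
  (ContinuousLinearMap.proj A).comp (ContinuousLinearMap.apply ℝ (Finset α → ℝ) f)

theorem ev_apply (f : Finset α → ℝ) (A : Finset α)
    (X : (Finset α → ℝ) →L[ℝ] (Finset α → ℝ)) : ev f A X = X f A := rfl

/-- positivity of the exponential of a positive local operator -/
theorem exp_nonneg (M : (Finset α → ℝ) →L[ℝ] (Finset α → ℝ))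
    (hM : ∀ (f : Finset α → ℝ) (A : Finset α), (∀ A' ⊆ A, 0 ≤ f A') → 0 ≤ M f A)
    {t : ℝ} (ht : 0 ≤ t) (f : Finset α → ℝ) (A : Finset α) (hf : ∀ A' ⊆ A, 0 ≤ f A') :
    0 ≤ (NormedSpace.exp (t • M)) f A := by
  have hpow : ∀ n : ℕ, ∀ A' ⊆ A, 0 ≤ (M ^ n) f A' := by
    intro n
    induction n with
    | zero =>
      intro A' hA'
      simpa using hf A' hA'
    | succ n ih =>
      intro A' hA'
      rw [pow_succ']
      change 0 ≤ M ((M ^ n) f) A'
      exact hM _ _ fun A'' hA'' => ih A'' (hA''.trans hA')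
  have hsum := NormedSpace.exp_series_hasSum_exp' (𝕂 := ℝ) (t • M)
  have h2 := hsum.mapL (ev f A)
  refine h2.nonneg ?_
  intro n
  rw [ev_apply, smul_pow]
  change 0 ≤ ((n.factorial : ℝ)⁻¹) * (t ^ n * (M ^ n) f A)
  have := hpow n A (Finset.Subset.refl A)
  positivity

theorem exp_split (H : Finset (Finset α)) (t : ℝ) (f : Finset α → ℝ) (A : Finset α) :
    sg H t f A = Real.exp (-(t * H.card)) *
      (NormedSpace.exp (t • (L0 H + (H.card : ℝ) •
        (1 : (Finset α → ℝ) →L[ℝ] (Finset α → ℝ))))) f A := by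
  let _ : NormedAlgebra ℚ ((Finset α → ℝ) →L[ℝ] (Finset α → ℝ)) :=
    NormedAlgebra.restrictScalars ℚ ℝ _
  have h1 : t • L0 H = algebraMap ℝ ((Finset α → ℝ) →L[ℝ] (Finset α → ℝ)) (-(t * H.card)) +
      t • (L0 H + (H.card : ℝ) • (1 : (Finset α → ℝ) →L[ℝ] (Finset α → ℝ))) := by
    rw [Algebra.algebraMap_eq_smul_one, smul_add, smul_smul, neg_smul]
    abel
  have hcomm : Commute (algebraMap ℝ ((Finset α → ℝ) →L[ℝ] (Finset α → ℝ)) (-(t * H.card)))
      (t • (L0 H + (H.card : ℝ) • (1 : (Finset α → ℝ) →L[ℝ] (Finset α → ℝ)))) :=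
    Algebra.commutes _ _
  rw [sg, h1, NormedSpace.exp_add_of_commute hcomm, ← NormedSpace.algebraMap_exp_comm,
    ← Real.exp_eq_exp_ℝ, Algebra.algebraMap_eq_smul_one, smul_mul_assoc, one_mul]
  rfl

theorem pos_op (H : Finset (Finset α)) (f : Finset α → ℝ) (A : Finset α)
    (hf : ∀ A' ⊆ A, 0 ≤ f A') :
    0 ≤ (L0 H + (H.card : ℝ) • (1 : (Finset α → ℝ) →L[ℝ] (Finset α → ℝ))) f A := by
  change 0 ≤ LL H f A + (H.card : ℝ) * f A
  rw [LL, Finset.sum_sub_distrib, Finset.sum_const, nsmul_eq_mul]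
  have h1 : 0 ≤ ∑ T ∈ bl H A, f (A \ T) :=
    Finset.sum_nonneg fun T _ => hf _ Finset.sdiff_subset
  have h2 : ((bl H A).card : ℝ) ≤ H.card := by
    exact_mod_cast Finset.card_le_card (Finset.filter_subset _ _)
  have h3 := hf A (Finset.Subset.refl A)
  nlinarith [mul_le_mul_of_nonneg_right h2 h3]

theorem sg_nonneg (H : Finset (Finset α)) {t : ℝ} (ht : 0 ≤ t) (f : Finset α → ℝ) (A : Finset α)
    (hf : ∀ A' ⊆ A, 0 ≤ f A') : 0 ≤ sg H t f A := by
  rw [exp_split]
  exact mul_nonneg (Real.exp_pos _).le (exp_nonneg _ (pos_op H) ht f A hf)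

end Sg

/-- [SG] existence of the semigroup (matrix exponential) -/
theorem smg_exists [Fintype α] (H : Finset (Finset α)) : ∃ sg, Smg H sg := by
  refine ⟨Sg.sg H, ?_, ?_, ?_, ?_, ?_, ?_⟩
  · intro f
    simp [Sg.sg, NormedSpace.exp_zero]
  · intro t f g
    simp [Sg.sg, map_add]
  · intro t c f
    simp [Sg.sg, map_smul]
  · intro f A t
    have h := (hasDerivAt_exp_smul_const (𝕂 := ℝ) (Sg.L0 H) t)
    exact ((Sg.ev f A).hasFDerivAt.comp_hasDerivAt t h)
  · intro f A t
    have h := (hasDerivAt_exp_smul_const' (𝕂 := ℝ) (Sg.L0 H) t)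
    exact ((Sg.ev f A).hasFDerivAt.comp_hasDerivAt t h)
  · intro t ht f g A hfg
    have h := Sg.sg_nonneg H ht (g - f) A (fun A' hA' => sub_nonneg.2 (hfg A' hA'))
    have h2 : Sg.sg H t (g - f) A = Sg.sg H t g A - Sg.sg H t f A := by
      simp [Sg.sg, map_sub]
    linarith

end

end Vale.Agent.P046.CT
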