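import Vale.Agent.P046.CT.Defs
import Vale.Agent.P046.Chain

/-! P046, sharp constant, row TGB: no bad configuration and bounded degrees imply tree-likeness. -/

namespace Vale.Agent.P046.CT

open Finset Vale.Agent.P046

noncomputable section

variable {α : Type} [DecidableEq α]

namespace Tgb

theorem bu_insert (T : Finset α) (c : Finset (Finset α)) :
    (insert T c).biUnion id = T ∪ c.biUnion id := by
  rw [biUnion_insert, id]

theorem cn_card {H : Finset (Finset α)} {j : ℕ} {c : Finset (Finset α)} (h : Cn H j c) :
    c.card = j := by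
  induction h with
  | one T hT => exact card_singleton T
  | step j c hc T hT hn hd ih => rw [card_insert_of_notMem hn, ih]

theorem cn_sub {H : Finset (Finset α)} {j : ℕ} {c : Finset (Finset α)} (h : Cn H j c) :
    c ⊆ H := by
  induction h with
  | one T hT => exact singleton_subset_iff.mpr hT
  | step j c hc T hT hn hd ih => exact insert_subset hT ih

theorem inter_pos {T X : Finset α} (h : ¬ Disjoint T X) : 0 < (T ∩ X).card := by
  rw [card_pos, nonempty_iff_ne_empty]
  intro h'
  exact h (disjoint_iff_inter_eq_empty.mpr h')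

theorem cn_le {H : Finset (Finset α)} (h3 : ∀ T ∈ H, T.card = 3) {j : ℕ} {c : Finset (Finset α)}
    (h : Cn H j c) : (c.biUnion id).card ≤ 2 * j + 1 := by
  induction h with
  | one T hT => rw [singleton_biUnion, id, h3 T hT]
  | step j c hc T hT hn hd ih =>
    rw [bu_insert]
    have h1 := card_union_add_card_inter T (c.biUnion id)
    have h2 := inter_pos hd
    rw [h3 T hT] at h1
    omega

theorem card_meet {H : Finset (Finset α)} {D : ℕ}
    (hD : ∀ e, (H.filter (fun T => e ∈ T)).card ≤ D) (S : Finset α) :
    (H.filter (fun T => ¬ Disjoint T S ∧ ¬ T ⊆ S)).card ≤ D * S.card := by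
  have h1 : H.filter (fun T => ¬ Disjoint T S ∧ ¬ T ⊆ S) ⊆
      S.biUnion (fun x => H.filter (fun T => x ∈ T)) := by
    intro T hT
    rw [mem_filter] at hT
    obtain ⟨hT, hd, _⟩ := hT
    rw [not_disjoint_iff] at hd
    obtain ⟨x, hxT, hxS⟩ := hd
    exact mem_biUnion.mpr ⟨x, hxS, mem_filter.mpr ⟨hT, hxT⟩⟩
  refine (card_le_card h1).trans ?_
  refine (card_biUnion_le_card_mul S _ D fun x _ => hD x).trans (le_of_eq (mul_comm _ _))

theorem tg_cn {H : Finset (Finset α)} (hL : Lin3 H) {D R : ℕ}
    (hD : ∀ e, (H.filter (fun T => e ∈ T)).card ≤ D) (hb : ∀ c, ¬ BadC H (R + 2) c) (r : ℕ) :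
    ∀ (j : ℕ) (c : Finset (Finset α)), Cn H j c → j + r ≤ R → TG H D r (c.biUnion id) := by
  induction r with
  | zero => exact fun _ _ _ _ => trivial
  | succ r ih =>
    intro j c hc hj
    refine ⟨card_meet hD _, fun T hT hd hsub => ?_⟩
    have hTc : T ∉ c := fun h => hsub (subset_biUnion_of_mem id h)
    have hc' : Cn H (j + 1) (insert T c) := Cn.step j c hc T hT hTc hd
    have h1 : 2 * (j + 1) < ((insert T c).biUnion id).card := by
      by_contra h
      push Not at h
      exact hb _ ⟨j + 1, by omega, hc', h⟩
    have h2 := cn_le hL.card3 hc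
    have h3 := card_union_add_card_inter T (c.biUnion id)
    have h4 := inter_pos hd
    rw [hL.card3 T hT] at h3
    have h5 := cn_le hL.card3 hc'
    have h6 : c.biUnion id ∪ T = (insert T c).biUnion id := by
      rw [bu_insert, union_comm]
    rw [bu_insert] at h1 h5
    refine ⟨by omega, ?_, ?_⟩
    · ext T'
      rw [mem_insert, mem_bl, mem_bl]
      constructor
      · rintro ⟨hT', hsub'⟩
        by_cases h7 : T' ∈ insert T c
        · rw [mem_insert] at h7
          rcases h7 with h7 | h7
          · exact Or.inl h7
          · exact Or.inr ⟨hT', subset_biUnion_of_mem id h7⟩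
        · exfalso
          rw [h6] at hsub'
          have h8 : ¬ Disjoint T' ((insert T c).biUnion id) := by
            intro hd'
            have h9 : T' = ∅ := by
              rw [← subset_empty]
              intro x hx
              exact absurd (hsub' hx) (disjoint_left.mp hd' hx)
            have h10 := hL.card3 T' hT'
            rw [h9, card_empty] at h10
            omega
          have h11 : Cn H (j + 1 + 1) (insert T' (insert T c)) := Cn.step _ _ hc' T' hT' h7 h8
          refine hb _ ⟨j + 1 + 1, by omega, h11, ?_⟩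
          rw [bu_insert, union_eq_right.mpr hsub', bu_insert]
          omega
      · rintro (rfl | ⟨hT', hsub'⟩)
        · exact ⟨hT, subset_union_right⟩
        · exact ⟨hT', hsub'.trans subset_union_left⟩
    · rw [h6]
      exact ih (j + 1) _ hc' (by omega)

end Tgb

open Tgb

/-- [TGB] no bad configuration and bounded degrees imply tree-likeness -/
theorem tg_of {H : Finset (Finset α)} (hL : Lin3 H) {D R : ℕ}
    (hD : ∀ e, (H.filter (fun T => e ∈ T)).card ≤ D) (hb : ∀ c, ¬ BadC H (R + 2) c) (e : α) :
    TG H D R {e} := by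
  cases R with
  | zero => exact trivial
  | succ r =>
    refine ⟨card_meet hD _, fun T hT hd hsub => ?_⟩
    have heT : e ∈ T := by
      by_contra h
      exact hd (disjoint_singleton_right.mpr h)
    have h1 : ({e} : Finset α) ∪ T = T := union_eq_right.mpr (singleton_subset_iff.mpr heT)
    refine ⟨?_, ?_, ?_⟩
    · rw [inter_singleton_of_mem heT, card_singleton]
    · rw [h1]
      ext T'
      rw [mem_insert, mem_bl, mem_bl]
      constructor
      · rintro ⟨hT', hsub'⟩
        exact Or.inl (eq_of_subset_of_card_le hsub' (by rw [hL.card3 T hT, hL.card3 T' hT']))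
      · rintro (rfl | ⟨hT', hsub'⟩)
        · exact ⟨hT, Subset.rfl⟩
        · exact ⟨hT', hsub'.trans (singleton_subset_iff.mpr heT)⟩
    · rw [h1]
      have h2 := tg_cn hL hD hb r 1 {T} (Cn.one T hT) (by omega)
      rwa [singleton_biUnion, id] at h2

end

end Vale.Agent.P046.CT
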