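import Vale.Agent.P046.CT.Gd
import Vale.Agent.P046.CT.Ps
import Vale.Agent.P046.CT.Cmp

/-!
P046, sharp constant: row TR, tree comparison.
-/

namespace Vale.Agent.P046.CT

open Finset Vale.Agent.P046

noncomputable section

variable {α : Type} [DecidableEq α]

namespace Tr

/-- normalised joint survival at the time `-log (1-u)` -/
def ph (H : Finset (Finset α)) (sg : ℝ → (Finset α → ℝ) → Finset α → ℝ) (A S : Finset α)
    (u : ℝ) : ℝ :=
  Real.exp (((bl H S).card : ℝ) * (-Real.log (1 - u))) * sg (-Real.log (1 - u)) (chi S) A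

/-- the blocks which meet `S` and are not inside -/
def ChS (H : Finset (Finset α)) (S : Finset α) : Finset (Finset α) :=
  H.filter (fun T => ¬ Disjoint T S ∧ ¬ T ⊆ S)

theorem split_meet {H : Finset (Finset α)} (h3 : ∀ T ∈ H, T.card = 3) (S : Finset α)
    (f : Finset α → ℝ) :
    ∑ T ∈ H.filter (fun T => ¬ Disjoint T S), f (S ∪ T) =
      (bl H S).card * f S + ∑ T ∈ ChS H S, f (S ∪ T) := by
  have hne : ∀ T ∈ H, T.Nonempty := fun T hT => by
    rw [← card_pos, h3 T hT]
    norm_num
  have hsplit : H.filter (fun T => ¬ Disjoint T S) = bl H S ∪ ChS H S := by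
    ext T
    unfold bl ChS
    simp only [mem_filter, mem_union]
    constructor
    · rintro ⟨a, b⟩
      by_cases hT : T ⊆ S
      · exact Or.inl ⟨a, hT⟩
      · exact Or.inr ⟨a, b, hT⟩
    · rintro (⟨a, b⟩ | ⟨a, b, _⟩)
      · refine ⟨a, ?_⟩
        obtain ⟨y, hy⟩ := hne T a
        rw [disjoint_left]
        intro hd
        exact hd hy (b hy)
      · exact ⟨a, b⟩
  have hdis : Disjoint (bl H S) (ChS H S) := by
    rw [disjoint_left]
    intro T hT hT'
    unfold bl at hT
    unfold ChS at hT'
    exact (mem_filter.1 hT').2.2 (mem_filter.1 hT).2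
  rw [hsplit, sum_union hdis]
  congr 1
  rw [← nsmul_eq_mul, ← sum_const]
  refine sum_congr rfl fun T hT => ?_
  unfold bl at hT
  rw [union_eq_left.2 (mem_filter.1 hT).2]

theorem ph_der {H : Finset (Finset α)} {sg : ℝ → (Finset α → ℝ) → Finset α → ℝ}
    (h3 : ∀ T ∈ H, T.card = 3) (hs : Smg H sg) (A S : Finset α)
    (hbl : ∀ T ∈ ChS H S, bl H (S ∪ T) = insert T (bl H S)) {u : ℝ} (hu : u < 1) :
    HasDerivAt (ph H sg A S) (-∑ T ∈ ChS H S, ph H sg A (S ∪ T) u) u := by
  have h1u : 0 < 1 - u := by linarith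
  -- the time
  have ht : HasDerivAt (fun u : ℝ => -Real.log (1 - u)) (1 / (1 - u)) u := by
    have h1 : HasDerivAt (fun u : ℝ => 1 - u) (-1) u := by
      simpa using (hasDerivAt_id u).const_sub 1
    have h2 := (h1.log h1u.ne').neg
    have h3 : -(-1 / (1 - u)) = 1 / (1 - u) := by ring
    rw [h3] at h2
    exact h2
  set t := -Real.log (1 - u) with htdef
  have het : Real.exp t = 1 / (1 - u) := by
    rw [htdef, Real.exp_neg, Real.exp_log h1u, one_div]
  set N : ℝ := ((bl H S).card : ℝ) with hN
  have hexp : HasDerivAt (fun t : ℝ => Real.exp (N * t)) (Real.exp (N * t) * N) t := by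
    have h1 : HasDerivAt (fun t : ℝ => N * t) N t := by
      simpa using (hasDerivAt_id t).const_mul N
    exact h1.exp
  have hps := ps_der hs A S t
  have hprod := hexp.mul hps
  have hcomp := HasDerivAt.comp u (h₂ := fun t : ℝ => Real.exp (N * t) * sg t (chi S) A)
    (h := fun u : ℝ => -Real.log (1 - u)) hprod ht
  have hsum : ∑ T ∈ ChS H S, ph H sg A (S ∪ T) u =
      Real.exp ((N + 1) * t) * ∑ T ∈ ChS H S, sg t (chi (S ∪ T)) A := by
    rw [mul_sum]
    refine sum_congr rfl fun T hT => ?_
    unfold ph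
    have hc : (bl H (S ∪ T)).card = (bl H S).card + 1 := by
      rw [hbl T hT, card_insert_of_notMem]
      intro hmem
      unfold bl at hmem
      unfold ChS at hT
      exact (mem_filter.1 hT).2.2 (mem_filter.1 hmem).2
    rw [hc]
    push_cast
    rfl
  have hm := split_meet h3 S (fun X => sg t (chi X) A)
  rw [hm] at hcomp
  have hval : (Real.exp (N * t) * N * sg t (chi S) A +
      Real.exp (N * t) * -((bl H S).card * sg t (chi S) A +
        ∑ T ∈ ChS H S, sg t (chi (S ∪ T)) A)) * (1 / (1 - u)) =
      -∑ T ∈ ChS H S, ph H sg A (S ∪ T) u := by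
    have hE : Real.exp ((N + 1) * t) = Real.exp (N * t) * Real.exp t := by
      rw [← Real.exp_add]
      congr 1
      ring
    rw [hsum, ← het, hE, ← hN]
    ring
  rw [hval] at hcomp
  exact hcomp

end Tr

/-- [TR] tree comparison -/
theorem tree_cmp (D : ℕ) {η : ℝ} (he : 0 < η) : ∃ R : ℕ, ∀ (α : Type) [DecidableEq α]
    (H : Finset (Finset α)) (A : Finset α) (a : α → Finset α → ℝ → ℝ)
    (sg : ℝ → (Finset α → ℝ) → Finset α → ℝ), Lin3 H → (∀ T ∈ H, T ⊆ A) → Cov H a → Smg H sg →
    ∀ e ∈ A, TG H D R {e} → ∀ t : ℝ, 0 ≤ t →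
    |sg t (chi {e}) A - nn H a e (1 - Real.exp (-t))| ≤ η := by
  obtain ⟨R, key⟩ := cmp D 1 he
  refine ⟨R, ?_⟩
  intro α _ H A a sg hL hA hc hs e heA htg t ht
  classical
  have h3 : ∀ T ∈ H, T.card = 3 := hL.card3
  have hempty : ∅ ∉ H := fun h => by
    have := h3 ∅ h
    simp at this
  have k := key (Finset α) (Finset α) (fun S => Tr.ChS H S) (fun S T => S ∪ T) (fun S => S.card)
    (fun r S => TG H D r S ∧ S ⊆ A)
    (fun S u => if S ⊆ A then Tr.ph H sg A S u - GG H a S u else 0) ?_ ?_ ?_ {e}
    ⟨htg, singleton_subset_iff.2 heA⟩ (by simp) (1 - Real.exp (-t)) ?_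
  · -- conclusion
    simp only [singleton_subset_iff.2 heA, if_true] at k
    have hb : bl H ({e} : Finset α) = ∅ := by
      unfold bl
      rw [filter_eq_empty_iff]
      intro T hT hsub
      have h5 := card_le_card hsub
      rw [h3 T hT, card_singleton] at h5
      omega
    have hlog : -Real.log (1 - (1 - Real.exp (-t))) = t := by
      rw [sub_sub_cancel, Real.log_exp, neg_neg]
    have h1 : Tr.ph H sg A {e} (1 - Real.exp (-t)) = sg t (chi {e}) A := by
      unfold Tr.ph
      rw [hlog, hb, card_empty, Nat.cast_zero, zero_mul, Real.exp_zero, one_mul]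
    have h2 : GG H a {e} (1 - Real.exp (-t)) = nn H a e (1 - Real.exp (-t)) := by
      unfold GG nn
      rw [prod_singleton]
      refine prod_congr ?_ fun _ _ => rfl
      refine filter_congr fun T hT => ?_
      constructor
      · exact fun h => h.1
      · intro h
        refine ⟨h, fun hsub => ?_⟩
        have h5 := card_le_card hsub
        rw [h3 T hT, card_singleton] at h5
        omega
    rw [h1, h2] at k
    exact k
  · -- the recursion
    rintro r S ⟨hgood, hSA⟩
    refine ⟨hgood.1, ?_, ?_⟩
    · intro T hT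
      unfold Tr.ChS at hT
      obtain ⟨hTH, hTd, hTS⟩ := mem_filter.1 hT
      obtain ⟨b1, b2, b3⟩ := hgood.2 T hTH hTd hTS
      refine ⟨⟨b3, union_subset hSA (hA T hTH)⟩, ?_⟩
      have hcu := card_union_add_card_inter S T
      rw [inter_comm, b1, h3 T hTH] at hcu
      have : (S ∪ T).card = S.card + 2 := by omega
      exact this
    · intro u hu
      have hbl : ∀ T ∈ Tr.ChS H S, bl H (S ∪ T) = insert T (bl H S) := by
        intro T hT
        unfold Tr.ChS at hT
        obtain ⟨hTH, hTd, hTS⟩ := mem_filter.1 hT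
        exact (hgood.2 T hTH hTd hTS).2.1
      have d1 := Tr.ph_der h3 hs A S hbl hu.2
      have d2 := GG_der hc hL hgood (Set.Ico_subset_Icc_self hu)
      have d3 := d1.sub d2
      have hfun : (fun u => if S ⊆ A then Tr.ph H sg A S u - GG H a S u else 0) =
          Tr.ph H sg A S - GG H a S := by
        funext v
        rw [if_pos hSA]
        rfl
      rw [hfun]
      have hval : -∑ T ∈ Tr.ChS H S, Tr.ph H sg A (S ∪ T) u -
          -∑ T ∈ H.filter (fun T => ¬ Disjoint T S ∧ ¬ T ⊆ S), GG H a (S ∪ T) u =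
          -∑ T ∈ Tr.ChS H S, (if S ∪ T ⊆ A then Tr.ph H sg A (S ∪ T) u - GG H a (S ∪ T) u
            else 0) := by
        have e1 : ∑ T ∈ Tr.ChS H S, (if S ∪ T ⊆ A then Tr.ph H sg A (S ∪ T) u -
            GG H a (S ∪ T) u else 0) =
            ∑ T ∈ Tr.ChS H S, (Tr.ph H sg A (S ∪ T) u - GG H a (S ∪ T) u) := by
          refine sum_congr rfl fun T hT => ?_
          unfold Tr.ChS at hT
          rw [if_pos (union_subset hSA (hA T (mem_filter.1 hT).1))]
        rw [e1, sum_sub_distrib]
        unfold Tr.ChS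
        ring
      rw [hval] at d3
      exact d3
  · -- the bound
    intro S u hu
    by_cases hSA : S ⊆ A
    · simp only [if_pos hSA]
      have hg := GG_mem hc S (Set.Ico_subset_Icc_self hu)
      have h1u : 0 < 1 - u := by linarith [hu.2]
      have ht0 : 0 ≤ -Real.log (1 - u) := by
        have : Real.log (1 - u) ≤ 0 := Real.log_nonpos h1u.le (by linarith [hu.1])
        linarith
      have hb := ps_bd hs hempty A S ht0
      have hp0 : 0 ≤ Tr.ph H sg A S u := by
        unfold Tr.ph
        exact mul_nonneg (Real.exp_pos _).le hb.1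
      have hp1 : Tr.ph H sg A S u ≤ 1 := by
        unfold Tr.ph
        calc Real.exp (((bl H S).card : ℝ) * (-Real.log (1 - u))) *
              sg (-Real.log (1 - u)) (chi S) A ≤
            Real.exp (((bl H S).card : ℝ) * (-Real.log (1 - u))) *
              Real.exp (-((bl H S).card : ℝ) * (-Real.log (1 - u))) :=
              mul_le_mul_of_nonneg_left hb.2 (Real.exp_pos _).le
          _ = 1 := by
              rw [← Real.exp_add]
              have : ((bl H S).card : ℝ) * (-Real.log (1 - u)) +
                  -((bl H S).card : ℝ) * (-Real.log (1 - u)) = 0 := by ring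
              rw [this, Real.exp_zero]
      rw [abs_le]
      constructor
      · linarith [hg.2]
      · linarith [hg.1]
    · simp only [if_neg hSA, abs_zero]
      exact zero_le_one
  · -- the start
    intro S
    by_cases hSA : S ⊆ A
    · simp only [if_pos hSA]
      have h1 : Tr.ph H sg A S 0 = 1 := by
        unfold Tr.ph
        rw [sub_zero, Real.log_one, neg_zero, mul_zero, Real.exp_zero, one_mul, hs.zero]
        unfold chi
        rw [if_pos hSA]
      have h2 : GG H a S 0 = 1 := by
        rw [Gd.GG_eq]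
        refine prod_eq_one fun p hp => ?_
        obtain ⟨a1, a2, a3, a4⟩ := Gd.mem_PR.1 hp
        rw [hc.zero p.2 a2 p.1 a3, sub_zero]
      rw [h1, h2, sub_self]
    · simp only [if_neg hSA]
  · -- the time
    constructor
    · have := Real.exp_le_one_iff.2 (by linarith : -t ≤ 0)
      linarith
    · have := Real.exp_pos (-t)
      linarith

end

end Vale.Agent.P046.CT
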