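import Vale.Agent.P046.CT.Sens

/-! P046, sharp constant, row [VAR]: variance of the number of alive points. -/

namespace Vale.Agent.P046.CT

open Finset Vale.Agent.P046

noncomputable section

variable {α : Type} [DecidableEq α]

/-- [VAR] variance of the number of alive points -/
theorem var_bd [Fintype α] {H : Finset (Finset α)}
    {sg : ℝ → (Finset α → ℝ) → Finset α → ℝ} (hs : Smg H sg) (hL : Lin3 H) (A : Finset α)
    {D t : ℝ} (hD : ∀ e, dH H e ≤ D) (ht : 0 ≤ t) (y : ℝ) :
    sg t (fun A' => |(A'.card : ℝ) - y|) A ≤ |sg t (fun A' => (A'.card : ℝ)) A - y|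
      + Real.sqrt (3 * (1 + 2 * D * t) * (A.card : ℝ)) :=
  var_of hs hL (fun hΦ _ hr B _ hx => sens hs hL hΦ hr B hx) A hD ht y

end

end Vale.Agent.P046.CT
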