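import Vale.Agent.P046.CT.Defs

/-! P046, sharp constant, row [VAR]: variance of the number of alive points. -/

namespace Vale.Agent.P046.CT

open Finset Vale.Agent.P046

noncomputable section

variable {α : Type} [DecidableEq α]

namespace Vb

variable {H : Finset (Finset α)} {sg : ℝ → (Finset α → ℝ) → Finset α → ℝ}

theorem sg_zero (hs : Smg H sg) (t : ℝ) (A : Finset α) : sg t (fun _ => (0 : ℝ)) A = 0 := by
  have h := hs.smul t 0 (fun _ => (0 : ℝ))
  have h2 : ((0 : ℝ) • (fun _ : Finset α => (0 : ℝ))) = fun _ => 0 := by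
    funext A; simp
  rw [h2] at h
  have h3 := congrFun h A
  simpa using h3

theorem sg_cst (hs : Smg H sg) (c t : ℝ) (A : Finset α) : sg t (fun _ => c) A = c := by
  have hd : ∀ s, HasDerivAt (fun s => sg s (fun _ => c) A) 0 s := by
    intro s
    have h := hs.der (fun _ => c) A s
    have h2 : LL H (fun _ => c) = fun _ => (0 : ℝ) := by
      funext B; simp [LL]
    rw [h2, sg_zero hs] at h
    exact h
  have h1 := is_const_of_deriv_eq_zero (f := fun s => sg s (fun _ => c) A)
    (fun s => (hd s).differentiableAt) (fun s => (hd s).deriv) t 0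
  have h2 := congrFun (hs.zero (fun _ => c)) A
  rw [h1, h2]

theorem sg_add (hs : Smg H sg) (t : ℝ) (f g : Finset α → ℝ) (A : Finset α) :
    sg t (fun B => f B + g B) A = sg t f A + sg t g A := by
  have h := congrFun (hs.add t f g) A
  exact h

theorem sg_mul (hs : Smg H sg) (t c : ℝ) (f : Finset α → ℝ) (A : Finset α) :
    sg t (fun B => c * f B) A = c * sg t f A := by
  have h := congrFun (hs.smul t c f) A
  exact h

theorem sg_sum (hs : Smg H sg) {ι : Type} (S : Finset ι) (t : ℝ) (f : ι → Finset α → ℝ)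
    (A : Finset α) : sg t (fun B => ∑ i ∈ S, f i B) A = ∑ i ∈ S, sg t (f i) A := by
  classical
  induction S using Finset.induction_on with
  | empty => simp only [sum_empty]; exact sg_zero hs t A
  | insert i S hi ih =>
    simp only [sum_insert hi]
    rw [sg_add hs t (f i) (fun B => ∑ j ∈ S, f j B), ih]

/-- expansion over the indicators of single sets -/
theorem sg_exp [Fintype α] (hs : Smg H sg) (t : ℝ) (f : Finset α → ℝ) (A : Finset α) :
    sg t f A = ∑ B : Finset α, f B * sg t (fun C => if C = B then 1 else 0) A := by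
  have h : f = fun C => ∑ B ∈ (univ : Finset (Finset α)), f B * (if C = B then 1 else 0) := by
    funext C
    simp
  conv_lhs => rw [h]
  rw [sg_sum hs univ t (fun B C => f B * (if C = B then 1 else 0))]
  exact sum_congr rfl fun B _ => sg_mul hs t (f B) _ A

/-- product rule -/
theorem sg_fam [Fintype α] (hs : Smg H sg) {f : ℝ → Finset α → ℝ} {f' : Finset α → ℝ} {s : ℝ}
    (h : ∀ B, HasDerivAt (fun s => f s B) (f' B) s) (A : Finset α) :
    HasDerivAt (fun s => sg s (f s) A) (sg s (LL H (f s)) A + sg s f' A) s := by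
  have e1 : (fun s => sg s (f s) A) =
      fun s => ∑ B : Finset α, f s B * sg s (fun C => if C = B then 1 else 0) A := by
    funext s
    exact sg_exp hs s (f s) A
  have h2 : HasDerivAt (fun r => ∑ B : Finset α, f s B * sg r (fun C => if C = B then 1 else 0) A)
      (∑ B : Finset α, f s B * sg s (LL H (fun C => if C = B then 1 else 0)) A) s :=
    HasDerivAt.fun_sum fun B _ => (hs.der _ A s).const_mul _
  have h3 : HasDerivAt (fun r => sg r (f s) A) (sg s (LL H (f s)) A) s := hs.der _ A s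
  have e2 : (fun r => sg r (f s) A) =
      fun r => ∑ B : Finset α, f s B * sg r (fun C => if C = B then 1 else 0) A := by
    funext r
    exact sg_exp hs r (f s) A
  rw [e2] at h3
  have h4 := h3.unique h2
  rw [h4, sg_exp hs s f' A, e1, ← sum_add_distrib]
  refine (HasDerivAt.fun_sum (u := univ) fun B _ =>
    (h B).mul (hs.der (fun C => if C = B then 1 else 0) A s)).congr_deriv ?_
  exact sum_congr rfl fun B _ => by ring

theorem LL_card (hL : Lin3 H) (A : Finset α) :
    LL H (fun B => (B.card : ℝ)) A = -3 * ((bl H A).card : ℝ) := by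
  unfold LL
  rw [sum_congr rfl (g := fun _ => (-3 : ℝ))]
  · rw [sum_const, nsmul_eq_mul]; ring
  · intro T hT
    have h := mem_filter.mp hT
    have h1 := card_sdiff_add_card_eq_card h.2
    have h2 := hL.card3 T h.1
    have h3 : ((A \ T).card : ℝ) + 3 = (A.card : ℝ) := by
      rw [h2] at h1
      exact_mod_cast h1
    linarith

/-- removal of a block changes a functional with the sensitivity bound by at most `3 c` -/
theorem block_le (hL : Lin3 H) {g : Finset α → ℝ} {c : ℝ}
    (hg : ∀ A, ∀ x ∈ A, |g (A \ {x}) - g A| ≤ c) {A T : Finset α} (hT : T ∈ bl H A) :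
    |g (A \ T) - g A| ≤ 3 * c := by
  have h := mem_filter.mp hT
  obtain ⟨x, y, z, hxy, hxz, hyz, rfl⟩ := card_eq_three.mp (hL.card3 T h.1)
  have hx : x ∈ A := h.2 (by simp)
  have hy : y ∈ A \ {x} := by
    simp only [mem_sdiff, mem_singleton]
    exact ⟨h.2 (by simp), fun e => hxy e.symm⟩
  have hz : z ∈ (A \ {x}) \ {y} := by
    simp only [mem_sdiff, mem_singleton]
    exact ⟨⟨h.2 (by simp), fun e => hxz e.symm⟩, fun e => hyz e.symm⟩
  have e : A \ {x, y, z} = ((A \ {x}) \ {y}) \ {z} := by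
    ext w
    simp only [mem_sdiff, mem_insert, mem_singleton]
    tauto
  rw [e]
  have h1 := abs_le.mp (hg A x hx)
  have h2 := abs_le.mp (hg _ y hy)
  have h3 := abs_le.mp (hg _ z hz)
  rw [abs_le]
  constructor <;> linarith [h1.1, h1.2, h2.1, h2.2, h3.1, h3.2]

theorem dg_le_dH (H : Finset (Finset α)) (A : Finset α) (x : α) : (dg H A x : ℝ) ≤ dH H x := by
  unfold dg dH
  have : (filter (fun T => x ∈ T) (bl H A)).card ≤ (filter (fun T => x ∈ T) H).card := by
    refine card_le_card fun T hT => ?_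
    rw [mem_filter] at hT ⊢
    exact ⟨(mem_filter.mp hT.1).1, hT.2⟩
  exact_mod_cast this

/-- the second moment -/
theorem second [Fintype α] (hs : Smg H sg) (hL : Lin3 H)
    (hsens : ∀ {Φ : Finset α → ℝ}, (∀ A, ∀ x ∈ A, |Φ (A \ {x}) - Φ A| ≤ 1) → ∀ {t : ℝ}, 0 ≤ t →
      ∀ (A : Finset α) {x : α}, x ∈ A →
      |sg t Φ (A \ {x}) - sg t Φ A| ≤ Real.sqrt (1 + 2 * (dg H A x : ℝ) * t))
    (A : Finset α) {D t : ℝ} (hD : ∀ e, dH H e ≤ D) (ht : 0 ≤ t) :
    sg t (fun B => (B.card : ℝ) ^ 2) A + 3 * (1 + 2 * D * t) * sg t (fun B => (B.card : ℝ)) A ≤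
      (sg t (fun B => (B.card : ℝ)) A) ^ 2 + 3 * (1 + 2 * D * t) * (A.card : ℝ) := by
  set Φ : Finset α → ℝ := fun B => (B.card : ℝ) with hΦ
  have hlip : ∀ A, ∀ x ∈ A, |Φ (A \ {x}) - Φ A| ≤ 1 := by
    intro A x hx
    have h1 := card_sdiff_add_card_eq_card (singleton_subset_iff.mpr hx)
    rw [card_singleton] at h1
    have h3 : Φ (A \ {x}) + 1 = Φ A := by
      simp only [hΦ]
      exact_mod_cast h1
    rw [← h3]
    simp
  -- the sensitivity at time r in [0, t]
  have hΓ : ∀ r, 0 ≤ r → r ≤ t → ∀ B : Finset α,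
      ∑ T ∈ bl H B, (sg r Φ (B \ T) - sg r Φ B) ^ 2 ≤
        9 * (1 + 2 * D * t) * ((bl H B).card : ℝ) := by
    intro r hr0 hrt B
    rw [mul_comm, ← nsmul_eq_mul]
    refine sum_le_card_nsmul _ _ _ fun T hT => ?_
    have hTH := (mem_filter.mp hT).1
    have hne : T.Nonempty := by
      rw [← card_pos, hL.card3 T hTH]; norm_num
    obtain ⟨x0, hx0⟩ := hne
    have hD0 : 0 ≤ D := le_trans (by unfold dH; positivity) (hD x0)
    have hc0 : 0 ≤ 1 + 2 * D * t := by positivity
    have h1 : |sg r Φ (B \ T) - sg r Φ B| ≤ 3 * Real.sqrt (1 + 2 * D * t) := by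
      refine block_le hL (fun C x hx => ?_) hT
      refine (hsens hlip hr0 C hx).trans (Real.sqrt_le_sqrt ?_)
      have h2 := (dg_le_dH H C x).trans (hD x)
      have h3 : (0 : ℝ) ≤ (dg H C x : ℝ) := by positivity
      have h4 : (dg H C x : ℝ) * r ≤ D * t := mul_le_mul h2 hrt hr0 hD0
      linarith
    have h5 := sq_abs (sg r Φ (B \ T) - sg r Φ B)
    rw [← h5]
    calc |sg r Φ (B \ T) - sg r Φ B| ^ 2 ≤ (3 * Real.sqrt (1 + 2 * D * t)) ^ 2 :=
          pow_le_pow_left₀ (abs_nonneg _) h1 2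
      _ = 9 * (1 + 2 * D * t) := by rw [mul_pow, Real.sq_sqrt hc0]; norm_num
  -- the monotone function
  set F : ℝ → ℝ := fun s => sg s (fun B => (sg (t - s) Φ B) ^ 2) A
    + 3 * (1 + 2 * D * t) * sg s Φ A with hF
  have hder : ∀ s, HasDerivAt F
      (sg s (fun B => ∑ T ∈ bl H B, (sg (t - s) Φ (B \ T) - sg (t - s) Φ B) ^ 2) A
        + 3 * (1 + 2 * D * t) * sg s (LL H Φ) A) s := by
    intro s
    have h1 : ∀ B, HasDerivAt (fun s => (sg (t - s) Φ B) ^ 2)
        (-(2 * sg (t - s) Φ B * LL H (sg (t - s) Φ) B)) s := by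
      intro B
      have h2 := (hs.back Φ B (t - s)).scomp s ((hasDerivAt_id s).const_sub t)
      have h3 := h2.pow 2
      refine h3.congr_deriv ?_
      simp
    have h2 := sg_fam hs h1 A
    have h3 := h2.add ((hs.der Φ A s).const_mul (3 * (1 + 2 * D * t)))
    refine h3.congr_deriv ?_
    congr 1
    rw [← sg_add hs]
    congr 1
    funext B
    unfold LL
    rw [mul_sum, ← sum_neg_distrib, ← sum_add_distrib]
    exact sum_congr rfl fun T _ => by ring
  have hanti : AntitoneOn F (Set.Icc 0 t) := by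
    refine antitoneOn_of_deriv_nonpos (convex_Icc 0 t)
      (fun s _ => (hder s).continuousAt.continuousWithinAt)
      (fun s _ => (hder s).differentiableAt.differentiableWithinAt) fun s hs' => ?_
    rw [interior_Icc] at hs'
    rw [(hder s).deriv]
    have h1 : sg s (fun B => ∑ T ∈ bl H B, (sg (t - s) Φ (B \ T) - sg (t - s) Φ B) ^ 2) A ≤
        sg s (fun B => 9 * (1 + 2 * D * t) * ((bl H B).card : ℝ)) A :=
      hs.mono s hs'.1.le _ _ A fun B _ => hΓ (t - s) (by linarith [hs'.2]) (by linarith [hs'.1]) B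
    have h2 : LL H Φ = fun B => -3 * ((bl H B).card : ℝ) := by
      funext B
      exact LL_card hL B
    rw [h2]
    rw [sg_mul hs] at h1 ⊢
    linarith
  have h1 := hanti (Set.left_mem_Icc.mpr ht) (Set.right_mem_Icc.mpr ht) ht
  simp only [hF] at h1
  have e1 : (fun B => (sg (t - t) Φ B) ^ 2) = fun B : Finset α => (B.card : ℝ) ^ 2 := by
    funext B
    rw [sub_self, hs.zero]
  rw [e1, hs.zero, hs.zero, sub_zero] at h1
  simpa only [hΦ] using h1

end Vb

/-- [VAR] from the sensitivity bound -/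
theorem var_of [Fintype α] {H : Finset (Finset α)}
    {sg : ℝ → (Finset α → ℝ) → Finset α → ℝ} (hs : Smg H sg) (hL : Lin3 H)
    (hsens : ∀ {Φ : Finset α → ℝ}, (∀ A, ∀ x ∈ A, |Φ (A \ {x}) - Φ A| ≤ 1) → ∀ {t : ℝ}, 0 ≤ t →
      ∀ (A : Finset α) {x : α}, x ∈ A →
      |sg t Φ (A \ {x}) - sg t Φ A| ≤ Real.sqrt (1 + 2 * (dg H A x : ℝ) * t))
    (A : Finset α)
    {D t : ℝ} (hD : ∀ e, dH H e ≤ D) (ht : 0 ≤ t) (y : ℝ) :
    sg t (fun A' => |(A'.card : ℝ) - y|) A ≤ |sg t (fun A' => (A'.card : ℝ)) A - y|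
      + Real.sqrt (3 * (1 + 2 * D * t) * (A.card : ℝ)) := by
  set W : ℝ := 3 * (1 + 2 * D * t) * (A.card : ℝ) with hW
  set g : ℝ := sg t (fun A' => (A'.card : ℝ)) A with hg
  have hW0 : 0 ≤ W := by
    rcases A.eq_empty_or_nonempty with h | ⟨x, hx⟩
    · rw [hW, h]; simp
    · have hD0 : 0 ≤ D := le_trans (by unfold dH; positivity) (hD x)
      positivity
  have hg0 : 0 ≤ 3 * (1 + 2 * D * t) * g := by
    rcases A.eq_empty_or_nonempty with h | ⟨x, hx⟩
    · have h0 : g ≤ 0 := by
        have := hs.mono t ht (fun A' => (A'.card : ℝ)) (fun _ => 0) A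
          (by
            intro A' hA'
            rw [h, subset_empty] at hA'
            rw [hA']
            simp)
        rwa [Vb.sg_cst hs] at this
      have h1 : 0 ≤ g := by
        have := hs.mono t ht (fun _ => 0) (fun A' => (A'.card : ℝ)) A (fun A' _ => by positivity)
        rwa [Vb.sg_cst hs] at this
      rw [le_antisymm h0 h1]; simp
    · have hD0 : 0 ≤ D := le_trans (by unfold dH; positivity) (hD x)
      have h1 : 0 ≤ g := by
        have := hs.mono t ht (fun _ => 0) (fun A' => (A'.card : ℝ)) A (fun A' _ => by positivity)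
        rwa [Vb.sg_cst hs] at this
      positivity
  have h2 := Vb.second hs hL hsens A hD ht
  -- second moment around g
  have h3 : sg t (fun B => ((B.card : ℝ) - g) ^ 2) A ≤ W := by
    have e : (fun B : Finset α => ((B.card : ℝ) - g) ^ 2) =
        fun B => (B.card : ℝ) ^ 2 + ((-2 * g) * (B.card : ℝ) + g ^ 2) := by
      funext B; ring
    rw [e, Vb.sg_add hs t (fun B => (B.card : ℝ) ^ 2) (fun B => (-2 * g) * (B.card : ℝ) + g ^ 2),
      Vb.sg_add hs t (fun B => (-2 * g) * (B.card : ℝ)) (fun _ => g ^ 2), Vb.sg_mul hs,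
      Vb.sg_cst hs, ← hg]
    rw [← hg] at h2
    nlinarith [h2, hg0]
  have h4 : ∀ v : ℝ, 0 < v → sg t (fun A' => |(A'.card : ℝ) - y|) A ≤
      |g - y| + (W / v + v) / 2 := by
    intro v hv
    have h5 : sg t (fun A' => |(A'.card : ℝ) - y|) A ≤
        sg t (fun A' => (1 / (2 * v)) * ((A'.card : ℝ) - g) ^ 2 + (|g - y| + v / 2)) A := by
      refine hs.mono t ht _ _ A fun A' _ => ?_
      have h6 : |(A'.card : ℝ) - y| ≤ |(A'.card : ℝ) - g| + |g - y| := abs_sub_le _ _ _
      have h7 : |(A'.card : ℝ) - g| ≤ (1 / (2 * v)) * ((A'.card : ℝ) - g) ^ 2 + v / 2 := by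
        have h8 := sq_abs ((A'.card : ℝ) - g)
        rw [← h8]
        set z := |(A'.card : ℝ) - g|
        have h9 : (1 / (2 * v)) * z ^ 2 + v / 2 - z = (z - v) ^ 2 / (2 * v) := by
          field_simp
          ring
        have h10 : 0 ≤ (z - v) ^ 2 / (2 * v) := by positivity
        linarith
      linarith
    refine h5.trans ?_
    rw [Vb.sg_add hs t (fun A' => (1 / (2 * v)) * ((A'.card : ℝ) - g) ^ 2)
      (fun _ => |g - y| + v / 2), Vb.sg_mul hs, Vb.sg_cst hs]
    have h6 : (1 / (2 * v)) * sg t (fun B => ((B.card : ℝ) - g) ^ 2) A ≤ (1 / (2 * v)) * W :=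
      mul_le_mul_of_nonneg_left h3 (by positivity)
    have h7 : (1 / (2 * v)) * W = W / v / 2 := by field_simp
    linarith
  rcases hW0.eq_or_lt with h0 | h0
  · rw [← h0, Real.sqrt_zero, add_zero]
    refine le_of_forall_pos_le_add fun ε hε => ?_
    have := h4 ε hε
    rw [← h0, zero_div, zero_add] at this
    linarith
  · have hq := Real.sqrt_pos.mpr h0
    have := h4 _ hq
    have e : W / Real.sqrt W = Real.sqrt W := Real.div_sqrt
    rw [e] at this
    linarith

end

end Vale.Agent.P046.CT
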