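import Vale.Agent.P046.CT.J7
import Vale.Agent.P046.CT.Var
import Vale.Agent.P046.CT.Runt
import Vale.Agent.P046.CT.Tr
import Vale.Agent.P046.CT.Tgb
import Vale.Agent.P046.CT.Ex
import Vale.Agent.P046.CT.Sg
import Vale.Agent.P046.CT.J1
import Vale.Agent.P046.CT.VarOf

/-!
P046, sharp constant: row DET, the deterministic final theorem.
-/

namespace Vale.Agent.P046.CT

open Finset Vale.Agent.P046

noncomputable section

variable {α : Type} [DecidableEq α]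

namespace Det

/-- the ideal density against its limit -/
theorem pp_near {K u δ : ℝ} (hK : 1 ≤ K) (hu1 : u ≤ 1) (hd0 : 0 < δ) (hd : δ ≤ 1 / 2)
    (hu : 1 - δ ≤ u) (hKd : 1 ≤ 2 * K * δ) :
    |pp K u - 1 / Real.sqrt (2 * K)| ≤ δ / Real.sqrt K ∧ pp K u ≤ 1 / Real.sqrt K ∧
      0 < pp K u := by
  have hu0 : 0 ≤ u := by linarith
  have hK0 : 0 < K := by linarith
  have hp : 0 < pp K u := J1.pp_pos (by linarith) hu0
  have hsq : pp K u ^ 2 = 1 / (1 + 2 * K * u) := pp_sq hK hu0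
  have hb : 0 < 1 + 2 * K * u := by positivity
  set p := pp K u with hpdef
  set q := 1 / Real.sqrt (2 * K) with hq
  have hq0 : 0 < q := by positivity
  have hq2 : q ^ 2 = 1 / (2 * K) := by
    rw [hq, div_pow, one_pow, Real.sq_sqrt (by positivity)]
  set r := 1 / Real.sqrt K with hr
  have hr0 : 0 < r := by positivity
  have hr2 : r ^ 2 = 1 / K := by
    rw [hr, div_pow, one_pow, Real.sq_sqrt hK0.le]
  have hpr : p ≤ r := by
    have : p ^ 2 ≤ r ^ 2 := by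
      rw [hsq, hr2, div_le_div_iff₀ hb hK0]
      nlinarith
    exact le_of_sq_le_sq this hr0.le
  refine ⟨?_, hpr, hp⟩
  -- difference of squares
  have hdiff : |p ^ 2 - q ^ 2| ≤ δ / K := by
    rw [hsq, hq2]
    have e1 : 1 / (1 + 2 * K * u) - 1 / (2 * K) = (2 * K - 1 - 2 * K * u) / (2 * K * (1 + 2 * K * u)) := by
      field_simp
      ring
    rw [e1, abs_div, abs_of_pos (by positivity : 0 < 2 * K * (1 + 2 * K * u)),
      div_le_div_iff₀ (by positivity) hK0]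
    have e2 : |2 * K - 1 - 2 * K * u| ≤ 2 * K * δ := by
      rw [abs_le]
      constructor
      · nlinarith
      · nlinarith
    have e3 : K ≤ 1 + 2 * K * u := by nlinarith
    calc |2 * K - 1 - 2 * K * u| * K ≤ 2 * K * δ * K := mul_le_mul_of_nonneg_right e2 hK0.le
      _ ≤ δ * (2 * K * (1 + 2 * K * u)) := by nlinarith [mul_pos hd0 hK0]
  have hq1 : r ≤ 2 * q := by
    have : r ^ 2 ≤ (2 * q) ^ 2 := by
      rw [hr2, mul_pow, hq2]
      rw [div_le_iff₀ hK0]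
      have : (2 : ℝ) ^ 2 * (1 / (2 * K)) * K = 2 := by
        field_simp
      rw [this]
      norm_num
    exact le_of_sq_le_sq this (by positivity)
  have hp1 : 2 * p ≥ r := by
    have : r ^ 2 ≤ (2 * p) ^ 2 := by
      rw [hr2, mul_pow, hsq]
      rw [div_le_iff₀ hK0]
      have e4 : (2 : ℝ) ^ 2 * (1 / (1 + 2 * K * u)) * K = 4 * K / (1 + 2 * K * u) := by
        ring
      rw [e4, le_div_iff₀ hb]
      nlinarith
    exact le_of_sq_le_sq this (by positivity)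
  have hsum : r ≤ p + q := by linarith
  have e5 : |p - q| * (p + q) = |p ^ 2 - q ^ 2| := by
    have h1 : |p - q| * (p + q) = |p - q| * |p + q| := by
      rw [abs_of_pos (by positivity : 0 < p + q)]
    rw [h1, ← abs_mul]
    congr 1
    ring
  have e6 : |p - q| * r ≤ δ / K := by
    calc |p - q| * r ≤ |p - q| * (p + q) := mul_le_mul_of_nonneg_left hsum (abs_nonneg _)
      _ ≤ _ := by rw [e5]; exact hdiff
  have e7 : δ / K = δ * r * r := by
    have : δ / K = δ * (1 / K) := by ring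
    rw [this, ← hr2]
    ring
  rw [e7] at e6
  have e8 : |p - q| ≤ δ * r := le_of_mul_le_mul_right e6 hr0
  calc |p - q| ≤ δ * r := e8
    _ = δ / Real.sqrt K := by rw [hr]; ring

theorem Src_nonneg (H : Finset (Finset α)) (A G : Finset α) {K : ℝ} (hK : 0 < K) :
    0 ≤ Src H A G K := by
  unfold Src
  have h1 : 0 ≤ ∑ e ∈ G, bG H G K e ^ 2 := sum_nonneg fun e _ => sq_nonneg _
  have h2 : 0 ≤ ∑ e ∈ G, xx H K e ^ 4 := sum_nonneg fun e _ => by positivity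
  have h3 : 0 ≤ ∑ e ∈ A \ G, (1 + dH H e / K) := sum_nonneg fun e _ => by
    unfold dH
    positivity
  have h4 : 0 ≤ (A.card : ℝ) / K ^ 2 := by positivity
  linarith

theorem card_near {H : Finset (Finset α)} {sg : ℝ → (Finset α → ℝ) → Finset α → ℝ}
    (hs : Smg H sg) (A : Finset α) (a : α → Finset α → ℝ → ℝ) {t u η : ℝ} (ht : 0 ≤ t)
    (htree : ∀ e ∈ A, |sg t (chi {e}) A - nn H a e u| ≤ η) :
    |sg t (fun A' => (A'.card : ℝ)) A - ∑ e ∈ A, nn H a e u| ≤ η * A.card := by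
  have h1 : sg t (fun A' => (A'.card : ℝ)) A = ∑ e ∈ A, sg t (chi {e}) A := by
    rw [← Vb.sg_sum hs A t (fun e => chi {e}) A]
    refine sg_congr hs ht fun A' hA' => ?_
    have h2 : ∀ e, chi {e} A' = if e ∈ A' then (1 : ℝ) else 0 := fun e => by
      unfold chi
      simp only [singleton_subset_iff]
    simp only [h2]
    rw [← sum_filter, filter_mem_eq_inter, inter_eq_right.2 hA']
    simp
  rw [h1, ← sum_sub_distrib]
  calc |∑ e ∈ A, (sg t (chi {e}) A - nn H a e u)| ≤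
        ∑ e ∈ A, |sg t (chi {e}) A - nn H a e u| := abs_sum_le_sum_abs _ _
    _ ≤ ∑ _e ∈ A, η := sum_le_sum htree
    _ = _ := by rw [sum_const, nsmul_eq_mul, mul_comm]

theorem main_term {N sK ε η δ CW e' p S X c : ℝ} (hN : 0 ≤ N) (hη : 0 ≤ η)
    (hs : 0 < sK) (he : e' = ε / 16 / sK) (n1 : |X - S| ≤ e' * N)
    (j1 : |S - N * p| ≤ 4 * η * p * N + CW) (p2 : p ≤ 1 / sK) (p1 : |N * p - c| ≤ N * (δ / sK)) :
    |X - c| ≤ N / sK * (ε / 16 + 4 * η + δ) + CW := by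
  have c2 : 4 * η * p * N ≤ 4 * η * (1 / sK) * N :=
    mul_le_mul_of_nonneg_right (mul_le_mul_of_nonneg_left p2 (by positivity)) hN
  have a1 := abs_sub_le X S c
  have a2 := abs_sub_le S (N * p) c
  have c4 : N / sK * (ε / 16 + 4 * η + δ) = e' * N + 4 * η * (1 / sK) * N + N * (δ / sK) := by
    rw [he]; ring
  linarith

theorem tail_term {N sK ε η CW e' q S X M : ℝ} (hN : 0 ≤ N) (hη : 0 ≤ η) (hη1 : 4 * η ≤ 1)
    (hε : 0 < ε) (hs : 0 < sK) (he : e' = ε / 16 / sK) (hCW : 0 ≤ CW) (hM : 2 ≤ M)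
    (hMe : 1 ≤ ε / 64 * (M - 1)) (n2 : |X - S| ≤ e' * N)
    (j2 : |S - N * q| ≤ 4 * η * q * N + CW) (q2 : q ≤ 1 / sK) :
    X / (M - 1) ≤ N / sK * (ε / 16 + ε / 32) + CW := by
  have hNs : 0 ≤ N / sK := by positivity
  have c2 : 4 * η * q * N ≤ 4 * η * (1 / sK) * N :=
    mul_le_mul_of_nonneg_right (mul_le_mul_of_nonneg_left q2 (by positivity)) hN
  have c3 : N * q ≤ N * (1 / sK) := mul_le_mul_of_nonneg_left q2 hN
  have c4 : N / sK * (ε / 16 + 1 + 4 * η) = e' * N + 4 * η * (1 / sK) * N + N * (1 / sK) := by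
    rw [he]; ring
  have a1 := (abs_le.1 n2).2
  have a2 := (abs_le.1 j2).2
  have m2 : X ≤ N / sK * (ε / 16 + 1 + 4 * η) + CW := by linarith
  have hM1 : 0 < M - 1 := by linarith
  rw [div_le_iff₀ hM1]
  refine m2.trans ?_
  have b1 : CW ≤ CW * (M - 1) := by nlinarith
  have b2 : N / sK * (ε / 16 + 1 + 4 * η) ≤ N / sK * ((ε / 16 + ε / 32) * (M - 1)) := by
    apply mul_le_mul_of_nonneg_left _ hNs
    have b3 : ε / 16 ≤ ε / 16 * (M - 1) := by nlinarith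
    nlinarith
  have b4 : (N / sK * (ε / 16 + ε / 32) + CW) * (M - 1) =
      N / sK * ((ε / 16 + ε / 32) * (M - 1)) + CW * (M - 1) := by ring
  linarith

theorem var_term {K t N : ℝ} (hK : 1 ≤ K) (ht : 0 ≤ t) (hN : 0 ≤ N) :
    Real.sqrt (3 * (1 + 2 * (2 * K) * t) * N) ≤ 3 * (1 + 4 * t) * K * Real.sqrt N := by
  have hKt : 0 ≤ K * t := by positivity
  have b1 : 3 * (1 + 2 * (2 * K) * t) * N ≤ (3 * (1 + 4 * t) * K) ^ 2 * N := by
    apply mul_le_mul_of_nonneg_right _ hN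
    have b2 : 3 * (1 + 2 * (2 * K) * t) ≤ 3 * (1 + 4 * t) * K := by nlinarith
    have b3 : 1 ≤ 3 * (1 + 4 * t) * K := by nlinarith
    nlinarith
  calc Real.sqrt (3 * (1 + 2 * (2 * K) * t) * N) ≤
        Real.sqrt ((3 * (1 + 4 * t) * K) ^ 2 * N) := Real.sqrt_le_sqrt b1
    _ = _ := by
        rw [Real.sqrt_mul (by positivity), Real.sqrt_sq (by positivity)]

theorem sum_up {N sK ε η δ C W K V r s1 X m t x2 : ℝ} (hN : 0 ≤ N) (hs : 0 < sK) (hC : 0 ≤ C)
    (hW : 0 ≤ W) (ht : 0 ≤ t) (hK : 0 ≤ K) (hV : 0 ≤ V) (hη : η ≤ ε / 64) (hδ : δ ≤ ε / 64)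
    (hε : 0 < ε)
    (m1 : m ≤ N / sK * (ε / 16 + 4 * η + δ) + C * W)
    (m3 : x2 ≤ N / sK * (ε / 16 + ε / 32) + C * W)
    (m4 : s1 ≤ 3 * (1 + 4 * t) * K * V) (r3 : r - X ≤ x2) (r2 : X ≤ m + s1) :
    r ≤ N / sK * ε + (2 * C + 3 * (1 + 4 * t)) * W + (2 * C + 3 * (1 + 4 * t)) * K * V := by
  have hNs : 0 ≤ N / sK := by positivity
  have fin1 : N / sK * (ε / 16 + 4 * η + δ) + N / sK * (ε / 16 + ε / 32) ≤ N / sK * ε := by
    rw [← mul_add]
    apply mul_le_mul_of_nonneg_left _ hNs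
    linarith
  have fin5 : 0 ≤ 3 * (1 + 4 * t) * W := by positivity
  have fin6 : 0 ≤ 2 * C * K * V := by positivity
  linarith

theorem lip (c : ℝ) (A : Finset α) : ∀ x ∈ A,
    |(fun A' : Finset α => |(A'.card : ℝ) - c|) (A \ {x}) -
      (fun A' : Finset α => |(A'.card : ℝ) - c|) A| ≤ 1 := by
  intro x hx
  have h1 : ((A \ {x}).card : ℝ) = (A.card : ℝ) - 1 := by
    have h2 : (A \ {x}).card + 1 = A.card := by
      rw [sdiff_singleton_eq_erase, card_erase_add_one hx]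
    have h3 : ((A \ {x}).card : ℝ) + 1 = A.card := by exact_mod_cast h2
    linarith
  have h4 := abs_abs_sub_abs_le_abs_sub (((A \ {x}).card : ℝ) - c) ((A.card : ℝ) - c)
  have h5 : ((A \ {x}).card : ℝ) - c - ((A.card : ℝ) - c) = -1 := by rw [h1]; ring
  rw [h5] at h4
  simpa using h4

/-- the constants -/
theorem consts {ε : ℝ} (he : 0 < ε) : ∃ M : ℝ, 2 ≤ M ∧ 1 ≤ ε / 64 * (M - 1) ∧
    1 / M ≤ 1 / 2 ∧ 1 / M ≤ ε / 64 ∧ 1 / M ^ 2 ≤ 1 / M ∧ 0 < Real.log M ∧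
    Real.exp (2 * Real.log M / 2) = M ∧ Real.exp (-(2 * Real.log M / 2)) = 1 / M ∧
    Real.exp (-(2 * Real.log M)) = 1 / M ^ 2 := by
  set M : ℝ := 2 + 64 / ε with hM
  have hM2 : 2 ≤ M := by
    have : 0 < 64 / ε := by positivity
    linarith
  have hM0 : 0 < M := by linarith
  have hMe : 64 / ε ≤ M - 1 := by linarith
  have hMe' : 1 ≤ ε / 64 * (M - 1) := by
    have h1 : ε / 64 * (64 / ε) = 1 := by field_simp
    calc (1 : ℝ) = ε / 64 * (64 / ε) := h1.symm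
      _ ≤ _ := mul_le_mul_of_nonneg_left hMe (by positivity)
  have h2 : Real.exp (2 * Real.log M / 2) = M := by
    rw [mul_div_cancel_left₀ _ (by norm_num : (2 : ℝ) ≠ 0), Real.exp_log hM0]
  have h3 : Real.exp (-(2 * Real.log M / 2)) = 1 / M := by
    rw [Real.exp_neg, h2, one_div]
  refine ⟨M, hM2, hMe', ?_, ?_, ?_, Real.log_pos (by linarith), h2, h3, ?_⟩
  · rw [div_le_div_iff₀ hM0 (by norm_num)]
    linarith
  · rw [div_le_iff₀ hM0]
    have : ε / 64 * (M - 1) ≤ ε / 64 * M := mul_le_mul_of_nonneg_left (by linarith) (by positivity)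
    linarith
  · apply one_div_le_one_div_of_le hM0
    nlinarith
  · have h4 : -(2 * Real.log M) = -(2 * Real.log M / 2) + -(2 * Real.log M / 2) := by ring
    rw [h4, Real.exp_add, h3]
    field_simp

end Det

/-- [DET] the deterministic final theorem -/
theorem final_det {ε : ℝ} (he : 0 < ε) : ∃ C K0 η : ℝ, 0 < C ∧ 1 ≤ K0 ∧ 0 < η ∧
    ∀ K : ℝ, K0 ≤ K → ∃ J : ℕ,
    ∀ (α : Type) [DecidableEq α] [Fintype α] (H : Finset (Finset α)) (A G : Finset α),
    Lin3 H → (∀ T ∈ H, T ⊆ A) → G ⊆ A → (∀ e, dH H e ≤ 2 * K) → (∀ c, ¬ BadC H J c) →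
    (∀ e ∈ G, |xx H K e| * (1 + Real.log (1 + 2 * K)) ≤ η) →
    run H (fun A' => |(A'.card : ℝ) - (A.card : ℝ) / Real.sqrt (2 * K)|) A.card A ≤
      ε / Real.sqrt K * (A.card : ℝ) + C * K ^ (1.01 : ℝ) * Src H A G K
        + C * K * Real.sqrt (A.card : ℝ) := by
  obtain ⟨M, hM2, hMe, hδ1, hδ2, hζδ, hlog, het2, hemt2, hemt⟩ := Det.consts he
  have hM0 : 0 < M := by linarith
  have ht0 : 0 < 2 * Real.log M := by positivity
  have hδ0 : 0 < 1 / M := by positivity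
  have hζ0 : 0 < 1 / M ^ 2 := by positivity
  have hη0 : 0 < min (1 / 10000) (ε / 64) := lt_min (by norm_num) (by positivity)
  have hη1 : min (1 / 10000) (ε / 64) ≤ 1 / 10000 := min_le_left _ _
  have hη2 : min (1 / 10000) (ε / 64) ≤ ε / 64 := min_le_right _ _
  generalize min (1 / 10000) (ε / 64) = η at hη0 hη1 hη2
  generalize 2 * Real.log M = t at ht0 het2 hemt2 hemt
  obtain ⟨C, K0, hC, hK0, hJ⟩ := J_main hζ0 hη0 hη1
  refine ⟨2 * C + 3 * (1 + 4 * t), max K0 M, η, by positivity, hK0.trans (le_max_left _ _), hη0, ?_⟩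
  intro K hK
  have hKK0 : K0 ≤ K := (le_max_left _ _).trans hK
  have hKM : M ≤ K := (le_max_right _ _).trans hK
  have hK1 : 1 ≤ K := hK0.trans hKK0
  have hKpos : 0 < K := by linarith
  have hKd : 1 ≤ 2 * K * (1 / M) := by
    have h1 : M * (1 / M) = 1 := by field_simp
    have h2 : M * (1 / M) ≤ K * (1 / M) := mul_le_mul_of_nonneg_right hKM hδ0.le
    linarith
  have hsK0 : 0 < Real.sqrt K := Real.sqrt_pos.2 hKpos
  have hη'0 : 0 < ε / 16 / Real.sqrt K := by positivity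
  obtain ⟨R, hR⟩ := tree_cmp ⌈2 * K⌉₊ hη'0
  refine ⟨R + 2, ?_⟩
  intro α _ _ H A G hL hA hGA hdeg hbad hsmall
  obtain ⟨a, hc⟩ := cov_exists H hL.card3
  obtain ⟨sg, hs⟩ := smg_exists H
  have hyp : Hyp H A G a K η := ⟨hL, hA, hGA, hc, hK1, hsmall, hη0, by linarith⟩
  have hTG : ∀ e, TG H ⌈2 * K⌉₊ R {e} := fun e => tg_of hL (fun e' => by
    have h1 := hdeg e'
    unfold dH at h1
    exact_mod_cast h1.trans (Nat.le_ceil _)) hbad e
  have htree : ∀ s, 0 ≤ s → ∀ e ∈ A, |sg s (chi {e}) A - nn H a e (1 - Real.exp (-s))| ≤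
      ε / 16 / Real.sqrt K :=
    fun s hs0 e he' => hR α H A a sg hL hA hc hs e he' (hTG e) s hs0
  have n1 := Det.card_near hs A a ht0.le (htree t ht0.le)
  have n2 := Det.card_near hs A a (half_pos ht0).le (htree (t / 2) (half_pos ht0).le)
  rw [hemt] at n1
  rw [hemt2] at n2
  have j1 := hJ α H A G a K hKK0 hyp (1 - 1 / M ^ 2) ⟨by linarith, le_rfl⟩
  have j2 := hJ α H A G a K hKK0 hyp (1 - 1 / M) ⟨by linarith, by linarith⟩
  obtain ⟨p1, p2, p3⟩ := Det.pp_near (K := K) (u := 1 - 1 / M ^ 2) (δ := 1 / M) hK1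
    (by linarith) hδ0 hδ1 (by linarith) hKd
  obtain ⟨q1, q2, q3⟩ := Det.pp_near (K := K) (u := 1 - 1 / M) (δ := 1 / M) hK1
    (by linarith) hδ0 hδ1 le_rfl hKd
  have hSrc := Det.Src_nonneg H A G hKpos
  have hW0 : 0 ≤ K ^ (1.01 : ℝ) * Src H A G K := mul_nonneg (Real.rpow_nonneg hKpos.le _) hSrc
  have r1 := run_tail hs hL (Φ := fun A' => |(A'.card : ℝ) - (A.card : ℝ) / Real.sqrt (2 * K)|)
    (fun B => Det.lip _ B) ht0 A
  have r2 := var_bd hs hL A hdeg ht0.le ((A.card : ℝ) / Real.sqrt (2 * K))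
  rw [het2] at r1
  have hN0 : (0 : ℝ) ≤ (A.card : ℝ) := Nat.cast_nonneg _
  have c1 : |(A.card : ℝ) * pp K (1 - 1 / M ^ 2) - (A.card : ℝ) / Real.sqrt (2 * K)| ≤
      (A.card : ℝ) * (1 / M / Real.sqrt K) := by
    have h1 : (A.card : ℝ) * pp K (1 - 1 / M ^ 2) - (A.card : ℝ) / Real.sqrt (2 * K) =
        (A.card : ℝ) * (pp K (1 - 1 / M ^ 2) - 1 / Real.sqrt (2 * K)) := by ring
    rw [h1, abs_mul, abs_of_nonneg hN0]
    exact mul_le_mul_of_nonneg_left p1 hN0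
  rw [mul_assoc C] at j1 j2
  have hCW : 0 ≤ C * (K ^ (1.01 : ℝ) * Src H A G K) := mul_nonneg hC.le hW0
  have m1 := Det.main_term hN0 hη0.le hsK0 rfl n1 j1 p2 c1
  have m3 := Det.tail_term hN0 hη0.le (by linarith) he hsK0 rfl hCW hM2 hMe n2 j2 q2
  have m4 := Det.var_term (t := t) hK1 ht0.le hN0
  have r3 := (abs_le.1 r1).2
  have fin := Det.sum_up hN0 hsK0 hC.le hW0 ht0.le hKpos.le (Real.sqrt_nonneg (A.card : ℝ))
    hη2 hδ2 he m1 m3 m4 r3 r2
  have e1 : ε / Real.sqrt K * (A.card : ℝ) = (A.card : ℝ) / Real.sqrt K * ε := by ring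
  rw [e1, mul_assoc (2 * C + 3 * (1 + 4 * t)) (K ^ (1.01 : ℝ))]
  exact fin

end

end Vale.Agent.P046.CT
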