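import Vale.Agent.P046.NL.DECOREFIN
import Vale.Agent.P046.NL.NCORE
import Vale.Agent.P046.CT.BadDel

/-! P046, sharp constant, stage 0 (early phase): concentration functional and bad
configurations in one supersolution. -/

namespace Vale.Agent.P046.NL

open Finset Vale.Agent.P046

noncomputable section

namespace EZ

/-- `S 6` small gives all relative deviations small -/
theorem xv_of_S6 {n : ℕ} {u t : ℝ} (ht : 0 < t) {A : Finset (Sym2 (Fin n))}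
    (hS : S 6 u (toSt (BK n) A) ≤ t ^ 6) : ∀ e ∈ A, |xv u (toSt (BK n) A) e| ≤ t := by
  intro e he
  have h1 : (xv u (toSt (BK n) A) e) ^ 6 ≤ S 6 u (toSt (BK n) A) :=
    single_le_sum (f := fun e => (xv u (toSt (BK n) A) e) ^ 6)
      (fun _ _ => (by decide : Even 6).pow_nonneg _) (show e ∈ (toSt (BK n) A).B from he)
  have h2 : |xv u (toSt (BK n) A) e| ^ 6 ≤ t ^ 6 := by
    rw [(by decide : Even 6).pow_abs]
    exact h1.trans hS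
  exact le_of_pow_le_pow_left₀ (by norm_num) ht.le h2

/-- the invariants at the next time, general threshold -/
theorem inv_next_t {n : ℕ} (hn : 4 ≤ n) {t h u : ℝ} (ht : 0 < t) (ht1 : t ≤ 1) (hh : 0 < h)
    (hh1 : h ≤ t / (8 * n)) (hu : 1 / ((n : ℝ) - 2) ≤ u) {A : Finset (Sym2 (Fin n))}
    (hS : S 6 u (toSt (BK n) A) ≤ t ^ 6) :
    Inv (BK n) (2 * t) (u + 2 * h) (toSt (BK n) A) := by
  have hn4 : (4 : ℝ) ≤ n := by exact_mod_cast hn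
  have hu1 : 1 / (n : ℝ) ≤ u := by
    refine le_trans ?_ hu
    exact one_div_le_one_div_of_le (by linarith) (by linarith)
  have hu0 : 0 < u := lt_of_lt_of_le (by positivity) hu1
  apply inv_toSt _ _ _ (by linarith)
  intro e he
  have h1 := xv_of_S6 ht hS e he
  rw [BADC.xv_real u he] at h1
  rw [BADC.xv_real _ he]
  have hd : 0 ≤ dW (bl (BK n) A) e := by unfold dW; positivity
  obtain ⟨h2, h3⟩ := abs_le.1 h1
  have h4 : u * dW (bl (BK n) A) e ≤ 2 := by linarith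
  have h5 : 8 * h ≤ t * u := by
    have h6 : t / (8 * n) = t * (1 / n) / 8 := by
      field_simp
    rw [h6] at hh1
    have h7 := mul_le_mul_of_nonneg_left hu1 ht.le
    linarith
  have h6 : 8 * h * dW (bl (BK n) A) e ≤ t * 2 := by
    calc 8 * h * dW (bl (BK n) A) e ≤ t * u * dW (bl (BK n) A) e :=
          mul_le_mul_of_nonneg_right h5 hd
      _ = t * (u * dW (bl (BK n) A) e) := by ring
      _ ≤ _ := mul_le_mul_of_nonneg_left h4 ht.le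
  have h7 : 0 ≤ h * dW (bl (BK n) A) e := mul_nonneg hh.le hd
  rw [abs_le]
  constructor
  · nlinarith
  · nlinarith

/-- bad configurations in the early phase -/
theorem n_early (t : ℝ) (ht0 : 0 < t) (ht : t ≤ 1 / 100) (J : ℕ) : ∃ n0 : ℕ, ∀ n : ℕ, n0 ≤ n →
    ∃ E h1 : ℝ, 0 ≤ E ∧ 0 < h1 ∧ ∀ h u : ℝ, 0 < h → h ≤ h1 → 1 / ((n : ℝ) - 2) ≤ u →
      u + 2 * h ≤ u0 n → ∀ A : Finset (Sym2 (Fin n)), S 6 u (toSt (BK n) A) ≤ t ^ 6 →
      PsiN t (2 * J) (CTB.CB n J) (u + 2 * h) (toSt (BK n) A)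
        + h * ∑ T ∈ bl (BK n) A,
          (PsiN t (2 * J) (CTB.CB n J) (u + 2 * h) (toSt (BK n) (A \ T))
            - PsiN t (2 * J) (CTB.CB n J) (u + 2 * h) (toSt (BK n) A))
        ≤ PsiN t (2 * J) (CTB.CB n J) u (toSt (BK n) A) + E * h ^ 2 := by
  obtain ⟨u1, hu1, _, hN⟩ := n_core t ht0 ht J (2 * J)
  obtain ⟨n2, hn2⟩ := ET.ev_u0 u1 hu1
  refine ⟨n2, fun n hn => ?_⟩
  obtain ⟨hn4, hU1, _, _⟩ := hn2 n hn
  have hn4' : (4 : ℝ) ≤ n := by exact_mod_cast hn4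
  have hus : 0 < 1 / ((n : ℝ) - 2) := div_pos one_pos (by linarith)
  obtain ⟨E, h1, hE, hh1, hstep⟩ := hN (Sym2 (Fin n)) (BK n) (lin3_BK n) (CTB.CB n J)
    (CT.CB_hyp J) (1 / ((n : ℝ) - 2)) hus
  refine ⟨E, min h1 (t / (8 * n)), hE, lt_min hh1 (by positivity),
    fun h u hh hhle hu huU A hS => ?_⟩
  have hI := inv_next_t hn4 ht0 (by linarith) hh (hhle.trans (min_le_right _ _)) hu hS
  have h2 := hstep h u hh (hhle.trans (min_le_left _ _)) hu (huU.trans hU1) (toSt (BK n) A) hI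
  rw [gen_toSt (lin3_BK n)] at h2
  exact h2

/-- the functional of stage 0 -/
def G0 (n J : ℕ) (t c kap lam : ℝ) (C6 C8 : Finset (Finset (Finset (Sym2 (Fin n))))) (u : ℝ)
    (A : Finset (Sym2 (Fin n))) : ℝ :=
  PsiDE n c kap C6 C8 u A + lam * PsiN t (2 * J) (CTB.CB n J) u (toSt (BK n) A)

/-- good states of stage 0 -/
def GoodT (n : ℕ) (t u : ℝ) (A : Finset (Sym2 (Fin n))) : Prop :=
  GoodE n u A ∧ S 6 u (toSt (BK n) A) ≤ t ^ 6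

theorem PsiN_nonneg {α : Type} [DecidableEq α] (t : ℝ) (L : ℕ)
    (CB : ℕ → Finset (Finset (Finset α))) {u : ℝ} (hu : 0 < u) (s : St α) :
    0 ≤ PsiN t L CB u s :=
  sum_nonneg fun _ _ => mul_nonneg (Real.rpow_nonneg hu.le _) (Nat.cast_nonneg _)

/-- step inequality of stage 0, `lam` after `n` -/
theorem e_core' (t kap : ℝ) (ht0 : 0 < t) (ht : t ≤ 1 / 100) (hk : 0 < kap) (hk1 : kap ≤ 1)
    (J : ℕ) : ∃ n0 : ℕ, ∀ n : ℕ, n0 ≤ n →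
    ∀ (C6 C8 : Finset (Finset (Finset (Sym2 (Fin n))))), Sys (BK n) C6 C8 → ∀ c lam : ℝ,
    0 ≤ lam →
    ∃ E h1 : ℝ, 0 ≤ E ∧ 0 < h1 ∧ ∀ h u : ℝ, 0 < h → h ≤ h1 → 1 / ((n : ℝ) - 2) ≤ u →
      u + 2 * h ≤ u0 n → ∀ A : Finset (Sym2 (Fin n)), A ⊆ tr univ → GoodT n t u A →
      G0 n J t c kap lam C6 C8 (u + 2 * h) A
        + h * ∑ T ∈ bl (BK n) A,
          (G0 n J t c kap lam C6 C8 (u + 2 * h) (A \ T) - G0 n J t c kap lam C6 C8 (u + 2 * h) A)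
        ≤ G0 n J t c kap lam C6 C8 u A + h * (2 * (n : ℝ) ^ (249 / 100 : ℝ)) + E * h ^ 2 := by
  obtain ⟨n1, hD⟩ := de_core kap hk hk1
  obtain ⟨n2, hN⟩ := n_early t ht0 ht J
  refine ⟨max n1 n2, fun n hn C6 C8 hS c lam hl => ?_⟩
  obtain ⟨E1, k1, hE1, hk1', h1⟩ := hD n ((le_max_left _ _).trans hn) C6 C8 hS c
  obtain ⟨E2, k2, hE2, hk2', h2⟩ := hN n ((le_max_right _ _).trans hn)
  refine ⟨E1 + lam * E2, min k1 k2, by positivity, lt_min hk1' hk2',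
    fun h u hh hhle hu huU A hA hG => ?_⟩
  have f1 := h1 h u hh (hhle.trans (min_le_left _ _)) hu huU A hA hG.1
  have f2 := h2 h u hh (hhle.trans (min_le_right _ _)) hu huU A hG.2
  have f3 := mul_le_mul_of_nonneg_left f2 hl
  have f4 : ∑ T ∈ bl (BK n) A,
      (G0 n J t c kap lam C6 C8 (u + 2 * h) (A \ T) - G0 n J t c kap lam C6 C8 (u + 2 * h) A)
      = ∑ T ∈ bl (BK n) A,
          (PsiDE n c kap C6 C8 (u + 2 * h) (A \ T) - PsiDE n c kap C6 C8 (u + 2 * h) A)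
        + lam * ∑ T ∈ bl (BK n) A,
          (PsiN t (2 * J) (CTB.CB n J) (u + 2 * h) (toSt (BK n) (A \ T))
            - PsiN t (2 * J) (CTB.CB n J) (u + 2 * h) (toSt (BK n) A)) := by
    rw [mul_sum, ← sum_add_distrib]
    refine sum_congr rfl fun T _ => ?_
    unfold G0
    ring
  rw [f4]
  unfold G0
  nlinarith

/-- bad states of stage 0, `lam` after `n` -/
theorem g0_bad' (t kap : ℝ) (ht0 : 0 < t) (hk : 0 ≤ kap) :
    ∃ n0 : ℕ, ∀ n : ℕ, n0 ≤ n → ∀ (J : ℕ) (C6 C8 : Finset (Finset (Finset (Sym2 (Fin n)))))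
    (c u lam : ℝ) (A : Finset (Sym2 (Fin n))), 0 ≤ lam → 1 / ((n : ℝ) - 2) ≤ u → u ≤ u0 n →
    ¬ GoodT n t u A → (n : ℝ) ^ (2 + 1 / 200 : ℝ) ≤ G0 n J t c kap lam C6 C8 u A := by
  obtain ⟨n1, h1⟩ := DE.ev_const ((t0 e0 / t) ^ 6) (1 / 200) (by norm_num)
  obtain ⟨n2, h2⟩ := ET.ev_u0 1 one_pos
  refine ⟨max n1 n2, fun n hn J C6 C8 c u lam A hl hu huU hbad => ?_⟩
  have e1 := h1 n ((le_max_left _ _).trans hn)
  obtain ⟨hn4, hU1, _, _⟩ := h2 n ((le_max_right _ _).trans hn)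
  have hn4' : (4 : ℝ) ≤ n := by exact_mod_cast hn4
  have hn' : (0 : ℝ) < n := by linarith
  have hus : 0 < 1 / ((n : ℝ) - 2) := div_pos one_pos (by linarith)
  have hu0 : 0 < u := lt_of_lt_of_le hus hu
  have hu1 : u ≤ 1 := huU.trans hU1
  have hU : 0 < u0 n := lt_of_lt_of_le hu0 huU
  have ht := ET.t0_pos
  have hr := (DE.rho_bounds hn4 hu huU).1
  have g2 : 0 ≤ (n : ℝ) ^ 2 / t0 e0 ^ 6 * S 6 u (toSt (BK n) A) :=
    mul_nonneg (div_nonneg (sq_nonneg _) (pow_nonneg ht.le _)) (ET.S_nonneg 6 (by decide) _ _)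
  have g3 : 0 ≤ 2 * 10 ^ 12 * (n : ℝ) ^ 2 * u0 n ^ 2 * XX u A :=
    mul_nonneg (by positivity) (ET.XX_nonneg _ _)
  have g5 : 0 ≤ (n : ℝ) ^ (1 / 200 : ℝ) := Real.rpow_nonneg hn'.le _
  have g6 : (1 : ℝ) ≤ (n : ℝ) ^ (1 / 200 : ℝ) := Real.one_le_rpow (by linarith) (by norm_num)
  -- the detecting bracket
  have g4 : (n : ℝ) ^ 2 ≤ (n : ℝ) ^ (1 / 200 : ℝ) *
      ((n : ℝ) ^ 2 / t0 e0 ^ 6 * S 6 u (toSt (BK n) A)
        + 2 * 10 ^ 12 * (n : ℝ) ^ 2 * u0 n ^ 2 * XX u A) := by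
    have key : GoodE n u A → ¬ S 6 u (toSt (BK n) A) ≤ t ^ 6 := fun h h' => hbad ⟨h, h'⟩
    by_cases hE : GoodE n u A
    · have h6 := key hE
      rw [not_le] at h6
      have i1 : (n : ℝ) ^ 2 ≤ (n : ℝ) ^ (1 / 200 : ℝ) *
          ((n : ℝ) ^ 2 / t0 e0 ^ 6 * S 6 u (toSt (BK n) A)) := by
        have i2 : (n : ℝ) ^ 2 / t0 e0 ^ 6 * t ^ 6 ≤
            (n : ℝ) ^ 2 / t0 e0 ^ 6 * S 6 u (toSt (BK n) A) :=
          mul_le_mul_of_nonneg_left h6.le (by positivity)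
        have i3 : (n : ℝ) ^ 2 = (t0 e0 / t) ^ 6 * ((n : ℝ) ^ 2 / t0 e0 ^ 6 * t ^ 6) := by
          field_simp
        calc (n : ℝ) ^ 2 = (t0 e0 / t) ^ 6 * ((n : ℝ) ^ 2 / t0 e0 ^ 6 * t ^ 6) := i3
          _ ≤ (n : ℝ) ^ (1 / 200 : ℝ) * ((n : ℝ) ^ 2 / t0 e0 ^ 6 * t ^ 6) :=
            mul_le_mul_of_nonneg_right e1 (by positivity)
          _ ≤ _ := mul_le_mul_of_nonneg_left i2 g5
      have i4 := mul_nonneg g5 g3
      rw [mul_add]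
      linarith
    · have h7 : (n : ℝ) ^ 2 ≤ (n : ℝ) ^ 2 / t0 e0 ^ 6 * S 6 u (toSt (BK n) A)
          + 2 * 10 ^ 12 * (n : ℝ) ^ 2 * u0 n ^ 2 * XX u A := by
        unfold GoodE at hE
        rw [not_and_or, not_le, not_le] at hE
        rcases hE with h | h
        · have i1 : (n : ℝ) ^ 2 ≤ (n : ℝ) ^ 2 / t0 e0 ^ 6 * S 6 u (toSt (BK n) A) := by
            rw [div_mul_eq_mul_div, le_div_iff₀ (pow_pos ht _)]
            exact mul_le_mul_of_nonneg_left h.le (sq_nonneg _)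
          linarith
        · have i1 : u ^ 2 ≤ u0 n ^ 2 := pow_le_pow_left₀ hu0.le huU 2
          have i2 : 2 * 10 ^ 12 * XX u A * u ^ 2 ≤ 2 * 10 ^ 12 * XX u A * u0 n ^ 2 :=
            mul_le_mul_of_nonneg_left i1 (mul_nonneg (by norm_num) (ET.XX_nonneg _ _))
          have i3 : (n : ℝ) ^ 2 * 1 ≤ (n : ℝ) ^ 2 * (2 * 10 ^ 12 * XX u A * u0 n ^ 2) :=
            mul_le_mul_of_nonneg_left (by linarith) (sq_nonneg _)
          nlinarith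
      calc (n : ℝ) ^ 2 ≤ _ := h7
        _ ≤ _ := le_mul_of_one_le_left (add_nonneg g2 g3) g6
  have g7 : (n : ℝ) ^ (2 + 1 / 200 : ℝ) ≤ (n : ℝ) ^ (1 / 100 : ℝ) * BadE n u A := by
    have j1 : (n : ℝ) ^ (2 + 1 / 200 : ℝ) = (n : ℝ) ^ (1 / 200 : ℝ) * (n : ℝ) ^ 2 := by
      rw [add_comm, Real.rpow_add hn']
      congr 1
      exact_mod_cast Real.rpow_natCast (n : ℝ) 2
    have j2 : (n : ℝ) ^ (1 / 100 : ℝ) = (n : ℝ) ^ (1 / 200 : ℝ) * (n : ℝ) ^ (1 / 200 : ℝ) := by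
      rw [← Real.rpow_add hn']
      norm_num
    rw [j1, j2, mul_assoc]
    refine mul_le_mul_of_nonneg_left ?_ g5
    refine g4.trans (mul_le_mul_of_nonneg_left ?_ g5)
    unfold BadE
    exact le_mul_of_one_le_left (add_nonneg g2 g3) hr
  have g8 : 0 ≤ kap * PsiE n C6 C8 u A :=
    mul_nonneg hk (ET.psiE_nonneg (by omega) C6 C8 hu0 hu1 A)
  have g9 : 0 ≤ lam * PsiN t (2 * J) (CTB.CB n J) u (toSt (BK n) A) :=
    mul_nonneg hl (PsiN_nonneg _ _ _ hu0 _)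
  have g10 : 0 ≤ Real.sqrt (1 + (u ^ (1 / 2 : ℝ) * (A.card : ℝ) - c) ^ 2) := Real.sqrt_nonneg _
  unfold G0 PsiDE
  linarith

/-- step inequality of stage 0 -/
theorem e_core (t kap lam : ℝ) (ht0 : 0 < t) (ht : t ≤ 1 / 100) (hk : 0 < kap) (hk1 : kap ≤ 1)
    (hl : 0 ≤ lam) (J : ℕ) : ∃ n0 : ℕ, ∀ n : ℕ, n0 ≤ n →
    ∀ (C6 C8 : Finset (Finset (Finset (Sym2 (Fin n))))), Sys (BK n) C6 C8 → ∀ c : ℝ,
    ∃ E h1 : ℝ, 0 ≤ E ∧ 0 < h1 ∧ ∀ h u : ℝ, 0 < h → h ≤ h1 → 1 / ((n : ℝ) - 2) ≤ u →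
      u + 2 * h ≤ u0 n → ∀ A : Finset (Sym2 (Fin n)), A ⊆ tr univ → GoodT n t u A →
      G0 n J t c kap lam C6 C8 (u + 2 * h) A
        + h * ∑ T ∈ bl (BK n) A,
          (G0 n J t c kap lam C6 C8 (u + 2 * h) (A \ T) - G0 n J t c kap lam C6 C8 (u + 2 * h) A)
        ≤ G0 n J t c kap lam C6 C8 u A + h * (2 * (n : ℝ) ^ (249 / 100 : ℝ)) + E * h ^ 2 := by
  obtain ⟨n1, h1⟩ := e_core' t kap ht0 ht hk hk1 J
  exact ⟨n1, fun n hn C6 C8 hS c => h1 n hn C6 C8 hS c lam hl⟩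

/-- bad states of stage 0 -/
theorem g0_bad (t kap lam : ℝ) (ht0 : 0 < t) (hk : 0 ≤ kap) (hl : 0 ≤ lam) :
    ∃ n0 : ℕ, ∀ n : ℕ, n0 ≤ n → ∀ (J : ℕ) (C6 C8 : Finset (Finset (Finset (Sym2 (Fin n)))))
    (c u : ℝ) (A : Finset (Sym2 (Fin n))), 1 / ((n : ℝ) - 2) ≤ u → u ≤ u0 n →
    ¬ GoodT n t u A → (n : ℝ) ^ (2 + 1 / 200 : ℝ) ≤ G0 n J t c kap lam C6 C8 u A := by
  obtain ⟨n1, h1⟩ := g0_bad' t kap ht0 hk
  exact ⟨n1, fun n hn J C6 C8 c u A => h1 n hn J C6 C8 c u lam A hl⟩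

end EZ

end

end Vale.Agent.P046.NL
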