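import Vale.Agent.P046.CT.E0
import Vale.Agent.P046.NL.ThetaOf

/-! P046, sharp constant, stage 0: the value of the functional at the start. -/

namespace Vale.Agent.P046.NL

open Finset Vale.Agent.P046

noncomputable section

namespace EZ

/-- start value of the concentration functional -/
theorem psiDE_start {n : ℕ} (hn : 4 ≤ n) {kap : ℝ} (hk : 0 ≤ kap)
    (C6 C8 : Finset (Finset (Finset (Sym2 (Fin n)))))
    (hC6 : (C6.card : ℝ) ≤ 10 ^ 4 * (n : ℝ) ^ 4) (hC8 : (C8.card : ℝ) ≤ 10 ^ 5 * (n : ℝ) ^ 5) :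
    PsiDE n ((n : ℝ) ^ (3 / 2 : ℝ) / 2) kap C6 C8 (1 / ((n : ℝ) - 2)) (tr univ)
      ≤ 2 + kap * (2 * 10 ^ 12 * (n : ℝ) ^ (3 / 2 : ℝ)) := by
  have h1 := TH.start_Q hn
  have h2 := mul_le_mul_of_nonneg_left (ET.start hn C6 C8 hC6 hC8) hk
  have h3 : BadE n (1 / ((n : ℝ) - 2)) (tr (univ : Finset (Fin n))) = 0 :=
    TH.badE_start (by omega)
  unfold PsiDE
  rw [h3, mul_zero, add_zero]
  exact add_le_add h1 h2

/-- start value of the functional of stage 0 -/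
theorem G0_start (J : ℕ) : ∃ C : ℝ, 0 < C ∧ ∀ n : ℕ, 4 ≤ n → ∀ t : ℝ, 0 ≤ t → t ≤ 1 / 3 →
    ∀ kap : ℝ, 0 ≤ kap → ∀ C6 C8 : Finset (Finset (Finset (Sym2 (Fin n)))),
    (C6.card : ℝ) ≤ 10 ^ 4 * (n : ℝ) ^ 4 → (C8.card : ℝ) ≤ 10 ^ 5 * (n : ℝ) ^ 5 →
    ∀ lam : ℝ, 0 ≤ lam →
    G0 n J t ((n : ℝ) ^ (3 / 2 : ℝ) / 2) kap lam C6 C8 (1 / ((n : ℝ) - 2)) (tr univ)
      ≤ 2 + kap * (2 * 10 ^ 12 * (n : ℝ) ^ (3 / 2 : ℝ)) + lam * (C * (n : ℝ) ^ (1 + 3 * J * t)) := by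
  obtain ⟨C, hC, h⟩ := CT.PsiN_start J
  refine ⟨C, hC, fun n hn t ht0 ht kap hk C6 C8 hC6 hC8 lam hl => ?_⟩
  have h1 := psiDE_start hn hk C6 C8 hC6 hC8
  have h2 := mul_le_mul_of_nonneg_left
    (h n (by omega) t ht0 ht (toSt (BK n) (tr (univ : Finset (Fin n))))) hl
  unfold G0
  exact add_le_add h1 h2

end EZ

end

end Vale.Agent.P046.NL
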