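import Vale.Agent.P046.NL.Defs5
import Vale.Agent.P046.NL.EARLYTHM
import Vale.Agent.P046.NL.MidAux

/-!
P046, sharp constant, part C: at the end of the early phase (real state) the functional of the
second stage is its `Q` part plus a small multiple of `PsiE`.
-/

namespace Vale.Agent.P046.CT

open Finset Vale.Agent.P046 Vale.Agent.P046.NL

noncomputable section

namespace E1

theorem e0_pos : 0 < e0 := by unfold e0; norm_num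

/-- all terms of `PsiE` at `u0 n` separately -/
theorem psiE_u0 {n : ℕ} (hn : 1 ≤ n) (C6 C8 : Finset (Finset (Finset (Sym2 (Fin n)))))
    (A : Finset (Sym2 (Fin n))) (hU1 : u0 n ≤ 1) :
    (n : ℝ) ^ (1 / 10 : ℝ) * S 2 (u0 n) (toSt (BK n) A)
      + 1000 / e0 * u0 n ^ (-(1 / 2 + e0) : ℝ) * S 4 (u0 n) (toSt (BK n) A)
      + u0 n ^ (-(1 / 2 + e0) : ℝ) * Sb (u0 n) (toSt (BK n) A)
      + u0 n ^ (11 / 4 : ℝ) * Nc C6 (toSt (BK n) A)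
      + 10 ^ 6 * u0 n ^ (7 / 2 - e0 : ℝ) * Nc C8 (toSt (BK n) A) ≤ PsiE n C6 C8 (u0 n) A := by
  have hn' : (0 : ℝ) < n := by exact_mod_cast hn
  have hU : 0 < u0 n := by unfold u0; exact Real.rpow_pos_of_pos hn' _
  have h1 : u0 n ^ (5001 : ℝ) * u0 n ^ (-5001 : ℝ) = 1 := by
    rw [← Real.rpow_add hU]
    norm_num
  have h2 : u0 n ^ (-(1 / 4 + e0) : ℝ) * u0 n ^ (15 / 4 : ℝ) = u0 n ^ (7 / 2 - e0 : ℝ) := by
    rw [← Real.rpow_add hU]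
    congr 1
    ring
  have h5 : 0 ≤ (n : ℝ) ^ 2 / t0 e0 ^ 6 * S 6 (u0 n) (toSt (BK n) A) :=
    mul_nonneg (div_nonneg (sq_nonneg _) (pow_nonneg ET.t0_pos.le _))
      (ET.S_nonneg 6 (by decide) _ _)
  have h6 : 0 ≤ 2 * 10 ^ 12 * (n : ℝ) ^ 2 * u0 n ^ 2 * XX (u0 n) A :=
    mul_nonneg (by positivity) (ET.XX_nonneg _ _)
  have h7 := ET.first_nonneg hU hU1 (ET.Q_nonneg (toSt (BK n) A))
  unfold PsiE
  rw [h1, mul_assoc ((10 : ℝ) ^ 6) (u0 n ^ (-(1 / 4 + e0) : ℝ)) _, h2]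
  linarith

end E1

open E1

/-- comparison at the end of the early phase -/
theorem psiS_end (e1 : ℝ) (h0 : 0 < e1) (h1 : e1 < e0) : ∃ C : ℝ, 0 < C ∧ ∀ n : ℕ, 1 ≤ n →
    u0 n ≤ 1 → ∀ (C6 C8 : Finset (Finset (Finset (Sym2 (Fin n))))) (A : Finset (Sym2 (Fin n)))
    (t dl v : ℝ), 0 < v → v ≤ 1 →
    PsiS e1 t dl v (BK n) C6 C8 (u0 n) (toSt (BK n) A) ≤
      4 * 10 ^ 8 / e1 * v ^ (1 - e1 : ℝ) * (u0 n) ^ (1 / 2 : ℝ) * (A.card : ℝ)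
        + C * (u0 n) ^ (e0 - e1 : ℝ) * PsiE n C6 C8 (u0 n) A := by
  refine ⟨8 * 10 ^ 8 / e1, by positivity, ?_⟩
  intro n hn hU1 C6 C8 A t dl v hv hv1
  have hn' : (0 : ℝ) < n := by exact_mod_cast hn
  have hn1 : (1 : ℝ) ≤ n := by exact_mod_cast hn
  have hU : 0 < u0 n := by unfold u0; exact Real.rpow_pos_of_pos hn' _
  have he := e0_pos
  have he0 : e0 ≤ 1 / 100 := by unfold e0; norm_num
  set C : ℝ := 8 * 10 ^ 8 / e1 with hC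
  have hC1 : 1 ≤ C := by
    rw [hC, le_div_iff₀ h0]
    linarith
  have hC0 : 0 < C := by linarith
  set W : ℝ := u0 n ^ (e0 - e1 : ℝ) with hW
  have hW0 : 0 < W := Real.rpow_pos_of_pos hU _
  -- S2
  have a2 : (4 * 10 ^ 6 / e1 * v ^ (1 / 10 - e1 : ℝ) * u0 n ^ (2 / 5 : ℝ)
      + 4 * 10 ^ 8 / e1 * v ^ (1 - e1 : ℝ) * u0 n ^ (1 / 10 : ℝ)) ≤
      C * W * (n : ℝ) ^ (1 / 10 : ℝ) := by
    have g1 : v ^ (1 / 10 - e1 : ℝ) ≤ 1 := Real.rpow_le_one hv.le hv1 (by linarith)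
    have g2 : v ^ (1 - e1 : ℝ) ≤ 1 := Real.rpow_le_one hv.le hv1 (by linarith)
    have g3 : u0 n ^ (2 / 5 : ℝ) ≤ 1 := Real.rpow_le_one hU.le hU1 (by norm_num)
    have g4 : u0 n ^ (1 / 10 : ℝ) ≤ 1 := Real.rpow_le_one hU.le hU1 (by norm_num)
    have g5 : 1 ≤ W * (n : ℝ) ^ (1 / 10 : ℝ) := by
      have : W = (n : ℝ) ^ ((-1 + 2 * c0) * (e0 - e1) : ℝ) := by
        rw [hW]
        unfold u0
        rw [← Real.rpow_mul hn'.le]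
      rw [this, ← Real.rpow_add hn']
      refine Real.one_le_rpow hn1 ?_
      unfold c0
      nlinarith
    have g6 : 4 * 10 ^ 6 / e1 * v ^ (1 / 10 - e1 : ℝ) * u0 n ^ (2 / 5 : ℝ) ≤
        4 * 10 ^ 6 / e1 * 1 * 1 := by gcongr
    have g7 : 4 * 10 ^ 8 / e1 * v ^ (1 - e1 : ℝ) * u0 n ^ (1 / 10 : ℝ) ≤
        4 * 10 ^ 8 / e1 * 1 * 1 := by gcongr
    have g8 : 4 * 10 ^ 6 / e1 * 1 * 1 + 4 * 10 ^ 8 / e1 * 1 * 1 ≤ C := by
      rw [hC]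
      have : 0 < 1 / e1 := by positivity
      have e1' : 4 * 10 ^ 6 / e1 * 1 * 1 + 4 * 10 ^ 8 / e1 * 1 * 1 =
          404 * 10 ^ 6 * (1 / e1) := by ring
      have e2' : 8 * 10 ^ 8 / e1 = 8 * 10 ^ 8 * (1 / e1) := by ring
      rw [e1', e2']
      nlinarith
    have g9 : C * 1 ≤ C * (W * (n : ℝ) ^ (1 / 10 : ℝ)) := mul_le_mul_of_nonneg_left g5 hC0.le
    calc _ ≤ 4 * 10 ^ 6 / e1 * 1 * 1 + 4 * 10 ^ 8 / e1 * 1 * 1 := add_le_add g6 g7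
      _ ≤ C := g8
      _ = C * 1 := (mul_one C).symm
      _ ≤ C * (W * (n : ℝ) ^ (1 / 10 : ℝ)) := g9
      _ = _ := by ring
  have s2 := mul_le_mul_of_nonneg_right a2 (ET.S_nonneg 2 (by decide) (u0 n) (toSt (BK n) A))
  -- Sb, S4
  have b1 : u0 n ^ (-(1 / 2 + e1) : ℝ) = u0 n ^ (-(1 / 2 + e0) : ℝ) * W := by
    rw [hW, ← Real.rpow_add hU]
    congr 1
    ring
  have p1 : 0 < u0 n ^ (-(1 / 2 + e0) : ℝ) := Real.rpow_pos_of_pos hU _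
  have b2 : u0 n ^ (-(1 / 2 + e1) : ℝ) * Sb (u0 n) (toSt (BK n) A) ≤
      C * W * (u0 n ^ (-(1 / 2 + e0) : ℝ) * Sb (u0 n) (toSt (BK n) A)) := by
    rw [b1]
    have q1 : 0 ≤ u0 n ^ (-(1 / 2 + e0) : ℝ) * W * Sb (u0 n) (toSt (BK n) A) :=
      mul_nonneg (mul_pos p1 hW0).le (ET.Sb_nonneg _ _)
    have q2 := mul_le_mul_of_nonneg_right hC1 q1
    linarith
  have b3 : u0 n ^ (-(1 / 2 + e1) : ℝ) * (1000 / e1 * S 4 (u0 n) (toSt (BK n) A)) ≤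
      C * W * (1000 / e0 * u0 n ^ (-(1 / 2 + e0) : ℝ) * S 4 (u0 n) (toSt (BK n) A)) := by
    rw [b1]
    have q1 : 1000 / e1 ≤ C * (1000 / e0) := by
      have : C * (1000 / e0) = (8 * 10 ^ 8 / e0) * (1000 / e1) := by rw [hC]; ring
      rw [this]
      have q3 : 1 ≤ 8 * 10 ^ 8 / e0 := by
        rw [le_div_iff₀ he]; linarith
      have q4 : 0 ≤ 1000 / e1 := by positivity
      nlinarith
    have q2 : 0 ≤ u0 n ^ (-(1 / 2 + e0) : ℝ) * W * S 4 (u0 n) (toSt (BK n) A) :=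
      mul_nonneg (mul_pos p1 hW0).le (ET.S_nonneg 4 (by decide) _ _)
    have q3 := mul_le_mul_of_nonneg_right q1 q2
    linarith
  -- C6, C8
  have p2 : 0 < u0 n ^ (11 / 4 : ℝ) := Real.rpow_pos_of_pos hU _
  have c1 : u0 n ^ (57 / 20 : ℝ) ≤ C * W * u0 n ^ (11 / 4 : ℝ) := by
    have q1 : u0 n ^ (57 / 20 : ℝ) = u0 n ^ (1 / 10 : ℝ) * u0 n ^ (11 / 4 : ℝ) := by
      rw [← Real.rpow_add hU]
      congr 1
      norm_num
    rw [q1]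
    refine mul_le_mul_of_nonneg_right ?_ p2.le
    have q2 : u0 n ^ (1 / 10 : ℝ) ≤ W :=
      Real.rpow_le_rpow_of_exponent_ge hU hU1 (by linarith)
    have q3 := mul_le_mul_of_nonneg_right hC1 hW0.le
    linarith
  have c2 := mul_le_mul_of_nonneg_right c1 (ET.Nc_nonneg C6 (toSt (BK n) A))
  have d1 : 10 ^ 6 * u0 n ^ (7 / 2 - e1 : ℝ) ≤ C * W * (10 ^ 6 * u0 n ^ (7 / 2 - e0 : ℝ)) := by
    have q1 : u0 n ^ (7 / 2 - e1 : ℝ) = W * u0 n ^ (7 / 2 - e0 : ℝ) := by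
      rw [hW, ← Real.rpow_add hU]
      congr 1
      ring
    rw [q1]
    have q2 : 0 ≤ W * (10 ^ 6 * u0 n ^ (7 / 2 - e0 : ℝ)) := by positivity
    have q3 := mul_le_mul_of_nonneg_right hC1 q2
    linarith
  have d2 := mul_le_mul_of_nonneg_right d1 (ET.Nc_nonneg C8 (toSt (BK n) A))
  -- Q
  have f1 : 4 * 10 ^ 8 / e1 * (v ^ (1 - e1 : ℝ) * u0 n ^ (1 / 2 : ℝ)
      - v ^ (1 - e1 : ℝ) * u0 n ^ (7 / 10 : ℝ)
      - 1 / 2 * v ^ (1 / 10 - e1 : ℝ) * u0 n ^ (7 / 5 : ℝ)) * Q (toSt (BK n) A) ≤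
      4 * 10 ^ 8 / e1 * v ^ (1 - e1 : ℝ) * (u0 n) ^ (1 / 2 : ℝ) * (A.card : ℝ) := by
    have q0 : Q (toSt (BK n) A) = (A.card : ℝ) := rfl
    rw [q0]
    have q1 : 0 ≤ v ^ (1 - e1 : ℝ) * u0 n ^ (7 / 10 : ℝ) := by positivity
    have q2 : 0 ≤ 1 / 2 * v ^ (1 / 10 - e1 : ℝ) * u0 n ^ (7 / 5 : ℝ) := by positivity
    have q3 : v ^ (1 - e1 : ℝ) * u0 n ^ (1 / 2 : ℝ)
      - v ^ (1 - e1 : ℝ) * u0 n ^ (7 / 10 : ℝ)
      - 1 / 2 * v ^ (1 / 10 - e1 : ℝ) * u0 n ^ (7 / 5 : ℝ) ≤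
      v ^ (1 - e1 : ℝ) * u0 n ^ (1 / 2 : ℝ) := by linarith
    have q4 : 0 ≤ 4 * 10 ^ 8 / e1 := by positivity
    have q5 := mul_le_mul_of_nonneg_right (mul_le_mul_of_nonneg_left q3 q4)
      (Nat.cast_nonneg (α := ℝ) A.card)
    linarith
  have key := E1.psiE_u0 hn C6 C8 A hU1
  have key2 := mul_le_mul_of_nonneg_left key (mul_pos hC0 hW0).le
  unfold PsiS
  rw [ET.V_real, ET.Ph_real]
  linarith

/-- the factor is small -/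
theorem u0_small (b C kap : ℝ) (hb : 0 < b) (hk : 0 < kap) : ∃ n0 : ℕ, ∀ n : ℕ, n0 ≤ n →
    C * (u0 n) ^ (b : ℝ) ≤ kap := by
  have t1 : Filter.Tendsto (fun n : ℕ => C * (n : ℝ) ^ (-((1 - 2 * c0) * b) : ℝ)) Filter.atTop
      (nhds (C * 0)) :=
    ((tendsto_rpow_neg_atTop (y := (1 - 2 * c0) * b) (by
      have : (0 : ℝ) < 1 - 2 * c0 := by unfold c0; norm_num
      positivity)).comp tendsto_natCast_atTop_atTop).const_mul C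
  rw [mul_zero] at t1
  obtain ⟨n0, hn0⟩ := Filter.eventually_atTop.mp (t1.eventually (eventually_le_nhds hk))
  refine ⟨n0, fun n hn => ?_⟩
  have h1 := hn0 n hn
  have h2 : (u0 n) ^ (b : ℝ) = (n : ℝ) ^ (-((1 - 2 * c0) * b) : ℝ) := by
    unfold u0
    rw [← Real.rpow_mul (Nat.cast_nonneg n)]
    congr 1
    ring
  rw [h2]
  exact h1

end

end Vale.Agent.P046.CT
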