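import Vale.Agent.P046.CT.HDefs

/-!
P046, sharp constant: the recursion of the cover hierarchy `GG`.
-/

namespace Vale.Agent.P046.CT

open Finset

noncomputable section

variable {α : Type} [DecidableEq α]

namespace GGrec

/-- first order expansion of a product: lower order bound -/
theorem prod_sub_le {ι : Type} [DecidableEq ι] (P : Finset ι) (c e : ι → ℝ)
    (h0 : ∀ p ∈ P, 0 ≤ e p) (h1 : ∀ p ∈ P, e p ≤ c p) (h2 : ∀ p ∈ P, c p ≤ 1) :
    0 ≤ ∏ p ∈ P, (c p - e p) ∧ ∏ p ∈ P, (c p - e p) ≤ ∏ p ∈ P, c p ∧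
      ∏ p ∈ P, c p - ∏ p ∈ P, (c p - e p) ≤ ∑ p ∈ P, e p ∧ ∏ p ∈ P, c p ≤ 1 := by
  induction P using Finset.induction_on with
  | empty => simp
  | insert a P ha ih =>
    have ih' := ih (fun p hp => h0 p (mem_insert_of_mem hp)) (fun p hp => h1 p (mem_insert_of_mem hp))
      (fun p hp => h2 p (mem_insert_of_mem hp))
    obtain ⟨k1, k2, k3, k4⟩ := ih'
    have a0 := h0 a (mem_insert_self _ _)
    have a1 := h1 a (mem_insert_self _ _)
    have a2 := h2 a (mem_insert_self _ _)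
    rw [prod_insert ha, prod_insert ha, sum_insert ha]
    set X := ∏ p ∈ P, (c p - e p)
    set C := ∏ p ∈ P, c p
    set s := ∑ p ∈ P, e p
    refine ⟨mul_nonneg (by linarith) k1, ?_, ?_, ?_⟩
    · nlinarith
    · nlinarith
    · nlinarith

/-- second order bound -/
theorem prod_sub_second {ι : Type} [DecidableEq ι] (P : Finset ι) (c e : ι → ℝ)
    (h0 : ∀ p ∈ P, 0 ≤ e p) (h1 : ∀ p ∈ P, e p ≤ c p) (h2 : ∀ p ∈ P, c p ≤ 1) :
    |∏ p ∈ P, (c p - e p) - ∏ p ∈ P, c p + ∑ p ∈ P, e p * ∏ k ∈ P.erase p, c k| ≤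
      (∑ p ∈ P, e p) ^ 2 := by
  induction P using Finset.induction_on with
  | empty => simp
  | insert a P ha ih =>
    have g0 : ∀ p ∈ P, 0 ≤ e p := fun p hp => h0 p (mem_insert_of_mem hp)
    have g1 : ∀ p ∈ P, e p ≤ c p := fun p hp => h1 p (mem_insert_of_mem hp)
    have g2 : ∀ p ∈ P, c p ≤ 1 := fun p hp => h2 p (mem_insert_of_mem hp)
    have ih' := ih g0 g1 g2
    obtain ⟨k1, k2, k3, k4⟩ := prod_sub_le P c e g0 g1 g2
    have a0 := h0 a (mem_insert_self _ _)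
    have a1 := h1 a (mem_insert_self _ _)
    have a2 := h2 a (mem_insert_self _ _)
    have hs : ∑ p ∈ P, e p * ∏ k ∈ (insert a P).erase p, c k =
        c a * ∑ p ∈ P, e p * ∏ k ∈ P.erase p, c k := by
      rw [mul_sum]
      refine sum_congr rfl fun p hp => ?_
      have hpa : p ≠ a := fun h => ha (h ▸ hp)
      rw [erase_insert_of_ne (Ne.symm hpa), prod_insert]
      · ring
      · intro h
        exact ha (mem_of_mem_erase h)
    rw [prod_insert ha, prod_insert ha, sum_insert ha, sum_insert ha, erase_insert ha, hs]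
    set X := ∏ p ∈ P, (c p - e p)
    set C := ∏ p ∈ P, c p
    set S := ∑ p ∈ P, e p * ∏ k ∈ P.erase p, c k
    set s := ∑ p ∈ P, e p with hsdef
    have hs0 : 0 ≤ s := sum_nonneg g0
    have e1 : (c a - e a) * X - c a * C + (e a * C + c a * S) =
        c a * (X - C + S) + e a * (C - X) := by ring
    rw [e1]
    have b1 : |c a * (X - C + S)| ≤ s ^ 2 := by
      rw [abs_mul, abs_of_nonneg (by linarith : 0 ≤ c a)]
      calc c a * |X - C + S| ≤ 1 * s ^ 2 :=
            mul_le_mul a2 ih' (abs_nonneg _) (by norm_num)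
        _ = s ^ 2 := one_mul _
    have b2 : |e a * (C - X)| ≤ e a * s := by
      rw [abs_mul, abs_of_nonneg a0, abs_of_nonneg (by linarith : 0 ≤ C - X)]
      exact mul_le_mul_of_nonneg_left k3 a0
    have b3 := abs_add_le (c a * (X - C + S)) (e a * (C - X))
    nlinarith [mul_nonneg a0 hs0]

theorem wi_nonneg {h : ℝ} (h0 : 0 ≤ h) (h1 : h ≤ 1) (i : ℕ) : 0 ≤ wi h i := by
  unfold wi
  have : 0 ≤ 1 - h := by linarith
  positivity

theorem wi_le {h : ℝ} (h0 : 0 ≤ h) (h1 : h ≤ 1) (i : ℕ) : wi h i ≤ h := by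
  unfold wi
  have h2 : (1 - h) ^ i ≤ 1 := pow_le_one₀ (by linarith) (by linarith)
  nlinarith

theorem aa_bd (H : Finset (Finset α)) {h : ℝ} (h0 : 0 ≤ h) (h1 : h ≤ 1) (i : ℕ) :
    ∀ x T, 0 ≤ aa H h i x T ∧ aa H h i x T ≤ 1 - (1 - h) ^ i := by
  induction i with
  | zero => intro x T; simp [aa]
  | succ i ih =>
    intro x T
    have hp : 0 ≤ ∏ y ∈ T.erase x, ∏ S ∈ H.filter (fun S => y ∈ S ∧ S ≠ T), (1 - aa H h i y S) ∧
        ∏ y ∈ T.erase x, ∏ S ∈ H.filter (fun S => y ∈ S ∧ S ≠ T), (1 - aa H h i y S) ≤ 1 := by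
      have hpos : ∀ y S, 0 ≤ 1 - aa H h i y S := fun y S => by
        have := (ih y S).2
        have h3 : 0 ≤ (1 - h) ^ i := pow_nonneg (by linarith) _
        linarith
      have hle : ∀ y S, 1 - aa H h i y S ≤ 1 := fun y S => by
        have := (ih y S).1
        linarith
      constructor
      · exact prod_nonneg fun y _ => prod_nonneg fun S _ => hpos y S
      · exact prod_le_one (fun y _ => prod_nonneg fun S _ => hpos y S)
          (fun y _ => prod_le_one (fun S _ => hpos y S) fun S _ => hle y S)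
    have hw := wi_nonneg h0 h1 i
    have hi := ih x T
    rw [aa]
    refine ⟨add_nonneg hi.1 (mul_nonneg hw hp.1), ?_⟩
    have h5 : wi h i * ∏ y ∈ T.erase x, ∏ S ∈ H.filter (fun S => y ∈ S ∧ S ≠ T),
        (1 - aa H h i y S) ≤ wi h i * 1 := mul_le_mul_of_nonneg_left hp.2 hw
    have h6 : wi h i = (1 - h) ^ i - (1 - h) ^ (i + 1) := by unfold wi; ring
    linarith [hi.2]

theorem aa_nonneg (H : Finset (Finset α)) {h : ℝ} (h0 : 0 ≤ h) (h1 : h ≤ 1) (i : ℕ) (x : α)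
    (T : Finset α) : 0 ≤ aa H h i x T := (aa_bd H h0 h1 i x T).1

theorem one_sub_aa_nonneg (H : Finset (Finset α)) {h : ℝ} (h0 : 0 ≤ h) (h1 : h ≤ 1) (i : ℕ)
    (x : α) (T : Finset α) : 0 ≤ 1 - aa H h i x T := by
  have := (aa_bd H h0 h1 i x T).2
  have h3 : 0 ≤ (1 - h) ^ i := pow_nonneg (by linarith) _
  linarith

theorem qq_bd (H : Finset (Finset α)) {h : ℝ} (h0 : 0 ≤ h) (h1 : h ≤ 1) (i : ℕ)
    (y : α) (T : Finset α) : 0 ≤ qq H h i y T ∧ qq H h i y T ≤ 1 := by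
  unfold qq
  refine ⟨prod_nonneg fun S _ => one_sub_aa_nonneg H h0 h1 i y S,
    prod_le_one (fun S _ => one_sub_aa_nonneg H h0 h1 i y S) fun S _ => ?_⟩
  have := aa_nonneg H h0 h1 i y S
  linarith

theorem aa_succ (H : Finset (Finset α)) (h : ℝ) (i : ℕ) (x : α) (T : Finset α) :
    aa H h (i + 1) x T = aa H h i x T + wi h i * ∏ y ∈ T.erase x, qq H h i y T := rfl

theorem mem_prs {H : Finset (Finset α)} {S0 : Finset α} {Bs : Finset (Finset α)}
    {p : α × Finset α} :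
    p ∈ prs H S0 Bs ↔ p.1 ∈ pts S0 Bs ∧ p.2 ∈ H ∧ p.1 ∈ p.2 ∧ p.2 ∉ Bs := by
  unfold prs
  simp only [mem_filter, mem_product]
  tauto

theorem GG_zero (H : Finset (Finset α)) (h : ℝ) (S0 : Finset α) (Bs : Finset (Finset α)) :
    GG H h 0 S0 Bs = 1 := by
  unfold GG
  simp [aa]

theorem GG_bd (H : Finset (Finset α)) {h : ℝ} (h0 : 0 ≤ h) (h1 : h ≤ 1) (i : ℕ)
    (S0 : Finset α) (Bs : Finset (Finset α)) : 0 ≤ GG H h i S0 Bs ∧ GG H h i S0 Bs ≤ 1 := by
  unfold GG
  have a1 : 0 ≤ (1 - h) ^ (i * Bs.card) := pow_nonneg (by linarith) _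
  have a2 : (1 - h) ^ (i * Bs.card) ≤ 1 := pow_le_one₀ (by linarith) (by linarith)
  have a3 : 0 ≤ ∏ p ∈ prs H S0 Bs, (1 - aa H h i p.1 p.2) :=
    prod_nonneg fun p _ => one_sub_aa_nonneg H h0 h1 i p.1 p.2
  have a4 : ∏ p ∈ prs H S0 Bs, (1 - aa H h i p.1 p.2) ≤ 1 :=
    prod_le_one (fun p _ => one_sub_aa_nonneg H h0 h1 i p.1 p.2) fun p _ => by
      have := aa_nonneg H h0 h1 i p.1 p.2
      linarith
  exact ⟨mul_nonneg a1 a3, mul_le_one₀ a2 a3 a4⟩

/-- the cover system one step later: raw form -/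
theorem GG_succ_raw (H : Finset (Finset α)) {h : ℝ} (h0 : 0 ≤ h) (h1 : h ≤ 1) (i : ℕ)
    (S0 : Finset α) (Bs : Finset (Finset α)) :
    |GG H h (i + 1) S0 Bs - GG H h i S0 Bs + h * Bs.card * GG H h i S0 Bs +
      (1 - h) ^ (i * Bs.card) * ∑ p ∈ prs H S0 Bs,
        (wi h i * ∏ y ∈ p.2.erase p.1, qq H h i y p.2) *
          ∏ k ∈ (prs H S0 Bs).erase p, (1 - aa H h i k.1 k.2)| ≤
      (h * Bs.card + h * (prs H S0 Bs).card) ^ 2 := by
  set P := prs H S0 Bs with hP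
  set b := Bs.card with hb
  set c : α × Finset α → ℝ := fun p => 1 - aa H h i p.1 p.2 with hc
  set e : α × Finset α → ℝ := fun p => wi h i * ∏ y ∈ p.2.erase p.1, qq H h i y p.2 with he
  have hw := wi_nonneg h0 h1 i
  have hq : ∀ p : α × Finset α, 0 ≤ ∏ y ∈ p.2.erase p.1, qq H h i y p.2 ∧
      ∏ y ∈ p.2.erase p.1, qq H h i y p.2 ≤ 1 := fun p =>
    ⟨prod_nonneg fun y _ => (qq_bd H h0 h1 i y p.2).1,
      prod_le_one (fun y _ => (qq_bd H h0 h1 i y p.2).1) fun y _ => (qq_bd H h0 h1 i y p.2).2⟩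
  have e0 : ∀ p ∈ P, 0 ≤ e p := fun p _ => mul_nonneg hw (hq p).1
  have e1 : ∀ p ∈ P, e p ≤ c p := by
    intro p _
    have h3 := one_sub_aa_nonneg H h0 h1 (i + 1) p.1 p.2
    rw [aa_succ] at h3
    simp only [hc, he]
    linarith
  have e2 : ∀ p ∈ P, c p ≤ 1 := fun p _ => by
    have := aa_nonneg H h0 h1 i p.1 p.2
    simp only [hc]
    linarith
  have eh : ∑ p ∈ P, e p ≤ h * P.card := by
    calc ∑ p ∈ P, e p ≤ ∑ _p ∈ P, h := by
          refine sum_le_sum fun p _ => ?_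
          calc e p ≤ wi h i * 1 := mul_le_mul_of_nonneg_left (hq p).2 hw
            _ ≤ h := by rw [mul_one]; exact wi_le h0 h1 i
      _ = _ := by rw [sum_const, nsmul_eq_mul, mul_comm]
  obtain ⟨k1, k2, k3, k4⟩ := prod_sub_le P c e e0 e1 e2
  have k5 := prod_sub_second P c e e0 e1 e2
  have hs0 : 0 ≤ ∑ p ∈ P, e p := sum_nonneg e0
  -- the power
  have m5 := prod_sub_second (Finset.range b) (fun _ => (1 : ℝ)) (fun _ => h)
    (fun _ _ => h0) (fun _ _ => h1) (fun _ _ => le_rfl)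
  simp only [prod_const, card_range, one_pow, mul_one, sum_const, nsmul_eq_mul] at m5
  have hsucc : ∏ p ∈ P, (1 - aa H h (i + 1) p.1 p.2) = ∏ p ∈ P, (c p - e p) := by
    refine prod_congr rfl fun p _ => ?_
    rw [aa_succ]
    simp only [hc, he]
    ring
  have hG1 : GG H h (i + 1) S0 Bs = (1 - h) ^ (i * b) * ((1 - h) ^ b * ∏ p ∈ P, (c p - e p)) := by
    unfold GG
    rw [← hP, ← hb, hsucc, Nat.succ_mul, pow_add]
    ring
  have hG0 : GG H h i S0 Bs = (1 - h) ^ (i * b) * ∏ p ∈ P, c p := rfl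
  rw [hG1, hG0]
  set Y := ∏ p ∈ P, (c p - e p)
  set C := ∏ p ∈ P, c p
  set S := ∑ p ∈ P, e p * ∏ k ∈ P.erase p, c k
  set s := ∑ p ∈ P, e p
  have hpow0 : 0 ≤ (1 - h) ^ (i * b) := pow_nonneg (by linarith) _
  have hpow1 : (1 - h) ^ (i * b) ≤ 1 := pow_le_one₀ (by linarith) (by linarith)
  have key : (1 - h) ^ (i * b) * ((1 - h) ^ b * Y) - (1 - h) ^ (i * b) * C +
      h * (b : ℝ) * ((1 - h) ^ (i * b) * C) + (1 - h) ^ (i * b) * S =
      (1 - h) ^ (i * b) * ((Y - C + S) + h * b * (C - Y) +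
        ((1 - h) ^ b - 1 + b * h) * Y) := by ring
  rw [key, abs_mul, abs_of_nonneg hpow0]
  have hbh : 0 ≤ h * (b : ℝ) := by positivity
  have hY1 : Y ≤ 1 := k2.trans k4
  have t1 : |h * b * (C - Y)| ≤ h * b * s := by
    rw [abs_mul, abs_of_nonneg hbh, abs_of_nonneg (by linarith : 0 ≤ C - Y)]
    exact mul_le_mul_of_nonneg_left k3 hbh
  have t2 : |((1 - h) ^ b - 1 + b * h) * Y| ≤ (h * b) ^ 2 := by
    rw [abs_mul, abs_of_nonneg k1]
    calc |(1 - h) ^ b - 1 + b * h| * Y ≤ (b * h) ^ 2 * 1 :=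
          mul_le_mul m5 hY1 k1 (by positivity)
      _ = (h * b) ^ 2 := by ring
  have t3 : |(Y - C + S) + h * b * (C - Y) + ((1 - h) ^ b - 1 + b * h) * Y| ≤
      s ^ 2 + h * b * s + (h * b) ^ 2 := by
    have u1 := abs_add_le ((Y - C + S) + h * b * (C - Y)) (((1 - h) ^ b - 1 + b * h) * Y)
    have u2 := abs_add_le (Y - C + S) (h * b * (C - Y))
    linarith
  have t4 : s ^ 2 + h * b * s + (h * b) ^ 2 ≤ (h * b + h * P.card) ^ 2 := by
    have u3 : s ^ 2 + h * b * s + (h * b) ^ 2 ≤ (h * b + s) ^ 2 := by nlinarith [mul_nonneg hbh hs0]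
    have u4 : (h * b + s) ^ 2 ≤ (h * b + h * P.card) ^ 2 := by
      apply pow_le_pow_left₀ (by positivity)
      linarith
    linarith
  calc (1 - h) ^ (i * b) * |(Y - C + S) + h * b * (C - Y) + ((1 - h) ^ b - 1 + b * h) * Y| ≤
        1 * (h * b + h * P.card) ^ 2 :=
        mul_le_mul hpow1 (t3.trans t4) (abs_nonneg _) (by norm_num)
    _ = _ := one_mul _

theorem pts_insert (S0 : Finset α) (Bs : Finset (Finset α)) (T : Finset α) :
    pts S0 (insert T Bs) = pts S0 Bs ∪ T := by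
  unfold pts
  ext x
  simp only [mem_union, mem_biUnion, mem_insert, id]
  constructor
  · rintro (h | ⟨S, rfl | hS, hx⟩)
    · exact Or.inl (Or.inl h)
    · exact Or.inr hx
    · exact Or.inl (Or.inr ⟨S, hS, hx⟩)
  · rintro ((h | ⟨S, hS, hx⟩) | h)
    · exact Or.inl h
    · exact Or.inr ⟨S, Or.inr hS, hx⟩
    · exact Or.inr ⟨T, Or.inl rfl, h⟩

theorem mem_pts_of_mem {S0 : Finset α} {Bs : Finset (Finset α)} {T : Finset α} {x : α}
    (hT : T ∈ Bs) (hx : x ∈ T) : x ∈ pts S0 Bs := by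
  unfold pts
  exact mem_union_right _ (mem_biUnion.2 ⟨T, hT, hx⟩)

/-- the pairs of the configuration after adding a block which meets it in one point -/
theorem prs_insert (H : Finset (Finset α)) (S0 : Finset α) (Bs : Finset (Finset α))
    (T : Finset α) (x : α) (hx : T ∩ pts S0 Bs = {x}) :
    prs H S0 (insert T Bs) = (prs H S0 Bs).erase (x, T) ∪
      (T.erase x).biUnion (fun y => (H.filter (fun S => y ∈ S ∧ S ≠ T)).image (fun S => (y, S))) := by
  have hxT : x ∈ T ∧ x ∈ pts S0 Bs := by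
    have : x ∈ T ∩ pts S0 Bs := by rw [hx]; exact mem_singleton_self x
    exact mem_inter.1 this
  have huniq : ∀ y, y ∈ T → y ∈ pts S0 Bs → y = x := by
    intro y h1 h2
    have : y ∈ T ∩ pts S0 Bs := mem_inter.2 ⟨h1, h2⟩
    rw [hx] at this
    exact mem_singleton.1 this
  ext ⟨z, S⟩
  simp only [mem_union, mem_erase, mem_prs, mem_biUnion, mem_image, mem_filter, pts_insert,
    mem_insert, not_or, Prod.mk.injEq, ne_eq]
  constructor
  · rintro ⟨hz, hS, hzS, hST, hSB⟩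
    rcases hz with hz | hz
    · left
      exact ⟨fun h => hST h.2, hz, hS, hzS, hSB⟩
    · by_cases hzp : z ∈ pts S0 Bs
      · left
        exact ⟨fun h => hST h.2, hzp, hS, hzS, hSB⟩
      · right
        exact ⟨z, ⟨fun h => hzp (h ▸ hxT.2), hz⟩, S, ⟨hS, hzS, hST⟩, rfl, rfl⟩
  · rintro (⟨hne, hz, hS, hzS, hSB⟩ | ⟨y, ⟨hyx, hyT⟩, S', ⟨hS', hyS', hS'T⟩, rfl, rfl⟩)
    · refine ⟨Or.inl hz, hS, hzS, fun h => ?_, hSB⟩
      subst h
      exact hne ⟨huniq z hzS hz, rfl⟩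
    · refine ⟨Or.inr hyT, hS', hyS', hS'T, fun h => ?_⟩
      exact hyx (huniq y hyT (mem_pts_of_mem h hyS'))

/-- the cover survival after adding a block which meets the configuration in one point -/
theorem GG_insert (H : Finset (Finset α)) (h : ℝ) (i : ℕ) (S0 : Finset α)
    (Bs : Finset (Finset α)) (T : Finset α) (x : α) (hTB : T ∉ Bs) (hx : T ∩ pts S0 Bs = {x}) :
    GG H h i S0 (insert T Bs) = (1 - h) ^ (i * (Bs.card + 1)) *
      ((∏ k ∈ (prs H S0 Bs).erase (x, T), (1 - aa H h i k.1 k.2)) *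
        ∏ y ∈ T.erase x, qq H h i y T) := by
  have huniq : ∀ y, y ∈ T → y ∈ pts S0 Bs → y = x := by
    intro y h1 h2
    have : y ∈ T ∩ pts S0 Bs := mem_inter.2 ⟨h1, h2⟩
    rw [hx] at this
    exact mem_singleton.1 this
  unfold GG
  rw [card_insert_of_notMem hTB, prs_insert H S0 Bs T x hx, prod_union, prod_biUnion]
  · congr 2
    refine prod_congr rfl fun y _ => ?_
    rw [prod_image]
    · rfl
    · intro a _ b _ hab
      exact congrArg Prod.snd hab
  · intro y _ y' _ hyy'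
    rw [Function.onFun, disjoint_left]
    intro p hp hp'
    obtain ⟨S, _, rfl⟩ := mem_image.1 hp
    obtain ⟨S', _, h2⟩ := mem_image.1 hp'
    exact hyy' (congrArg Prod.fst h2).symm
  · rw [disjoint_left]
    intro p hp hp'
    obtain ⟨y, hy, hp''⟩ := mem_biUnion.1 hp'
    obtain ⟨S, hS, rfl⟩ := mem_image.1 hp''
    have h1 := (mem_prs.1 (mem_of_mem_erase hp)).1
    exact (mem_erase.1 hy).1 (huniq y (mem_erase.1 hy).2 h1)

/-- the recursion of the cover hierarchy -/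
theorem GG_succ (H : Finset (Finset α)) {h : ℝ} (h0 : 0 ≤ h) (h1 : h ≤ 1) (i : ℕ)
    (S0 : Finset α) (Bs : Finset (Finset α)) (hB : Bs ⊆ H) (hne : ∀ T ∈ H, T.Nonempty)
    (htr : ∀ T ∈ H, T ∉ Bs → ¬ Disjoint T (pts S0 Bs) → (T ∩ pts S0 Bs).card = 1) :
    |GG H h (i + 1) S0 Bs - GG H h i S0 Bs +
      h * ∑ T ∈ H.filter (fun T => ¬ Disjoint T (pts S0 Bs)), GG H h i S0 (insert T Bs)| ≤
      (h * Bs.card + h * (prs H S0 Bs).card) ^ 2 := by
  have key : h * ∑ T ∈ H.filter (fun T => ¬ Disjoint T (pts S0 Bs)), GG H h i S0 (insert T Bs) =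
      h * Bs.card * GG H h i S0 Bs +
      (1 - h) ^ (i * Bs.card) * ∑ p ∈ prs H S0 Bs,
        (wi h i * ∏ y ∈ p.2.erase p.1, qq H h i y p.2) *
          ∏ k ∈ (prs H S0 Bs).erase p, (1 - aa H h i k.1 k.2) := by
    have hsplit : H.filter (fun T => ¬ Disjoint T (pts S0 Bs)) =
        Bs ∪ (H.filter (fun T => ¬ Disjoint T (pts S0 Bs) ∧ T ∉ Bs)) := by
      ext T
      simp only [mem_filter, mem_union]
      constructor
      · rintro ⟨a, b⟩
        by_cases hT : T ∈ Bs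
        · exact Or.inl hT
        · exact Or.inr ⟨a, b, hT⟩
      · rintro (a | ⟨a, b, _⟩)
        · refine ⟨hB a, ?_⟩
          obtain ⟨y, hy⟩ := hne T (hB a)
          rw [disjoint_left]
          intro hd
          exact hd hy (mem_pts_of_mem a hy)
        · exact ⟨a, b⟩
    have hdis : Disjoint Bs (H.filter (fun T => ¬ Disjoint T (pts S0 Bs) ∧ T ∉ Bs)) := by
      rw [disjoint_left]
      intro T hT hT'
      exact (mem_filter.1 hT').2.2 hT
    rw [hsplit, sum_union hdis, mul_add]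
    have e1 : ∑ T ∈ Bs, GG H h i S0 (insert T Bs) = Bs.card * GG H h i S0 Bs := by
      rw [← nsmul_eq_mul, ← sum_const]
      refine sum_congr rfl fun T hT => ?_
      rw [insert_eq_self.2 hT]
    have hsnd : ∀ p ∈ prs H S0 Bs, p.2 ∩ pts S0 Bs = {p.1} := by
      intro p hp
      obtain ⟨a1, a2, a3, a4⟩ := mem_prs.1 hp
      have hd : ¬ Disjoint p.2 (pts S0 Bs) := by
        rw [disjoint_left]
        intro hd
        exact hd a3 a1
      obtain ⟨x, hx⟩ := card_eq_one.1 (htr p.2 a2 a4 hd)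
      have : p.1 ∈ p.2 ∩ pts S0 Bs := mem_inter.2 ⟨a3, a1⟩
      rw [hx] at this ⊢
      rw [mem_singleton.1 this]
    have e2 : ∑ T ∈ H.filter (fun T => ¬ Disjoint T (pts S0 Bs) ∧ T ∉ Bs),
        GG H h i S0 (insert T Bs) = ∑ p ∈ prs H S0 Bs, GG H h i S0 (insert p.2 Bs) := by
      symm
      refine sum_bij (fun p _ => p.2) ?_ ?_ ?_ (fun _ _ => rfl)
      · intro p hp
        obtain ⟨a1, a2, a3, a4⟩ := mem_prs.1 hp
        refine mem_filter.2 ⟨a2, ?_, a4⟩
        rw [disjoint_left]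
        intro hd
        exact hd a3 a1
      · intro p hp p' hp' hpp
        have q1 := hsnd p hp
        have q2 := hsnd p' hp'
        have hpp' : p.2 = p'.2 := hpp
        rw [hpp', q2] at q1
        exact Prod.ext (singleton_injective q1).symm hpp'
      · intro T hT
        obtain ⟨a1, a2, a3⟩ := mem_filter.1 hT
        rw [not_disjoint_iff] at a2
        obtain ⟨x, hx1, hx2⟩ := a2
        exact ⟨(x, T), mem_prs.2 ⟨hx2, a1, hx1, a3⟩, rfl⟩
    rw [e1, e2]
    congr 1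
    · ring
    · rw [mul_sum, mul_sum]
      refine sum_congr rfl fun p hp => ?_
      rw [GG_insert H h i S0 Bs p.2 p.1 (mem_prs.1 hp).2.2.2 (hsnd p hp)]
      unfold wi
      rw [Nat.mul_succ, pow_add]
      ring
  rw [key]
  have h3 := GG_succ_raw H h0 h1 i S0 Bs
  rw [← add_assoc]
  exact h3

theorem FF_succ (H : Finset (Finset α)) (h : ℝ) (i : ℕ) (S0 : Finset α)
    (Bs : Finset (Finset α)) :
    FF H h (i + 1) (pts S0 Bs) = FF H h i (pts S0 Bs) -
      h * ∑ T ∈ H.filter (fun T => ¬ Disjoint T (pts S0 Bs)), FF H h i (pts S0 (insert T Bs)) := by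
  rw [FF]
  congr 2
  refine sum_congr rfl fun T _ => ?_
  rw [pts_insert]

theorem card_pts_le (S0 : Finset α) (Bs : Finset (Finset α)) (h3 : ∀ T ∈ Bs, T.card = 3) :
    (pts S0 Bs).card ≤ S0.card + 3 * Bs.card := by
  unfold pts
  refine (card_union_le _ _).trans ?_
  have : (Bs.biUnion id).card ≤ Bs.card * 3 :=
    card_biUnion_le_card_mul _ _ _ fun T hT => (h3 T hT).le
  omega

theorem card_meet_le (H : Finset (Finset α)) (P : Finset α) (D : ℕ)
    (hD : ∀ x ∈ P, (H.filter (fun T => x ∈ T)).card ≤ D) :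
    (H.filter (fun T => ¬ Disjoint T P)).card ≤ P.card * D := by
  have : H.filter (fun T => ¬ Disjoint T P) ⊆ P.biUnion (fun x => H.filter (fun T => x ∈ T)) := by
    intro T hT
    obtain ⟨a, b⟩ := mem_filter.1 hT
    rw [not_disjoint_iff] at b
    obtain ⟨x, hx1, hx2⟩ := b
    exact mem_biUnion.2 ⟨x, hx2, mem_filter.2 ⟨a, hx1⟩⟩
  refine (card_le_card this).trans ?_
  exact card_biUnion_le_card_mul _ _ _ hD

theorem card_prs_le (H : Finset (Finset α)) (S0 : Finset α) (Bs : Finset (Finset α)) (D : ℕ)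
    (hD : ∀ x ∈ pts S0 Bs, (H.filter (fun T => x ∈ T)).card ≤ D) :
    (prs H S0 Bs).card ≤ (pts S0 Bs).card * D := by
  have : prs H S0 Bs ⊆ (pts S0 Bs).biUnion
      (fun x => (H.filter (fun T => x ∈ T)).image (fun T => (x, T))) := by
    intro p hp
    obtain ⟨a1, a2, a3, a4⟩ := mem_prs.1 hp
    exact mem_biUnion.2 ⟨p.1, a1, mem_image.2 ⟨p.2, mem_filter.2 ⟨a2, a3⟩, rfl⟩⟩
  refine (card_le_card this).trans ?_
  exact card_biUnion_le_card_mul _ _ _ fun x hx => card_image_le.trans (hD x hx)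

/-- the cover survival of one point -/
theorem GG_one (H : Finset (Finset α)) (h : ℝ) (i : ℕ) (e : α) :
    GG H h i {e} ∅ = nn H h i e := by
  unfold GG nn
  rw [card_empty, mul_zero, pow_zero, one_mul]
  symm
  refine prod_bij (fun T _ => (e, T)) ?_ ?_ ?_ (fun _ _ => rfl)
  · intro T hT
    obtain ⟨a, b⟩ := mem_filter.1 hT
    refine mem_prs.2 ⟨?_, a, b, notMem_empty _⟩
    unfold pts
    simp
  · intro T _ T' _ hTT
    exact congrArg Prod.snd hTT
  · intro p hp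
    obtain ⟨a1, a2, a3, a4⟩ := mem_prs.1 hp
    have : p.1 = e := by
      unfold pts at a1
      simpa using a1
    refine ⟨p.2, mem_filter.2 ⟨a2, this ▸ a3⟩, ?_⟩
    exact Prod.ext this.symm rfl

/-- the cover survival of two points -/
theorem GG_two (H : Finset (Finset α)) (h : ℝ) (i : ℕ) (e f : α) (hef : e ≠ f) :
    GG H h i {e, f} ∅ = nn H h i e * nn H h i f := by
  unfold GG nn
  rw [card_empty, mul_zero, pow_zero, one_mul]
  have hu : prs H {e, f} ∅ = (H.filter (fun T => e ∈ T)).image (fun T => (e, T)) ∪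
      (H.filter (fun T => f ∈ T)).image (fun T => (f, T)) := by
    ext ⟨z, T⟩
    simp only [mem_prs, mem_union, mem_image, mem_filter, Prod.mk.injEq, pts, biUnion_empty,
      union_empty, mem_insert, mem_singleton, notMem_empty, not_false_eq_true, and_true]
    constructor
    · rintro ⟨rfl | rfl, hT, hz⟩
      · exact Or.inl ⟨T, ⟨hT, hz⟩, rfl, rfl⟩
      · exact Or.inr ⟨T, ⟨hT, hz⟩, rfl, rfl⟩
    · rintro (⟨T', ⟨hT, hz⟩, rfl, rfl⟩ | ⟨T', ⟨hT, hz⟩, rfl, rfl⟩)
      · exact ⟨Or.inl rfl, hT, hz⟩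
      · exact ⟨Or.inr rfl, hT, hz⟩
  have hd : Disjoint ((H.filter (fun T => e ∈ T)).image (fun T => (e, T)))
      ((H.filter (fun T => f ∈ T)).image (fun T => (f, T))) := by
    rw [disjoint_left]
    intro p hp hp'
    obtain ⟨T, _, rfl⟩ := mem_image.1 hp
    obtain ⟨T', _, h2⟩ := mem_image.1 hp'
    exact hef (congrArg Prod.fst h2).symm
  rw [hu, prod_union hd, prod_image, prod_image]
  · intro a _ b _ hab
    exact congrArg Prod.snd hab
  · intro a _ b _ hab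
    exact congrArg Prod.snd hab

end GGrec

end

end Vale.Agent.P046.CT
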