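import Vale.Agent.P046.CT.Defs

/-!
P046, sharp constant: row GD, the hierarchy of the cover.
-/

namespace Vale.Agent.P046.CT

open Finset Vale.Agent.P046

noncomputable section

variable {α : Type} [DecidableEq α]

namespace Gd

/-- pairs (point of `S`, block through it not inside `S`) -/
def PR (H : Finset (Finset α)) (S : Finset α) : Finset (α × Finset α) :=
  (S ×ˢ H).filter (fun p => p.1 ∈ p.2 ∧ ¬ p.2 ⊆ S)

theorem mem_PR {H : Finset (Finset α)} {S : Finset α} {p : α × Finset α} :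
    p ∈ PR H S ↔ p.1 ∈ S ∧ p.2 ∈ H ∧ p.1 ∈ p.2 ∧ ¬ p.2 ⊆ S := by
  unfold PR
  simp only [mem_filter, mem_product]
  tauto

theorem GG_eq (H : Finset (Finset α)) (a : α → Finset α → ℝ → ℝ) (S : Finset α) (u : ℝ) :
    GG H a S u = ∏ p ∈ PR H S, (1 - a p.1 p.2 u) := by
  unfold GG
  symm
  refine prod_finset_product (PR H S) S (fun x => H.filter (fun T => x ∈ T ∧ ¬ T ⊆ S)) ?_
  intro p
  rw [mem_PR, mem_filter]

theorem one_sub {H : Finset (Finset α)} {a : α → Finset α → ℝ → ℝ} (hc : Cov H a) {x : α}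
    {T : Finset α} (hT : T ∈ H) (hx : x ∈ T) {u : ℝ} (hu : u ∈ Set.Icc (0 : ℝ) 1) :
    0 ≤ 1 - a x T u ∧ 1 - a x T u ≤ 1 := by
  have h1 := hc.nonneg T hT x hx u hu
  have h2 := hc.le T hT x hx u hu
  have h3 := hu.2
  constructor
  · linarith
  · linarith

/-- the pairs after adding a block which meets the set in one point -/
theorem PR_insert (H : Finset (Finset α)) (S T : Finset α) (hT : T ∈ H) (hTS : ¬ T ⊆ S) (x : α)
    (hx : T ∩ S = {x}) (hbl : bl H (S ∪ T) = insert T (bl H S)) :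
    PR H (S ∪ T) = (PR H S).erase (x, T) ∪
      (T.erase x).biUnion (fun y => (H.filter (fun S' => y ∈ S' ∧ S' ≠ T)).image (fun S' => (y, S'))) := by
  have hxT : x ∈ T ∧ x ∈ S := by
    have : x ∈ T ∩ S := by rw [hx]; exact mem_singleton_self x
    exact mem_inter.1 this
  have huniq : ∀ y, y ∈ T → y ∈ S → y = x := by
    intro y h1 h2
    have : y ∈ T ∩ S := mem_inter.2 ⟨h1, h2⟩
    rw [hx] at this
    exact mem_singleton.1 this
  have hsub : ∀ S' ∈ H, (S' ⊆ S ∪ T ↔ S' = T ∨ S' ⊆ S) := by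
    intro S' hS'
    have h1 : S' ∈ bl H (S ∪ T) ↔ S' ∈ insert T (bl H S) := by rw [hbl]
    unfold bl at h1
    simp only [mem_filter, mem_insert, hS', true_and] at h1
    exact h1
  ext ⟨z, S'⟩
  simp only [mem_union, mem_erase, mem_PR, mem_biUnion, mem_image, mem_filter, Prod.mk.injEq,
    ne_eq]
  constructor
  · rintro ⟨hz, hS, hzS, hST⟩
    rw [hsub S' hS, not_or] at hST
    rcases hz with hz | hz
    · left
      exact ⟨fun h => hST.1 h.2, hz, hS, hzS, hST.2⟩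
    · by_cases hzp : z ∈ S
      · left
        exact ⟨fun h => hST.1 h.2, hzp, hS, hzS, hST.2⟩
      · right
        exact ⟨z, ⟨fun h => hzp (h ▸ hxT.2), hz⟩, S', ⟨hS, hzS, hST.1⟩, rfl, rfl⟩
  · rintro (⟨hne, hz, hS, hzS, hSB⟩ | ⟨y, ⟨hyx, hyT⟩, S'', ⟨hS', hyS', hS'T⟩, rfl, rfl⟩)
    · refine ⟨Or.inl hz, hS, hzS, ?_⟩
      rw [hsub S' hS, not_or]
      refine ⟨fun h => ?_, hSB⟩
      subst h
      exact hne ⟨huniq z hzS hz, rfl⟩
    · refine ⟨Or.inr hyT, hS', hyS', ?_⟩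
      rw [hsub S'' hS', not_or]
      exact ⟨hS'T, fun h => hyx (huniq y hyT (h hyS'))⟩

theorem GG_union (H : Finset (Finset α)) (a : α → Finset α → ℝ → ℝ) (S T : Finset α)
    (hT : T ∈ H) (hTS : ¬ T ⊆ S) (x : α) (hx : T ∩ S = {x})
    (hbl : bl H (S ∪ T) = insert T (bl H S)) (u : ℝ) :
    GG H a (S ∪ T) u = (∏ k ∈ (PR H S).erase (x, T), (1 - a k.1 k.2 u)) *
        ∏ y ∈ T.erase x, qm H a y T u := by
  have huniq : ∀ y, y ∈ T → y ∈ S → y = x := by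
    intro y h1 h2
    have : y ∈ T ∩ S := mem_inter.2 ⟨h1, h2⟩
    rw [hx] at this
    exact mem_singleton.1 this
  rw [GG_eq, PR_insert H S T hT hTS x hx hbl, prod_union, prod_biUnion]
  · congr 1
    refine prod_congr rfl fun y _ => ?_
    rw [prod_image]
    · rfl
    · intro a _ b _ hab
      exact congrArg Prod.snd hab
  · intro y _ y' _ hyy'
    rw [Function.onFun, disjoint_left]
    intro p hp hp'
    obtain ⟨S, _, rfl⟩ := mem_image.1 hp
    obtain ⟨S', _, h2⟩ := mem_image.1 hp'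
    exact hyy' (congrArg Prod.fst h2).symm
  · rw [disjoint_left]
    intro p hp hp'
    obtain ⟨y, hy, hp''⟩ := mem_biUnion.1 hp'
    obtain ⟨S', hS', rfl⟩ := mem_image.1 hp''
    have h1 := (mem_PR.1 (mem_of_mem_erase hp)).1
    exact (mem_erase.1 hy).1 (huniq y (mem_erase.1 hy).2 h1)

end Gd

/-- [GD] hierarchy of the cover -/
theorem GG_mem {H : Finset (Finset α)} {a : α → Finset α → ℝ → ℝ} (hc : Cov H a)
    (S : Finset α) {u : ℝ} (hu : u ∈ Set.Icc (0 : ℝ) 1) : 0 ≤ GG H a S u ∧ GG H a S u ≤ 1 := by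
  rw [Gd.GG_eq]
  constructor
  · refine prod_nonneg fun p hp => ?_
    obtain ⟨a1, a2, a3, a4⟩ := Gd.mem_PR.1 hp
    exact (Gd.one_sub hc a2 a3 hu).1
  · refine prod_le_one (fun p hp => ?_) fun p hp => ?_
    · obtain ⟨a1, a2, a3, a4⟩ := Gd.mem_PR.1 hp
      exact (Gd.one_sub hc a2 a3 hu).1
    · obtain ⟨a1, a2, a3, a4⟩ := Gd.mem_PR.1 hp
      exact (Gd.one_sub hc a2 a3 hu).2

theorem GG_der {H : Finset (Finset α)} {a : α → Finset α → ℝ → ℝ} (hc : Cov H a)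
    (hL : Lin3 H) {D r : ℕ} {S : Finset α} (hg : TG H D (r + 1) S) {u : ℝ}
    (hu : u ∈ Set.Icc (0 : ℝ) 1) :
    HasDerivAt (GG H a S) (-∑ T ∈ H.filter (fun T => ¬ Disjoint T S ∧ ¬ T ⊆ S),
      GG H a (S ∪ T) u) u := by
  have hfun : GG H a S = fun u => ∏ p ∈ Gd.PR H S, (1 - a p.1 p.2 u) := by
    funext u
    exact Gd.GG_eq H a S u
  have hd : HasDerivAt (fun u => ∏ p ∈ Gd.PR H S, (1 - a p.1 p.2 u))
      (∑ p ∈ Gd.PR H S, (∏ k ∈ (Gd.PR H S).erase p, (1 - a k.1 k.2 u)) •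
        (-∏ f ∈ p.2.erase p.1, qm H a f p.2 u)) u := by
    refine HasDerivAt.fun_finsetProd fun p hp => ?_
    obtain ⟨a1, a2, a3, a4⟩ := Gd.mem_PR.1 hp
    exact (hc.der p.2 a2 p.1 a3 u hu).const_sub 1
  rw [hfun]
  have hsnd : ∀ p ∈ Gd.PR H S, p.2 ∩ S = {p.1} ∧ bl H (S ∪ p.2) = insert p.2 (bl H S) := by
    intro p hp
    obtain ⟨a1, a2, a3, a4⟩ := Gd.mem_PR.1 hp
    have hd : ¬ Disjoint p.2 S := by
      rw [disjoint_left]
      intro hd
      exact hd a3 a1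
    obtain ⟨b1, b2, b3⟩ := hg.2 p.2 a2 hd a4
    obtain ⟨x, hx⟩ := card_eq_one.1 b1
    have : p.1 ∈ p.2 ∩ S := mem_inter.2 ⟨a3, a1⟩
    rw [hx] at this
    refine ⟨?_, b2⟩
    rw [hx, mem_singleton.1 this]
  have e2 : ∑ T ∈ H.filter (fun T => ¬ Disjoint T S ∧ ¬ T ⊆ S), GG H a (S ∪ T) u =
      ∑ p ∈ Gd.PR H S, GG H a (S ∪ p.2) u := by
    symm
    refine sum_bij (fun p _ => p.2) ?_ ?_ ?_ (fun _ _ => rfl)
    · intro p hp
      obtain ⟨a1, a2, a3, a4⟩ := Gd.mem_PR.1 hp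
      refine mem_filter.2 ⟨a2, ?_, a4⟩
      rw [disjoint_left]
      intro hd
      exact hd a3 a1
    · intro p hp p' hp' hpp
      have q1 := (hsnd p hp).1
      have q2 := (hsnd p' hp').1
      have hpp' : p.2 = p'.2 := hpp
      rw [hpp', q2] at q1
      exact Prod.ext (singleton_injective q1).symm hpp'
    · intro T hT
      obtain ⟨a1, a2, a3⟩ := mem_filter.1 hT
      rw [not_disjoint_iff] at a2
      obtain ⟨x, hx1, hx2⟩ := a2
      exact ⟨(x, T), Gd.mem_PR.2 ⟨hx2, a1, hx1, a3⟩, rfl⟩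
  have e3 : ∑ p ∈ Gd.PR H S, (∏ k ∈ (Gd.PR H S).erase p, (1 - a k.1 k.2 u)) •
        (-∏ f ∈ p.2.erase p.1, qm H a f p.2 u) =
      -∑ T ∈ H.filter (fun T => ¬ Disjoint T S ∧ ¬ T ⊆ S), GG H a (S ∪ T) u := by
    rw [e2, ← sum_neg_distrib]
    refine sum_congr rfl fun p hp => ?_
    obtain ⟨a1, a2, a3, a4⟩ := Gd.mem_PR.1 hp
    rw [Gd.GG_union H a S p.2 a2 a4 p.1 (hsnd p hp).1 (hsnd p hp).2 u, smul_eq_mul]
    ring
  rw [e3] at hd
  exact hd

end

end Vale.Agent.P046.CT
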