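import Mathlib

/-!
P046, sharp constant: the two hierarchies (definitions). `H` = set of alive blocks (3-element sets),
`h` = time step.
-/

namespace Vale.Agent.P046.CT

open Finset

noncomputable section

variable {α : Type} [DecidableEq α]

/-- joint survival: `FF H h i S` is the probability that all points of `S` are alive after `i`
steps of the chain in which every alive block rings with probability `h` in one step -/
def FF (H : Finset (Finset α)) (h : ℝ) : ℕ → Finset α → ℝ
  | 0, _ => 1
  | i + 1, S => FF H h i S - h * ∑ T ∈ H.filter (fun T => ¬ Disjoint T S), FF H h i (S ∪ T)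

/-- the label time increments -/
def wi (h : ℝ) (i : ℕ) : ℝ := h * (1 - h) ^ i

/-- cover system: `aa H h i x T` = probability (in the universal cover) that `T` is accepted
during the first `i` steps when `x` survives otherwise -/
def aa (H : Finset (Finset α)) (h : ℝ) : ℕ → α → Finset α → ℝ
  | 0, _, _ => 0
  | i + 1, x, T => aa H h i x T +
      wi h i * ∏ y ∈ T.erase x, ∏ S ∈ H.filter (fun S => y ∈ S ∧ S ≠ T), (1 - aa H h i y S)

/-- `y` is alive, blocks other than `T` -/
def qq (H : Finset (Finset α)) (h : ℝ) (i : ℕ) (y : α) (T : Finset α) : ℝ :=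
  ∏ S ∈ H.filter (fun S => y ∈ S ∧ S ≠ T), (1 - aa H h i y S)

/-- survival in the cover -/
def nn (H : Finset (Finset α)) (h : ℝ) (i : ℕ) (e : α) : ℝ :=
  ∏ T ∈ H.filter (fun T => e ∈ T), (1 - aa H h i e T)

/-- points of the configuration: the start set `S0` and the blocks `Bs` -/
def pts (S0 : Finset α) (Bs : Finset (Finset α)) : Finset α := S0 ∪ Bs.biUnion id

/-- pairs (point of the configuration, block through it outside the configuration) -/
def prs (H : Finset (Finset α)) (S0 : Finset α) (Bs : Finset (Finset α)) :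
    Finset (α × Finset α) :=
  (pts S0 Bs ×ˢ H).filter (fun p => p.1 ∈ p.2 ∧ p.2 ∉ Bs)

/-- survival of the configuration in the cover -/
def GG (H : Finset (Finset α)) (h : ℝ) (i : ℕ) (S0 : Finset α) (Bs : Finset (Finset α)) : ℝ :=
  (1 - h) ^ (i * Bs.card) * ∏ p ∈ prs H S0 Bs, (1 - aa H h i p.1 p.2)

/-- the configuration is tree-like with degrees at most `D`, up to `R` further blocks -/
def TL (H : Finset (Finset α)) (D : ℕ) (S0 : Finset α) : ℕ → Finset (Finset α) → Prop
  | 0, _ => True
  | R + 1, Bs => (∀ x ∈ pts S0 Bs, (H.filter (fun T => x ∈ T)).card ≤ D) ∧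
      ∀ T ∈ H, ¬ Disjoint T (pts S0 Bs) →
        (T ∉ Bs → (T ∩ pts S0 Bs).card = 1) ∧ TL H D S0 R (insert T Bs)

end

end Vale.Agent.P046.CT
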