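import Vale.Agent.P046.CT.Defs

/-! P046 sharp constant, row J3: the error of the reference densities. -/

namespace Vale.Agent.P046.CT

open Finset Vale.Agent.P046

noncomputable section

variable {α : Type} [DecidableEq α]

namespace J3

/-- half of the logarithm -/
def ta (K u : ℝ) : ℝ := Real.log (1 + 2 * K * u) / 2

/-- the deviation, zero at exceptional points -/
def th (H : Finset (Finset α)) (G : Finset α) (K : ℝ) (f : α) : ℝ :=
  if f ∈ G then xx H K f else 0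

/-- sum of the deviations of the other points of the block -/
def zz (H : Finset (Finset α)) (G : Finset α) (K : ℝ) (e : α) (T : Finset α) : ℝ :=
  ∑ f ∈ T.erase e, th H G K f

section

variable {H : Finset (Finset α)} {A G : Finset α} {a : α → Finset α → ℝ → ℝ} {K η u : ℝ}

theorem w1 (hK : 1 ≤ K) (hu : u ∈ Set.Icc (0 : ℝ) 1) : 1 ≤ 1 + 2 * K * u := by
  have : 0 ≤ 2 * K * u := by have := hu.1; positivity
  linarith

theorem ta_nonneg (hK : 1 ≤ K) (hu : u ∈ Set.Icc (0 : ℝ) 1) : 0 ≤ ta K u := by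
  unfold ta
  have := Real.log_nonneg (w1 hK hu)
  linarith

theorem ta_le (hK : 1 ≤ K) (hu : u ∈ Set.Icc (0 : ℝ) 1) :
    ta K u ≤ (1 + Real.log (1 + 2 * K)) / 2 := by
  unfold ta
  have h1 := w1 hK hu
  have h2 : 1 + 2 * K * u ≤ 1 + 2 * K := by
    have h3 : 2 * K * u ≤ 2 * K * 1 := mul_le_mul_of_nonneg_left hu.2 (by linarith)
    linarith
  have h4 := Real.log_le_log (by linarith : (0 : ℝ) < 1 + 2 * K * u) h2
  linarith

theorem pp_pos (hK : 1 ≤ K) (hu : u ∈ Set.Icc (0 : ℝ) 1) : 0 < pp K u :=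
  Real.rpow_pos_of_pos (by linarith [w1 hK hu]) _

theorem mm_eq (hK : 1 ≤ K) (hu : u ∈ Set.Icc (0 : ℝ) 1) (f : α) :
    mm H G K f u = pp K u * Real.exp (-(ta K u * th H G K f)) := by
  have h1 := w1 hK hu
  unfold mm th
  split_ifs with h
  · unfold pp ta
    rw [Real.rpow_def_of_pos (by linarith), Real.rpow_def_of_pos (by linarith), ← Real.exp_add]
    congr 1
    ring
  · simp

theorem ta_th (hh : Hyp H A G a K η) (hu : u ∈ Set.Icc (0 : ℝ) 1) (f : α) :
    |ta K u * th H G K f| ≤ η / 2 := by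
  unfold th
  split_ifs with h
  · have h1 := ta_nonneg hh.K1 hu
    have h2 := ta_le hh.K1 hu
    have h3 := hh.small f h
    rw [abs_mul, abs_of_nonneg h1]
    calc ta K u * |xx H K f| ≤ (1 + Real.log (1 + 2 * K)) / 2 * |xx H K f| :=
          mul_le_mul_of_nonneg_right h2 (abs_nonneg _)
      _ ≤ η / 2 := by linarith
  · have := hh.eta0
    simp only [mul_zero, abs_zero]
    linarith

theorem card_erase2 (hh : Hyp H A G a K η) {T : Finset α} (hT : T ∈ H) {e : α} (he : e ∈ T) :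
    (T.erase e).card = 2 := by
  rw [card_erase_of_mem he, hh.lin.card3 T hT]

theorem ta_zz (hh : Hyp H A G a K η) (hu : u ∈ Set.Icc (0 : ℝ) 1) {T : Finset α} (hT : T ∈ H)
    {e : α} (he : e ∈ T) : |ta K u * zz H G K e T| ≤ η := by
  unfold zz
  rw [mul_sum]
  refine (abs_sum_le_sum_abs _ _).trans ?_
  have h1 : ∑ f ∈ T.erase e, |ta K u * th H G K f| ≤ ∑ f ∈ T.erase e, η / 2 :=
    sum_le_sum fun f _ => ta_th hh hu f
  refine h1.trans (le_of_eq ?_)
  rw [sum_const, card_erase2 hh hT he, nsmul_eq_mul]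
  push_cast
  ring

theorem MT_eq (hh : Hyp H A G a K η) (hu : u ∈ Set.Icc (0 : ℝ) 1) {T : Finset α} (hT : T ∈ H)
    {e : α} (he : e ∈ T) :
    MT H G K T u = pp K u ^ 2 * mm H G K e u * Real.exp (-(ta K u * zz H G K e T)) := by
  unfold MT
  rw [← mul_prod_erase T _ he]
  have h1 : ∏ f ∈ T.erase e, mm H G K f u =
      ∏ f ∈ T.erase e, (pp K u * Real.exp (-(ta K u * th H G K f))) :=
    prod_congr rfl fun f _ => mm_eq hh.K1 hu f
  have h2 : ∏ f ∈ T.erase e, Real.exp (-(ta K u * th H G K f)) =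
      Real.exp (-(ta K u * zz H G K e T)) := by
    rw [← Real.exp_sum]
    congr 1
    unfold zz
    rw [mul_sum, sum_neg_distrib]
  rw [h1, prod_mul_distrib, prod_const, card_erase2 hh hT he, h2]
  ring

/-- the error is a sum over the blocks -/
theorem er_eq (hh : Hyp H A G a K η) (hu : u ∈ Set.Icc (0 : ℝ) 1) (e : α) :
    er H G K e u = pp K u ^ 2 * mm H G K e u *
      ∑ T ∈ H.filter (fun T => e ∈ T), (1 - Real.exp (-(ta K u * zz H G K e T))) := by
  unfold er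
  rw [mul_sum]
  refine sum_congr rfl fun T hT => ?_
  rw [mem_filter] at hT
  rw [MT_eq hh hu hT.1 hT.2]
  ring

theorem mm_pos (hh : Hyp H A G a K η) (hu : u ∈ Set.Icc (0 : ℝ) 1) (e : α) :
    0 < mm H G K e u := by
  rw [mm_eq hh.K1 hu]
  exact mul_pos (pp_pos hh.K1 hu) (Real.exp_pos _)

theorem mm_le (hh : Hyp H A G a K η) (hu : u ∈ Set.Icc (0 : ℝ) 1) (e : α) :
    mm H G K e u ≤ 9 / 8 * pp K u := by
  rw [mm_eq hh.K1 hu, mul_comm]
  apply mul_le_mul_of_nonneg_right _ (pp_pos hh.K1 hu).le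
  have h1 := ta_th (A := A) (a := a) hh hu e
  have h2 := hh.eta1
  have h3 : |-(ta K u * th H G K e)| ≤ 1 := by rw [abs_neg]; linarith
  have h4 := (abs_le.mp (Real.abs_exp_sub_one_le h3)).2
  rw [abs_neg] at h4
  linarith

theorem dH_le (hh : Hyp H A G a K η) {e : α} (he : e ∈ G) : dH H e ≤ 9 / 8 * K := by
  have h1 := hh.small e he
  have hK := hh.K1
  have h2 : 0 ≤ Real.log (1 + 2 * K) := Real.log_nonneg (by linarith)
  have h3 : |xx H K e| ≤ η := by
    have h4 : |xx H K e| * 1 ≤ |xx H K e| * (1 + Real.log (1 + 2 * K)) :=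
      mul_le_mul_of_nonneg_left (by linarith) (abs_nonneg _)
    linarith
  have h4 := (abs_le.mp h3).2
  unfold xx at h4
  have h5 : dH H e / K ≤ 9 / 8 := by have := hh.eta1; linarith
  rwa [div_le_iff₀ (by linarith)] at h5

theorem dH_le' (hh : Hyp H A G a K η) {e : α} (he : e ∈ G) : dH H e ≤ 2 * K := by
  have := dH_le hh he
  have := hh.K1
  linarith

theorem zz_pow4 (hh : Hyp H A G a K η) {T : Finset α} (hT : T ∈ H) {e : α} (he : e ∈ T) :
    zz H G K e T ^ 4 ≤ 8 * ∑ f ∈ T.erase e, th H G K f ^ 4 := by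
  have hc := card_erase2 hh hT he
  have h1 : zz H G K e T ^ 2 ≤ 2 * ∑ f ∈ T.erase e, th H G K f ^ 2 := by
    have := sq_sum_le_card_mul_sum_sq (s := T.erase e) (f := fun f => th H G K f)
    rw [hc] at this
    push_cast at this
    exact this
  have h2 : (∑ f ∈ T.erase e, th H G K f ^ 2) ^ 2 ≤ 2 * ∑ f ∈ T.erase e, th H G K f ^ 4 := by
    have := sq_sum_le_card_mul_sum_sq (s := T.erase e) (f := fun f => th H G K f ^ 2)
    rw [hc] at this
    push_cast at this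
    refine this.trans (le_of_eq ?_)
    congr 1
    exact sum_congr rfl fun f _ => by ring
  have h3 : zz H G K e T ^ 4 = (zz H G K e T ^ 2) ^ 2 := by ring
  rw [h3]
  calc (zz H G K e T ^ 2) ^ 2 ≤ (2 * ∑ f ∈ T.erase e, th H G K f ^ 2) ^ 2 :=
        pow_le_pow_left₀ (sq_nonneg _) h1 2
    _ = 4 * (∑ f ∈ T.erase e, th H G K f ^ 2) ^ 2 := by ring
    _ ≤ _ := by linarith

/-- double counting -/
theorem swap (hh : Hyp H A G a K η) :
    ∑ e ∈ G, ∑ T ∈ H.filter (fun T => e ∈ T), ∑ f ∈ T.erase e, th H G K f ^ 4 ≤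
      9 / 4 * K * ∑ e ∈ G, xx H K e ^ 4 := by
  have hnn : ∀ f, 0 ≤ th H G K f ^ 4 := fun f => by positivity
  have h1 : ∑ e ∈ G, ∑ T ∈ H.filter (fun T => e ∈ T), ∑ f ∈ T.erase e, th H G K f ^ 4 =
      ∑ T ∈ H, ∑ e ∈ G.filter (fun e => e ∈ T), ∑ f ∈ T.erase e, th H G K f ^ 4 := by
    simp only [sum_filter]
    exact sum_comm
  have h2 : ∀ T ∈ H, ∑ e ∈ G.filter (fun e => e ∈ T), ∑ f ∈ T.erase e, th H G K f ^ 4 ≤
      2 * ∑ f ∈ T, th H G K f ^ 4 := by
    intro T hT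
    have h3 : ∑ e ∈ G.filter (fun e => e ∈ T), ∑ f ∈ T.erase e, th H G K f ^ 4 ≤
        ∑ e ∈ T, ∑ f ∈ T.erase e, th H G K f ^ 4 := by
      apply sum_le_sum_of_subset_of_nonneg
      · intro e he
        exact (mem_filter.mp he).2
      · intro e _ _
        exact sum_nonneg fun f _ => hnn f
    refine h3.trans (le_of_eq ?_)
    have h4 : ∀ e ∈ T, ∑ f ∈ T.erase e, th H G K f ^ 4 =
        ∑ f ∈ T, th H G K f ^ 4 - th H G K e ^ 4 := by
      intro e he
      rw [← add_sum_erase T _ he]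
      ring
    rw [sum_congr rfl h4, sum_sub_distrib, sum_const, hh.lin.card3 T hT, nsmul_eq_mul]
    push_cast
    ring
  rw [h1]
  refine (sum_le_sum h2).trans ?_
  rw [← mul_sum]
  have h5 : ∑ T ∈ H, ∑ f ∈ T, th H G K f ^ 4 = ∑ f ∈ G, dH H f * xx H K f ^ 4 := by
    have h6 : ∀ T ∈ H, ∑ f ∈ T, th H G K f ^ 4 =
        ∑ f ∈ G, if f ∈ T then xx H K f ^ 4 else 0 := by
      intro T _
      rw [← sum_filter]
      have e1 : ∀ f ∈ T, th H G K f ^ 4 = if f ∈ G then xx H K f ^ 4 else 0 := by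
        intro f _
        unfold th
        split_ifs <;> simp
      rw [sum_congr rfl e1, ← sum_filter]
      apply sum_congr _ fun _ _ => rfl
      ext f
      simp only [mem_filter]
      tauto
    rw [sum_congr rfl h6, sum_comm]
    refine sum_congr rfl fun f _ => ?_
    rw [← sum_filter, sum_const, nsmul_eq_mul]
    rfl
  rw [h5, mul_sum, mul_sum]
  refine sum_le_sum fun f hf => ?_
  have h7 := dH_le hh hf
  have h8 : 0 ≤ xx H K f ^ 4 := by positivity
  have h9 := mul_le_mul_of_nonneg_right h7 h8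
  linarith

/-- the square of the sum at one point -/
theorem point (hh : Hyp H A G a K η) (hu : u ∈ Set.Icc (0 : ℝ) 1) {e : α} (he : e ∈ G) :
    (∑ T ∈ H.filter (fun T => e ∈ T), (1 - Real.exp (-(ta K u * zz H G K e T)))) ^ 2 ≤
      2 * ta K u ^ 2 * K ^ 2 * bG H G K e ^ 2 + 18 * ta K u ^ 4 * K *
        ∑ T ∈ H.filter (fun T => e ∈ T), ∑ f ∈ T.erase e, th H G K f ^ 4 := by
  have hK := hh.K1
  set t := ta K u with htdef
  have ht0 := ta_nonneg hK hu
  rw [← htdef] at ht0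
  have hs1 : ∑ T ∈ H.filter (fun T => e ∈ T), t * zz H G K e T = t * (K * bG H G K e) := by
    rw [← mul_sum]
    congr 1
    unfold bG
    rw [← mul_assoc, mul_one_div_cancel (by linarith : K ≠ 0), one_mul]
    refine sum_congr rfl fun T _ => ?_
    unfold zz th
    rw [sum_filter]
  have hs2 : |∑ T ∈ H.filter (fun T => e ∈ T), (1 - Real.exp (-(t * zz H G K e T)))| ≤
      |t * (K * bG H G K e)| + ∑ T ∈ H.filter (fun T => e ∈ T), (t * zz H G K e T) ^ 2 := by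
    rw [← hs1]
    have e1 : ∑ T ∈ H.filter (fun T => e ∈ T), (1 - Real.exp (-(t * zz H G K e T))) =
        ∑ T ∈ H.filter (fun T => e ∈ T), t * zz H G K e T +
        ∑ T ∈ H.filter (fun T => e ∈ T),
          (-(Real.exp (-(t * zz H G K e T)) - 1 - (-(t * zz H G K e T)))) := by
      rw [← sum_add_distrib]
      exact sum_congr rfl fun T _ => by ring
    rw [e1]
    refine (abs_add_le _ _).trans ?_
    have e2 : |∑ T ∈ H.filter (fun T => e ∈ T),
        (-(Real.exp (-(t * zz H G K e T)) - 1 - (-(t * zz H G K e T))))| ≤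
        ∑ T ∈ H.filter (fun T => e ∈ T), (t * zz H G K e T) ^ 2 := by
      refine (abs_sum_le_sum_abs _ _).trans (sum_le_sum fun T hT => ?_)
      rw [mem_filter] at hT
      have h1 : |-(t * zz H G K e T)| ≤ 1 := by
        rw [abs_neg]
        have := ta_zz hh hu hT.1 hT.2
        have := hh.eta1
        linarith
      have h2 := Real.abs_exp_sub_one_sub_id_le h1
      rw [abs_neg]
      refine h2.trans (le_of_eq ?_)
      ring
    linarith
  set X := t * (K * bG H G K e) with hX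
  set Y := ∑ T ∈ H.filter (fun T => e ∈ T), (t * zz H G K e T) ^ 2 with hY
  have hY0 : 0 ≤ Y := sum_nonneg fun _ _ => sq_nonneg _
  have hY2 : Y ^ 2 ≤ 9 * t ^ 4 * K *
      ∑ T ∈ H.filter (fun T => e ∈ T), ∑ f ∈ T.erase e, th H G K f ^ 4 := by
    have h1 : Y ^ 2 ≤ dH H e * ∑ T ∈ H.filter (fun T => e ∈ T), ((t * zz H G K e T) ^ 2) ^ 2 :=
      sq_sum_le_card_mul_sum_sq
    have h2 : ∑ T ∈ H.filter (fun T => e ∈ T), ((t * zz H G K e T) ^ 2) ^ 2 ≤
        ∑ T ∈ H.filter (fun T => e ∈ T), t ^ 4 * (8 * ∑ f ∈ T.erase e, th H G K f ^ 4) := by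
      refine sum_le_sum fun T hT => ?_
      rw [mem_filter] at hT
      have h3 := zz_pow4 hh hT.1 hT.2
      have h4 : ((t * zz H G K e T) ^ 2) ^ 2 = t ^ 4 * zz H G K e T ^ 4 := by ring
      rw [h4]
      exact mul_le_mul_of_nonneg_left h3 (by positivity)
    have h5 : 0 ≤ ∑ T ∈ H.filter (fun T => e ∈ T), ∑ f ∈ T.erase e, th H G K f ^ 4 :=
      sum_nonneg fun _ _ => sum_nonneg fun _ _ => by positivity
    have h6 : ∑ T ∈ H.filter (fun T => e ∈ T), t ^ 4 * (8 * ∑ f ∈ T.erase e, th H G K f ^ 4) =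
        8 * t ^ 4 * ∑ T ∈ H.filter (fun T => e ∈ T), ∑ f ∈ T.erase e, th H G K f ^ 4 := by
      rw [mul_sum]
      exact sum_congr rfl fun T _ => by ring
    rw [h6] at h2
    have h7 : 0 ≤ dH H e := by unfold dH; positivity
    calc Y ^ 2 ≤ _ := h1
      _ ≤ dH H e * (8 * t ^ 4 * ∑ T ∈ H.filter (fun T => e ∈ T),
          ∑ f ∈ T.erase e, th H G K f ^ 4) := mul_le_mul_of_nonneg_left h2 h7
      _ ≤ 9 / 8 * K * (8 * t ^ 4 * ∑ T ∈ H.filter (fun T => e ∈ T),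
          ∑ f ∈ T.erase e, th H G K f ^ 4) :=
        mul_le_mul_of_nonneg_right (dH_le hh he) (by positivity)
      _ = _ := by ring
  have h9 : (∑ T ∈ H.filter (fun T => e ∈ T), (1 - Real.exp (-(t * zz H G K e T)))) ^ 2 ≤
      (|X| + Y) ^ 2 := by
    rw [← sq_abs]
    exact pow_le_pow_left₀ (abs_nonneg _) hs2 2
  have h10 : (|X| + Y) ^ 2 ≤ 2 * |X| ^ 2 + 2 * Y ^ 2 := by nlinarith [sq_nonneg (|X| - Y)]
  rw [sq_abs] at h10
  have h11 : 2 * X ^ 2 = 2 * t ^ 2 * K ^ 2 * bG H G K e ^ 2 := by rw [hX]; ring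
  rw [h11] at h10
  linarith

end

end J3

open J3

/-- [J3] -/
theorem er_abs {H : Finset (Finset α)} {A G : Finset α} {a : α → Finset α → ℝ → ℝ} {K η : ℝ}
    (hh : Hyp H A G a K η) {e : α} (he : e ∈ G) {u : ℝ} (hu : u ∈ Set.Icc (0 : ℝ) 1) :
    |er H G K e u| ≤ 4 * η * K * pp K u ^ 2 * mm H G K e u := by
  have hm := mm_pos hh hu e
  have hp := pp_pos hh.K1 hu
  have h0 := hh.eta0
  rw [er_eq hh hu, abs_mul, abs_of_nonneg (by positivity : 0 ≤ pp K u ^ 2 * mm H G K e u)]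
  have h1 : |∑ T ∈ H.filter (fun T => e ∈ T), (1 - Real.exp (-(ta K u * zz H G K e T)))| ≤
      dH H e * (2 * η) := by
    refine (abs_sum_le_sum_abs _ _).trans ?_
    have h2 : ∑ T ∈ H.filter (fun T => e ∈ T), |1 - Real.exp (-(ta K u * zz H G K e T))| ≤
        ∑ T ∈ H.filter (fun T => e ∈ T), 2 * η := by
      refine sum_le_sum fun T hT => ?_
      rw [mem_filter] at hT
      have h3 := ta_zz hh hu hT.1 hT.2
      have h4 : |-(ta K u * zz H G K e T)| ≤ 1 := by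
        rw [abs_neg]
        have := hh.eta1
        linarith
      have h5 := Real.abs_exp_sub_one_le h4
      rw [abs_neg] at h5
      rw [abs_sub_comm]
      linarith
    rw [sum_const, nsmul_eq_mul] at h2
    exact h2
  have h6 : dH H e * (2 * η) ≤ 4 * η * K := by
    have h7 := mul_le_mul_of_nonneg_right (dH_le' hh he) (by linarith : 0 ≤ 2 * η)
    linarith
  have h8 := mul_le_mul_of_nonneg_left (h1.trans h6)
    (by positivity : 0 ≤ pp K u ^ 2 * mm H G K e u)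
  refine h8.trans (le_of_eq ?_)
  ring

theorem er_sum {H : Finset (Finset α)} {A G : Finset α} {a : α → Finset α → ℝ → ℝ} {K η : ℝ}
    (hh : Hyp H A G a K η) {u : ℝ} (hu : u ∈ Set.Icc (0 : ℝ) 1) :
    ∑ e ∈ G, er H G K e u ^ 2 / mm H G K e u ≤
      1000 * K ^ 2 * pp K u ^ 5 * (1 + Real.log (1 + 2 * K)) ^ 4 *
        (∑ e ∈ G, bG H G K e ^ 2 + ∑ e ∈ G, xx H K e ^ 4) := by
  have hK := hh.K1
  have hp := pp_pos hK hu
  have ht0 := ta_nonneg hK hu
  have ht1 := ta_le hK hu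
  set L := 1 + Real.log (1 + 2 * K) with hL
  have hL1 : 1 ≤ L := by
    have : 0 ≤ Real.log (1 + 2 * K) := Real.log_nonneg (by linarith)
    linarith
  set t := ta K u with htdef
  have h1 : ∀ e ∈ G, er H G K e u ^ 2 / mm H G K e u ≤ 9 / 8 * pp K u ^ 5 *
      (2 * t ^ 2 * K ^ 2 * bG H G K e ^ 2 + 18 * t ^ 4 * K *
        ∑ T ∈ H.filter (fun T => e ∈ T), ∑ f ∈ T.erase e, th H G K f ^ 4) := by
    intro e he
    have hm := mm_pos hh hu e
    have hm2 := mm_le hh hu e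
    have hpt := point hh hu he
    rw [er_eq hh hu]
    set Z := ∑ T ∈ H.filter (fun T => e ∈ T), (1 - Real.exp (-(ta K u * zz H G K e T))) with hZ
    have e1 : (pp K u ^ 2 * mm H G K e u * Z) ^ 2 / mm H G K e u =
        mm H G K e u * (pp K u ^ 4 * Z ^ 2) := by
      field_simp
    rw [e1]
    calc mm H G K e u * (pp K u ^ 4 * Z ^ 2) ≤ 9 / 8 * pp K u * (pp K u ^ 4 * Z ^ 2) :=
          mul_le_mul_of_nonneg_right hm2 (by positivity)
      _ = 9 / 8 * pp K u ^ 5 * Z ^ 2 := by ring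
      _ ≤ _ := mul_le_mul_of_nonneg_left hpt (by positivity)
  refine (sum_le_sum h1).trans ?_
  rw [← mul_sum, sum_add_distrib, ← mul_sum, ← mul_sum]
  have hsw := swap hh
  set Sb := ∑ e ∈ G, bG H G K e ^ 2 with hSb
  set Sx := ∑ e ∈ G, xx H K e ^ 4 with hSx
  have hSb0 : 0 ≤ Sb := sum_nonneg fun _ _ => sq_nonneg _
  have hSx0 : 0 ≤ Sx := sum_nonneg fun _ _ => by positivity
  have h2 : t ^ 2 ≤ L ^ 4 := by
    have h3 : t ^ 2 ≤ (L / 2) ^ 2 := pow_le_pow_left₀ ht0 ht1 2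
    have h4 : (L / 2) ^ 2 ≤ L ^ 2 := by nlinarith
    have h5 : L ^ 2 ≤ L ^ 4 := pow_le_pow_right₀ hL1 (by norm_num)
    linarith
  have h3 : t ^ 4 ≤ L ^ 4 := by
    have h3 : t ^ 4 ≤ (L / 2) ^ 4 := pow_le_pow_left₀ ht0 ht1 4
    have h4 : (L / 2) ^ 4 ≤ L ^ 4 := by
      apply pow_le_pow_left₀ (by linarith) (by linarith)
    linarith
  have h4 : 2 * t ^ 2 * K ^ 2 * Sb ≤ 2 * L ^ 4 * K ^ 2 * Sb := by
    have := mul_le_mul_of_nonneg_right h2 (by positivity : 0 ≤ 2 * K ^ 2 * Sb)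
    linarith
  have h5 : 18 * t ^ 4 * K * ∑ e ∈ G, ∑ T ∈ H.filter (fun T => e ∈ T),
      ∑ f ∈ T.erase e, th H G K f ^ 4 ≤ 18 * L ^ 4 * K * (9 / 4 * K * Sx) := by
    calc 18 * t ^ 4 * K * ∑ e ∈ G, ∑ T ∈ H.filter (fun T => e ∈ T),
        ∑ f ∈ T.erase e, th H G K f ^ 4 ≤ 18 * t ^ 4 * K * (9 / 4 * K * Sx) :=
          mul_le_mul_of_nonneg_left hsw (by positivity)
      _ = t ^ 4 * (18 * K * (9 / 4 * K * Sx)) := by ring
      _ ≤ L ^ 4 * (18 * K * (9 / 4 * K * Sx)) :=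
          mul_le_mul_of_nonneg_right h3 (by positivity)
      _ = _ := by ring
  have h6 : 9 / 8 * pp K u ^ 5 * (2 * t ^ 2 * K ^ 2 * Sb + 18 * t ^ 4 * K *
      ∑ e ∈ G, ∑ T ∈ H.filter (fun T => e ∈ T), ∑ f ∈ T.erase e, th H G K f ^ 4) ≤
      9 / 8 * pp K u ^ 5 * (2 * L ^ 4 * K ^ 2 * Sb + 18 * L ^ 4 * K * (9 / 4 * K * Sx)) :=
    mul_le_mul_of_nonneg_left (add_le_add h4 h5) (by positivity)
  refine h6.trans ?_
  have h7 : 1000 * K ^ 2 * pp K u ^ 5 * L ^ 4 * (Sb + Sx) -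
      9 / 8 * pp K u ^ 5 * (2 * L ^ 4 * K ^ 2 * Sb + 18 * L ^ 4 * K * (9 / 4 * K * Sx)) =
      K ^ 2 * pp K u ^ 5 * L ^ 4 * ((1000 - 9 / 4) * Sb + (1000 - 9 / 8 * 18 * 9 / 4) * Sx) := by
    ring
  have h8 : 0 ≤ K ^ 2 * pp K u ^ 5 * L ^ 4 *
      ((1000 - 9 / 4) * Sb + (1000 - 9 / 8 * 18 * 9 / 4) * Sx) := by
    have h9 : 0 ≤ (1000 - 9 / 4) * Sb + (1000 - 9 / 8 * 18 * 9 / 4) * Sx := by
      have := mul_nonneg (by norm_num : (0 : ℝ) ≤ 1000 - 9 / 4) hSb0
      have := mul_nonneg (by norm_num : (0 : ℝ) ≤ 1000 - 9 / 8 * 18 * 9 / 4) hSx0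
      linarith
    positivity
  linarith

end

end Vale.Agent.P046.CT
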