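import Vale.Agent.P046.CT.N1
import Vale.Agent.P046.CT.J1

/-!
P046, sharp constant, row J4: sum of the squares of the cavity corrections.
-/

namespace Vale.Agent.P046.CT

open Finset Vale.Agent.P046 MeasureTheory

noncomputable section

variable {α : Type} [DecidableEq α]

namespace J4

theorem pp_contOn {K : ℝ} (hK : 1 ≤ K) : ContinuousOn (pp K) (Set.Icc 0 1) := by
  intro u hu
  apply ContinuousAt.continuousWithinAt
  unfold pp
  have h1 : (1 + 2 * K * u) ≠ 0 := by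
    have : 0 ≤ K * u := mul_nonneg (by linarith) hu.1
    nlinarith
  exact ContinuousAt.rpow (by fun_prop) continuousAt_const (Or.inl h1)

theorem pp_pos {K u : ℝ} (hK : 1 ≤ K) (hu : 0 ≤ u) : 0 < pp K u := by
  unfold pp
  have : 0 ≤ K * u := mul_nonneg (by linarith) hu
  apply Real.rpow_pos_of_pos
  nlinarith

theorem nn_contOn {H : Finset (Finset α)} {a : α → Finset α → ℝ → ℝ} (hc : Cov H a) (e : α) :
    ContinuousOn (nn H a e) (Set.Icc 0 1) := fun _ hu =>
  (nn_der hc e hu).continuousAt.continuousWithinAt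

theorem mm_contOn {H : Finset (Finset α)} {A G : Finset α} {a : α → Finset α → ℝ → ℝ} {K η : ℝ}
    (hh : Hyp H A G a K η) {e : α} (he : e ∈ G) :
    ContinuousOn (mm H G K e) (Set.Icc 0 1) := fun _ hu =>
  (mm_der hh he hu).continuousAt.continuousWithinAt

/-- the one-point functional -/
def jf (H : Finset (Finset α)) (a : α → Finset α → ℝ → ℝ) (G : Finset α) (K : ℝ) (e : α)
    (u : ℝ) : ℝ := (nn H a e u - mm H G K e u) ^ 2 / (2 * mm H G K e u)

theorem jf_contOn {H : Finset (Finset α)} {A G : Finset α} {a : α → Finset α → ℝ → ℝ} {K η : ℝ}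
    (hh : Hyp H A G a K η) {e : α} (he : e ∈ G) :
    ContinuousOn (jf H a G K e) (Set.Icc 0 1) := by
  have h1 := nn_contOn hh.cov e
  have h2 := mm_contOn hh he
  unfold jf
  refine ContinuousOn.div (by fun_prop) (by fun_prop) fun u hu => ?_
  have := (mm_bd hh e hu).1
  positivity

theorem JJ_contOn {H : Finset (Finset α)} {A G : Finset α} {a : α → Finset α → ℝ → ℝ} {K η : ℝ}
    (hh : Hyp H A G a K η) : ContinuousOn (JJ H a G K) (Set.Icc 0 1) := by
  have : JJ H a G K = fun u => ∑ e ∈ G, jf H a G K e u := rfl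
  rw [this]
  exact continuousOn_finsetSum _ fun e he => jf_contOn hh he

theorem a_contOn {H : Finset (Finset α)} {a : α → Finset α → ℝ → ℝ} (hc : Cov H a) {T : Finset α}
    (hT : T ∈ H) {e : α} (he : e ∈ T) : ContinuousOn (a e T) (Set.Icc 0 1) := fun u hu =>
  (hc.der T hT e he u hu).continuousAt.continuousWithinAt

theorem qm_contOn {H : Finset (Finset α)} {a : α → Finset α → ℝ → ℝ} (hc : Cov H a) (f : α)
    (T : Finset α) : ContinuousOn (qm H a f T) (Set.Icc 0 1) := by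
  unfold qm
  refine continuousOn_finsetProd _ fun S hS => ?_
  rw [mem_filter] at hS
  exact continuousOn_const.sub (a_contOn hc hS.1 hS.2.1)

/-- accumulated squared density -/
def I2 (H : Finset (Finset α)) (a : α → Finset α → ℝ → ℝ) (f : α) (u : ℝ) : ℝ :=
  ∫ v in (0 : ℝ)..u, nn H a f v ^ 2

theorem icc_sub {ζ u : ℝ} (hz : 0 < ζ) (hu : u ∈ Set.Icc (0 : ℝ) (1 - ζ)) :
    Set.uIcc 0 u ⊆ Set.Icc (0 : ℝ) 1 := by
  rw [Set.uIcc_of_le hu.1]
  exact Set.Icc_subset_Icc le_rfl (by linarith [hu.2])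

theorem nn2_int {H : Finset (Finset α)} {a : α → Finset α → ℝ → ℝ} (hc : Cov H a) (f : α)
    {ζ u : ℝ} (hz : 0 < ζ) (hu : u ∈ Set.Icc (0 : ℝ) (1 - ζ)) :
    IntervalIntegrable (fun v => nn H a f v ^ 2) volume 0 u :=
  (((nn_contOn hc f).pow 2).mono (icc_sub hz hu)).intervalIntegrable

theorem I2_nonneg {H : Finset (Finset α)} {a : α → Finset α → ℝ → ℝ} (f : α)
    {ζ u : ℝ} (hu : u ∈ Set.Icc (0 : ℝ) (1 - ζ)) : 0 ≤ I2 H a f u :=
  intervalIntegral.integral_nonneg hu.1 fun _ _ => sq_nonneg _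

theorem qm_le {H : Finset (Finset α)} {a : α → Finset α → ℝ → ℝ} (hc : Cov H a)
    {T : Finset α} (hT : T ∈ H) {f : α} (hf : f ∈ T)
    {ζ v : ℝ} (hz : 0 < ζ) (hv : v ∈ Set.Icc (0 : ℝ) (1 - ζ)) :
    qm H a f T v ≤ ζ⁻¹ * nn H a f v := by
  have hv1 : v ∈ Set.Icc (0 : ℝ) 1 := ⟨hv.1, by linarith [hv.2]⟩
  have h1 := nn_eq (a := a) hT hf v
  have h2 := hc.le T hT f hf v hv1
  have h3 := (qm_mem hc f T hv1).1
  have h4 : ζ ≤ 1 - a f T v := by linarith [hv.2]
  have h5 : qm H a f T v * ζ ≤ nn H a f v := by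
    rw [h1]; exact mul_le_mul_of_nonneg_left h4 h3
  rw [inv_mul_eq_div, le_div_iff₀ hz]
  exact h5

theorem a_le {H : Finset (Finset α)} {a : α → Finset α → ℝ → ℝ} (hc : Cov H a) (hL : Lin3 H)
    {T : Finset α} (hT : T ∈ H) {e : α} (he : e ∈ T)
    {ζ u : ℝ} (hz : 0 < ζ) (hu : u ∈ Set.Icc (0 : ℝ) (1 - ζ)) :
    a e T u ≤ (ζ⁻¹) ^ 2 / 2 * ∑ f ∈ T.erase e, I2 H a f u := by
  have hsub := icc_sub hz hu
  have hFTC : ∫ v in (0 : ℝ)..u, ∏ f ∈ T.erase e, qm H a f T v = a e T u - a e T 0 := by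
    apply intervalIntegral.integral_eq_sub_of_hasDerivAt
    · intro v hv
      exact hc.der T hT e he v (hsub hv)
    · exact ((continuousOn_finsetProd _ fun f _ => qm_contOn hc f T).mono
        hsub).intervalIntegrable
  rw [hc.zero T hT e he, sub_zero] at hFTC
  have hI : (ζ⁻¹) ^ 2 / 2 * ∑ f ∈ T.erase e, I2 H a f u =
      ∫ v in (0 : ℝ)..u, (ζ⁻¹) ^ 2 / 2 * ∑ f ∈ T.erase e, nn H a f v ^ 2 := by
    rw [intervalIntegral.integral_const_mul, intervalIntegral.integral_finsetSum]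
    · rfl
    · intro f _
      exact nn2_int hc f hz hu
  rw [← hFTC, hI]
  apply intervalIntegral.integral_mono_on hu.1
  · exact ((continuousOn_finsetProd _ fun f _ => qm_contOn hc f T).mono
        hsub).intervalIntegrable
  · refine ContinuousOn.intervalIntegrable ?_
    refine continuousOn_const.mul (continuousOn_finsetSum _ fun f _ => ?_)
    exact ((nn_contOn hc f).pow 2).mono hsub
  · intro v hv
    have hv' : v ∈ Set.Icc (0 : ℝ) (1 - ζ) := ⟨hv.1, hv.2.trans hu.2⟩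
    have hv1 : v ∈ Set.Icc (0 : ℝ) 1 := ⟨hv.1, by linarith [hv'.2]⟩
    have hcard : (T.erase e).card = 2 := by
      rw [card_erase_of_mem he, hL.card3 T hT]
    obtain ⟨f, g, hfg, hTe⟩ := card_eq_two.1 hcard
    have hf : f ∈ T := mem_of_mem_erase (hTe ▸ mem_insert_self f {g})
    have hg : g ∈ T := mem_of_mem_erase (hTe ▸ mem_insert_of_mem (mem_singleton_self g))
    rw [hTe, prod_pair hfg, sum_pair hfg]
    have h1 := qm_le hc hT hf hz hv'
    have h2 := qm_le hc hT hg hz hv'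
    have h3 := (qm_mem hc f T hv1).1
    have h4 := (qm_mem hc g T hv1).1
    have h5 := (nn_mem hc f hv1).1
    have h6 := (nn_mem hc g hv1).1
    have hz' : 0 < ζ⁻¹ := inv_pos.2 hz
    calc qm H a f T v * qm H a g T v ≤ (ζ⁻¹ * nn H a f v) * (ζ⁻¹ * nn H a g v) :=
          mul_le_mul h1 h2 h4 (by positivity)
      _ = (ζ⁻¹) ^ 2 * (nn H a f v * nn H a g v) := by ring
      _ ≤ (ζ⁻¹) ^ 2 * ((nn H a f v ^ 2 + nn H a g v ^ 2) / 2) := by
          apply mul_le_mul_of_nonneg_left _ (by positivity)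
          nlinarith [sq_nonneg (nn H a f v - nn H a g v)]
      _ = (ζ⁻¹) ^ 2 / 2 * (nn H a f v ^ 2 + nn H a g v ^ 2) := by ring

theorem sum_a_sq {H : Finset (Finset α)} {a : α → Finset α → ℝ → ℝ} (hc : Cov H a) (hL : Lin3 H)
    {T : Finset α} (hT : T ∈ H) {ζ u : ℝ} (hz : 0 < ζ) (hu : u ∈ Set.Icc (0 : ℝ) (1 - ζ)) :
    (∑ e ∈ T, a e T u) ^ 2 ≤ 3 * (ζ⁻¹) ^ 4 * ∑ f ∈ T, I2 H a f u ^ 2 := by
  have hu1 : u ∈ Set.Icc (0 : ℝ) 1 := ⟨hu.1, by linarith [hu.2]⟩
  have h0 : 0 ≤ ∑ e ∈ T, a e T u := sum_nonneg fun e he => hc.nonneg T hT e he u hu1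
  have h1 : ∑ e ∈ T, a e T u ≤ (ζ⁻¹) ^ 2 * ∑ f ∈ T, I2 H a f u := by
    calc ∑ e ∈ T, a e T u ≤ ∑ e ∈ T, (ζ⁻¹) ^ 2 / 2 * ∑ f ∈ T.erase e, I2 H a f u :=
          sum_le_sum fun e he => a_le hc hL hT he hz hu
      _ = ∑ e ∈ T, (ζ⁻¹) ^ 2 / 2 * (∑ f ∈ T, I2 H a f u - I2 H a e u) := by
          refine sum_congr rfl fun e he => ?_
          rw [← sum_erase_add T _ he]
          ring
      _ = (ζ⁻¹) ^ 2 * ∑ f ∈ T, I2 H a f u := by
          rw [← mul_sum, sum_sub_distrib, sum_const, hL.card3 T hT, nsmul_eq_mul]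
          push_cast
          ring
  have h2 : (∑ f ∈ T, I2 H a f u) ^ 2 ≤ (T.card : ℝ) * ∑ f ∈ T, I2 H a f u ^ 2 :=
    sq_sum_le_card_mul_sum_sq
  rw [hL.card3 T hT] at h2
  calc (∑ e ∈ T, a e T u) ^ 2 ≤ ((ζ⁻¹) ^ 2 * ∑ f ∈ T, I2 H a f u) ^ 2 := by gcongr
    _ = (ζ⁻¹) ^ 4 * (∑ f ∈ T, I2 H a f u) ^ 2 := by ring
    _ ≤ (ζ⁻¹) ^ 4 * (((3 : ℕ) : ℝ) * ∑ f ∈ T, I2 H a f u ^ 2) := by
        apply mul_le_mul_of_nonneg_left h2 (by positivity)
    _ = 3 * (ζ⁻¹) ^ 4 * ∑ f ∈ T, I2 H a f u ^ 2 := by push_cast; ring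

theorem int_p2 {K u : ℝ} (hK : 1 ≤ K) (hu : 0 ≤ u) :
    ∫ v in (0 : ℝ)..u, pp K v ^ 2 = Real.log (1 + 2 * K * u) / (2 * K) := by
  have hKne : (2 * K) ≠ 0 := by linarith
  have h1 : ∫ v in (0 : ℝ)..u, pp K v ^ 2 =
      Real.log (1 + 2 * K * u) / (2 * K) - Real.log (1 + 2 * K * 0) / (2 * K) := by
    apply intervalIntegral.integral_eq_sub_of_hasDerivAt
    · intro v hv
      rw [Set.uIcc_of_le hu] at hv
      have hpos : 0 < 1 + 2 * K * v := by
        have : 0 ≤ K * v := mul_nonneg (by linarith) hv.1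
        nlinarith
      rw [pp_sq hK hv.1]
      have h2 : HasDerivAt (fun v : ℝ => 1 + 2 * K * v) (2 * K) v := by
        simpa using ((hasDerivAt_id v).const_mul (2 * K)).const_add 1
      have h3 := (h2.log hpos.ne').div_const (2 * K)
      have h4 : 2 * K / (1 + 2 * K * v) / (2 * K) = 1 / (1 + 2 * K * v) := by
        rw [div_div, mul_comm (1 + 2 * K * v) (2 * K), ← div_div, div_self hKne]
      rw [h4] at h3
      exact h3
    · refine ContinuousOn.intervalIntegrable ?_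
      rw [Set.uIcc_of_le hu]
      intro v hv
      apply ContinuousAt.continuousWithinAt
      have h1 : (1 + 2 * K * v) ≠ 0 := by
        have : 0 ≤ K * v := mul_nonneg (by linarith) hv.1
        nlinarith
      unfold pp
      exact ((show ContinuousAt (fun v : ℝ => (1 + 2 * K * v)) v by fun_prop).rpow
        continuousAt_const (Or.inl h1)).pow 2
  rw [h1]
  simp

/-- the main one-point bound -/
theorem one_point {H : Finset (Finset α)} {A G : Finset α} {a : α → Finset α → ℝ → ℝ} {K η : ℝ}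
    (hh : Hyp H A G a K η) {e : α} (he : e ∈ G)
    {ζ u : ℝ} (hz : 0 < ζ) (hu : u ∈ Set.Icc (0 : ℝ) (1 - ζ)) :
    mm H G K e u * I2 H a e u ^ 2 ≤
      pp K u * (24 * ((1 + Real.log (1 + 2 * K)) ^ 2 / K ^ 2)
        + 24 * ∫ v in (0 : ℝ)..u, pp K v * jf H a G K e v) := by
  have hsub := icc_sub hz hu
  have hu1 : u ∈ Set.Icc (0 : ℝ) 1 := ⟨hu.1, by linarith [hu.2]⟩
  have hK := hh.K1
  have hη := hh.eta1
  have hη0 := hh.eta0
  have hpu := pp_pos hK hu1.1
  have hnc := (nn_contOn hh.cov e).mono hsub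
  have hmc := (mm_contOn hh he).mono hsub
  have hjc := (jf_contOn hh he).mono hsub
  have hpc := (pp_contOn hK).mono hsub
  set Z : ℝ := ∫ v in (0 : ℝ)..u, (nn H a e v - mm H G K e v) ^ 2 with hZ
  set L : ℝ := 1 + Real.log (1 + 2 * K) with hLdef
  have hlog0 : 0 ≤ Real.log (1 + 2 * K) := Real.log_nonneg (by linarith)
  -- bound of I2
  have hI : I2 H a e u ≤ 3 / 2 * L / K + 2 * Z := by
    have h1 : I2 H a e u ≤ ∫ v in (0 : ℝ)..u, (2 * (81 / 64 * pp K v ^ 2)
        + 2 * (nn H a e v - mm H G K e v) ^ 2) := by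
      apply intervalIntegral.integral_mono_on hu.1
      · exact nn2_int hh.cov e hz hu
      · exact ContinuousOn.intervalIntegrable (by fun_prop)
      · intro v hv
        have hv1 : v ∈ Set.Icc (0 : ℝ) 1 := ⟨hv.1, hv.2.trans hu1.2⟩
        obtain ⟨hm0, hm1, hm2, hm3⟩ := mm_bd hh e hv1
        have hpv := pp_pos hK hv1.1
        have h2 : mm H G K e v ^ 2 ≤ 81 / 64 * pp K v ^ 2 := by
          have h3 : mm H G K e v ≤ 9 / 8 * pp K v := by nlinarith
          calc mm H G K e v ^ 2 ≤ (9 / 8 * pp K v) ^ 2 := by gcongr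
            _ = 81 / 64 * pp K v ^ 2 := by ring
        nlinarith [sq_nonneg (nn H a e v - 2 * mm H G K e v)]
    have h2 : ∫ v in (0 : ℝ)..u, (2 * (81 / 64 * pp K v ^ 2)
        + 2 * (nn H a e v - mm H G K e v) ^ 2) =
        2 * (81 / 64 * (Real.log (1 + 2 * K * u) / (2 * K))) + 2 * Z := by
      rw [intervalIntegral.integral_add, intervalIntegral.integral_const_mul,
        intervalIntegral.integral_const_mul, intervalIntegral.integral_const_mul, int_p2 hK hu.1]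
      · exact ContinuousOn.intervalIntegrable (by fun_prop)
      · exact ContinuousOn.intervalIntegrable (by fun_prop)
    have h3 : Real.log (1 + 2 * K * u) ≤ Real.log (1 + 2 * K) := by
      apply Real.log_le_log
      · have : 0 ≤ K * u := mul_nonneg (by linarith) hu.1
        nlinarith
      · have : K * u ≤ K * 1 := mul_le_mul_of_nonneg_left hu1.2 (by linarith)
        nlinarith
    have h4 : 2 * (81 / 64 * (Real.log (1 + 2 * K * u) / (2 * K))) ≤ 3 / 2 * L / K := by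
      rw [hLdef]
      rw [show 2 * (81 / 64 * (Real.log (1 + 2 * K * u) / (2 * K))) =
        (81 / 64 * Real.log (1 + 2 * K * u)) / K by field_simp]
      apply div_le_div_of_nonneg_right _ (by linarith)
      nlinarith
    linarith
  have hZ0 : 0 ≤ Z := intervalIntegral.integral_nonneg hu.1 fun _ _ => sq_nonneg _
  have hZ1 : Z ≤ 1 := by
    have h1 : Z ≤ ∫ v in (0 : ℝ)..u, (1 : ℝ) := by
      apply intervalIntegral.integral_mono_on hu.1
      · exact ContinuousOn.intervalIntegrable (by fun_prop)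
      · exact ContinuousOn.intervalIntegrable (by fun_prop)
      · intro v hv
        have hv1 : v ∈ Set.Icc (0 : ℝ) 1 := ⟨hv.1, hv.2.trans hu1.2⟩
        obtain ⟨hm0, hm1, hm2, hm3⟩ := mm_bd hh e hv1
        obtain ⟨hn0, hn1⟩ := nn_mem hh.cov e hv1
        rw [sq_le_one_iff_abs_le_one]
        rw [abs_le]
        constructor <;> linarith
    rw [intervalIntegral.integral_const, smul_eq_mul] at h1
    linarith [hu1.2]
  -- the weighted deviation
  have hW : mm H G K e u * Z ≤ 3 * pp K u * ∫ v in (0 : ℝ)..u, pp K v * jf H a G K e v := by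
    rw [hZ, ← intervalIntegral.integral_const_mul, ← intervalIntegral.integral_const_mul]
    apply intervalIntegral.integral_mono_on hu.1
    · exact ContinuousOn.intervalIntegrable (by fun_prop)
    · exact ContinuousOn.intervalIntegrable (by fun_prop)
    · intro v hv
      have hv1 : v ∈ Set.Icc (0 : ℝ) 1 := ⟨hv.1, hv.2.trans hu1.2⟩
      obtain ⟨hm0, hm1, hm2, hm3⟩ := mm_bd hh e hv1
      obtain ⟨hm0', hm1', hm2', hm3'⟩ := mm_bd hh e hu1
      have hpv := pp_pos hK hv1.1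
      have h1 : (nn H a e v - mm H G K e v) ^ 2 = 2 * mm H G K e v * jf H a G K e v := by
        unfold jf
        field_simp
      have hj0 : 0 ≤ jf H a G K e v := by unfold jf; positivity
      rw [h1]
      have h3 : mm H G K e v ≤ 9 / 8 * pp K v := by nlinarith
      have h4 : mm H G K e u ≤ 9 / 8 * pp K u := by nlinarith
      have h5 : mm H G K e u * mm H G K e v ≤ (9 / 8 * pp K u) * (9 / 8 * pp K v) :=
        mul_le_mul h4 h3 hm0.le (by positivity)
      calc mm H G K e u * (2 * mm H G K e v * jf H a G K e v)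
          = (mm H G K e u * mm H G K e v) * (2 * jf H a G K e v) := by ring
        _ ≤ ((9 / 8 * pp K u) * (9 / 8 * pp K v)) * (2 * jf H a G K e v) := by gcongr
        _ ≤ 3 * pp K u * (pp K v * jf H a G K e v) := by
            have : 0 ≤ pp K u * pp K v * jf H a G K e v := by positivity
            nlinarith
  obtain ⟨hm0', hm1', hm2', hm3'⟩ := mm_bd hh e hu1
  have hI0 := I2_nonneg (H := H) (a := a) e hu
  have hL0 : 0 < L := by linarith
  have hI2 : I2 H a e u ^ 2 ≤ 9 / 2 * (L ^ 2 / K ^ 2) + 8 * Z := by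
    have h1 : I2 H a e u ^ 2 ≤ (3 / 2 * L / K + 2 * Z) ^ 2 := by gcongr
    have h2 : (3 / 2 * L / K + 2 * Z) ^ 2 ≤ 2 * (3 / 2 * L / K) ^ 2 + 2 * (2 * Z) ^ 2 := by
      nlinarith [sq_nonneg (3 / 2 * L / K - 2 * Z)]
    have h3 : Z ^ 2 ≤ Z := by nlinarith
    have h4 : (3 / 2 * L / K) ^ 2 = 9 / 4 * (L ^ 2 / K ^ 2) := by ring
    nlinarith
  have h4 : mm H G K e u ≤ 9 / 8 * pp K u := by nlinarith
  calc mm H G K e u * I2 H a e u ^ 2 ≤ mm H G K e u * (9 / 2 * (L ^ 2 / K ^ 2) + 8 * Z) :=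
        mul_le_mul_of_nonneg_left hI2 hm0'.le
    _ = mm H G K e u * (9 / 2 * (L ^ 2 / K ^ 2)) + 8 * (mm H G K e u * Z) := by ring
    _ ≤ (9 / 8 * pp K u) * (9 / 2 * (L ^ 2 / K ^ 2))
        + 8 * (3 * pp K u * ∫ v in (0 : ℝ)..u, pp K v * jf H a G K e v) := by
          gcongr
    _ ≤ pp K u * (24 * (L ^ 2 / K ^ 2)
        + 24 * ∫ v in (0 : ℝ)..u, pp K v * jf H a G K e v) := by
          have : 0 ≤ pp K u * (L ^ 2 / K ^ 2) := by positivity
          nlinarith

end J4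

open J4

/-- [J4] sum of the squares of the cavity corrections -/
theorem kap_sum {ζ : ℝ} (hz : 0 < ζ) : ∃ C : ℝ, 0 < C ∧ ∀ (α : Type) [DecidableEq α]
    (H : Finset (Finset α)) (A G : Finset α) (a : α → Finset α → ℝ → ℝ) (K η : ℝ),
    Hyp H A G a K η → ∀ u ∈ Set.Icc (0 : ℝ) (1 - ζ),
    ∑ T ∈ H.filter (fun T => T ⊆ G), MT H G K T u * (∑ e ∈ T, a e T u) ^ 2 ≤
      C * K * pp K u ^ 3 * ((1 + Real.log (1 + 2 * K)) ^ 2 / K ^ 2 * (A.card : ℝ)
        + ∫ v in (0 : ℝ)..u, pp K v * JJ H a G K v) := by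
  refine ⟨108 * (ζ⁻¹) ^ 4, by positivity, ?_⟩
  intro α _ H A G a K η hh u hu
  have hu1 : u ∈ Set.Icc (0 : ℝ) 1 := ⟨hu.1, by linarith [hu.2]⟩
  have hK := hh.K1
  have hpu := pp_pos hK hu1.1
  have hsub := icc_sub hz hu
  have hMT : ∀ T, 0 ≤ MT H G K T u := fun T => prod_nonneg fun f _ => (mm_bd hh f hu1).1.le
  have hη := hh.eta1
  have hη0 := hh.eta0
  calc ∑ T ∈ H.filter (fun T => T ⊆ G), MT H G K T u * (∑ e ∈ T, a e T u) ^ 2
      ≤ ∑ T ∈ H.filter (fun T => T ⊆ G), MT H G K T u *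
          (3 * (ζ⁻¹) ^ 4 * ∑ f ∈ T, I2 H a f u ^ 2) := by
        refine sum_le_sum fun T hT => mul_le_mul_of_nonneg_left ?_ (hMT T)
        exact sum_a_sq hh.cov hh.lin (mem_filter.1 hT).1 hz hu
    _ = 3 * (ζ⁻¹) ^ 4 * ∑ T ∈ H.filter (fun T => T ⊆ G), ∑ f ∈ T,
          MT H G K T u * I2 H a f u ^ 2 := by
        rw [mul_sum]
        refine sum_congr rfl fun T _ => ?_
        rw [← mul_sum]; ring
    _ = 3 * (ζ⁻¹) ^ 4 * ∑ f ∈ G, ∑ T ∈ H.filter (fun T => T ⊆ G ∧ f ∈ T),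
          MT H G K T u * I2 H a f u ^ 2 := by
        congr 1
        apply sum_comm'
        intro T f
        simp only [mem_filter]
        constructor
        · rintro ⟨⟨h1, h2⟩, h3⟩
          exact ⟨⟨h1, h2, h3⟩, h2 h3⟩
        · rintro ⟨⟨h1, h2, h3⟩, h4⟩
          exact ⟨⟨h1, h2⟩, h3⟩
    _ ≤ 3 * (ζ⁻¹) ^ 4 * ∑ f ∈ G, ∑ T ∈ H.filter (fun T => f ∈ T),
          MT H G K T u * I2 H a f u ^ 2 := by
        apply mul_le_mul_of_nonneg_left _ (by positivity)
        refine sum_le_sum fun f _ => ?_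
        apply sum_le_sum_of_subset_of_nonneg
        · intro T hT
          rw [mem_filter] at hT ⊢
          exact ⟨hT.1, hT.2.2⟩
        · intro T _ _
          exact mul_nonneg (hMT T) (sq_nonneg _)
    _ = 3 * (ζ⁻¹) ^ 4 * ∑ f ∈ G, (∑ T ∈ H.filter (fun T => f ∈ T),
          MT H G K T u) * I2 H a f u ^ 2 := by
        congr 1
        exact sum_congr rfl fun f _ => (sum_mul _ _ _).symm
    _ ≤ 3 * (ζ⁻¹) ^ 4 * ∑ f ∈ G, (3 / 2 * K * pp K u ^ 2) * (mm H G K f u * I2 H a f u ^ 2) := by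
        apply mul_le_mul_of_nonneg_left _ (by positivity)
        refine sum_le_sum fun f hf => ?_
        have h1 := sum_MT hh hf hu1
        have h2 := (mm_bd hh f hu1).1
        calc (∑ T ∈ H.filter (fun T => f ∈ T), MT H G K T u) * I2 H a f u ^ 2
            ≤ ((1 + 4 * η) * K * pp K u ^ 2 * mm H G K f u) * I2 H a f u ^ 2 := by gcongr
          _ = (1 + 4 * η) * (K * pp K u ^ 2 * (mm H G K f u * I2 H a f u ^ 2)) := by ring
          _ ≤ (3 / 2) * (K * pp K u ^ 2 * (mm H G K f u * I2 H a f u ^ 2)) := by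
              apply mul_le_mul_of_nonneg_right (by linarith) (by positivity)
          _ = _ := by ring
    _ ≤ 3 * (ζ⁻¹) ^ 4 * ∑ f ∈ G, (3 / 2 * K * pp K u ^ 2) *
          (pp K u * (24 * ((1 + Real.log (1 + 2 * K)) ^ 2 / K ^ 2)
            + 24 * ∫ v in (0 : ℝ)..u, pp K v * jf H a G K f v)) := by
        apply mul_le_mul_of_nonneg_left _ (by positivity)
        refine sum_le_sum fun f hf => ?_
        exact mul_le_mul_of_nonneg_left (one_point hh hf hz hu) (by positivity)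
    _ = 108 * (ζ⁻¹) ^ 4 * K * pp K u ^ 3 * ((1 + Real.log (1 + 2 * K)) ^ 2 / K ^ 2 *
          (G.card : ℝ) + ∑ f ∈ G, ∫ v in (0 : ℝ)..u, pp K v * jf H a G K f v) := by
        rw [← mul_sum, ← mul_sum, sum_add_distrib, sum_const, nsmul_eq_mul, ← mul_sum]
        ring
    _ = 108 * (ζ⁻¹) ^ 4 * K * pp K u ^ 3 * ((1 + Real.log (1 + 2 * K)) ^ 2 / K ^ 2 *
          (G.card : ℝ) + ∫ v in (0 : ℝ)..u, pp K v * JJ H a G K v) := by
        congr 2
        rw [← intervalIntegral.integral_finsetSum]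
        · refine intervalIntegral.integral_congr fun v _ => ?_
          change ∑ f ∈ G, pp K v * jf H a G K f v = pp K v * ∑ f ∈ G, jf H a G K f v
          rw [← mul_sum]
        · intro f hf
          exact (((pp_contOn hK).mul (jf_contOn hh hf)).mono hsub).intervalIntegrable
    _ ≤ _ := by
        have h1 : (G.card : ℝ) ≤ A.card := by exact_mod_cast card_le_card hh.GA
        gcongr

end

end Vale.Agent.P046.CT
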