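import Vale.Agent.P046.CT.Defs

/-!
P046, sharp constant, row [N1]: elementary facts about the cover system.
-/

namespace Vale.Agent.P046.CT

open Finset Vale.Agent.P046

noncomputable section

variable {α : Type} [DecidableEq α]

theorem N1.fac_mem {H : Finset (Finset α)} {a : α → Finset α → ℝ → ℝ} (hc : Cov H a)
    {e : α} {S : Finset α} (hS : S ∈ H) (he : e ∈ S) {u : ℝ} (hu : u ∈ Set.Icc (0 : ℝ) 1) :
    0 ≤ 1 - a e S u ∧ 1 - a e S u ≤ 1 := by
  have h1 := hc.nonneg S hS e he u hu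
  have h2 := hc.le S hS e he u hu
  exact ⟨by linarith [hu.2], by linarith⟩

theorem qm_mem {H : Finset (Finset α)} {a : α → Finset α → ℝ → ℝ} (hc : Cov H a) (f : α)
    (T : Finset α) {u : ℝ} (hu : u ∈ Set.Icc (0 : ℝ) 1) :
    0 ≤ qm H a f T u ∧ qm H a f T u ≤ 1 := by
  unfold qm
  constructor
  · refine Finset.prod_nonneg fun S hS => ?_
    rw [Finset.mem_filter] at hS
    exact (N1.fac_mem hc hS.1 hS.2.1 hu).1
  · refine Finset.prod_le_one (fun S hS => ?_) fun S hS => ?_ <;>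
    rw [Finset.mem_filter] at hS
    · exact (N1.fac_mem hc hS.1 hS.2.1 hu).1
    · exact (N1.fac_mem hc hS.1 hS.2.1 hu).2

theorem nn_mem {H : Finset (Finset α)} {a : α → Finset α → ℝ → ℝ} (hc : Cov H a) (e : α)
    {u : ℝ} (hu : u ∈ Set.Icc (0 : ℝ) 1) : 0 ≤ nn H a e u ∧ nn H a e u ≤ 1 := by
  unfold nn
  constructor
  · refine Finset.prod_nonneg fun S hS => ?_
    rw [Finset.mem_filter] at hS
    exact (N1.fac_mem hc hS.1 hS.2 hu).1
  · refine Finset.prod_le_one (fun S hS => ?_) fun S hS => ?_ <;>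
    rw [Finset.mem_filter] at hS
    · exact (N1.fac_mem hc hS.1 hS.2 hu).1
    · exact (N1.fac_mem hc hS.1 hS.2 hu).2

theorem nn_zero {H : Finset (Finset α)} {a : α → Finset α → ℝ → ℝ} (hc : Cov H a) (e : α) :
    nn H a e 0 = 1 := by
  unfold nn
  refine Finset.prod_eq_one fun S hS => ?_
  rw [Finset.mem_filter] at hS
  rw [hc.zero S hS.1 e hS.2, sub_zero]

/-- the message is the product over the star without `T` -/
theorem N1.qm_eq_erase {H : Finset (Finset α)} {a : α → Finset α → ℝ → ℝ} (e : α)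
    (T : Finset α) (u : ℝ) :
    qm H a e T u = ∏ S ∈ (H.filter (fun S => e ∈ S)).erase T, (1 - a e S u) := by
  unfold qm
  refine Finset.prod_congr ?_ fun _ _ => rfl
  ext S
  simp only [Finset.mem_filter, Finset.mem_erase]
  tauto

theorem nn_eq {H : Finset (Finset α)} {a : α → Finset α → ℝ → ℝ} {e : α} {T : Finset α}
    (hT : T ∈ H) (he : e ∈ T) (u : ℝ) : nn H a e u = qm H a e T u * (1 - a e T u) := by
  rw [N1.qm_eq_erase]
  unfold nn
  rw [Finset.prod_erase_mul _ _ (Finset.mem_filter.2 ⟨hT, he⟩)]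

theorem NT_nonneg {H : Finset (Finset α)} {a : α → Finset α → ℝ → ℝ} (hc : Cov H a)
    (T : Finset α) {u : ℝ} (hu : u ∈ Set.Icc (0 : ℝ) 1) : 0 ≤ NT H a T u :=
  Finset.prod_nonneg fun f _ => (qm_mem hc f T hu).1

theorem NT_eq {H : Finset (Finset α)} {a : α → Finset α → ℝ → ℝ} {T : Finset α}
    (hT : T ∈ H) (u : ℝ) : NT H a T u * ∏ e ∈ T, (1 - a e T u) = ∏ e ∈ T, nn H a e u := by
  unfold NT
  rw [← Finset.prod_mul_distrib]
  exact Finset.prod_congr rfl fun e he => (nn_eq hT he u).symm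

theorem nn_der {H : Finset (Finset α)} {a : α → Finset α → ℝ → ℝ} (hc : Cov H a) (e : α)
    {u : ℝ} (hu : u ∈ Set.Icc (0 : ℝ) 1) :
    HasDerivAt (nn H a e) (-∑ T ∈ H.filter (fun T => e ∈ T), NT H a T u) u := by
  have h1 : ∀ S ∈ H.filter (fun S => e ∈ S),
      HasDerivAt (fun v => 1 - a e S v) (-∏ f ∈ S.erase e, qm H a f S u) u := by
    intro S hS
    rw [Finset.mem_filter] at hS
    exact (hc.der S hS.1 e hS.2 u hu).const_sub 1
  have h2 := HasDerivAt.fun_finsetProd h1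
  have h3 : HasDerivAt (nn H a e) (∑ T ∈ H.filter (fun S => e ∈ S),
      (∏ S ∈ (H.filter (fun S => e ∈ S)).erase T, (1 - a e S u)) •
        (-∏ f ∈ T.erase e, qm H a f T u)) u := h2
  convert h3 using 1
  rw [← Finset.sum_neg_distrib]
  refine Finset.sum_congr rfl fun T hT => ?_
  rw [Finset.mem_filter] at hT
  rw [← N1.qm_eq_erase, smul_eq_mul, mul_neg]
  unfold NT
  rw [Finset.mul_prod_erase T (fun f => qm H a f T u) hT.2]

end

end Vale.Agent.P046.CT
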