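import Vale.Agent.P046.CT.J1
import Vale.Agent.P046.CT.N1
import Vale.Agent.P046.CT.Blk
import Vale.Agent.P046.CT.J3

/-! P046 CONST, row J5: the derivative inequality. -/

namespace Vale.Agent.P046.CT

open Finset Vale.Agent.P046

noncomputable section

variable {α : Type} [DecidableEq α]

namespace J5

variable {H : Finset (Finset α)} {A G : Finset α} {a : α → Finset α → ℝ → ℝ} {K η u : ℝ}

theorem dH_eq (hh : Hyp H A G a K η) (e : α) : K * (1 + xx H K e) = dH H e := by
  have hK : (0 : ℝ) < K := by have := hh.K1; linarith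
  unfold xx
  field_simp
  ring

theorem yy_ge (hh : Hyp H A G a K η) (e : α) (hu : u ∈ Set.Icc (0 : ℝ) 1) :
    -1 ≤ yy H a G K e u := by
  have h1 := (nn_mem hh.cov e hu).1
  have h2 := (mm_bd hh e hu).1
  have h3 : 0 ≤ nn H a e u / mm H G K e u := div_nonneg h1 h2.le
  unfold yy
  linarith

theorem der_one (hh : Hyp H A G a K η) {e : α} (he : e ∈ G) (hu : u ∈ Set.Icc (0 : ℝ) 1) :
    HasDerivAt (fun v => (nn H a e v - mm H G K e v) ^ 2 / (2 * mm H G K e v))
      (-(yy H a G K e u * ∑ T ∈ H.filter (fun T => e ∈ T), NT H a T u)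
        + (yy H a G K e u + yy H a G K e u ^ 2 / 2) * (dH H e * (pp K u ^ 2 * mm H G K e u))) u := by
  have hn := nn_der hh.cov e hu
  have hm := mm_der hh he hu
  rw [dH_eq hh e] at hm
  have hpos := (mm_bd hh e hu).1
  have h1 : HasDerivAt (fun v => nn H a e v - mm H G K e v) _ u := hn.sub hm
  have h2 : HasDerivAt (fun v => (nn H a e v - mm H G K e v) ^ 2) _ u := h1.pow 2
  have h3 : HasDerivAt (fun v => 2 * mm H G K e v) _ u := hm.const_mul 2
  have h4 : HasDerivAt (fun v => (nn H a e v - mm H G K e v) ^ 2 / (2 * mm H G K e v)) _ u :=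
    h2.div h3 (by positivity)
  refine h4.congr_deriv ?_
  unfold yy
  set n := nn H a e u
  set m := mm H G K e u
  set S := ∑ T ∈ H.filter (fun T => e ∈ T), NT H a T u
  have hm0 : m ≠ 0 := hpos.ne'
  field_simp
  ring

theorem swap (f : α → Finset α → ℝ) (X : Finset α) :
    ∑ e ∈ X, ∑ T ∈ H.filter (fun T => e ∈ T), f e T =
      ∑ T ∈ H, ∑ e ∈ T.filter (fun e => e ∈ X), f e T := by
  refine sum_comm' fun e T => ?_
  simp only [mem_filter]
  tauto

theorem MT_pos (hh : Hyp H A G a K η) (T : Finset α) (hu : u ∈ Set.Icc (0 : ℝ) 1) :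
    0 < MT H G K T u := prod_pos fun e _ => (mm_bd hh e hu).1

theorem MT_le (hh : Hyp H A G a K η) {T : Finset α} (hT : T ∈ H) (hu : u ∈ Set.Icc (0 : ℝ) 1) :
    MT H G K T u ≤ 2 * pp K u ^ 3 := by
  have hp := J1.pp_pos hh.K1 hu.1
  have h0 := hh.eta0
  have h1 := hh.eta1
  have h2 : MT H G K T u ≤ ∏ _e ∈ T, (9 / 8 * pp K u) := by
    refine prod_le_prod (fun e _ => (mm_bd hh e hu).1.le) fun e _ => ?_
    refine (mm_bd hh e hu).2.2.2.trans ?_
    exact mul_le_mul_of_nonneg_right (by linarith) hp.le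
  rw [prod_const, hh.lin.card3 T hT] at h2
  have h3 : 0 < pp K u ^ 3 := by positivity
  have h4 : (9 / 8 * pp K u) ^ 3 = 729 / 512 * pp K u ^ 3 := by ring
  rw [h4] at h2
  linarith

/-- a block inside `G` -/
theorem good (hh : Hyp H A G a K η) {ζ : ℝ} (hz : 0 < ζ) {T : Finset α} (hT : T ∈ H)
    (hu : u ∈ Set.Icc (0 : ℝ) (1 - ζ)) :
    ∑ e ∈ T, (-(yy H a G K e u * NT H a T u)
      + (yy H a G K e u + yy H a G K e u ^ 2 / 2) * MT H G K T u) ≤
      (1 + η) * MT H G K T u * ∑ e ∈ T, yy H a G K e u ^ 2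
        + 1 / ζ ^ 6 / η * (MT H G K T u * (∑ e ∈ T, a e T u) ^ 2) := by
  have hu1 : u ∈ Set.Icc (0 : ℝ) 1 := ⟨hu.1, by have := hu.2; linarith⟩
  have h0 := hh.eta0
  have hM := MT_pos hh T hu1
  have hN := NT_eq (a := a) hT u
  have hc := hh.lin.card3 T hT
  have hy : ∀ e, -1 ≤ yy H a G K e u := fun e => yy_ge hh e hu1
  have hnm : ∀ e, nn H a e u = mm H G K e u * (1 + yy H a G K e u) := by
    intro e
    have := (mm_bd hh e hu1).1.ne'
    unfold yy
    field_simp
    ring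
  have hprod : ∏ e ∈ T, nn H a e u = MT H G K T u * ∏ e ∈ T, (1 + yy H a G K e u) := by
    unfold MT
    rw [← prod_mul_distrib]
    exact prod_congr rfl fun e _ => hnm e
  rw [hprod] at hN
  have ha0 : ∀ e ∈ T, 0 ≤ a e T u := fun e he => hh.cov.nonneg T hT e he u hu1
  have ha1 : ∀ e ∈ T, a e T u ≤ 1 - ζ := fun e he => (hh.cov.le T hT e he u hu1).trans hu.2
  obtain ⟨x, y, z, hxy, hxz, hyz, rfl⟩ := card_eq_three.1 hc
  have hx1 : x ∉ ({y, z} : Finset α) := by simp [hxy, hxz]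
  have hy1 : y ∉ ({z} : Finset α) := by simp [hyz]
  rw [prod_insert hx1, prod_insert hy1, prod_singleton, prod_insert hx1, prod_insert hy1,
    prod_singleton] at hN
  rw [sum_insert hx1, sum_insert hy1, sum_singleton, sum_insert hx1, sum_insert hy1,
    sum_singleton, sum_insert hx1, sum_insert hy1, sum_singleton]
  have b1 := ha0 x (by simp)
  have b2 := ha0 y (by simp)
  have b3 := ha0 z (by simp)
  have c1 := ha1 x (by simp)
  have c2 := ha1 y (by simp)
  have c3 := ha1 z (by simp)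
  have d1 := hy x
  have d2 := hy y
  have d3 := hy z
  set T : Finset α := {x, y, z} with hTdef
  set M := MT H G K T u
  set N := NT H a T u
  set p := a x T u
  set q := a y T u
  set r := a z T u
  set X := yy H a G K x u
  set Y := yy H a G K y u
  set Z := yy H a G K z u
  -- the correction factor
  set D := (1 - p) * ((1 - q) * (1 - r)) with hD
  have e1 : ζ ≤ 1 - p := by linarith
  have e2 : ζ ≤ 1 - q := by linarith
  have e3 : ζ ≤ 1 - r := by linarith
  have hDz : ζ ^ 3 ≤ D := by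
    have f1 : ζ * ζ ≤ (1 - q) * (1 - r) := mul_le_mul e2 e3 hz.le (by linarith)
    have f2 : ζ * (ζ * ζ) ≤ (1 - p) * ((1 - q) * (1 - r)) :=
      mul_le_mul e1 f1 (by positivity) (by linarith)
    calc ζ ^ 3 = ζ * (ζ * ζ) := by ring
      _ ≤ D := f2
  have hz3 : 0 < ζ ^ 3 := by positivity
  have hDpos : 0 < D := lt_of_lt_of_le hz3 hDz
  have hD1 : 1 - D ≤ p + q + r := by
    have : D = 1 - p - q - r + p * q + p * r + q * r - p * q * r := by rw [hD]; ring
    have g1 : 0 ≤ p * q * (1 - r) := by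
      have : 0 ≤ 1 - r := by linarith
      positivity
    have g2 : 0 ≤ p * r := by positivity
    have g3 : 0 ≤ q * r := by positivity
    nlinarith
  have hDle : D ≤ 1 := by
    have f1 : (1 - q) * (1 - r) ≤ 1 := by nlinarith
    have f0 : 0 ≤ (1 - q) * (1 - r) := mul_nonneg (by linarith) (by linarith)
    have f2 : (1 - p) * ((1 - q) * (1 - r)) ≤ 1 * 1 :=
      mul_le_mul (by linarith) f1 f0 (by norm_num)
    linarith
  set k := 1 / D - 1 with hk
  have hk0 : 0 ≤ k := by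
    have : 1 ≤ 1 / D := by
      rw [le_div_iff₀ hDpos]
      linarith
    linarith
  have hk1 : k ≤ (p + q + r) / ζ ^ 3 := by
    have : k = (1 - D) / D := by rw [hk]; field_simp
    rw [this]
    exact div_le_div₀ (by positivity) hD1 hz3 hDz
  have hk2 : k ^ 2 ≤ (p + q + r) ^ 2 / ζ ^ 6 := by
    have := pow_le_pow_left₀ hk0 hk1 2
    rw [div_pow] at this
    calc k ^ 2 ≤ (p + q + r) ^ 2 / (ζ ^ 3) ^ 2 := this
      _ = _ := by rw [← pow_mul]
  have hNk : N = M * (1 + k) * ((1 + X) * (1 + Y) * (1 + Z)) := by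
    have : N * D = M * ((1 + X) * ((1 + Y) * (1 + Z))) := hN
    have h1k : (1 + k) = 1 / D := by rw [hk]; ring
    rw [h1k]
    field_simp
    linarith
  have hb := blk (M := M) (k := k) (η := η) d1 d2 d3 hM.le hk0 h0
  rw [← hNk] at hb
  have hMk : M * k ^ 2 / η ≤ 1 / ζ ^ 6 / η * (M * (p + (q + r)) ^ 2) := by
    have h5 : M * k ^ 2 ≤ M * ((p + q + r) ^ 2 / ζ ^ 6) := mul_le_mul_of_nonneg_left hk2 hM.le
    have h6 : M * k ^ 2 / η ≤ M * ((p + q + r) ^ 2 / ζ ^ 6) / η := by
      exact div_le_div_of_nonneg_right h5 h0.le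
    refine h6.trans (le_of_eq ?_)
    field_simp
    ring
  nlinarith

/-- a block not inside `G` -/
theorem bad (hh : Hyp H A G a K η) {T : Finset α} (hT : T ∈ H) (hG : ¬ T ⊆ G)
    (hu : u ∈ Set.Icc (0 : ℝ) 1) :
    ∑ e ∈ T.filter (fun e => e ∈ G), (-(yy H a G K e u * NT H a T u)
      + (yy H a G K e u + yy H a G K e u ^ 2 / 2) * MT H G K T u) ≤
      (1 + η) * MT H G K T u * ∑ e ∈ T.filter (fun e => e ∈ G), yy H a G K e u ^ 2
        + (2 * NT H a T u + MT H G K T u) := by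
  have h0 := hh.eta0
  have hM := MT_pos hh T hu
  have hN := NT_nonneg hh.cov T hu
  have hcard : ((T.filter (fun e => e ∈ G)).card : ℝ) ≤ 2 := by
    have h1 : (T.filter (fun e => e ∈ G)).card < T.card := by
      refine card_lt_card ?_
      rw [filter_ssubset]
      rw [not_subset] at hG
      obtain ⟨x, hx, hx'⟩ := hG
      exact ⟨x, hx, hx'⟩
    rw [hh.lin.card3 T hT] at h1
    have : (T.filter (fun e => e ∈ G)).card ≤ 2 := by omega
    exact_mod_cast this
  have h2 : ∀ e ∈ T.filter (fun e => e ∈ G), -(yy H a G K e u * NT H a T u)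
      + (yy H a G K e u + yy H a G K e u ^ 2 / 2) * MT H G K T u ≤
      (NT H a T u + MT H G K T u / 2) + MT H G K T u * yy H a G K e u ^ 2 := by
    intro e _
    have hy := yy_ge (u := u) hh e hu
    have f1 : -(yy H a G K e u * NT H a T u) ≤ NT H a T u := by nlinarith
    have f2 : yy H a G K e u + yy H a G K e u ^ 2 / 2 ≤ 1 / 2 + yy H a G K e u ^ 2 := by
      nlinarith [sq_nonneg (yy H a G K e u - 1)]
    have f3 := mul_le_mul_of_nonneg_right f2 hM.le
    nlinarith
  refine (sum_le_sum h2).trans ?_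
  rw [sum_add_distrib, sum_const, nsmul_eq_mul, ← mul_sum]
  have h3 : 0 ≤ ∑ e ∈ T.filter (fun e => e ∈ G), yy H a G K e u ^ 2 :=
    sum_nonneg fun _ _ => sq_nonneg _
  have h4 : ((T.filter (fun e => e ∈ G)).card : ℝ) * (NT H a T u + MT H G K T u / 2) ≤
      2 * (NT H a T u + MT H G K T u / 2) :=
    mul_le_mul_of_nonneg_right hcard (by positivity)
  have h5 : 0 ≤ η * (MT H G K T u * ∑ e ∈ T.filter (fun e => e ∈ G), yy H a G K e u ^ 2) := by
    positivity
  nlinarith

theorem JJ_eq (hh : Hyp H A G a K η) (hu : u ∈ Set.Icc (0 : ℝ) 1) :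
    JJ H a G K u = ∑ e ∈ G, mm H G K e u * yy H a G K e u ^ 2 / 2 := by
  unfold JJ
  refine sum_congr rfl fun e _ => ?_
  have := (mm_bd hh e hu).1.ne'
  unfold yy
  field_simp

end J5

/-- [J5] the derivative inequality -/
theorem JJ_der {ζ : ℝ} (hz : 0 < ζ) : ∃ C : ℝ, 0 < C ∧ ∀ (α : Type) [DecidableEq α]
    (H : Finset (Finset α)) (A G : Finset α) (a : α → Finset α → ℝ → ℝ) (K η : ℝ),
    Hyp H A G a K η → ∀ u ∈ Set.Icc (0 : ℝ) (1 - ζ), ∃ d : ℝ,
    HasDerivAt (fun v => JJ H a G K v + 2 * NE H a A G v) d u ∧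
    d ≤ (2 + 20 * η) * K * pp K u ^ 2 * JJ H a G K u
      + (∑ e ∈ G, er H G K e u ^ 2 / mm H G K e u) / (4 * η * K * pp K u ^ 2)
      + C / η * ∑ T ∈ H.filter (fun T => T ⊆ G), MT H G K T u * (∑ e ∈ T, a e T u) ^ 2
      + 10 * pp K u ^ 3 * ∑ e ∈ A \ G, dH H e := by
  refine ⟨1 / ζ ^ 6, by positivity, ?_⟩
  intro α _ H A G a K η hh u hu
  have hu1 : u ∈ Set.Icc (0 : ℝ) 1 := ⟨hu.1, by have := hu.2; linarith⟩
  have h0 := hh.eta0
  have h1 := hh.eta1
  have hK : 0 < K := by have := hh.K1; linarith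
  have hp := J1.pp_pos hh.K1 hu1.1
  have hJ : HasDerivAt (fun v => JJ H a G K v) (∑ e ∈ G,
      (-(yy H a G K e u * ∑ T ∈ H.filter (fun T => e ∈ T), NT H a T u)
        + (yy H a G K e u + yy H a G K e u ^ 2 / 2) * (dH H e * (pp K u ^ 2 * mm H G K e u)))) u := by
    unfold JJ
    exact HasDerivAt.fun_sum fun e he => J5.der_one hh he hu1
  have hNE : HasDerivAt (fun v => NE H a A G v)
      (∑ e ∈ A \ G, -∑ T ∈ H.filter (fun T => e ∈ T), NT H a T u) u := by
    unfold NE
    exact HasDerivAt.fun_sum fun e _ => nn_der hh.cov e hu1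
  refine ⟨_, hJ.add (hNE.const_mul 2), ?_⟩
  -- the error term
  have hE : ∀ e ∈ G, (yy H a G K e u + yy H a G K e u ^ 2 / 2) * er H G K e u ≤
      6 * η * K * pp K u ^ 2 * (mm H G K e u * yy H a G K e u ^ 2 / 2)
        + er H G K e u ^ 2 / mm H G K e u / (4 * η * K * pp K u ^ 2) := by
    intro e he
    have hm := (mm_bd hh e hu1).1
    have habs := er_abs hh he hu1
    set y := yy H a G K e u
    set E := er H G K e u
    set m := mm H G K e u
    set P := pp K u ^ 2 with hP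
    have hPp : 0 < P := by positivity
    set c := 4 * η * K * P with hc
    have hcp : 0 < c := by positivity
    have f1 : y ^ 2 / 2 * E ≤ y ^ 2 / 2 * (c * m) := by
      refine mul_le_mul_of_nonneg_left ((le_abs_self _).trans ?_) (by positivity)
      exact habs
    have f2 : y * E ≤ c * m * y ^ 2 / 4 + E ^ 2 / m / c := by
      have hcm : 0 < c * m := by positivity
      have : E ^ 2 / m / c = E ^ 2 / (c * m) := by rw [div_div, mul_comm m c]
      rw [this]
      have g : 0 ≤ (c * m * y / 2 - E) ^ 2 / (c * m) := by positivity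
      have g2 : (c * m * y / 2 - E) ^ 2 / (c * m) = c * m * y ^ 2 / 4 - y * E + E ^ 2 / (c * m) := by
        field_simp
        ring
      linarith
    have f3 : 0 ≤ m * y ^ 2 := by positivity
    have f4 : c * m * y ^ 2 / 4 + y ^ 2 / 2 * (c * m) = 6 * η * K * P * (m * y ^ 2 / 2) := by
      rw [hc]; ring
    calc (y + y ^ 2 / 2) * E = y * E + y ^ 2 / 2 * E := by ring
      _ ≤ (c * m * y ^ 2 / 4 + E ^ 2 / m / c) + y ^ 2 / 2 * (c * m) := add_le_add f2 f1
      _ = 6 * η * K * P * (m * y ^ 2 / 2) + E ^ 2 / m / c := by rw [← f4]; ring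
  have hEs : ∑ e ∈ G, (yy H a G K e u + yy H a G K e u ^ 2 / 2) * er H G K e u ≤
      6 * η * K * pp K u ^ 2 * JJ H a G K u
        + (∑ e ∈ G, er H G K e u ^ 2 / mm H G K e u) / (4 * η * K * pp K u ^ 2) := by
    refine (sum_le_sum hE).trans ?_
    rw [sum_add_distrib, ← mul_sum, J5.JJ_eq hh hu1,
      sum_div G (fun e => er H G K e u ^ 2 / mm H G K e u) (4 * η * K * pp K u ^ 2)]
  -- splitting
  have hsplit : ∀ e ∈ G, (-(yy H a G K e u * ∑ T ∈ H.filter (fun T => e ∈ T), NT H a T u)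
        + (yy H a G K e u + yy H a G K e u ^ 2 / 2) * (dH H e * (pp K u ^ 2 * mm H G K e u))) =
      ∑ T ∈ H.filter (fun T => e ∈ T), (-(yy H a G K e u * NT H a T u)
        + (yy H a G K e u + yy H a G K e u ^ 2 / 2) * MT H G K T u)
      + (yy H a G K e u + yy H a G K e u ^ 2 / 2) * er H G K e u := by
    intro e _
    unfold er dH
    rw [sum_sub_distrib, sum_const, nsmul_eq_mul, sum_add_distrib, ← mul_sum, sum_neg_distrib,
      ← mul_sum]
    ring
  rw [sum_congr rfl hsplit, sum_add_distrib]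
  -- the blocks
  have hblk : ∀ T ∈ H, ∑ e ∈ T.filter (fun e => e ∈ G), (-(yy H a G K e u * NT H a T u)
      + (yy H a G K e u + yy H a G K e u ^ 2 / 2) * MT H G K T u) ≤
      (1 + η) * (∑ e ∈ T.filter (fun e => e ∈ G), MT H G K T u * yy H a G K e u ^ 2)
      + ((if T ⊆ G then 1 / ζ ^ 6 / η * (MT H G K T u * (∑ e ∈ T, a e T u) ^ 2) else 0)
        + ∑ _e ∈ T.filter (fun e => e ∈ A \ G), (2 * NT H a T u + MT H G K T u)) := by
    intro T hT
    have hM := J5.MT_pos hh T hu1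
    have hN := NT_nonneg hh.cov T hu1
    have hs0 : 0 ≤ ∑ _e ∈ T.filter (fun e => e ∈ A \ G), (2 * NT H a T u + MT H G K T u) :=
      sum_nonneg fun _ _ => by positivity
    by_cases hG : T ⊆ G
    · rw [if_pos hG]
      have hf : T.filter (fun e => e ∈ G) = T := filter_true_of_mem fun e he => hG he
      rw [hf]
      have := J5.good (u := u) hh hz hT hu
      rw [← mul_sum]
      linarith
    · rw [if_neg hG]
      have := J5.bad (u := u) hh hT hG hu1
      rw [← mul_sum]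
      have hone : 2 * NT H a T u + MT H G K T u ≤
          ∑ _e ∈ T.filter (fun e => e ∈ A \ G), (2 * NT H a T u + MT H G K T u) := by
        rw [not_subset] at hG
        obtain ⟨x, hx, hx'⟩ := hG
        have hmem : x ∈ T.filter (fun e => e ∈ A \ G) :=
          mem_filter.2 ⟨hx, mem_sdiff.2 ⟨hh.sub T hT hx, hx'⟩⟩
        exact single_le_sum (f := fun _ => 2 * NT H a T u + MT H G K T u)
          (fun _ _ => by positivity) hmem
      linarith
  have hB := sum_le_sum hblk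
  rw [sum_add_distrib, sum_add_distrib, ← mul_sum, ← sum_filter, ← J5.swap, ← J5.swap,
    ← J5.swap, ← mul_sum] at hB
  -- the square terms
  have hsq : ∑ e ∈ G, ∑ T ∈ H.filter (fun T => e ∈ T), MT H G K T u * yy H a G K e u ^ 2 ≤
      (1 + 4 * η) * K * pp K u ^ 2 * (2 * JJ H a G K u) := by
    rw [J5.JJ_eq hh hu1, mul_sum, mul_sum]
    refine sum_le_sum fun e he => ?_
    rw [← sum_mul]
    have := mul_le_mul_of_nonneg_right (sum_MT hh he hu1) (sq_nonneg (yy H a G K e u))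
    refine this.trans (le_of_eq ?_)
    ring
  have hJ0 : 0 ≤ JJ H a G K u := by
    rw [J5.JJ_eq hh hu1]
    refine sum_nonneg fun e _ => ?_
    have := (mm_bd hh e hu1).1
    positivity
  have hex : ∑ e ∈ A \ G, ∑ T ∈ H.filter (fun T => e ∈ T), (2 * NT H a T u + MT H G K T u) ≤
      2 * ∑ e ∈ A \ G, ∑ T ∈ H.filter (fun T => e ∈ T), NT H a T u
        + 10 * pp K u ^ 3 * ∑ e ∈ A \ G, dH H e := by
    rw [mul_sum, mul_sum, ← sum_add_distrib]
    refine sum_le_sum fun e _ => ?_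
    rw [sum_add_distrib, ← mul_sum]
    have f1 : ∑ T ∈ H.filter (fun T => e ∈ T), MT H G K T u ≤
        ∑ _T ∈ H.filter (fun T => e ∈ T), 2 * pp K u ^ 3 :=
      sum_le_sum fun T hT => J5.MT_le hh (mem_filter.1 hT).1 hu1
    rw [sum_const, nsmul_eq_mul] at f1
    have f2 : 0 ≤ dH H e * pp K u ^ 3 := by
      have : 0 ≤ dH H e := Nat.cast_nonneg _
      positivity
    unfold dH at f2 ⊢
    linarith
  have hcoef : (1 + η) * ((1 + 4 * η) * K * pp K u ^ 2 * (2 * JJ H a G K u))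
      + 6 * η * K * pp K u ^ 2 * JJ H a G K u ≤ (2 + 20 * η) * K * pp K u ^ 2 * JJ H a G K u := by
    have hQ : 0 ≤ K * pp K u ^ 2 * JJ H a G K u := by positivity
    have : (1 + η) * ((1 + 4 * η) * K * pp K u ^ 2 * (2 * JJ H a G K u))
        + 6 * η * K * pp K u ^ 2 * JJ H a G K u =
        (2 * (1 + η) * (1 + 4 * η) + 6 * η) * (K * pp K u ^ 2 * JJ H a G K u) := by ring
    rw [this]
    have h2 : 2 * (1 + η) * (1 + 4 * η) + 6 * η ≤ 2 + 20 * η := by nlinarith
    have := mul_le_mul_of_nonneg_right h2 hQ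
    linarith
  have hsq2 := mul_le_mul_of_nonneg_left hsq (by linarith : (0 : ℝ) ≤ 1 + η)
  have hneg : ∑ e ∈ A \ G, -∑ T ∈ H.filter (fun T => e ∈ T), NT H a T u =
      -∑ e ∈ A \ G, ∑ T ∈ H.filter (fun T => e ∈ T), NT H a T u := sum_neg_distrib _
  rw [hneg]
  linarith

end

end Vale.Agent.P046.CT
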