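import Vale.Agent.P046.CT.J3
import Vale.Agent.P046.CT.J4
import Vale.Agent.P046.CT.J5

/-!
P046, sharp constant, row J6: Gronwall bound of the functional.
-/

namespace Vale.Agent.P046.CT

open Finset Vale.Agent.P046 MeasureTheory

noncomputable section

namespace J6b

/-- the statement of row J5 -/
def DerStmt (ζ C : ℝ) : Prop := ∀ (α : Type) [DecidableEq α]
    (H : Finset (Finset α)) (A G : Finset α) (a : α → Finset α → ℝ → ℝ) (K η : ℝ),
    Hyp H A G a K η → ∀ u ∈ Set.Icc (0 : ℝ) (1 - ζ), ∃ d : ℝ,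
    HasDerivAt (fun v => JJ H a G K v + 2 * NE H a A G v) d u ∧
    d ≤ (2 + 20 * η) * K * pp K u ^ 2 * JJ H a G K u
      + (∑ e ∈ G, er H G K e u ^ 2 / mm H G K e u) / (4 * η * K * pp K u ^ 2)
      + C / η * ∑ T ∈ H.filter (fun T => T ⊆ G), MT H G K T u * (∑ e ∈ T, a e T u) ^ 2
      + 10 * pp K u ^ 3 * ∑ e ∈ A \ G, dH H e

theorem base_pos {K v : ℝ} (hK : 1 ≤ K) (hv : 0 ≤ v) : 1 ≤ 1 + 2 * K * v := by
  have : 0 ≤ K * v := mul_nonneg (by linarith) hv
  nlinarith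

theorem rpow_der {K v s : ℝ} (hK : 1 ≤ K) (hv : 0 ≤ v) :
    HasDerivAt (fun u : ℝ => (1 + 2 * K * u) ^ s)
      (2 * K * s * (1 + 2 * K * v) ^ s * pp K v ^ 2) v := by
  have hb := base_pos hK hv
  have h2 : HasDerivAt (fun v : ℝ => 1 + 2 * K * v) (2 * K) v := by
    simpa using ((hasDerivAt_id v).const_mul (2 * K)).const_add 1
  have h3 := h2.rpow_const (p := s) (Or.inl (by linarith))
  have h4 : 2 * K * s * (1 + 2 * K * v) ^ (s - 1) =
      2 * K * s * (1 + 2 * K * v) ^ s * pp K v ^ 2 := by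
    rw [Real.rpow_sub_one (by linarith), pp_sq hK hv]
    ring
  rw [h4] at h3
  exact h3

theorem pp_der {K v : ℝ} (hK : 1 ≤ K) (hv : 0 ≤ v) :
    HasDerivAt (pp K) (-(K * pp K v ^ 3)) v := by
  have h := rpow_der (s := (-(1 / 2) : ℝ)) hK hv
  have h1 : 2 * K * (-(1 / 2) : ℝ) * (1 + 2 * K * v) ^ (-(1 / 2) : ℝ) * pp K v ^ 2 =
      -(K * pp K v ^ 3) := by
    have : (1 + 2 * K * v) ^ (-(1 / 2) : ℝ) = pp K v := rfl
    rw [this]; ring
  rw [h1] at h
  exact h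

theorem log_pow_le {K : ℝ} (hK : 1 ≤ K) :
    (1 + Real.log (1 + 2 * K)) ^ 4 ≤ 1501 ^ 4 * K ^ (0.008 : ℝ) := by
  have h1 : Real.log (1 + 2 * K) ≤ 1500 * K ^ (0.002 : ℝ) := by
    have h2 : Real.log (1 + 2 * K) ≤ Real.log (3 * K) :=
      Real.log_le_log (by linarith) (by linarith)
    have h3 : Real.log (3 * K) ≤ (3 * K) ^ (0.002 : ℝ) / 0.002 :=
      Real.log_le_rpow_div (by linarith) (by norm_num)
    have h4 : (3 * K) ^ (0.002 : ℝ) ≤ 3 * K ^ (0.002 : ℝ) := by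
      rw [Real.mul_rpow (by norm_num) (by linarith)]
      apply mul_le_mul_of_nonneg_right _ (Real.rpow_nonneg (by linarith) _)
      calc (3 : ℝ) ^ (0.002 : ℝ) ≤ 3 ^ (1 : ℝ) :=
            Real.rpow_le_rpow_of_exponent_le (by norm_num) (by norm_num)
        _ = 3 := Real.rpow_one 3
    have h5 : (3 * K) ^ (0.002 : ℝ) / 0.002 = 500 * (3 * K) ^ (0.002 : ℝ) := by ring
    linarith
  have h6 : (1 : ℝ) ≤ K ^ (0.002 : ℝ) := Real.one_le_rpow hK (by norm_num)
  have h7 : 1 + Real.log (1 + 2 * K) ≤ 1501 * K ^ (0.002 : ℝ) := by linarith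
  have h8 : 0 ≤ 1 + Real.log (1 + 2 * K) := by
    have := Real.log_nonneg (show (1 : ℝ) ≤ 1 + 2 * K by linarith)
    linarith
  calc (1 + Real.log (1 + 2 * K)) ^ 4 ≤ (1501 * K ^ (0.002 : ℝ)) ^ 4 := by gcongr
    _ = 1501 ^ 4 * (K ^ (0.002 : ℝ)) ^ 4 := by ring
    _ = 1501 ^ 4 * K ^ (0.008 : ℝ) := by
        rw [← Real.rpow_natCast (K ^ (0.002 : ℝ)) 4, ← Real.rpow_mul (by linarith)]
        norm_num

/-- the source dominates its parts -/
theorem src_parts {α : Type} [DecidableEq α] (H : Finset (Finset α)) (A G : Finset α) {K : ℝ}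
    (hK : 1 ≤ K) :
    (∑ e ∈ G, bG H G K e ^ 2 + ∑ e ∈ G, xx H K e ^ 4) ≤ Src H A G K ∧
    (A.card : ℝ) / K ^ 2 ≤ Src H A G K ∧
    ((A \ G).card : ℝ) ≤ Src H A G K ∧
    ∑ e ∈ A \ G, dH H e ≤ K * Src H A G K ∧ 0 ≤ Src H A G K := by
  have h1 : 0 ≤ ∑ e ∈ G, bG H G K e ^ 2 := sum_nonneg fun e _ => sq_nonneg _
  have h2 : 0 ≤ ∑ e ∈ G, xx H K e ^ 4 := sum_nonneg fun e _ => by positivity
  have h3 : 0 ≤ (A.card : ℝ) / K ^ 2 := by positivity
  have h4 : ∑ e ∈ A \ G, (1 + dH H e / K) = ((A \ G).card : ℝ) + (∑ e ∈ A \ G, dH H e) / K := by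
    rw [sum_add_distrib, sum_const, nsmul_eq_mul, mul_one, sum_div]
  have h5 : 0 ≤ ∑ e ∈ A \ G, dH H e := sum_nonneg fun e _ => Nat.cast_nonneg _
  have h6 : 0 ≤ ((A \ G).card : ℝ) := Nat.cast_nonneg _
  have h7 : 0 ≤ (∑ e ∈ A \ G, dH H e) / K := by positivity
  unfold Src
  rw [h4]
  refine ⟨by linarith, by linarith, by linarith, ?_, by linarith⟩
  have h8 : ∑ e ∈ A \ G, dH H e = K * ((∑ e ∈ A \ G, dH H e) / K) := by
    field_simp
  calc ∑ e ∈ A \ G, dH H e = K * ((∑ e ∈ A \ G, dH H e) / K) := h8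
    _ ≤ _ := mul_le_mul_of_nonneg_left (by linarith) (by linarith)

theorem JJ_nonneg {α : Type} [DecidableEq α] {H : Finset (Finset α)} {A G : Finset α}
    {a : α → Finset α → ℝ → ℝ} {K η : ℝ} (hh : Hyp H A G a K η) {v : ℝ}
    (hv : v ∈ Set.Icc (0 : ℝ) 1) : 0 ≤ JJ H a G K v :=
  sum_nonneg fun e _ => by
    have := (mm_bd hh e hv).1
    positivity

theorem JJ_zero {α : Type} [DecidableEq α] {H : Finset (Finset α)} {A G : Finset α}
    {a : α → Finset α → ℝ → ℝ} {K η : ℝ} (hh : Hyp H A G a K η) : JJ H a G K 0 = 0 := by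
  refine sum_eq_zero fun e he => ?_
  have h1 : mm H G K e 0 = 1 := by
    unfold mm
    rw [if_pos he]
    simp
  rw [nn_zero hh.cov, h1]
  simp

theorem NE_zero {α : Type} [DecidableEq α] {H : Finset (Finset α)} {A G : Finset α}
    {a : α → Finset α → ℝ → ℝ} {K η : ℝ} (hh : Hyp H A G a K η) :
    NE H a A G 0 = ((A \ G).card : ℝ) := by
  unfold NE
  rw [sum_congr rfl fun e _ => nn_zero hh.cov e]
  simp

theorem NE_nonneg {α : Type} [DecidableEq α] {H : Finset (Finset α)} {A G : Finset α}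
    {a : α → Finset α → ℝ → ℝ} {K η : ℝ} (hh : Hyp H A G a K η) {v : ℝ}
    (hv : v ∈ Set.Icc (0 : ℝ) 1) : 0 ≤ NE H a A G v :=
  sum_nonneg fun e _ => (nn_mem hh.cov e hv).1

/-- the derivative bound after inserting the source -/
theorem der2 {ζ η C5 C4 : ℝ} (he : 0 < η) (hC5 : 0 < C5) (hC4 : 0 < C4)
    (hd : DerStmt ζ C5)
    (h4 : ∀ (α : Type) [DecidableEq α]
      (H : Finset (Finset α)) (A G : Finset α) (a : α → Finset α → ℝ → ℝ) (K η : ℝ),
      Hyp H A G a K η → ∀ u ∈ Set.Icc (0 : ℝ) (1 - ζ),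
      ∑ T ∈ H.filter (fun T => T ⊆ G), MT H G K T u * (∑ e ∈ T, a e T u) ^ 2 ≤
        C4 * K * pp K u ^ 3 * ((1 + Real.log (1 + 2 * K)) ^ 2 / K ^ 2 * (A.card : ℝ)
          + ∫ v in (0 : ℝ)..u, pp K v * JJ H a G K v))
    (hz : 0 < ζ)
    {α : Type} [DecidableEq α] {H : Finset (Finset α)} {A G : Finset α}
    {a : α → Finset α → ℝ → ℝ} {K : ℝ} (hh : Hyp H A G a K η) {u : ℝ}
    (hu : u ∈ Set.Icc (0 : ℝ) (1 - ζ)) :
    ∃ d : ℝ, HasDerivAt (fun v => JJ H a G K v + 2 * NE H a A G v) d u ∧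
    d ≤ (2 + 20 * η) * K * pp K u ^ 2 * JJ H a G K u
      + (250 / η + C5 * C4 / η + 10) * (K * pp K u ^ 3)
        * ((1 + Real.log (1 + 2 * K)) ^ 4 * Src H A G K)
      + C5 * C4 / η * (K * pp K u ^ 3) * ∫ v in (0 : ℝ)..u, pp K v * JJ H a G K v := by
  obtain ⟨d, hd1, hd2⟩ := hd α H A G a K η hh u hu
  refine ⟨d, hd1, hd2.trans ?_⟩
  have hu1 : u ∈ Set.Icc (0 : ℝ) 1 := ⟨hu.1, by linarith [hu.2]⟩
  have hK := hh.K1
  have hp := J4.pp_pos hK hu1.1
  obtain ⟨s1, s2, s3, s4, s5⟩ := src_parts H A G hK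
  have hL : 1 ≤ 1 + Real.log (1 + 2 * K) := by
    have := Real.log_nonneg (show (1 : ℝ) ≤ 1 + 2 * K by linarith)
    linarith
  set L := 1 + Real.log (1 + 2 * K) with hLd
  set X := ∫ v in (0 : ℝ)..u, pp K v * JJ H a G K v with hX
  have hL4 : 1 ≤ L ^ 4 := one_le_pow₀ hL
  have hL24 : L ^ 2 ≤ L ^ 4 := pow_le_pow_right₀ hL (by norm_num)
  -- term 2
  have t2 : (∑ e ∈ G, er H G K e u ^ 2 / mm H G K e u) / (4 * η * K * pp K u ^ 2) ≤
      250 / η * (K * pp K u ^ 3) * (L ^ 4 * Src H A G K) := by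
    rw [div_le_iff₀ (by positivity)]
    calc ∑ e ∈ G, er H G K e u ^ 2 / mm H G K e u ≤ 1000 * K ^ 2 * pp K u ^ 5 * L ^ 4 *
          (∑ e ∈ G, bG H G K e ^ 2 + ∑ e ∈ G, xx H K e ^ 4) := er_sum hh hu1
      _ ≤ 1000 * K ^ 2 * pp K u ^ 5 * L ^ 4 * Src H A G K := by
          apply mul_le_mul_of_nonneg_left s1 (by positivity)
      _ = 250 / η * (K * pp K u ^ 3) * (L ^ 4 * Src H A G K) * (4 * η * K * pp K u ^ 2) := by
          field_simp
          ring
  -- term 3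
  have t3 : C5 / η * ∑ T ∈ H.filter (fun T => T ⊆ G), MT H G K T u * (∑ e ∈ T, a e T u) ^ 2 ≤
      C5 * C4 / η * (K * pp K u ^ 3) * (L ^ 4 * Src H A G K)
        + C5 * C4 / η * (K * pp K u ^ 3) * X := by
    have h5 := h4 α H A G a K η hh u hu
    have h6 : L ^ 2 / K ^ 2 * (A.card : ℝ) ≤ L ^ 4 * Src H A G K := by
      calc L ^ 2 / K ^ 2 * (A.card : ℝ) = L ^ 2 * ((A.card : ℝ) / K ^ 2) := by ring
        _ ≤ L ^ 4 * Src H A G K := mul_le_mul hL24 s2 (by positivity) (by positivity)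
    calc C5 / η * ∑ T ∈ H.filter (fun T => T ⊆ G), MT H G K T u * (∑ e ∈ T, a e T u) ^ 2
        ≤ C5 / η * (C4 * K * pp K u ^ 3 * (L ^ 2 / K ^ 2 * (A.card : ℝ) + X)) :=
          mul_le_mul_of_nonneg_left h5 (by positivity)
      _ ≤ C5 / η * (C4 * K * pp K u ^ 3 * (L ^ 4 * Src H A G K + X)) := by
          apply mul_le_mul_of_nonneg_left _ (by positivity)
          apply mul_le_mul_of_nonneg_left _ (by positivity)
          linarith
      _ = _ := by ring
  -- term 4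
  have t4 : 10 * pp K u ^ 3 * ∑ e ∈ A \ G, dH H e ≤
      10 * (K * pp K u ^ 3) * (L ^ 4 * Src H A G K) := by
    calc 10 * pp K u ^ 3 * ∑ e ∈ A \ G, dH H e ≤ 10 * pp K u ^ 3 * (K * Src H A G K) :=
          mul_le_mul_of_nonneg_left s4 (by positivity)
      _ = 10 * (K * pp K u ^ 3) * (1 * Src H A G K) := by ring
      _ ≤ 10 * (K * pp K u ^ 3) * (L ^ 4 * Src H A G K) := by gcongr
  linarith [show (250 / η + C5 * C4 / η + 10) * (K * pp K u ^ 3) * (L ^ 4 * Src H A G K) =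
    250 / η * (K * pp K u ^ 3) * (L ^ 4 * Src H A G K)
      + C5 * C4 / η * (K * pp K u ^ 3) * (L ^ 4 * Src H A G K)
      + 10 * (K * pp K u ^ 3) * (L ^ 4 * Src H A G K) by ring]

/-- Gronwall: the functional times the integrating factor -/
theorem gron {ζ η S C3 : ℝ} (hz : 0 < ζ) (he : 0 < η) (hS : 0 ≤ S) (hC3 : 0 < C3)
    {α : Type} [DecidableEq α] {H : Finset (Finset α)} {A G : Finset α}
    {a : α → Finset α → ℝ → ℝ} {K : ℝ} (hh : Hyp H A G a K η)
    (hK0 : 3 * (C3 / η / η) ^ 2 ≤ K)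
    (W : ℝ) (hW : 0 ≤ W)
    (hd : ∀ u ∈ Set.Icc (0 : ℝ) (1 - ζ),
      ∃ d : ℝ, HasDerivAt (fun v => JJ H a G K v + 2 * NE H a A G v) d u ∧
      d ≤ (2 + 20 * η) * K * pp K u ^ 2 * JJ H a G K u + S * (K * pp K u ^ 3) * W
      + C3 * (K * pp K u ^ 3) * ∫ v in (0 : ℝ)..u, pp K v * JJ H a G K v)
    {u : ℝ} (hu : u ∈ Set.Icc (0 : ℝ) (1 - ζ)) :
    JJ H a G K u * (1 + 2 * K * u) ^ (-(1 + 10.5 * η)) ≤ 2 * ((A \ G).card : ℝ) + S * W := by
  have hK := hh.K1
  set lam : ℝ := C3 / η with hlam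
  have hlam0 : 0 < lam := by positivity
  set Y : ℝ → ℝ := fun v => (JJ H a G K v + 2 * NE H a A G v)
    + lam * ∫ w in (0 : ℝ)..v, pp K w * JJ H a G K w with hY
  set E : ℝ → ℝ := fun v => (1 + 2 * K * v) ^ (-(1 + 10.5 * η)) with hE
  set F : ℝ → ℝ := fun v => Y v * E v + S * W * pp K v with hF
  have hsub1 : Set.Icc (0 : ℝ) (1 - ζ) ⊆ Set.Icc 0 1 := Set.Icc_subset_Icc le_rfl (by linarith)
  have h01 : (0 : ℝ) ≤ 1 - ζ := hu.1.trans hu.2
  have hgc : ContinuousOn (fun w => pp K w * JJ H a G K w) (Set.Icc 0 1) :=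
    (J4.pp_contOn hK).mul (J4.JJ_contOn hh)
  have hint : ∀ v ∈ Set.Icc (0 : ℝ) (1 - ζ), IntervalIntegrable
      (fun w => pp K w * JJ H a G K w) volume 0 v := fun v hv =>
    (hgc.mono (J4.icc_sub hz hv)).intervalIntegrable
  have hE1 : ∀ v, 0 ≤ v → 0 < E v ∧ E v ≤ 1 := fun v hv => by
    have hb := base_pos hK hv
    refine ⟨Real.rpow_pos_of_pos (by linarith) _, ?_⟩
    exact Real.rpow_le_one_of_one_le_of_nonpos hb (by linarith)
  have hEd : ∀ v, 0 ≤ v → HasDerivAt E (-((2 + 21 * η) * (K * pp K v ^ 2) * E v)) v :=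
    fun v hv => by
      have h := rpow_der (s := (-(1 + 10.5 * η))) hK hv
      have h1 : 2 * K * (-(1 + 10.5 * η)) * (1 + 2 * K * v) ^ (-(1 + 10.5 * η)) * pp K v ^ 2 =
          -((2 + 21 * η) * (K * pp K v ^ 2) * E v) := by
        rw [hE]; ring
      rw [h1] at h
      exact h
  have hanti : AntitoneOn F (Set.Icc 0 (1 - ζ)) := by
    have key : ∀ v ∈ interior (Set.Icc (0 : ℝ) (1 - ζ)), ∃ F' : ℝ, HasDerivAt F F' v ∧ F' ≤ 0 := by
      intro v hv
      rw [interior_Icc] at hv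
      have hv' : v ∈ Set.Icc (0 : ℝ) (1 - ζ) := Set.Ioo_subset_Icc_self hv
      have hv1 := hsub1 hv'
      have hv2 : v ∈ Set.Ioo (0 : ℝ) 1 := ⟨hv.1, by linarith [hv.2]⟩
      obtain ⟨d, hd1, hd2⟩ := hd v hv'
      have hp := J4.pp_pos hK hv1.1
      have hp1 := J1.pp_le_one hK hv1.1
      have hI : HasDerivAt (fun v => ∫ w in (0 : ℝ)..v, pp K w * JJ H a G K w)
          (pp K v * JJ H a G K v) v := by
        have hgo : ContinuousOn (fun w => pp K w * JJ H a G K w) (Set.Ioo 0 1) :=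
          hgc.mono Set.Ioo_subset_Icc_self
        exact intervalIntegral.integral_hasDerivAt_right (hint v hv')
          (hgo.stronglyMeasurableAtFilter isOpen_Ioo v hv2)
          (hgo.continuousAt (isOpen_Ioo.mem_nhds hv2))
      have hYd : HasDerivAt Y (d + lam * (pp K v * JJ H a G K v)) v :=
        hd1.add (hI.const_mul lam)
      refine ⟨_, (hYd.mul (hEd v hv1.1)).add ((pp_der hK hv1.1).const_mul (S * W)), ?_⟩
      have hJ0 := JJ_nonneg hh hv1
      have hN0 := NE_nonneg hh hv1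
      have hX0 : 0 ≤ ∫ w in (0 : ℝ)..v, pp K w * JJ H a G K w := by
        apply intervalIntegral.integral_nonneg hv1.1
        intro w hw
        have hw1 : w ∈ Set.Icc (0 : ℝ) 1 := ⟨hw.1, hw.2.trans hv1.2⟩
        exact mul_nonneg (J4.pp_pos hK hw1.1).le (JJ_nonneg hh hw1)
      set X := ∫ w in (0 : ℝ)..v, pp K w * JJ H a G K w with hX
      have hYv : Y v = JJ H a G K v + 2 * NE H a A G v + lam * X := rfl
      obtain ⟨hEp, hEl⟩ := hE1 v hv1.1
      -- lam <= eta K p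
      have hlamK : lam ≤ η * (K * pp K v) := by
        have h1 : lam ^ 2 ≤ (η * (K * pp K v)) ^ 2 := by
          have h2 : (η * (K * pp K v)) ^ 2 = η ^ 2 * K ^ 2 * (1 / (1 + 2 * K * v)) := by
            rw [← pp_sq hK hv1.1]; ring
          rw [h2]
          have hb := base_pos hK hv1.1
          have h3 : 1 / (3 * K) ≤ 1 / (1 + 2 * K * v) := by
            apply one_div_le_one_div_of_le (by linarith)
            have : K * v ≤ K * 1 := mul_le_mul_of_nonneg_left hv1.2 (by linarith)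
            nlinarith
          have h4 : lam ^ 2 = η ^ 2 * (lam / η) ^ 2 := by field_simp
          have h5 : η ^ 2 * K ^ 2 * (1 / (3 * K)) = η ^ 2 * (K / 3) := by field_simp
          calc lam ^ 2 = η ^ 2 * (lam / η) ^ 2 := h4
            _ ≤ η ^ 2 * (K / 3) := by
                apply mul_le_mul_of_nonneg_left _ (by positivity)
                linarith
            _ = η ^ 2 * K ^ 2 * (1 / (3 * K)) := h5.symm
            _ ≤ _ := mul_le_mul_of_nonneg_left h3 (by positivity)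
        exact (pow_le_pow_iff_left₀ hlam0.le (by positivity) (by norm_num)).1 h1
      have hd3 : d + lam * (pp K v * JJ H a G K v) ≤
          (2 + 21 * η) * (K * pp K v ^ 2) * (JJ H a G K v + lam * X)
            + S * (K * pp K v ^ 3) * W := by
        have e1 : lam * (pp K v * JJ H a G K v) ≤ η * (K * pp K v ^ 2) * JJ H a G K v := by
          calc lam * (pp K v * JJ H a G K v) ≤ η * (K * pp K v) * (pp K v * JJ H a G K v) := by
                gcongr
            _ = _ := by ring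
        have e2 : C3 * (K * pp K v ^ 3) * X ≤ η * (K * pp K v ^ 2) * (lam * X) := by
          have h6 : C3 = η * lam := by rw [hlam]; field_simp
          calc C3 * (K * pp K v ^ 3) * X = η * (K * pp K v ^ 2) * (lam * X) * pp K v := by
                rw [h6]; ring
            _ ≤ η * (K * pp K v ^ 2) * (lam * X) * 1 := by gcongr
            _ = _ := by ring
        have e3 : 0 ≤ (2 + 20 * η) * (K * pp K v ^ 2) * (lam * X) := by positivity
        linarith [show (2 + 21 * η) * (K * pp K v ^ 2) * (JJ H a G K v + lam * X) =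
          (2 + 20 * η) * K * pp K v ^ 2 * JJ H a G K v + η * (K * pp K v ^ 2) * JJ H a G K v
          + (2 + 20 * η) * (K * pp K v ^ 2) * (lam * X) + η * (K * pp K v ^ 2) * (lam * X) by ring]
      have hd4 : (d + lam * (pp K v * JJ H a G K v)) * E v ≤
          ((2 + 21 * η) * (K * pp K v ^ 2) * (JJ H a G K v + lam * X)
            + S * (K * pp K v ^ 3) * W) * E v := mul_le_mul_of_nonneg_right hd3 hEp.le
      have hd5 : S * (K * pp K v ^ 3) * W * E v ≤ S * (K * pp K v ^ 3) * W * 1 :=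
        mul_le_mul_of_nonneg_left hEl (by positivity)
      have hd6 : 0 ≤ (2 + 21 * η) * (K * pp K v ^ 2) * (2 * NE H a A G v) * E v := by positivity
      rw [hYv]
      nlinarith
    refine antitoneOn_of_deriv_nonpos (convex_Icc _ _) ?_ ?_ ?_
    · have c1 : ContinuousOn (fun v => JJ H a G K v + 2 * NE H a A G v) (Set.Icc 0 (1 - ζ)) :=
        fun v hv => by
          obtain ⟨d, hd1, -⟩ := hd v hv
          exact hd1.continuousAt.continuousWithinAt
      have c2 : ContinuousOn (fun v => ∫ w in (0 : ℝ)..v, pp K w * JJ H a G K w)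
          (Set.Icc 0 (1 - ζ)) := by
        have h := intervalIntegral.continuousOn_primitive_interval'
          (hint (1 - ζ) ⟨h01, le_rfl⟩) (Set.left_mem_uIcc)
        rwa [Set.uIcc_of_le h01] at h
      have c3 : ContinuousOn E (Set.Icc 0 (1 - ζ)) := fun v hv =>
        (hEd v hv.1).continuousAt.continuousWithinAt
      have c4 : ContinuousOn (pp K) (Set.Icc 0 (1 - ζ)) := (J4.pp_contOn hK).mono hsub1
      exact ((c1.add (continuousOn_const.mul c2)).mul c3).add (continuousOn_const.mul c4)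
    · intro v hv
      obtain ⟨F', h1, -⟩ := key v hv
      exact h1.differentiableAt.differentiableWithinAt
    · intro v hv
      obtain ⟨F', h1, h2⟩ := key v hv
      rw [h1.deriv]
      exact h2
  have hfin := hanti (Set.left_mem_Icc.2 h01) hu hu.1
  have hF0 : F 0 = 2 * ((A \ G).card : ℝ) + S * W := by
    have e1 : E 0 = 1 := by simp [hE]
    have e2 : pp K 0 = 1 := by simp [pp]
    have e3 : Y 0 = 2 * ((A \ G).card : ℝ) := by
      simp only [hY]
      rw [JJ_zero hh, NE_zero hh, intervalIntegral.integral_same]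
      ring
    change Y 0 * E 0 + S * W * pp K 0 = _
    rw [e1, e2, e3]
    ring
  rw [hF0] at hfin
  have hu1 := hsub1 hu
  have hp := J4.pp_pos hK hu1.1
  have hN0 := NE_nonneg hh hu1
  have hX0 : 0 ≤ ∫ w in (0 : ℝ)..u, pp K w * JJ H a G K w := by
    apply intervalIntegral.integral_nonneg hu1.1
    intro w hw
    have hw1 : w ∈ Set.Icc (0 : ℝ) 1 := ⟨hw.1, hw.2.trans hu1.2⟩
    exact mul_nonneg (J4.pp_pos hK hw1.1).le (JJ_nonneg hh hw1)
  have hEp := (hE1 u hu1.1).1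
  have h1 : JJ H a G K u * E u ≤ Y u * E u := by
    apply mul_le_mul_of_nonneg_right _ hEp.le
    have : 0 ≤ lam * ∫ w in (0 : ℝ)..u, pp K w * JJ H a G K w := by positivity
    change JJ H a G K u ≤ (JJ H a G K u + 2 * NE H a A G u)
      + lam * ∫ w in (0 : ℝ)..u, pp K w * JJ H a G K w
    linarith
  have h2 : 0 ≤ S * W * pp K u := by positivity
  have h3 : F u = Y u * E u + S * W * pp K u := rfl
  change JJ H a G K u * E u ≤ _
  linarith

/-- [J6] from the derivative inequality -/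
theorem of {ζ η : ℝ} (hz : 0 < ζ) (he : 0 < η) (he1 : η ≤ 1 / 10000)
    (hJ : ∃ C : ℝ, 0 < C ∧ DerStmt ζ C) :
    ∃ C K0 : ℝ, 0 < C ∧ 1 ≤ K0 ∧
    ∀ (α : Type) [DecidableEq α]
    (H : Finset (Finset α)) (A G : Finset α) (a : α → Finset α → ℝ → ℝ) (K : ℝ), K0 ≤ K →
    Hyp H A G a K η → ∀ u ∈ Set.Icc (0 : ℝ) (1 - ζ),
    JJ H a G K u ≤ C * K ^ (1.01 : ℝ) * Src H A G K := by
  obtain ⟨C5, hC5, hd⟩ := hJ
  obtain ⟨C4, hC4, h4⟩ := kap_sum hz
  set C3 : ℝ := C5 * C4 / η with hC3d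
  have hC3 : 0 < C3 := by positivity
  set S : ℝ := 250 / η + C3 + 10 with hSd
  have hS : 0 < S := by positivity
  refine ⟨9 * (2 + S) * 1501 ^ 4, max 1 (3 * (C3 / η / η) ^ 2), by positivity,
    le_max_left _ _, ?_⟩
  intro α _ H A G a K hKK hh u hu
  have hK := hh.K1
  have hK0 : 3 * (C3 / η / η) ^ 2 ≤ K := (le_max_right _ _).trans hKK
  obtain ⟨s1, s2, s3, s4, s5⟩ := src_parts H A G hK
  have hu1 : u ∈ Set.Icc (0 : ℝ) 1 := ⟨hu.1, by linarith [hu.2]⟩
  set L := 1 + Real.log (1 + 2 * K) with hLd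
  have hL : 1 ≤ L := by
    have := Real.log_nonneg (show (1 : ℝ) ≤ 1 + 2 * K by linarith)
    linarith
  have hL4 : 1 ≤ L ^ 4 := one_le_pow₀ hL
  have hg := gron hz he hS.le hC3 hh hK0 (L ^ 4 * Src H A G K) (by positivity)
    (fun v hv => der2 he hC5 hC4 hd h4 hz hh hv) hu
  have hb := base_pos hK hu1.1
  have hbp : 0 < 1 + 2 * K * u := by linarith
  have h1 : JJ H a G K u ≤ (1 + 2 * K * u) ^ (1 + 10.5 * η) *
      (2 * ((A \ G).card : ℝ) + S * (L ^ 4 * Src H A G K)) := by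
    have h2 : (1 + 2 * K * u) ^ (1 + 10.5 * η) * (1 + 2 * K * u) ^ (-(1 + 10.5 * η)) = 1 := by
      rw [← Real.rpow_add hbp]; simp
    have h3 : 0 < (1 + 2 * K * u) ^ (1 + 10.5 * η) := Real.rpow_pos_of_pos hbp _
    calc JJ H a G K u = (1 + 2 * K * u) ^ (1 + 10.5 * η) *
          (JJ H a G K u * (1 + 2 * K * u) ^ (-(1 + 10.5 * η))) := by
          rw [mul_comm (JJ H a G K u), ← mul_assoc, h2, one_mul]
      _ ≤ _ := mul_le_mul_of_nonneg_left hg h3.le
  have h2 : 2 * ((A \ G).card : ℝ) + S * (L ^ 4 * Src H A G K) ≤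
      (2 + S) * (1501 ^ 4 * K ^ (0.008 : ℝ)) * Src H A G K := by
    have h3 : 2 * ((A \ G).card : ℝ) ≤ 2 * (L ^ 4 * Src H A G K) := by
      have : 1 * Src H A G K ≤ L ^ 4 * Src H A G K := mul_le_mul_of_nonneg_right hL4 s5
      linarith
    have h4 := log_pow_le hK
    calc 2 * ((A \ G).card : ℝ) + S * (L ^ 4 * Src H A G K)
        ≤ (2 + S) * L ^ 4 * Src H A G K := by linarith
      _ ≤ _ := by
          apply mul_le_mul_of_nonneg_right _ s5
          exact mul_le_mul_of_nonneg_left h4 (by positivity)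
  have h3 : (1 + 2 * K * u) ^ (1 + 10.5 * η) ≤ 9 * K ^ (1.00105 : ℝ) := by
    have h4 : 1 + 2 * K * u ≤ 3 * K := by
      have : K * u ≤ K * 1 := mul_le_mul_of_nonneg_left hu1.2 (by linarith)
      nlinarith
    calc (1 + 2 * K * u) ^ (1 + 10.5 * η) ≤ (3 * K) ^ (1 + 10.5 * η) :=
          Real.rpow_le_rpow hbp.le h4 (by positivity)
      _ ≤ (3 * K) ^ (1.00105 : ℝ) :=
          Real.rpow_le_rpow_of_exponent_le (by linarith) (by linarith)
      _ = 3 ^ (1.00105 : ℝ) * K ^ (1.00105 : ℝ) := Real.mul_rpow (by norm_num) (by linarith)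
      _ ≤ 9 * K ^ (1.00105 : ℝ) := by
          apply mul_le_mul_of_nonneg_right _ (Real.rpow_nonneg (by linarith) _)
          calc (3 : ℝ) ^ (1.00105 : ℝ) ≤ 3 ^ (2 : ℝ) :=
                Real.rpow_le_rpow_of_exponent_le (by norm_num) (by norm_num)
            _ = 9 := by norm_num
  have hKp : (0 : ℝ) < K := by linarith
  calc JJ H a G K u ≤ (1 + 2 * K * u) ^ (1 + 10.5 * η) *
      (2 * ((A \ G).card : ℝ) + S * (L ^ 4 * Src H A G K)) := h1
    _ ≤ (9 * K ^ (1.00105 : ℝ)) * ((2 + S) * (1501 ^ 4 * K ^ (0.008 : ℝ)) * Src H A G K) :=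
        mul_le_mul h3 h2 (by positivity) (by positivity)
    _ = 9 * (2 + S) * 1501 ^ 4 * (K ^ (1.00105 : ℝ) * K ^ (0.008 : ℝ)) * Src H A G K := by ring
    _ = 9 * (2 + S) * 1501 ^ 4 * K ^ (1.00905 : ℝ) * Src H A G K := by
        rw [← Real.rpow_add hKp]; norm_num
    _ ≤ 9 * (2 + S) * 1501 ^ 4 * K ^ (1.01 : ℝ) * Src H A G K := by
        apply mul_le_mul_of_nonneg_right _ s5
        apply mul_le_mul_of_nonneg_left _ (by positivity)
        exact Real.rpow_le_rpow_of_exponent_le hK (by norm_num)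

end J6b

/-- [J6] Gronwall -/
theorem JJ_bound {ζ η : ℝ} (hz : 0 < ζ) (he : 0 < η) (he1 : η ≤ 1 / 10000) :
    ∃ C K0 : ℝ, 0 < C ∧ 1 ≤ K0 ∧
    ∀ (α : Type) [DecidableEq α]
    (H : Finset (Finset α)) (A G : Finset α) (a : α → Finset α → ℝ → ℝ) (K : ℝ), K0 ≤ K →
    Hyp H A G a K η → ∀ u ∈ Set.Icc (0 : ℝ) (1 - ζ),
    JJ H a G K u ≤ C * K ^ (1.01 : ℝ) * Src H A G K :=
  J6b.of hz he he1 (JJ_der hz)

end

end Vale.Agent.P046.CT
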