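import Vale.Agent.P046.CT.Defs
import Vale.Agent.P046.CT.N1
import Vale.Agent.P046.CT.J3

/-! P046, sharp constant, row J6: Gronwall. -/

namespace Vale.Agent.P046.CT

open Finset Vale.Agent.P046

noncomputable section

namespace J6

theorem pp_pos {K u : ℝ} (hK : 1 ≤ K) (hu : 0 ≤ u) : 0 < pp K u := by
  unfold pp
  have : 0 ≤ K * u := by positivity
  exact Real.rpow_pos_of_pos (by nlinarith) _

theorem base_ge {K u : ℝ} (hK : 1 ≤ K) (hu : 0 ≤ u) : 1 ≤ 1 + 2 * K * u := by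
  have : 0 ≤ K * u := by positivity
  nlinarith

theorem pp_le_one {K u : ℝ} (hK : 1 ≤ K) (hu : 0 ≤ u) : pp K u ≤ 1 := by
  unfold pp
  exact Real.rpow_le_one_of_one_le_of_nonpos (base_ge hK hu) (by norm_num)

theorem pp_sq' {K u : ℝ} (hK : 1 ≤ K) (hu : 0 ≤ u) : pp K u ^ 2 = 1 / (1 + 2 * K * u) := by
  unfold pp
  have h1 := base_ge hK hu
  rw [← Real.rpow_natCast, ← Real.rpow_mul (by linarith)]
  norm_num
  rw [Real.rpow_neg_one]

theorem pp_zero (K : ℝ) : pp K 0 = 1 := by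
  unfold pp; simp

theorem pp_der {K u : ℝ} (hK : 1 ≤ K) (hu : 0 ≤ u) :
    HasDerivAt (pp K) (-(K * pp K u ^ 3)) u := by
  have h1 := base_ge hK hu
  have hb : HasDerivAt (fun v : ℝ => 1 + 2 * K * v) (2 * K) u := by
    simpa using ((hasDerivAt_id u).const_mul (2 * K)).const_add 1
  have h2 := hb.rpow_const (p := (-(1 / 2) : ℝ)) (Or.inl (by linarith))
  have h3 : pp K = fun v : ℝ => (1 + 2 * K * v) ^ (-(1 / 2) : ℝ) := by
    funext v; rfl
  rw [h3]
  refine h2.congr_deriv ?_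
  have h4 : (1 + 2 * K * u) ^ ((-(1 / 2) : ℝ) - 1) = pp K u ^ 3 := by
    unfold pp
    rw [← Real.rpow_natCast, ← Real.rpow_mul (by linarith)]
    norm_num
  have h5 : (fun v : ℝ => (1 + 2 * K * v) ^ (-(1 / 2) : ℝ)) u = pp K u := rfl
  rw [h4, h5]
  ring

/-- the pure analysis core -/
theorem gron {T K η lam B : ℝ} {J N : ℝ → ℝ} (hK : 1 ≤ K) (hη : 0 < η)
    (hlam : 0 ≤ lam) (hB : 0 ≤ B)
    (hJ : ∀ u ∈ Set.Icc 0 T, 0 ≤ J u) (hN : ∀ u ∈ Set.Icc 0 T, 0 ≤ N u)
    (hJ0 : J 0 = 0) (hJc : ContinuousOn J (Set.Icc 0 T))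
    (hl : ∀ u ∈ Set.Icc 0 T, lam ≤ η * K * pp K u)
    (hd : ∀ u ∈ Set.Icc 0 T, ∃ d, HasDerivAt (fun v => J v + 2 * N v) d u ∧
      d ≤ (2 + 20 * η) * K * pp K u ^ 2 * J u
        + lam * K * pp K u ^ 3 * (∫ v in (0 : ℝ)..u, pp K v * J v) + B * K * pp K u ^ 3) :
    ∀ u ∈ Set.Icc 0 T, J u ≤ (1 + 2 * K * u) ^ (1 + 21 / 2 * η) * (2 * N 0 + B) := by
  intro u hu
  have hT0 : 0 ≤ T := hu.1.trans hu.2
  set q : ℝ → ℝ := fun v => pp K v * J v with hq
  set I : ℝ → ℝ := fun u => ∫ v in (0 : ℝ)..u, q v with hI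
  set E : ℝ → ℝ := fun v => (1 + 2 * K * v) ^ (-(1 + 21 / 2 * η) : ℝ) with hE
  set g : ℝ → ℝ := fun v => E v * (J v + 2 * N v + lam * I v) + B * pp K v with hg
  have hppc : ContinuousOn (pp K) (Set.Icc 0 T) := fun v hv =>
    (pp_der hK hv.1).continuousAt.continuousWithinAt
  have hqc : ContinuousOn q (Set.Icc 0 T) := hppc.mul hJc
  have hqint : ∀ v ∈ Set.Icc (0 : ℝ) T, IntervalIntegrable q MeasureTheory.volume 0 v := by
    intro v hv
    apply ContinuousOn.intervalIntegrable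
    rw [Set.uIcc_of_le hv.1]
    exact hqc.mono (Set.Icc_subset_Icc le_rfl hv.2)
  have hIc : ContinuousOn I (Set.Icc 0 T) := by
    have := intervalIntegral.continuousOn_primitive_interval' (μ := MeasureTheory.volume)
      (hqint T ⟨hT0, le_rfl⟩) (Set.left_mem_uIcc)
    rwa [Set.uIcc_of_le hT0] at this
  have hIder : ∀ v ∈ Set.Ioo (0 : ℝ) T, HasDerivAt I (q v) v := by
    intro v hv
    have hmem : Set.Ioo (0 : ℝ) T ∈ nhds v := isOpen_Ioo.mem_nhds hv
    have hcat : ContinuousAt q v := (hqc.mono Set.Ioo_subset_Icc_self).continuousAt hmem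
    have hmeas : StronglyMeasurableAtFilter q (nhds v) MeasureTheory.volume :=
      (hqc.mono Set.Ioo_subset_Icc_self).stronglyMeasurableAtFilter isOpen_Ioo v hv
    exact intervalIntegral.integral_hasDerivAt_right (hqint v ⟨hv.1.le, hv.2.le⟩) hmeas hcat
  have hI0 : ∀ v ∈ Set.Icc (0 : ℝ) T, 0 ≤ I v := by
    intro v hv
    apply intervalIntegral.integral_nonneg hv.1
    intro w hw
    exact mul_nonneg (pp_pos hK hw.1).le (hJ w ⟨hw.1, hw.2.trans hv.2⟩)
  have hEder : ∀ v ∈ Set.Icc (0 : ℝ) T, HasDerivAt E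
      (-((2 + 21 * η) * K * pp K v ^ 2 * E v)) v := by
    intro v hv
    have h1 := base_ge hK hv.1
    have hb : HasDerivAt (fun w : ℝ => 1 + 2 * K * w) (2 * K) v := by
      simpa using ((hasDerivAt_id v).const_mul (2 * K)).const_add 1
    have h2 := hb.rpow_const (p := (-(1 + 21 / 2 * η) : ℝ)) (Or.inl (by linarith))
    refine h2.congr_deriv ?_
    have h3 : (1 + 2 * K * v) ^ ((-(1 + 21 / 2 * η) : ℝ) - 1) = E v * pp K v ^ 2 := by
      rw [pp_sq' hK hv.1, hE]
      rw [Real.rpow_sub (by linarith), Real.rpow_one]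
      ring
    rw [h3]
    ring
  have hEpos : ∀ v ∈ Set.Icc (0 : ℝ) T, 0 < E v := fun v hv =>
    Real.rpow_pos_of_pos (by linarith [base_ge hK hv.1]) _
  have hEle : ∀ v ∈ Set.Icc (0 : ℝ) T, E v ≤ 1 := fun v hv =>
    Real.rpow_le_one_of_one_le_of_nonpos (base_ge hK hv.1) (by nlinarith)
  have hgc : ContinuousOn g (Set.Icc 0 T) := by
    have hEc : ContinuousOn E (Set.Icc 0 T) := fun v hv =>
      (hEder v hv).continuousAt.continuousWithinAt
    have hYc : ContinuousOn (fun v => J v + 2 * N v) (Set.Icc 0 T) := fun v hv => by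
      obtain ⟨d, h, _⟩ := hd v hv
      exact h.continuousAt.continuousWithinAt
    exact (hEc.mul (hYc.add (hIc.const_smul lam |>.congr (fun v _ => by simp [smul_eq_mul])))).add
      (continuousOn_const.mul hppc)
  have hanti : AntitoneOn g (Set.Icc 0 T) := by
    apply antitoneOn_of_deriv_nonpos (convex_Icc 0 T) hgc
    · intro v hv
      rw [interior_Icc] at hv
      obtain ⟨d, h, _⟩ := hd v ⟨hv.1.le, hv.2.le⟩
      have hEd := hEder v ⟨hv.1.le, hv.2.le⟩
      have hId := hIder v hv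
      have hpd := pp_der hK hv.1.le
      exact ((hEd.mul (h.add (hId.const_mul lam))).add
        (hpd.const_mul B)).differentiableAt.differentiableWithinAt
    · intro v hv
      rw [interior_Icc] at hv
      have hv' : v ∈ Set.Icc (0 : ℝ) T := ⟨hv.1.le, hv.2.le⟩
      obtain ⟨d, h, hdle⟩ := hd v hv'
      have hEd := hEder v hv'
      have hId := hIder v hv
      have hpd := pp_der hK hv.1.le
      have hder : HasDerivAt g (-((2 + 21 * η) * K * pp K v ^ 2 * E v)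
          * (J v + 2 * N v + lam * I v) + E v * (d + lam * q v) + B * (-(K * pp K v ^ 3))) v :=
        (hEd.mul (h.add (hId.const_mul lam))).add (hpd.const_mul B)
      rw [hder.deriv]
      have e0 := hEpos v hv'
      have e1 := hEle v hv'
      have p0 := pp_pos hK hv.1.le
      have p1 := pp_le_one hK hv.1.le
      have j0 := hJ v hv'
      have n0 := hN v hv'
      have i0 := hI0 v hv'
      have hlv := hl v hv'
      have hK0 : 0 < K := by linarith
      have hqv : q v = pp K v * J v := rfl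
      have hIv : (∫ w in (0 : ℝ)..v, pp K w * J w) = I v := rfl
      rw [hIv] at hdle
      set p := pp K v with hp
      have s1 : E v * (d + lam * q v) ≤ E v * ((2 + 20 * η) * K * p ^ 2 * J v
        + lam * K * p ^ 3 * I v + B * K * p ^ 3 + lam * (p * J v)) := by
        apply mul_le_mul_of_nonneg_left _ e0.le
        rw [hqv]
        linarith
      have s2 : lam * (p * J v) ≤ η * K * p ^ 2 * J v := by
        have : lam * (p * J v) ≤ (η * K * p) * (p * J v) :=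
          mul_le_mul_of_nonneg_right hlv (mul_nonneg p0.le j0)
        nlinarith [this]
      have s3 : lam * K * p ^ 3 * I v ≤ (2 + 21 * η) * K * p ^ 2 * (lam * I v) := by
        have h3 : p ^ 3 ≤ p ^ 2 := by
          have : p ^ 3 = p ^ 2 * p := by ring
          rw [this]
          exact mul_le_of_le_one_right (by positivity) p1
        have h4 : lam * K * p ^ 3 * I v ≤ lam * K * p ^ 2 * I v := by
          have : 0 ≤ lam * K * I v := by positivity
          nlinarith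
        have h5 : 0 ≤ (1 + 21 * η) * (lam * K * p ^ 2 * I v) := by positivity
        nlinarith
      have s4 : E v * (B * K * p ^ 3) ≤ B * K * p ^ 3 :=
        mul_le_of_le_one_left (by positivity) e1
      have s5 : 0 ≤ (2 + 21 * η) * K * p ^ 2 * (2 * N v) := by positivity
      have s6 : E v * ((2 + 20 * η) * K * p ^ 2 * J v + lam * K * p ^ 3 * I v
          + lam * (p * J v)) ≤ E v * ((2 + 21 * η) * K * p ^ 2 * (J v + 2 * N v + lam * I v)) := by
        apply mul_le_mul_of_nonneg_left _ e0.le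
        nlinarith
      nlinarith
  have h0 : (0 : ℝ) ∈ Set.Icc (0 : ℝ) T := ⟨le_rfl, hT0⟩
  have hle := hanti h0 hu hu.1
  have hg0 : g 0 = 2 * N 0 + B := by
    have hE0 : E 0 = 1 := by simp [hE]
    have hI00 : I 0 = 0 := by simp [hI]
    simp only [hg, hE0, hI00, hJ0, pp_zero]
    ring
  have hgu : E u * J u ≤ g u := by
    have e0 := hEpos u hu
    have n0 := hN u hu
    have i0 := hI0 u hu
    have p0 := pp_pos hK hu.1
    simp only [hg]
    have : 0 ≤ E u * (2 * N u + lam * I u) := by positivity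
    have h2 : 0 ≤ B * pp K u := by positivity
    nlinarith
  have hfin : E u * J u ≤ 2 * N 0 + B := by
    rw [← hg0]; exact hgu.trans hle
  have hb := base_ge hK hu.1
  have hEinv : (1 + 2 * K * u) ^ (1 + 21 / 2 * η) * E u = 1 := by
    rw [hE]
    simp only
    rw [← Real.rpow_add (by linarith)]
    simp
  calc J u = (1 + 2 * K * u) ^ (1 + 21 / 2 * η) * (E u * J u) := by
        rw [← mul_assoc, hEinv, one_mul]
    _ ≤ _ := mul_le_mul_of_nonneg_left hfin (Real.rpow_nonneg (by linarith) _)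

section

variable {α : Type} [DecidableEq α]

theorem mm_pos {H : Finset (Finset α)} {G : Finset α} {K : ℝ} (hK : 1 ≤ K) (e : α) {u : ℝ}
    (hu : 0 ≤ u) : 0 < mm H G K e u := by
  unfold mm
  split_ifs
  · exact Real.rpow_pos_of_pos (by linarith [base_ge hK hu]) _
  · exact pp_pos hK hu

theorem mm_zero {H : Finset (Finset α)} {G : Finset α} {K : ℝ} (e : α) :
    mm H G K e 0 = 1 := by
  unfold mm
  split_ifs
  · simp
  · exact pp_zero K

theorem mm_cont {H : Finset (Finset α)} {G : Finset α} {K : ℝ} (hK : 1 ≤ K) (e : α) {u : ℝ}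
    (hu : 0 ≤ u) : ContinuousAt (mm H G K e) u := by
  by_cases h : e ∈ G
  · have h3 : mm H G K e = fun v : ℝ => (1 + 2 * K * v) ^ (-((1 + xx H K e) / 2) : ℝ) := by
      funext v; simp [mm, h]
    rw [h3]
    have hb : ContinuousAt (fun v : ℝ => 1 + 2 * K * v) u := by fun_prop
    exact hb.rpow_const (Or.inl (by have := base_ge hK hu; linarith))
  · have h3 : mm H G K e = pp K := by
      funext v; simp [mm, h]
    rw [h3]
    exact (pp_der hK hu).continuousAt

theorem JJ_nonneg {H : Finset (Finset α)} {a : α → Finset α → ℝ → ℝ} {G : Finset α} {K : ℝ}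
    (hK : 1 ≤ K) {u : ℝ} (hu : 0 ≤ u) : 0 ≤ JJ H a G K u := by
  unfold JJ
  refine Finset.sum_nonneg fun e _ => ?_
  have := mm_pos (H := H) (G := G) hK e hu
  positivity

theorem JJ_cont {H : Finset (Finset α)} {a : α → Finset α → ℝ → ℝ} {G : Finset α} {K : ℝ}
    (hK : 1 ≤ K) (hc : Cov H a) {u : ℝ} (hu : u ∈ Set.Icc (0 : ℝ) 1) :
    ContinuousAt (JJ H a G K) u := by
  have : JJ H a G K = fun v => ∑ e ∈ G, (nn H a e v - mm H G K e v) ^ 2 / (2 * mm H G K e v) := by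
    funext v; rfl
  rw [this]
  refine tendsto_finsetSum _ fun e _ => ?_
  have h1 : ContinuousAt (nn H a e) u := (nn_der hc e hu).continuousAt
  have h2 : ContinuousAt (mm H G K e) u := mm_cont hK e hu.1
  have h3 := mm_pos (H := H) (G := G) hK e hu.1
  exact ((h1.sub h2).pow 2).div (continuousAt_const.mul h2) (by positivity)

theorem JJ_zero {H : Finset (Finset α)} {a : α → Finset α → ℝ → ℝ} {G : Finset α} {K : ℝ}
    (hc : Cov H a) : JJ H a G K 0 = 0 := by
  unfold JJ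
  refine Finset.sum_eq_zero fun e _ => ?_
  rw [nn_zero hc, mm_zero]
  simp

theorem NE_zero {H : Finset (Finset α)} {a : α → Finset α → ℝ → ℝ} {A G : Finset α}
    (hc : Cov H a) : NE H a A G 0 = ((A \ G).card : ℝ) := by
  unfold NE
  rw [Finset.sum_congr rfl fun e _ => nn_zero hc e]
  simp

end

/-- the growth factor times the fourth power of the logarithm -/
theorem growth {K η u : ℝ} (hK : 1 ≤ K) (he : 0 < η) (he1 : η ≤ 1 / 10000)
    (hu : u ∈ Set.Icc (0 : ℝ) 1) :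
    (1 + 2 * K * u) ^ (1 + 21 / 2 * η) * (1 + Real.log (1 + 2 * K)) ^ 4 ≤
      (3 : ℝ) ^ (1.01 : ℝ) * 501 ^ 4 * K ^ (1.01 : ℝ) := by
  have h3K : 1 ≤ 3 * K := by linarith
  have hb := base_ge hK hu.1
  have hb3 : 1 + 2 * K * u ≤ 3 * K := by
    have : 2 * K * u ≤ 2 * K * 1 := mul_le_mul_of_nonneg_left hu.2 (by linarith)
    linarith
  have h1 : (1 + 2 * K * u) ^ (1 + 21 / 2 * η) ≤ (3 * K) ^ (1.00105 : ℝ) := by
    calc (1 + 2 * K * u) ^ (1 + 21 / 2 * η) ≤ (3 * K) ^ (1 + 21 / 2 * η) :=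
          Real.rpow_le_rpow (by linarith) hb3 (by positivity)
      _ ≤ (3 * K) ^ (1.00105 : ℝ) := by
          apply Real.rpow_le_rpow_of_exponent_le h3K
          norm_num
          linarith
  have hlog : 1 + Real.log (1 + 2 * K) ≤ 501 * (3 * K) ^ (0.002 : ℝ) := by
    have h2 : Real.log (1 + 2 * K) ≤ Real.log (3 * K) :=
      Real.log_le_log (by linarith) (by linarith)
    have h3 : Real.log (3 * K) ≤ (3 * K) ^ (0.002 : ℝ) / 0.002 :=
      Real.log_le_rpow_div (by linarith) (by norm_num)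
    have h4 : 1 ≤ (3 * K) ^ (0.002 : ℝ) := Real.one_le_rpow h3K (by norm_num)
    have h5 : (3 * K) ^ (0.002 : ℝ) / 0.002 = 500 * (3 * K) ^ (0.002 : ℝ) := by ring
    linarith
  have hlog0 : 0 ≤ Real.log (1 + 2 * K) := Real.log_nonneg (by linarith)
  have hlog4 : (1 + Real.log (1 + 2 * K)) ^ 4 ≤ 501 ^ 4 * (3 * K) ^ (0.008 : ℝ) := by
    calc (1 + Real.log (1 + 2 * K)) ^ 4 ≤ (501 * (3 * K) ^ (0.002 : ℝ)) ^ 4 :=
          pow_le_pow_left₀ (by linarith) hlog 4
      _ = 501 ^ 4 * (3 * K) ^ (0.008 : ℝ) := by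
          rw [mul_pow, ← Real.rpow_natCast ((3 * K) ^ (0.002 : ℝ)), ← Real.rpow_mul (by linarith)]
          norm_num
  calc (1 + 2 * K * u) ^ (1 + 21 / 2 * η) * (1 + Real.log (1 + 2 * K)) ^ 4
      ≤ (3 * K) ^ (1.00105 : ℝ) * (501 ^ 4 * (3 * K) ^ (0.008 : ℝ)) :=
        mul_le_mul h1 hlog4 (by positivity) (Real.rpow_nonneg (by linarith) _)
    _ = 501 ^ 4 * (3 * K) ^ (1.00905 : ℝ) := by
        have : (3 * K) ^ (1.00905 : ℝ) = (3 * K) ^ (1.00105 : ℝ) * (3 * K) ^ (0.008 : ℝ) := by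
          rw [← Real.rpow_add (by linarith)]
          norm_num
        rw [this]; ring
    _ ≤ 501 ^ 4 * (3 * K) ^ (1.01 : ℝ) := by
        apply mul_le_mul_of_nonneg_left _ (by norm_num)
        exact Real.rpow_le_rpow_of_exponent_le h3K (by norm_num)
    _ = (3 : ℝ) ^ (1.01 : ℝ) * 501 ^ 4 * K ^ (1.01 : ℝ) := by
        rw [Real.mul_rpow (by norm_num) (by linarith)]
        ring

/-- [J6] with J5 (`JJ_der`) and J4 (`kap_sum`) as hypotheses -/
theorem JJ_bound_of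
    (hJ5 : ∀ {ζ : ℝ}, 0 < ζ → ∃ C : ℝ, 0 < C ∧ ∀ (α : Type) [DecidableEq α]
      (H : Finset (Finset α)) (A G : Finset α) (a : α → Finset α → ℝ → ℝ) (K η : ℝ),
      Hyp H A G a K η → ∀ u ∈ Set.Icc (0 : ℝ) (1 - ζ), ∃ d : ℝ,
      HasDerivAt (fun v => JJ H a G K v + 2 * NE H a A G v) d u ∧
      d ≤ (2 + 20 * η) * K * pp K u ^ 2 * JJ H a G K u
        + (∑ e ∈ G, er H G K e u ^ 2 / mm H G K e u) / (4 * η * K * pp K u ^ 2)
        + C / η * ∑ T ∈ H.filter (fun T => T ⊆ G), MT H G K T u * (∑ e ∈ T, a e T u) ^ 2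
        + 10 * pp K u ^ 3 * ∑ e ∈ A \ G, dH H e)
    (hJ4 : ∀ {ζ : ℝ}, 0 < ζ → ∃ C : ℝ, 0 < C ∧ ∀ (α : Type) [DecidableEq α]
      (H : Finset (Finset α)) (A G : Finset α) (a : α → Finset α → ℝ → ℝ) (K η : ℝ),
      Hyp H A G a K η → ∀ u ∈ Set.Icc (0 : ℝ) (1 - ζ),
      ∑ T ∈ H.filter (fun T => T ⊆ G), MT H G K T u * (∑ e ∈ T, a e T u) ^ 2 ≤
        C * K * pp K u ^ 3 * ((1 + Real.log (1 + 2 * K)) ^ 2 / K ^ 2 * (A.card : ℝ)
          + ∫ v in (0 : ℝ)..u, pp K v * JJ H a G K v))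
    {ζ η : ℝ} (hz : 0 < ζ) (he : 0 < η) (he1 : η ≤ 1 / 10000) :
    ∃ C K0 : ℝ, 0 < C ∧ 1 ≤ K0 ∧
    ∀ (α : Type) [DecidableEq α]
    (H : Finset (Finset α)) (A G : Finset α) (a : α → Finset α → ℝ → ℝ) (K : ℝ), K0 ≤ K →
    Hyp H A G a K η → ∀ u ∈ Set.Icc (0 : ℝ) (1 - ζ),
    JJ H a G K u ≤ C * K ^ (1.01 : ℝ) * Src H A G K := by
  obtain ⟨C5, hC5, h5⟩ := hJ5 hz
  obtain ⟨C4, hC4, h4⟩ := hJ4 hz
  set lam : ℝ := C5 * C4 / η with hlam
  have hlam0 : 0 < lam := by positivity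
  refine ⟨(3 : ℝ) ^ (1.01 : ℝ) * 501 ^ 4 * (2 + (250 / η + lam + 10)),
    max 1 (3 * (lam / η) ^ 2), by positivity, le_max_left _ _, ?_⟩
  intro α _ H A G a K hK0 hh u hu
  have hK : 1 ≤ K := (le_max_left _ _).trans hK0
  have hK2 : 3 * (lam / η) ^ 2 ≤ K := (le_max_right _ _).trans hK0
  have hKp : 0 < K := by linarith
  have hlog0 : 0 ≤ Real.log (1 + 2 * K) := Real.log_nonneg (by linarith)
  set L : ℝ := 1 + Real.log (1 + 2 * K) with hL
  have hL1 : 1 ≤ L := by rw [hL]; linarith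
  set S1 : ℝ := ∑ e ∈ G, bG H G K e ^ 2 + ∑ e ∈ G, xx H K e ^ 4 with hS1
  set D : ℝ := ∑ e ∈ A \ G, dH H e with hD
  have hS10 : 0 ≤ S1 := by
    have h1 : 0 ≤ ∑ e ∈ G, bG H G K e ^ 2 := Finset.sum_nonneg fun e _ => sq_nonneg _
    have h2 : 0 ≤ ∑ e ∈ G, xx H K e ^ 4 := Finset.sum_nonneg fun e _ => by positivity
    rw [hS1]; linarith
  have hD0 : 0 ≤ D := Finset.sum_nonneg fun e _ => by unfold dH; positivity
  have hsum : ∑ e ∈ A \ G, (1 + dH H e / K) = ((A \ G).card : ℝ) + D / K := by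
    rw [Finset.sum_add_distrib, hD, Finset.sum_div]
    simp
  have hSrc : Src H A G K = S1 + (A.card : ℝ) / K ^ 2 + (((A \ G).card : ℝ) + D / K) := by
    unfold Src
    rw [hsum, hS1]
  set S : ℝ := Src H A G K with hS
  have hA0 : 0 ≤ (A.card : ℝ) / K ^ 2 := by positivity
  have hDK0 : 0 ≤ D / K := by positivity
  have hc0 : (0 : ℝ) ≤ ((A \ G).card : ℝ) := by positivity
  have hS0 : 0 ≤ S := by rw [hSrc]; positivity
  have hu1 : ∀ v ∈ Set.Icc (0 : ℝ) (1 - ζ), v ∈ Set.Icc (0 : ℝ) 1 := fun v hv =>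
    ⟨hv.1, hv.2.trans (by linarith)⟩
  set B : ℝ := 250 / η * L ^ 4 * S1 + lam * (L ^ 2 / K ^ 2 * (A.card : ℝ)) + 10 * (D / K)
    with hB
  have hB0 : 0 ≤ B := by rw [hB]; positivity
  have key := gron (T := 1 - ζ) (K := K) (η := η) (lam := lam) (B := B)
    (J := JJ H a G K) (N := NE H a A G) hK he hlam0.le hB0
    (fun v hv => JJ_nonneg hK hv.1)
    (fun v hv => Finset.sum_nonneg fun e _ => (nn_mem hh.cov e (hu1 v hv)).1)
    (JJ_zero hh.cov)
    (fun v hv => (JJ_cont hK hh.cov (hu1 v hv)).continuousWithinAt)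
    (by
      intro v hv
      have hv1 := hu1 v hv
      have hb := base_ge hK hv.1
      have hp0 := pp_pos hK hv.1
      have hsq := pp_sq' hK hv.1
      have hb3 : 1 + 2 * K * v ≤ 3 * K := by
        have : 2 * K * v ≤ 2 * K * 1 := mul_le_mul_of_nonneg_left hv1.2 (by linarith)
        linarith
      have h1 : (lam / η) ^ 2 ≤ (K * pp K v) ^ 2 := by
        rw [mul_pow, hsq]
        have h2 : K / 3 ≤ K ^ 2 * (1 / (1 + 2 * K * v)) := by
          rw [mul_one_div, le_div_iff₀ (by linarith)]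
          nlinarith
        linarith
      have h2 : lam / η ≤ K * pp K v :=
        le_of_sq_le_sq h1 (by positivity)
      rw [div_le_iff₀ he] at h2
      linarith)
    (by
      intro v hv
      obtain ⟨d, hd, hle⟩ := h5 α H A G a K η hh v hv
      refine ⟨d, hd, hle.trans ?_⟩
      have hp0 := pp_pos hK hv.1
      have e3 := er_sum hh (hu1 v hv)
      have e4 := h4 α H A G a K η hh v hv
      have t1 : (∑ e ∈ G, er H G K e v ^ 2 / mm H G K e v) / (4 * η * K * pp K v ^ 2) ≤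
          250 / η * L ^ 4 * S1 * K * pp K v ^ 3 := by
        rw [div_le_iff₀ (by positivity)]
        refine e3.trans (le_of_eq ?_)
        have q1 : 250 / η * L ^ 4 * S1 * K * pp K v ^ 3 * (4 * η * K * pp K v ^ 2) =
            (η / η) * (1000 * K ^ 2 * pp K v ^ 5 * L ^ 4 * S1) := by ring
        rw [q1, div_self he.ne', one_mul]
      have t2 : C5 / η * ∑ T ∈ H.filter (fun T => T ⊆ G), MT H G K T v * (∑ e ∈ T, a e T v) ^ 2 ≤
          lam * (L ^ 2 / K ^ 2 * (A.card : ℝ)) * K * pp K v ^ 3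
            + lam * K * pp K v ^ 3 * (∫ w in (0 : ℝ)..v, pp K w * JJ H a G K w) := by
        refine (mul_le_mul_of_nonneg_left e4 (by positivity)).trans (le_of_eq ?_)
        rw [hlam]
        ring
      have t3 : 10 * pp K v ^ 3 * D = 10 * (D / K) * K * pp K v ^ 3 := by
        field_simp
      rw [hB]
      linarith [t1, t2, t3])
    u hu
  rw [NE_zero hh.cov] at key
  have hL4 : L ^ 2 ≤ L ^ 4 := pow_le_pow_right₀ hL1 (by norm_num)
  have hL41 : 1 ≤ L ^ 4 := one_le_pow₀ hL1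
  have hBle : 2 * ((A \ G).card : ℝ) + B ≤ (2 + (250 / η + lam + 10)) * (L ^ 4 * S) := by
    have hSL : S ≤ L ^ 4 * S := le_mul_of_one_le_left hS0 hL41
    have b1 : 250 / η * L ^ 4 * S1 ≤ 250 / η * (L ^ 4 * S) := by
      have : L ^ 4 * S1 ≤ L ^ 4 * S := mul_le_mul_of_nonneg_left (by linarith) (by positivity)
      have := mul_le_mul_of_nonneg_left this (by positivity : (0 : ℝ) ≤ 250 / η)
      linarith
    have b2 : lam * (L ^ 2 / K ^ 2 * (A.card : ℝ)) ≤ lam * (L ^ 4 * S) := by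
      apply mul_le_mul_of_nonneg_left _ hlam0.le
      calc L ^ 2 / K ^ 2 * (A.card : ℝ) = L ^ 2 * ((A.card : ℝ) / K ^ 2) := by ring
        _ ≤ L ^ 4 * ((A.card : ℝ) / K ^ 2) := mul_le_mul_of_nonneg_right hL4 hA0
        _ ≤ L ^ 4 * S := mul_le_mul_of_nonneg_left (by linarith) (by positivity)
    have b3 : D / K ≤ L ^ 4 * S := by linarith
    have b4 : ((A \ G).card : ℝ) ≤ L ^ 4 * S := by linarith
    rw [hB]
    linarith
  have hgr := growth hK he he1 (hu1 u hu)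
  have hpow0 : 0 ≤ (1 + 2 * K * u) ^ (1 + 21 / 2 * η) :=
    Real.rpow_nonneg (by linarith [base_ge hK hu.1]) _
  calc JJ H a G K u ≤ (1 + 2 * K * u) ^ (1 + 21 / 2 * η) * (2 * ((A \ G).card : ℝ) + B) := key
    _ ≤ (1 + 2 * K * u) ^ (1 + 21 / 2 * η) * ((2 + (250 / η + lam + 10)) * (L ^ 4 * S)) :=
        mul_le_mul_of_nonneg_left hBle hpow0
    _ = ((1 + 2 * K * u) ^ (1 + 21 / 2 * η) * L ^ 4) * ((2 + (250 / η + lam + 10)) * S) := by ring
    _ ≤ ((3 : ℝ) ^ (1.01 : ℝ) * 501 ^ 4 * K ^ (1.01 : ℝ)) * ((2 + (250 / η + lam + 10)) * S) :=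
        mul_le_mul_of_nonneg_right hgr (by positivity)
    _ = _ := by ring

end J6

end

end Vale.Agent.P046.CT
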