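import Vale.Agent.P046.CT.N1
import Vale.Agent.P046.CT.J1

/-!
P046, sharp constant, row [J7]: conclusion of part A from the bound of the functional.
-/

namespace Vale.Agent.P046.CT

open Finset Vale.Agent.P046

noncomputable section

/-- the pointwise estimate at a regular point -/
theorem J7.pt {n m p η : ℝ} (he : 0 < η) (he1 : η ≤ 1 / 10000) (hp : 0 < p)
    (hm0 : 0 < m) (h1 : (1 - η) * p ≤ m) (h2 : m ≤ (1 + η) * p) :
    |n - p| ≤ 4 * η * p + 1 / (2 * η) * ((n - m) ^ 2 / (2 * m)) := by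
  have hA : |m - p| ≤ η * p := abs_le.2 ⟨by linarith, by linarith⟩
  have hB : |n - m| ≤ η * m + 1 / (2 * η) * ((n - m) ^ 2 / (2 * m)) := by
    have h3 : 1 / (2 * η) * ((n - m) ^ 2 / (2 * m)) = |n - m| ^ 2 / (4 * (η * m)) := by
      rw [sq_abs]
      field_simp
      ring
    rw [h3]
    have h4 : 0 < η * m := mul_pos he hm0
    have h5 : 0 ≤ (|n - m| - 2 * (η * m)) ^ 2 / (4 * (η * m)) := by positivity
    have h6 : (|n - m| - 2 * (η * m)) ^ 2 / (4 * (η * m))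
        = |n - m| ^ 2 / (4 * (η * m)) - |n - m| + η * m := by
      field_simp
      ring
    linarith
  have hC : η * m ≤ η * (2 * p) :=
    mul_le_mul_of_nonneg_left (by nlinarith) he.le
  have hD : |n - p| ≤ |n - m| + |m - p| := abs_sub_le _ _ _
  nlinarith [mul_pos he hp]

theorem J7.of {ζ η : ℝ} (hz : 0 < ζ) (he : 0 < η) (he1 : η ≤ 1 / 10000)
    (hJ : ∃ C K0 : ℝ, 0 < C ∧ 1 ≤ K0 ∧
      ∀ (α : Type) [DecidableEq α]
      (H : Finset (Finset α)) (A G : Finset α) (a : α → Finset α → ℝ → ℝ) (K : ℝ), K0 ≤ K →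
      Hyp H A G a K η → ∀ u ∈ Set.Icc (0 : ℝ) (1 - ζ),
      JJ H a G K u ≤ C * K ^ (1.01 : ℝ) * Src H A G K) :
    ∃ C K0 : ℝ, 0 < C ∧ 1 ≤ K0 ∧
    ∀ (α : Type) [DecidableEq α]
    (H : Finset (Finset α)) (A G : Finset α) (a : α → Finset α → ℝ → ℝ) (K : ℝ), K0 ≤ K →
    Hyp H A G a K η → ∀ u ∈ Set.Icc (0 : ℝ) (1 - ζ),
    |∑ e ∈ A, nn H a e u - (A.card : ℝ) * pp K u| ≤
      4 * η * pp K u * (A.card : ℝ) + C * K ^ (1.01 : ℝ) * Src H A G K := by
  obtain ⟨C, K0, hC, hK0, hJ⟩ := hJ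
  refine ⟨C / (2 * η) + 1, K0, by positivity, hK0, ?_⟩
  intro α _ H A G a K hK hh u hu
  have hK1 : 1 ≤ K := hh.K1
  have hu1 : u ∈ Set.Icc (0 : ℝ) 1 := ⟨hu.1, by linarith [hu.2]⟩
  have hp := J1.pp_pos hK1 hu.1
  have hp1 := J1.pp_le_one hK1 hu.1
  have hJu := hJ α H A G a K hK hh u hu
  have hKr : (1 : ℝ) ≤ K ^ (1.01 : ℝ) := Real.one_le_rpow hK1 (by norm_num)
  -- the source is at least its exceptional part
  have hS1 : 0 ≤ ∑ e ∈ G, bG H G K e ^ 2 := Finset.sum_nonneg fun e _ => sq_nonneg _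
  have hS2 : 0 ≤ ∑ e ∈ G, xx H K e ^ 4 := Finset.sum_nonneg fun e _ => by positivity
  have hS3 : 0 ≤ (A.card : ℝ) / K ^ 2 := by positivity
  have hS4 : ∀ e ∈ A \ G, (1 : ℝ) ≤ 1 + dH H e / K := by
    intro e _
    have : 0 ≤ dH H e / K := div_nonneg (by unfold dH; positivity) (by linarith)
    linarith
  have hSrc : ∑ e ∈ A \ G, (1 + dH H e / K) ≤ Src H A G K := by
    unfold Src
    linarith
  have hEx0 : 0 ≤ ∑ e ∈ A \ G, (1 + dH H e / K) :=
    Finset.sum_nonneg fun e he' => by linarith [hS4 e he']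
  have hSrc0 : 0 ≤ Src H A G K := le_trans hEx0 hSrc
  -- pointwise
  have hG : ∑ e ∈ G, |nn H a e u - pp K u| ≤
      4 * η * pp K u * (G.card : ℝ) + 1 / (2 * η) * JJ H a G K u := by
    have h1 : ∑ e ∈ G, |nn H a e u - pp K u| ≤ ∑ e ∈ G, (4 * η * pp K u +
        1 / (2 * η) * ((nn H a e u - mm H G K e u) ^ 2 / (2 * mm H G K e u))) := by
      refine Finset.sum_le_sum fun e _ => ?_
      obtain ⟨hm0, _, h2, h3⟩ := mm_bd hh e hu1
      exact J7.pt he he1 hp hm0 h2 h3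
    refine h1.trans (le_of_eq ?_)
    unfold JJ
    rw [Finset.sum_add_distrib, Finset.sum_const, nsmul_eq_mul, Finset.mul_sum]
    ring
  have hX : ∑ e ∈ A \ G, |nn H a e u - pp K u| ≤ ∑ e ∈ A \ G, (1 + dH H e / K) := by
    refine Finset.sum_le_sum fun e he' => ?_
    obtain ⟨hn0, hn1⟩ := nn_mem hh.cov e hu1
    have h1 : |nn H a e u - pp K u| ≤ 1 := abs_le.2 ⟨by linarith, by linarith⟩
    exact h1.trans (hS4 e he')
  have hsplit : ∑ e ∈ A, |nn H a e u - pp K u| =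
      ∑ e ∈ A \ G, |nn H a e u - pp K u| + ∑ e ∈ G, |nn H a e u - pp K u| :=
    (Finset.sum_sdiff hh.GA).symm
  have habs : |∑ e ∈ A, nn H a e u - (A.card : ℝ) * pp K u| ≤
      ∑ e ∈ A, |nn H a e u - pp K u| := by
    have h1 : ∑ e ∈ A, nn H a e u - (A.card : ℝ) * pp K u =
        ∑ e ∈ A, (nn H a e u - pp K u) := by
      rw [Finset.sum_sub_distrib, Finset.sum_const, nsmul_eq_mul]
    rw [h1]
    exact Finset.abs_sum_le_sum_abs _ _
  have hcard : (G.card : ℝ) ≤ (A.card : ℝ) := by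
    exact_mod_cast Finset.card_le_card hh.GA
  have hJ2 : 1 / (2 * η) * JJ H a G K u ≤
      C / (2 * η) * K ^ (1.01 : ℝ) * Src H A G K := by
    have h1 : 1 / (2 * η) * JJ H a G K u ≤
        1 / (2 * η) * (C * K ^ (1.01 : ℝ) * Src H A G K) :=
      mul_le_mul_of_nonneg_left hJu (by positivity)
    refine h1.trans (le_of_eq ?_)
    ring
  have hX2 : ∑ e ∈ A \ G, (1 + dH H e / K) ≤ K ^ (1.01 : ℝ) * Src H A G K := by
    refine hSrc.trans ?_
    nlinarith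
  have hG2 : 4 * η * pp K u * (G.card : ℝ) ≤ 4 * η * pp K u * (A.card : ℝ) :=
    mul_le_mul_of_nonneg_left hcard (by positivity)
  calc |∑ e ∈ A, nn H a e u - (A.card : ℝ) * pp K u|
      ≤ ∑ e ∈ A, |nn H a e u - pp K u| := habs
    _ = ∑ e ∈ A \ G, |nn H a e u - pp K u| + ∑ e ∈ G, |nn H a e u - pp K u| := hsplit
    _ ≤ K ^ (1.01 : ℝ) * Src H A G K + (4 * η * pp K u * (A.card : ℝ) +
          C / (2 * η) * K ^ (1.01 : ℝ) * Src H A G K) := by linarith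
    _ = 4 * η * pp K u * (A.card : ℝ) + (C / (2 * η) + 1) * K ^ (1.01 : ℝ) * Src H A G K := by
          ring

end

end Vale.Agent.P046.CT
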