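import Vale.Agent.P046.CT.J6
import Vale.Agent.P046.CT.J7Of

/-! P046, sharp constant, row J7. -/

namespace Vale.Agent.P046.CT

open Finset Vale.Agent.P046

noncomputable section

/-- [J7] conclusion of part A -/
theorem J_main {ζ η : ℝ} (hz : 0 < ζ) (he : 0 < η) (he1 : η ≤ 1 / 10000) :
    ∃ C K0 : ℝ, 0 < C ∧ 1 ≤ K0 ∧
    ∀ (α : Type) [DecidableEq α]
    (H : Finset (Finset α)) (A G : Finset α) (a : α → Finset α → ℝ → ℝ) (K : ℝ), K0 ≤ K →
    Hyp H A G a K η → ∀ u ∈ Set.Icc (0 : ℝ) (1 - ζ),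
    |∑ e ∈ A, nn H a e u - (A.card : ℝ) * pp K u| ≤
      4 * η * pp K u * (A.card : ℝ) + C * K ^ (1.01 : ℝ) * Src H A G K :=
  J7.of hz he he1 (JJ_bound hz he he1)

end

end Vale.Agent.P046.CT
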