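import Vale.Agent.P046.CT.Coop
import Vale.Agent.P046.CT.VarOf

/-! P046, sharp constant, row [SENS]: universal sensitivity bound. -/

namespace Vale.Agent.P046.CT

open Finset Vale.Agent.P046

noncomputable section

variable {α : Type} [DecidableEq α]

namespace Sb

variable {H : Finset (Finset α)}

theorem pq_exists (h3 : ∀ T ∈ H, T.card = 3) : ∃ p q : α → Finset α → α, ∀ x S, S ∈ H → x ∈ S →
    x ≠ p x S ∧ x ≠ q x S ∧ p x S ≠ q x S ∧ S = {x, p x S, q x S} := by
  have h : ∀ x S, ∃ y z : α, S ∈ H → x ∈ S → x ≠ y ∧ x ≠ z ∧ y ≠ z ∧ S = {x, y, z} := by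
    intro x S
    by_cases hS : S ∈ H ∧ x ∈ S
    · have h1 : (S.erase x).card = 2 := by
        rw [card_erase_of_mem hS.2, h3 S hS.1]
      obtain ⟨y, z, hyz, he⟩ := card_eq_two.mp h1
      refine ⟨y, z, fun _ _ => ⟨?_, ?_, hyz, ?_⟩⟩
      · rintro rfl
        have : x ∈ S.erase x := by rw [he]; simp
        simp at this
      · rintro rfl
        have : x ∈ S.erase x := by rw [he]; simp
        simp at this
      · rw [← insert_erase hS.2, he]
    · exact ⟨x, x, fun h1 h2 => absurd ⟨h1, h2⟩ hS⟩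
  choose p q hpq using h
  exact ⟨p, q, hpq⟩

/-- blocks through `x` / avoiding `x` -/
def Fx (H : Finset (Finset α)) (A : Finset α) (x : α) : Finset (Finset α) :=
  (bl H A).filter (fun T => x ∈ T)

def Nx (H : Finset (Finset α)) (A : Finset α) (x : α) : Finset (Finset α) :=
  (bl H A).filter (fun T => ¬ x ∈ T)

theorem sdiff_dg (A T : Finset α) {x : α} :
    dg H (A \ T) x = ((Fx H A x).filter (fun S => Disjoint S T)).card := by
  unfold dg Fx bl
  congr 1
  ext S
  simp only [mem_filter, subset_sdiff]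
  tauto

theorem comb {p q : α → Finset α → α} (hpq : ∀ x S, S ∈ H → x ∈ S →
    x ≠ p x S ∧ x ≠ q x S ∧ p x S ≠ q x S ∧ S = {x, p x S, q x S}) (A : Finset α) (x : α) :
    ∑ S ∈ Fx H A x, (dg H (A \ {x}) (p x S) + dg H ((A \ {x}) \ {p x S}) (q x S)) +
      ∑ T ∈ Nx H A x, dg H (A \ T) x ≤ (Nx H A x).card * dg H A x := by
  have h1 : ∀ T ∈ Nx H A x, dg H (A \ T) x +
      ((Fx H A x).filter (fun S => ¬ Disjoint S T)).card = dg H A x := by
    intro T _
    rw [sdiff_dg A T, card_filter_add_card_filter_not]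
    rfl
  have h2 : ∑ T ∈ Nx H A x, (dg H (A \ T) x +
      ((Fx H A x).filter (fun S => ¬ Disjoint S T)).card) = (Nx H A x).card * dg H A x := by
    rw [sum_congr rfl h1, sum_const, smul_eq_mul]
  rw [sum_add_distrib] at h2
  have h3 : ∑ T ∈ Nx H A x, ((Fx H A x).filter (fun S => ¬ Disjoint S T)).card =
      ∑ S ∈ Fx H A x, ((Nx H A x).filter (fun T => ¬ Disjoint S T)).card := by
    simp only [card_filter]
    rw [sum_comm]
  have h4 : ∑ S ∈ Fx H A x, (dg H (A \ {x}) (p x S) + dg H ((A \ {x}) \ {p x S}) (q x S)) ≤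
      ∑ S ∈ Fx H A x, ((Nx H A x).filter (fun T => ¬ Disjoint S T)).card := by
    refine sum_le_sum fun S hS => ?_
    have hS' := mem_filter.mp hS
    obtain ⟨_, _, _, hSe⟩ := hpq x S (mem_filter.mp hS'.1).1 hS'.2
    have hp : p x S ∈ S := (Finset.ext_iff.mp hSe _).mpr (by simp)
    have hq : q x S ∈ S := (Finset.ext_iff.mp hSe _).mpr (by simp)
    unfold dg
    rw [← card_union_of_disjoint]
    · refine card_le_card fun T hT => ?_
      simp only [mem_union, mem_filter, bl, subset_sdiff, disjoint_singleton_right] at hT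
      simp only [Nx, mem_filter, bl]
      rcases hT with h | h
      · refine ⟨⟨⟨h.1.1, h.1.2.1⟩, h.1.2.2⟩, ?_⟩
        exact not_disjoint_iff.mpr ⟨_, hp, h.2⟩
      · refine ⟨⟨⟨h.1.1, h.1.2.1.1⟩, h.1.2.1.2⟩, ?_⟩
        exact not_disjoint_iff.mpr ⟨_, hq, h.2⟩
    · rw [disjoint_left]
      intro T h1 h2
      simp only [mem_filter, bl, subset_sdiff, disjoint_singleton_right] at h1 h2
      exact h2.1.2.2 h1.2
  omega

/-- the two coefficient functions -/
def w (d t1 r : ℝ) : ℝ := 1 + 2 * d * (t1 - r)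
def al (d t1 r : ℝ) : ℝ := (Real.sqrt (w d t1 r) + d * r / Real.sqrt (w d t1 r)) / Real.sqrt (w d t1 0)
def ga (d t1 r : ℝ) : ℝ := (Real.sqrt (w d t1 r) * r) / Real.sqrt (w d t1 0)
def al' (d t1 r : ℝ) : ℝ := d ^ 2 * r / Real.sqrt (w d t1 r) ^ 3 / Real.sqrt (w d t1 0)
def ga' (d t1 r : ℝ) : ℝ :=
  (Real.sqrt (w d t1 r) - d * r / Real.sqrt (w d t1 r)) / Real.sqrt (w d t1 0)

theorem w_pos {d t1 r : ℝ} (hd : 0 ≤ d) (hr : r ≤ t1) : 0 < w d t1 r := by
  unfold w
  have : 0 ≤ 2 * d * (t1 - r) := mul_nonneg (by linarith) (by linarith)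
  linarith

theorem sq_der {d t1 r : ℝ} (hd : 0 ≤ d) (hr : r ≤ t1) :
    HasDerivAt (fun r => Real.sqrt (w d t1 r)) (-d / Real.sqrt (w d t1 r)) r := by
  have hw := w_pos hd hr
  have h1 : HasDerivAt (fun r => w d t1 r) (-(2 * d)) r := by
    unfold w
    have := (((hasDerivAt_id r).const_sub t1).const_mul (2 * d)).const_add 1
    refine this.congr_deriv ?_
    ring
  have h2 := h1.sqrt hw.ne'
  refine h2.congr_deriv ?_
  have h3 := (Real.sqrt_pos.mpr hw).ne'
  field_simp

theorem al_der {d t1 r : ℝ} (hd : 0 ≤ d) (hr : r ≤ t1) :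
    HasDerivAt (al d t1) (al' d t1 r) r := by
  have hw := Real.sqrt_pos.mpr (w_pos hd hr)
  have h1 := sq_der hd hr
  have h2 : HasDerivAt (fun r : ℝ => d * r) d r := by
    simpa using (hasDerivAt_id r).const_mul d
  have h3 := (h1.add (h2.div h1 hw.ne')).div_const (Real.sqrt (w d t1 0))
  refine h3.congr_deriv ?_
  unfold al'
  congr 1
  field_simp
  ring

theorem ga_der {d t1 r : ℝ} (hd : 0 ≤ d) (hr : r ≤ t1) :
    HasDerivAt (ga d t1) (ga' d t1 r) r := by
  have hw := Real.sqrt_pos.mpr (w_pos hd hr)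
  have h1 := sq_der hd hr
  have h3 := (h1.mul (hasDerivAt_id r)).div_const (Real.sqrt (w d t1 0))
  refine h3.congr_deriv ?_
  unfold ga'
  congr 1
  simp only [id]
  field_simp
  ring

theorem al'_nonneg {d t1 r : ℝ} (hr0 : 0 ≤ r) : 0 ≤ al' d t1 r := by
  unfold al'
  positivity

theorem al_nonneg {d t1 r : ℝ} (hd : 0 ≤ d) (hr0 : 0 ≤ r) : 0 ≤ al d t1 r := by
  unfold al
  positivity

theorem ga_nonneg {d t1 r : ℝ} (hr0 : 0 ≤ r) : 0 ≤ ga d t1 r := by
  unfold ga
  positivity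

theorem key {d t1 r : ℝ} (hd : 0 ≤ d) (hr0 : 0 ≤ r) (hr : r ≤ t1) (x : ℝ) :
    al d t1 r * x - ga d t1 r * x ^ 2 ≤ al' d t1 r + ga' d t1 r * x := by
  have hw := Real.sqrt_pos.mpr (w_pos hd hr)
  have hw0 := Real.sqrt_pos.mpr (w_pos (t1 := t1) (r := 0) hd (hr0.trans hr))
  unfold al ga al' ga'
  set s := Real.sqrt (w d t1 r)
  set s0 := Real.sqrt (w d t1 0)
  have e : d ^ 2 * r / s ^ 3 / s0 + (s - d * r / s) / s0 * x -
      ((s + d * r / s) / s0 * x - s * r / s0 * x ^ 2) = r * (d - s ^ 2 * x) ^ 2 / (s ^ 3 * s0) := by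
    field_simp
    ring
  have h1 : 0 ≤ r * (d - s ^ 2 * x) ^ 2 / (s ^ 3 * s0) := by positivity
  linarith

theorem al_zero {d t1 : ℝ} (hd : 0 ≤ d) (ht : 0 ≤ t1) : al d t1 0 = 1 := by
  have hw0 := Real.sqrt_pos.mpr (w_pos (t1 := t1) (r := 0) hd ht)
  unfold al
  rw [mul_zero, zero_div, add_zero, div_self hw0.ne']

theorem ga_zero {d t1 : ℝ} : ga d t1 0 = 0 := by
  unfold ga
  rw [mul_zero, zero_div]

theorem final {d t1 : ℝ} (hd : 0 ≤ d) (ht : 0 ≤ t1) :
    al d t1 t1 + ga d t1 t1 * d = Real.sqrt (1 + 2 * d * t1) := by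
  have hw0 := w_pos (t1 := t1) (r := 0) hd ht
  have hs0 := Real.sqrt_pos.mpr hw0
  have e0 : w d t1 t1 = 1 := by unfold w; ring
  have e1 : w d t1 0 = 1 + 2 * d * t1 := by unfold w; ring
  unfold al ga
  rw [e0, Real.sqrt_one, e1]
  rw [e1] at hw0 hs0
  rw [div_one, one_mul, div_mul_eq_mul_div, ← add_div, div_eq_iff hs0.ne',
    Real.mul_self_sqrt hw0.le]
  ring

theorem sum_ind {ι κ : Type} [Fintype ι] [DecidableEq ι] (s : Finset κ) (f : κ → ι) (y : ι → ℝ) :
    ∑ j, (∑ T ∈ s, if j = f T then (1 : ℝ) else 0) * y j = ∑ T ∈ s, y (f T) := by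
  simp only [sum_mul, ite_mul, one_mul, zero_mul]
  rw [sum_comm]
  simp

/-- sign -/
def sgn (b : Bool) : ℝ := if b then 1 else -1

theorem sgn_not (b : Bool) : sgn (!b) = -sgn b := by
  cases b <;> simp [sgn]

end Sb

open Sb in
/-- [SENS] universal sensitivity bound (3-uniformity is enough) -/
theorem sens [Fintype α] {H : Finset (Finset α)}
    {sg : ℝ → (Finset α → ℝ) → Finset α → ℝ} (hs : Smg H sg) (hL : Lin3 H)
    {Φ : Finset α → ℝ} (hΦ : ∀ A, ∀ x ∈ A, |Φ (A \ {x}) - Φ A| ≤ 1) {t : ℝ} (ht : 0 ≤ t)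
    (A : Finset α) {x : α} (hx : x ∈ A) :
    |sg t Φ (A \ {x}) - sg t Φ A| ≤ Real.sqrt (1 + 2 * (dg H A x : ℝ) * t) := by
  obtain ⟨p, q, hpq⟩ := pq_exists hL.card3
  set d : ℝ := (dg H A x : ℝ) with hd
  have hd0 : 0 ≤ d := by positivity
  set Q : Finset α × α × Bool → Finset α × α × Bool → ℝ := fun i j =>
    if i.2.1 ∈ i.1 then
      ((∑ T ∈ Nx H i.1 i.2.1, if j = (i.1 \ T, i.2.1, i.2.2) then (1 : ℝ) else 0)
        - ((bl H i.1).card : ℝ) * (if j = i then 1 else 0))
      + ((∑ S ∈ Fx H i.1 i.2.1,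
            if j = (i.1 \ {i.2.1}, p i.2.1 S, !i.2.2) then (1 : ℝ) else 0)
        + ∑ S ∈ Fx H i.1 i.2.1,
            if j = ((i.1 \ {i.2.1}) \ {p i.2.1 S}, q i.2.1 S, !i.2.2) then (1 : ℝ) else 0)
    else 0 with hQ
  set y : Finset α × α × Bool → ℝ → ℝ := fun i r =>
    sgn i.2.2 * (sg r Φ (i.1 \ {i.2.1}) - sg r Φ i.1) -
      (al d t r + ga d t r * (dg H i.1 i.2.1 : ℝ)) with hy
  set y' : Finset α × α × Bool → ℝ → ℝ := fun i r =>
    sgn i.2.2 * (LL H (sg r Φ) (i.1 \ {i.2.1}) - LL H (sg r Φ) i.1) -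
      (al' d t r + ga' d t r * (dg H i.1 i.2.1 : ℝ)) with hy'
  have h1 : ∀ i j, i ≠ j → 0 ≤ Q i j := by
    intro i j hij
    simp only [hQ]
    split_ifs with h0 h2
    · exact absurd h2.symm hij
    · have a1 : 0 ≤ ∑ T ∈ Nx H i.1 i.2.1, if j = (i.1 \ T, i.2.1, i.2.2) then (1 : ℝ) else 0 :=
        sum_nonneg fun T _ => by split_ifs <;> norm_num
      have a2 : 0 ≤ ∑ S ∈ Fx H i.1 i.2.1,
            if j = (i.1 \ {i.2.1}, p i.2.1 S, !i.2.2) then (1 : ℝ) else 0 :=
        sum_nonneg fun T _ => by split_ifs <;> norm_num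
      have a3 : 0 ≤ ∑ S ∈ Fx H i.1 i.2.1,
            if j = ((i.1 \ {i.2.1}) \ {p i.2.1 S}, q i.2.1 S, !i.2.2) then (1 : ℝ) else 0 :=
        sum_nonneg fun T _ => by split_ifs <;> norm_num
      linarith
    · exact le_rfl
  have h2 : ∀ i, ∀ r ∈ Set.Icc 0 t, HasDerivAt (y i) (y' i r) r := by
    intro i r hr
    have b1 := ((hs.back Φ (i.1 \ {i.2.1}) r).sub (hs.back Φ i.1 r)).const_mul (sgn i.2.2)
    have b2 := (al_der hd0 hr.2).add ((ga_der hd0 hr.2).mul_const (dg H i.1 i.2.1 : ℝ))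
    exact b1.sub b2
  have h3 : ∀ i, y i 0 ≤ 0 := by
    intro i
    simp only [hy]
    rw [al_zero hd0 ht, ga_zero, zero_mul, add_zero, hs.zero]
    have c1 : |Φ (i.1 \ {i.2.1}) - Φ i.1| ≤ 1 := by
      by_cases hm : i.2.1 ∈ i.1
      · exact hΦ _ _ hm
      · rw [sdiff_singleton_eq_erase, erase_eq_of_notMem hm, sub_self, abs_zero]
        norm_num
    have c2 := abs_le.mp c1
    unfold sgn
    split_ifs <;> linarith [c2.1, c2.2]
  have h4 : ∀ i, ∀ r ∈ Set.Icc 0 t, y' i r ≤ ∑ j, Q i j * y j r := by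
    rintro ⟨B, z, b⟩ r hr
    by_cases hm : z ∈ B
    · have e1 : ∑ j, Q (B, z, b) j * y j r =
          (∑ T ∈ Nx H B z, y (B \ T, z, b) r - ((bl H B).card : ℝ) * y (B, z, b) r)
          + (∑ S ∈ Fx H B z, y (B \ {z}, p z S, !b) r
            + ∑ S ∈ Fx H B z, y ((B \ {z}) \ {p z S}, q z S, !b) r) := by
        rw [← sum_ind (Nx H B z) (fun T => (B \ T, z, b)) (fun j => y j r),
          ← sum_ind (Fx H B z) (fun S => (B \ {z}, p z S, !b)) (fun j => y j r),
          ← sum_ind (Fx H B z) (fun S => ((B \ {z}) \ {p z S}, q z S, !b)) (fun j => y j r)]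
        have e2 : ((bl H B).card : ℝ) * y (B, z, b) r =
            ∑ j, (((bl H B).card : ℝ) * (if j = (B, z, b) then 1 else 0)) * y j r := by
          simp
        rw [e2, ← sum_sub_distrib, ← sum_add_distrib, ← sum_add_distrib]
        refine sum_congr rfl fun j _ => ?_
        simp only [hQ]
        rw [if_pos hm]
        ring
      rw [e1]
      simp only [hy, hy', sgn_not]
      have hcard : ((bl H B).card : ℝ) = ((Fx H B z).card : ℝ) + ((Nx H B z).card : ℝ) := by
        unfold Fx Nx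
        exact_mod_cast (card_filter_add_card_filter_not (s := bl H B) (fun T => z ∈ T)).symm
      have hdz : (dg H B z : ℝ) = ((Fx H B z).card : ℝ) := rfl
      -- combinatorics
      have hc := comb (H := H) hpq B z
      have hc' : ∑ S ∈ Fx H B z, ((dg H (B \ {z}) (p z S) : ℝ) +
          (dg H ((B \ {z}) \ {p z S}) (q z S) : ℝ)) + ∑ T ∈ Nx H B z, (dg H (B \ T) z : ℝ) ≤
          ((Nx H B z).card : ℝ) * (dg H B z : ℝ) := by
        exact_mod_cast hc
      -- generator identity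
      have hg : LL H (sg r Φ) (B \ {z}) - LL H (sg r Φ) B =
          ∑ T ∈ Nx H B z, (sg r Φ ((B \ T) \ {z}) - sg r Φ (B \ T))
          - ((bl H B).card : ℝ) * (sg r Φ (B \ {z}) - sg r Φ B)
          - (∑ S ∈ Fx H B z, (sg r Φ ((B \ {z}) \ {p z S}) - sg r Φ (B \ {z}))
            + ∑ S ∈ Fx H B z, (sg r Φ (((B \ {z}) \ {p z S}) \ {q z S}) -
                sg r Φ ((B \ {z}) \ {p z S}))) := by
        have g1 : bl H (B \ {z}) = Nx H B z := by
          unfold Nx bl
          ext T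
          simp only [mem_filter, subset_sdiff, disjoint_singleton_right]
          tauto
        have g2 : LL H (sg r Φ) B = ∑ T ∈ Fx H B z, (sg r Φ (B \ T) - sg r Φ B) +
            ∑ T ∈ Nx H B z, (sg r Φ (B \ T) - sg r Φ B) := by
          unfold LL Fx Nx
          rw [sum_filter_add_sum_filter_not]
        have g3 : LL H (sg r Φ) (B \ {z}) =
            ∑ T ∈ Nx H B z, (sg r Φ ((B \ T) \ {z}) - sg r Φ (B \ {z})) := by
          unfold LL
          rw [g1]
          refine sum_congr rfl fun T _ => ?_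
          rw [sdiff_right_comm]
        have g4 : ∑ T ∈ Fx H B z, (sg r Φ (B \ T) - sg r Φ B) =
            ∑ S ∈ Fx H B z, ((sg r Φ ((B \ {z}) \ {p z S}) - sg r Φ (B \ {z})) +
              (sg r Φ (((B \ {z}) \ {p z S}) \ {q z S}) - sg r Φ ((B \ {z}) \ {p z S})) +
              (sg r Φ (B \ {z}) - sg r Φ B)) := by
          refine sum_congr rfl fun S hS => ?_
          have hS' := mem_filter.mp hS
          obtain ⟨_, _, _, hSe⟩ := hpq z S (mem_filter.mp hS'.1).1 hS'.2
          have : B \ S = ((B \ {z}) \ {p z S}) \ {q z S} := by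
            conv_lhs => rw [hSe]
            ext v
            simp only [mem_sdiff, mem_insert, mem_singleton]
            tauto
          rw [this]
          ring
        rw [g2, g3, g4, hcard]
        simp only [sum_add_distrib, sum_sub_distrib, sum_const, nsmul_eq_mul]
        ring
      rw [hg]
      have hk := key (t1 := t) hd0 hr.1 hr.2 (dg H B z : ℝ)
      have hga := ga_nonneg (d := d) (t1 := t) hr.1
      have hc2 := mul_le_mul_of_nonneg_left hc' hga
      -- expand all sums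
      simp only [sum_sub_distrib, sum_add_distrib, ← mul_sum, sum_const, nsmul_eq_mul]
      simp only [sum_add_distrib] at hc2
      rw [hcard]
      rw [← hdz] at *
      nlinarith [hk, hc2]
    · have e1 : ∑ j, Q (B, z, b) j * y j r = 0 := by
        refine sum_eq_zero fun j _ => ?_
        simp only [hQ]
        rw [if_neg hm, zero_mul]
      rw [e1]
      simp only [hy']
      have e2 : B \ {z} = B := by
        rw [sdiff_singleton_eq_erase, erase_eq_of_notMem hm]
      have e3 : dg H B z = 0 := by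
        unfold dg
        rw [card_eq_zero, filter_eq_empty_iff]
        intro T hT hz
        exact hm ((mem_filter.mp hT).2 hz)
      rw [e2, e3, sub_self, mul_zero, Nat.cast_zero, mul_zero, add_zero]
      have := al'_nonneg (d := d) (t1 := t) hr.1
      linarith
  have hfin := coop Q h1 y y' h2 h3 h4
  have f1 := hfin (A, x, true) t (Set.right_mem_Icc.mpr ht)
  have f2 := hfin (A, x, false) t (Set.right_mem_Icc.mpr ht)
  simp only [hy, sgn] at f1 f2
  rw [← hd, final hd0 ht] at f1 f2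
  simp only [if_true] at f1
  rw [abs_le]
  constructor
  · simp at f2
    linarith
  · linarith

end

end Vale.Agent.P046.CT
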