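import Vale.Agent.P046.CT.RdelOf
import Vale.Agent.P046.CT.Sens

/-! P046, sharp constant: rows DEL and RDEL. -/

namespace Vale.Agent.P046.CT

open Finset Vale.Agent.P046

noncomputable section

variable {α : Type} [DecidableEq α]

/-- [DEL] deletion of a set of points -/
theorem del_cost [Fintype α] {H : Finset (Finset α)}
    {sg : ℝ → (Finset α → ℝ) → Finset α → ℝ} (hs : Smg H sg) (hL : Lin3 H)
    {Φ : Finset α → ℝ} (hΦ : ∀ A, ∀ x ∈ A, |Φ (A \ {x}) - Φ A| ≤ 1) {t : ℝ} (ht : 0 ≤ t)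
    {A B C : Finset α} (h1 : A ⊆ B) (h2 : B ⊆ C) :
    |sg t Φ C - sg t Φ A| ≤ ∑ x ∈ B \ A, Real.sqrt (1 + 2 * (dg H B x : ℝ) * t)
      + ∑ x ∈ C \ B, Real.sqrt (1 + 2 * (dg H C x : ℝ) * t) :=
  DelAux.two_step ht (fun A _ hx => sens hs hL hΦ ht A hx) h1 h2

/-- [RDEL] deletion for the final state -/
theorem run_del [Fintype α] {H : Finset (Finset α)} (hL : Lin3 H)
    {Φ : Finset α → ℝ} (hΦ : ∀ A, ∀ x ∈ A, |Φ (A \ {x}) - Φ A| ≤ 1) {t : ℝ} (ht : 0 ≤ t)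
    {A B C : Finset α} (h1 : A ⊆ B) (h2 : B ⊆ C) :
    |run H Φ C.card C - run H Φ A.card A| ≤ 2 * Real.exp (-t) * (C.card : ℝ)
      + ∑ x ∈ B \ A, Real.sqrt (1 + 2 * (dg H B x : ℝ) * t)
      + ∑ x ∈ C \ B, Real.sqrt (1 + 2 * (dg H C x : ℝ) * t) :=
  RdelX.run_del_of hL hΦ ht (fun _ hs A _ hx => sens hs hL hΦ ht A hx) h1 h2

end

end Vale.Agent.P046.CT
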