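import Vale.Agent.P046.CT.DelAux
import Vale.Agent.P046.CT.Sg

/-! P046, sharp constant: rows DEL and RDEL from the sensitivity bound. -/

namespace Vale.Agent.P046.CT

open Finset Vale.Agent.P046

noncomputable section

variable {α : Type} [DecidableEq α]

/-- deletion for the final state, from the sensitivity bound as a hypothesis -/
theorem RdelX.run_del_of [Fintype α] {H : Finset (Finset α)} (hL : Lin3 H)
    {Φ : Finset α → ℝ} (hΦ : ∀ A, ∀ x ∈ A, |Φ (A \ {x}) - Φ A| ≤ 1) {t : ℝ} (ht : 0 ≤ t)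
    (sens : ∀ sg : ℝ → (Finset α → ℝ) → Finset α → ℝ, Smg H sg → ∀ A : Finset α, ∀ x ∈ A,
      |sg t Φ (A \ {x}) - sg t Φ A| ≤ Real.sqrt (1 + 2 * (dg H A x : ℝ) * t))
    {A B C : Finset α} (h1 : A ⊆ B) (h2 : B ⊆ C) :
    |run H Φ C.card C - run H Φ A.card A| ≤ 2 * Real.exp (-t) * (C.card : ℝ)
      + ∑ x ∈ B \ A, Real.sqrt (1 + 2 * (dg H B x : ℝ) * t)
      + ∑ x ∈ C \ B, Real.sqrt (1 + 2 * (dg H C x : ℝ) * t) := by
  obtain ⟨sg, hs⟩ := smg_exists H
  have h3 := DelAux.two_step ht (sens sg hs) h1 h2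
  have h4 := DelAux.run_exp hs hL (DelAux.lip3 hL hΦ) C ht
  have h5 := DelAux.run_exp hs hL (DelAux.lip3 hL hΦ) A ht
  have h6 : Real.exp (-t) * (A.card : ℝ) ≤ Real.exp (-t) * (C.card : ℝ) := by
    refine mul_le_mul_of_nonneg_left ?_ (Real.exp_pos _).le
    exact_mod_cast card_le_card (h1.trans h2)
  have h7 : run H Φ C.card C - run H Φ A.card A = (run H Φ C.card C - sg t Φ C)
      + ((sg t Φ C - sg t Φ A) + -(run H Φ A.card A - sg t Φ A)) := by ring
  rw [h7]
  refine (abs_add_le _ _).trans ?_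
  refine (add_le_add_right (abs_add_le _ _) _).trans ?_
  rw [abs_neg]
  linarith

end

end Vale.Agent.P046.CT
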