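import Vale.Agent.P046.CT.DelAux

/-! P046, sharp constant: the final state against the state at time `t` (row RUNT). -/

namespace Vale.Agent.P046.CT.RuntX

open Finset Vale.Agent.P046 Vale.Agent.P046.CT

noncomputable section

variable {α : Type} [DecidableEq α]

theorem run_tail [Fintype α] {H : Finset (Finset α)}
    {sg : ℝ → (Finset α → ℝ) → Finset α → ℝ} (hs : Smg H sg) (hL : Lin3 H)
    {Φ : Finset α → ℝ} (hΦ : ∀ A, ∀ x ∈ A, |Φ (A \ {x}) - Φ A| ≤ 1) {t : ℝ} (ht : 0 < t)
    (A : Finset α) :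
    |run H Φ A.card A - sg t Φ A| ≤
      (sg (t / 2) (fun A' => (A'.card : ℝ)) A) / (Real.exp (t / 2) - 1) := by
  have h1 := DelAux.run_sg hs hL (DelAux.lip3 hL hΦ) A ht.le
  have h2 := DelAux.rho_decay hs hL A (s := t / 2) (t := t) (by linarith) (by linarith)
  have h3 : sg (t / 2) (DelAux.RR H) A ≤ sg (t / 2) (fun A' => (A'.card : ℝ)) A :=
    hs.mono _ (by linarith) _ _ A fun A' _ => DelAux.RR_le_card hL A'
  have h4 : (0 : ℝ) ≤ sg (t / 2) (fun A' => (A'.card : ℝ)) A := by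
    have h5 := hs.mono (t / 2) (by linarith) (fun _ => (0 : ℝ)) (fun A' => (A'.card : ℝ)) A
      fun A' _ => Nat.cast_nonneg _
    rw [DelAux.sg_zero' hs] at h5
    exact h5
  have h5 : Real.exp (-(t - t / 2)) ≤ 1 / (Real.exp (t / 2) - 1) := by
    have h6 : t - t / 2 = t / 2 := by ring
    rw [h6, Real.exp_neg, ← one_div]
    have h7 := Real.add_one_lt_exp (x := t / 2) (by linarith)
    exact one_div_le_one_div_of_le (by linarith) (by linarith)
  refine h1.trans (h2.trans ?_)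
  calc Real.exp (-(t - t / 2)) * sg (t / 2) (DelAux.RR H) A
      ≤ Real.exp (-(t - t / 2)) * sg (t / 2) (fun A' => (A'.card : ℝ)) A :=
        mul_le_mul_of_nonneg_left h3 (Real.exp_pos _).le
    _ ≤ 1 / (Real.exp (t / 2) - 1) * sg (t / 2) (fun A' => (A'.card : ℝ)) A :=
        mul_le_mul_of_nonneg_right h5 h4
    _ = _ := by ring

end

end Vale.Agent.P046.CT.RuntX
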