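import Vale.Agent.P046.CT.Defs

/-!
P046, sharp constant, rows SGF and PS: elementary facts about a semigroup for the generator, and
the hierarchy of the process.
-/

namespace Vale.Agent.P046.CT

open Finset Vale.Agent.P046

noncomputable section

variable {α : Type} [DecidableEq α]

namespace Sgf

theorem sg_zero {H : Finset (Finset α)} {sg : ℝ → (Finset α → ℝ) → Finset α → ℝ}
    (hs : Smg H sg) (t : ℝ) : sg t (0 : Finset α → ℝ) = 0 := by
  have h := hs.smul t 0 (0 : Finset α → ℝ)
  rw [zero_smul, zero_smul] at h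
  exact h

theorem sg_sum {H : Finset (Finset α)} {sg : ℝ → (Finset α → ℝ) → Finset α → ℝ}
    (hs : Smg H sg) (t : ℝ) {ι : Type*} [DecidableEq ι] (s : Finset ι)
    (f : ι → Finset α → ℝ) : sg t (∑ i ∈ s, f i) = ∑ i ∈ s, sg t (f i) := by
  induction s using Finset.induction_on with
  | empty => rw [Finset.sum_empty, Finset.sum_empty, sg_zero hs]
  | insert i s hi ih => rw [Finset.sum_insert hi, Finset.sum_insert hi, hs.add, ih]

theorem sg_neg {H : Finset (Finset α)} {sg : ℝ → (Finset α → ℝ) → Finset α → ℝ}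
    (hs : Smg H sg) (t : ℝ) (f : Finset α → ℝ) : sg t (-f) = - sg t f := by
  have h := hs.smul t (-1) f
  rw [neg_one_smul, neg_one_smul] at h
  exact h

theorem sg_sub {H : Finset (Finset α)} {sg : ℝ → (Finset α → ℝ) → Finset α → ℝ}
    (hs : Smg H sg) (t : ℝ) (f g : Finset α → ℝ) : sg t (f - g) = sg t f - sg t g := by
  rw [sub_eq_add_neg, hs.add, sg_neg hs, ← sub_eq_add_neg]

theorem sg_nonneg {H : Finset (Finset α)} {sg : ℝ → (Finset α → ℝ) → Finset α → ℝ}
    (hs : Smg H sg) {t : ℝ} (ht : 0 ≤ t) {f : Finset α → ℝ} {A : Finset α}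
    (hf : ∀ A' ⊆ A, 0 ≤ f A') : 0 ≤ sg t f A := by
  have h := hs.mono t ht 0 f A (fun A' hA' => by
    rw [Pi.zero_apply]
    exact hf A' hA')
  rw [sg_zero hs, Pi.zero_apply] at h
  exact h

end Sgf

open Sgf

theorem sg_const {H : Finset (Finset α)} {sg : ℝ → (Finset α → ℝ) → Finset α → ℝ}
    (hs : Smg H sg) (c t : ℝ) (A : Finset α) : sg t (fun _ => c) A = c := by
  have hLL : LL H (fun _ : Finset α => c) = 0 := by
    funext A'
    unfold LL
    simp
  have hd : ∀ s : ℝ, HasDerivAt (fun s => sg s (fun _ => c) A) 0 s := by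
    intro s
    have h := hs.der (fun _ => c) A s
    rw [hLL, sg_zero hs, Pi.zero_apply] at h
    exact h
  have hconst := is_const_of_deriv_eq_zero (f := fun s => sg s (fun _ => c) A)
    (fun s => (hd s).differentiableAt) (fun s => (hd s).deriv) t 0
  have h0 : sg 0 (fun _ => c) A = c := by rw [hs.zero]
  exact hconst.trans h0

theorem sg_congr {H : Finset (Finset α)} {sg : ℝ → (Finset α → ℝ) → Finset α → ℝ}
    (hs : Smg H sg) {t : ℝ} (ht : 0 ≤ t) {f g : Finset α → ℝ} {A : Finset α}
    (h : ∀ A' ⊆ A, f A' = g A') : sg t f A = sg t g A :=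
  le_antisymm (hs.mono t ht f g A fun A' hA' => (h A' hA').le)
    (hs.mono t ht g f A fun A' hA' => (h A' hA').ge)

theorem LL_chi (H : Finset (Finset α)) (S : Finset α) :
    LL H (chi S) = -∑ T ∈ H.filter (fun T => ¬ Disjoint T S), chi (S ∪ T) := by
  funext A
  rw [Pi.neg_apply, Finset.sum_apply]
  unfold LL bl
  rw [Finset.sum_filter, Finset.sum_filter, ← Finset.sum_neg_distrib]
  refine Finset.sum_congr rfl fun T _ => ?_
  unfold chi
  by_cases hTA : T ⊆ A
  · rw [if_pos hTA]
    by_cases hSA : S ⊆ A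
    · rw [if_pos hSA]
      by_cases hd : Disjoint T S
      · have h1 : S ⊆ A \ T := Finset.subset_sdiff.2 ⟨hSA, hd.symm⟩
        rw [if_pos h1, if_neg (not_not.2 hd)]
        simp
      · have h1 : ¬ S ⊆ A \ T := fun h => hd (Finset.subset_sdiff.1 h).2.symm
        rw [if_neg h1, if_pos hd, if_pos (Finset.union_subset hSA hTA)]
        simp
    · have h1 : ¬ S ⊆ A \ T := fun h => hSA (Finset.subset_sdiff.1 h).1
      have h2 : ¬ S ∪ T ⊆ A := fun h => hSA (Finset.union_subset_left h)
      rw [if_neg h1, if_neg hSA]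
      by_cases hd : Disjoint T S
      · rw [if_neg (not_not.2 hd)]
        simp
      · rw [if_pos hd, if_neg h2]
        simp
  · have h2 : ¬ S ∪ T ⊆ A := fun h => hTA (Finset.union_subset_right h)
    rw [if_neg hTA]
    by_cases hd : Disjoint T S
    · rw [if_neg (not_not.2 hd)]
      simp
    · rw [if_pos hd, if_neg h2]
      simp

theorem ps_der {H : Finset (Finset α)} {sg : ℝ → (Finset α → ℝ) → Finset α → ℝ}
    (hs : Smg H sg) (A S : Finset α) (t : ℝ) :
    HasDerivAt (fun t => sg t (chi S) A)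
      (-∑ T ∈ H.filter (fun T => ¬ Disjoint T S), sg t (chi (S ∪ T)) A) t := by
  have h := hs.der (chi S) A t
  rw [LL_chi, sg_neg hs, sg_sum hs, Pi.neg_apply, Finset.sum_apply] at h
  exact h

theorem ps_bd {H : Finset (Finset α)} {sg : ℝ → (Finset α → ℝ) → Finset α → ℝ}
    (hs : Smg H sg) (h0 : ∅ ∉ H) (A S : Finset α) {t : ℝ} (ht : 0 ≤ t) :
    0 ≤ sg t (chi S) A ∧ sg t (chi S) A ≤ Real.exp (-((bl H S).card : ℝ) * t) := by
  have hchi : ∀ (S A : Finset α), 0 ≤ chi S A := by
    intro S A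
    unfold chi
    split_ifs <;> norm_num
  have hnn : ∀ (S : Finset α) {t : ℝ}, 0 ≤ t → 0 ≤ sg t (chi S) A :=
    fun S {t} ht => sg_nonneg hs ht fun A' _ => hchi S A'
  refine ⟨hnn S ht, ?_⟩
  set N : ℝ := ((bl H S).card : ℝ) with hN
  have hd : ∀ s : ℝ, HasDerivAt (fun s => Real.exp (N * s) * sg s (chi S) A)
      (Real.exp (N * s) * N * sg s (chi S) A + Real.exp (N * s) *
        (-∑ T ∈ H.filter (fun T => ¬ Disjoint T S), sg s (chi (S ∪ T)) A)) s := by
    intro s
    have h1 : HasDerivAt (fun s : ℝ => Real.exp (N * s)) (Real.exp (N * s) * N) s := by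
      have h2 : HasDerivAt (fun s : ℝ => N * s) N s := by
        simpa using (hasDerivAt_id s).const_mul N
      exact h2.exp
    exact h1.mul (ps_der hs A S s)
  have hle : ∀ s : ℝ, 0 ≤ s → N * sg s (chi S) A ≤
      ∑ T ∈ H.filter (fun T => ¬ Disjoint T S), sg s (chi (S ∪ T)) A := by
    intro s hs0
    have hsub : bl H S ⊆ H.filter (fun T => ¬ Disjoint T S) := by
      intro T hT
      unfold bl at hT
      rw [mem_filter] at hT ⊢
      refine ⟨hT.1, fun hd => ?_⟩
      have hT0 : T = ∅ := by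
        rw [← Finset.disjoint_self_iff_empty]
        exact hd.mono_right hT.2
      exact h0 (hT0 ▸ hT.1)
    have h1 : ∑ T ∈ bl H S, sg s (chi (S ∪ T)) A ≤
        ∑ T ∈ H.filter (fun T => ¬ Disjoint T S), sg s (chi (S ∪ T)) A :=
      Finset.sum_le_sum_of_subset_of_nonneg hsub fun T _ _ => hnn (S ∪ T) hs0
    have h2 : ∑ T ∈ bl H S, sg s (chi (S ∪ T)) A = N * sg s (chi S) A := by
      have h3 : ∀ T ∈ bl H S, sg s (chi (S ∪ T)) A = sg s (chi S) A := by
        intro T hT
        unfold bl at hT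
        rw [mem_filter] at hT
        rw [Finset.union_eq_left.2 hT.2]
      rw [Finset.sum_congr rfl h3, Finset.sum_const, nsmul_eq_mul]
    linarith
  have hanti : AntitoneOn (fun s => Real.exp (N * s) * sg s (chi S) A) (Set.Ici 0) := by
    refine antitoneOn_of_deriv_nonpos (convex_Ici 0)
      (fun s _ => (hd s).continuousAt.continuousWithinAt)
      (fun s _ => (hd s).differentiableAt.differentiableWithinAt) ?_
    intro s hs'
    rw [interior_Ici] at hs'
    rw [(hd s).deriv]
    have h1 := hle s (le_of_lt hs')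
    have h2 := Real.exp_pos (N * s)
    nlinarith
  have h1 := hanti (Set.mem_Ici.2 le_rfl) (Set.mem_Ici.2 ht) ht
  simp only [mul_zero, Real.exp_zero, one_mul] at h1
  rw [hs.zero] at h1
  have h2 : chi S A ≤ 1 := by
    unfold chi
    split_ifs <;> norm_num
  have h3 : Real.exp (N * t) * sg t (chi S) A ≤ 1 := h1.trans h2
  have h4 : Real.exp (-N * t) * Real.exp (N * t) = 1 := by
    rw [← Real.exp_add]
    have : -N * t + N * t = 0 := by ring
    rw [this, Real.exp_zero]
  calc sg t (chi S) A = Real.exp (-N * t) * (Real.exp (N * t) * sg t (chi S) A) := by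
        rw [← mul_assoc, h4, one_mul]
    _ ≤ Real.exp (-N * t) * 1 := mul_le_mul_of_nonneg_left h3 (Real.exp_pos _).le
    _ = Real.exp (-N * t) := mul_one _

end

end Vale.Agent.P046.CT
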