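import Vale.Agent.P046.SharpDefs
import Vale.Agent.P046.Kn
import Vale.Agent.P046.Low.TKn

/-!
P046, sharp constant: from the `L^1` statement for `run` to the conclusions for `F_n`.
-/

namespace Vale.Agent.P046.CT

open Finset Vale.Agent.P046 Filter Topology

noncomputable section

namespace Glue

theorem edge_card {n : ℕ} (G : SimpleGraph (Fin n)) [Fintype G.edgeSet] :
    G.edgeFinset.card = (EE G).card := by
  congr 1
  ext e
  rw [SimpleGraph.mem_edgeFinset, mem_EE]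

theorem npos {n : ℕ} (hn : 1 ≤ n) : 0 < (n : ℝ) ^ (3 / 2 : ℝ) :=
  Real.rpow_pos_of_pos (by exact_mod_cast hn) _

theorem ex_run (n : ℕ) (f : Finset (Sym2 (Fin n)) → ℝ) :
    Ex (leave n) (fun G => f (EE G)) =
      run (BK n) f (tr (univ : Finset (Fin n))).card (tr (univ : Finset (Fin n))) := by
  unfold leave
  rw [Ex_triLaw f, ← EE_top]
  refine run_stable (BK n) (lin3_BK n) _ _ _ le_rfl _ ?_
  rw [card_EE_top]
  exact choose_two_le n

theorem meanDev_ex (n : ℕ) (c : ℝ) : meanDev n c =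
    Ex (leave n) (fun G => |((EE G).card : ℝ) / (n : ℝ) ^ (3 / 2 : ℝ) - c|) := by
  classical
  unfold meanDev Ex
  refine sum_congr rfl fun G _ => ?_
  rw [edge_card]

theorem meanDev_eq {n : ℕ} (hn : 1 ≤ n) (c : ℝ) : meanDev n c =
    run (BK n) (fun A => |(A.card : ℝ) - c * (n : ℝ) ^ (3 / 2 : ℝ)|)
      (tr (univ : Finset (Fin n))).card (tr (univ : Finset (Fin n))) / (n : ℝ) ^ (3 / 2 : ℝ) := by
  have hN := npos hn
  rw [meanDev_ex, ← ex_run n (fun A => |(A.card : ℝ) - c * (n : ℝ) ^ (3 / 2 : ℝ)|)]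
  unfold Ex
  rw [sum_div]
  refine sum_congr rfl fun G _ => ?_
  have h1 : ((EE G).card : ℝ) / (n : ℝ) ^ (3 / 2 : ℝ) - c =
      (((EE G).card : ℝ) - c * (n : ℝ) ^ (3 / 2 : ℝ)) / (n : ℝ) ^ (3 / 2 : ℝ) := by
    field_simp
  show (leave n G).toReal * |((EE G).card : ℝ) / (n : ℝ) ^ (3 / 2 : ℝ) - c| =
    (leave n G).toReal * |((EE G).card : ℝ) - c * (n : ℝ) ^ (3 / 2 : ℝ)| / (n : ℝ) ^ (3 / 2 : ℝ)
  rw [h1, abs_div, abs_of_pos hN]
  ring

theorem meanDev_nonneg (n : ℕ) (c : ℝ) : 0 ≤ meanDev n c := by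
  unfold meanDev
  exact sum_nonneg fun G _ => mul_nonneg ENNReal.toReal_nonneg (abs_nonneg _)

theorem expF_dev (n : ℕ) (c : ℝ) : |expF n / (n : ℝ) ^ (3 / 2 : ℝ) - c| ≤ meanDev n c := by
  classical
  have h1 : expF n / (n : ℝ) ^ (3 / 2 : ℝ) - c =
      ∑ G : SimpleGraph (Fin n), (leave n G).toReal *
        ((G.edgeFinset.card : ℝ) / (n : ℝ) ^ (3 / 2 : ℝ) - c) := by
    have h2 : ∑ G : SimpleGraph (Fin n), (leave n G).toReal * c = c := by
      rw [← sum_mul]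
      have h3 := TKn.Ex_one (leave n)
      unfold Ex at h3
      simp only [mul_one] at h3
      rw [h3, one_mul]
    have h4 : ∑ G : SimpleGraph (Fin n), (leave n G).toReal *
        ((G.edgeFinset.card : ℝ) / (n : ℝ) ^ (3 / 2 : ℝ) - c) =
        (∑ G : SimpleGraph (Fin n), (leave n G).toReal * (G.edgeFinset.card : ℝ)) /
          (n : ℝ) ^ (3 / 2 : ℝ) - ∑ G : SimpleGraph (Fin n), (leave n G).toReal * c := by
      rw [sum_div, ← sum_sub_distrib]
      exact sum_congr rfl fun G _ => by ring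
    rw [h4, h2]
    unfold expF
    congr 2
  rw [h1]
  refine (abs_sum_le_sum_abs _ _).trans (le_of_eq ?_)
  unfold meanDev
  refine sum_congr rfl fun G _ => ?_
  rw [abs_mul, abs_of_nonneg ENNReal.toReal_nonneg, edge_card]

/-- Markov's inequality -/
theorem probDev_le (n : ℕ) (c : ℝ) {ε : ℝ} (he : 0 < ε) :
    probDev n c ε ≤ meanDev n c / ε := by
  classical
  rw [le_div_iff₀ he]
  unfold probDev meanDev
  rw [sum_mul]
  refine sum_le_sum fun G _ => ?_
  have h0 : 0 ≤ (leave n G).toReal := ENNReal.toReal_nonneg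
  rw [edge_card]
  split_ifs with h
  · exact mul_le_mul_of_nonneg_left h h0
  · rw [zero_mul]
    exact mul_nonneg h0 (abs_nonneg _)

theorem probDev_nonneg (n : ℕ) (c ε : ℝ) : 0 ≤ probDev n c ε := by
  classical
  unfold probDev
  refine sum_nonneg fun G _ => ?_
  split_ifs
  · exact ENNReal.toReal_nonneg
  · exact le_rfl

end Glue

open Glue in
/-- [GLUE-SHARP] -/
theorem sharp_of (H : ∀ ε : ℝ, 0 < ε → ∃ n0 : ℕ, ∀ n : ℕ, n0 ≤ n →
    run (BK n) (fun A => |(A.card : ℝ) - (n : ℝ) ^ (3 / 2 : ℝ) / (2 * Real.sqrt 2)|)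
      (tr (univ : Finset (Fin n))).card (tr (univ : Finset (Fin n))) ≤
      ε * (n : ℝ) ^ (3 / 2 : ℝ)) :
    Tendsto (fun n : ℕ => meanDev n (1 / (2 * Real.sqrt 2))) atTop (𝓝 0) ∧
    Tendsto (fun n : ℕ => expF n / (n : ℝ) ^ (3 / 2 : ℝ)) atTop
      (𝓝 (1 / (2 * Real.sqrt 2))) ∧
    ∀ ε : ℝ, 0 < ε → Tendsto (fun n : ℕ => probDev n (1 / (2 * Real.sqrt 2)) ε) atTop (𝓝 0) := by
  have h1 : Tendsto (fun n : ℕ => meanDev n (1 / (2 * Real.sqrt 2))) atTop (𝓝 0) := by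
    rw [Metric.tendsto_atTop]
    intro ε he
    obtain ⟨n0, h⟩ := H (ε / 2) (by linarith)
    refine ⟨n0 + 1, fun n hn => ?_⟩
    have hn1 : 1 ≤ n := by omega
    have hN := npos hn1
    rw [Real.dist_eq, sub_zero, abs_of_nonneg (meanDev_nonneg _ _), meanDev_eq hn1]
    have h2 := h n (by omega)
    have h3 : (fun A : Finset (Sym2 (Fin n)) =>
        |(A.card : ℝ) - 1 / (2 * Real.sqrt 2) * (n : ℝ) ^ (3 / 2 : ℝ)|) =
        fun A => |(A.card : ℝ) - (n : ℝ) ^ (3 / 2 : ℝ) / (2 * Real.sqrt 2)| := by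
      ext A
      congr 2
      ring
    rw [h3, div_lt_iff₀ hN]
    nlinarith
  refine ⟨h1, ?_, ?_⟩
  · rw [tendsto_iff_dist_tendsto_zero]
    refine squeeze_zero (fun n => dist_nonneg) (fun n => ?_) h1
    rw [Real.dist_eq]
    exact expF_dev n _
  · intro ε he
    have h2 : Tendsto (fun n : ℕ => meanDev n (1 / (2 * Real.sqrt 2)) / ε) atTop (𝓝 0) := by
      have h3 := h1.div_const ε
      rwa [zero_div] at h3
    exact squeeze_zero (fun n => probDev_nonneg n _ ε) (fun n => probDev_le n _ he) h2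

end

end Vale.Agent.P046.CT
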