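import Vale.Agent.P046.CT.ZDefs
import Vale.Agent.P046.NL.M2

/-!
P046, sharp constant: row ZW (second moment of the real degrees on a window).
-/

namespace Vale.Agent.P046.CT

open Finset Vale.Agent.P046

noncomputable section

variable {α : Type} [DecidableEq α]

namespace Zw

theorem zz_nonneg (Bl : Finset (Finset α)) (A : Finset α) : 0 ≤ ZZ Bl A :=
  sum_nonneg fun _ _ => sq_nonneg _

theorem zz_le (Bl : Finset (Finset α)) {A A₀ : Finset α} (hA : A ⊆ A₀) :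
    ZZ Bl A ≤ (A₀.card : ℝ) * (Bl.card : ℝ) ^ 2 := by
  have h1 : (A.card : ℝ) * (Bl.card : ℝ) ^ 2 = ∑ _e ∈ A, (Bl.card : ℝ) ^ 2 := by
    rw [sum_const, nsmul_eq_mul]
  have h2 : ZZ Bl A ≤ (A.card : ℝ) * (Bl.card : ℝ) ^ 2 := by
    rw [h1]
    refine sum_le_sum fun e _ => pow_le_pow_left₀ (by positivity) ?_ 2
    have h3 : dg Bl A e ≤ Bl.card := by
      unfold dg
      exact (card_filter_le _ _).trans (bl_card_le Bl A)
    exact_mod_cast h3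
  refine h2.trans (mul_le_mul_of_nonneg_right ?_ (sq_nonneg _))
  exact_mod_cast card_le_card hA

/-- the real generator of `ZZ` -/
theorem gen_zz (Bl : Finset (Finset α)) (A : Finset α) :
    ∑ T ∈ bl Bl A, (ZZ Bl (A \ T) - ZZ Bl A) ≤ -∑ e ∈ A, (dg Bl A e : ℝ) ^ 3 := by
  have h1 : ∑ e ∈ A, (dg Bl A e : ℝ) ^ 3 = ∑ T ∈ bl Bl A, ∑ e ∈ T, (dg Bl A e : ℝ) ^ 2 := by
    rw [NL.M2x.dc]
    exact sum_congr rfl fun e _ => by ring
  rw [h1, ← sum_neg_distrib]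
  refine sum_le_sum fun T hT => ?_
  have h2 := NL.M2x.step Bl (u := 1) (mem_bl.mp hT).2
  simp only [one_mul] at h2
  exact h2

end Zw

open Zw in
/-- [ZW] -/
theorem gz_core (Bl : Finset (Finset α)) (A₀ : Finset α) (uw uK : ℝ) :
    ∃ E h1 : ℝ, 0 ≤ E ∧ 0 < h1 ∧
    ∀ h u : ℝ, 0 < h → h ≤ h1 → uw ≤ u → u + 2 * h ≤ uK → ∀ s : NL.St α, s.A ⊆ A₀ → s.W ⊆ Bl →
      GZ Bl uw uK (u + 2 * h) s
        + h * NL.gen Bl (1 / (u + 2 * h)) (fun s' => GZ Bl uw uK (u + 2 * h) s') s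
        ≤ GZ Bl uw uK u s + E * h ^ 2 := by
  refine ⟨8 * ((A₀.card : ℝ) * (Bl.card : ℝ) ^ 2), 1, by positivity, one_pos, ?_⟩
  intro h u hh hh1 hu hu' s hA hW
  set v := u + 2 * h - uw with hv
  have hv0 : 0 < v := by linarith
  have e1 : NL.gen Bl (1 / (u + 2 * h)) (fun s' => GZ Bl uw uK (u + 2 * h) s') s =
      ∑ T ∈ bl Bl s.A, ((v ^ 3 * ZZ Bl (s.A \ T) + 16 * (uK - (u + 2 * h)) *
        ((s.A \ T).card : ℝ)) - (v ^ 3 * ZZ Bl s.A + 16 * (uK - (u + 2 * h)) *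
        (s.A.card : ℝ))) :=
    NL.gen_A (1 / (u + 2 * h)) hW
      (fun A => v ^ 3 * ZZ Bl A + 16 * (uK - (u + 2 * h)) * (A.card : ℝ))
  have e2 : ∑ T ∈ bl Bl s.A, ((v ^ 3 * ZZ Bl (s.A \ T) + 16 * (uK - (u + 2 * h)) *
        ((s.A \ T).card : ℝ)) - (v ^ 3 * ZZ Bl s.A + 16 * (uK - (u + 2 * h)) *
        (s.A.card : ℝ))) ≤
      v ^ 3 * ∑ T ∈ bl Bl s.A, (ZZ Bl (s.A \ T) - ZZ Bl s.A) := by
    rw [mul_sum]
    refine sum_le_sum fun T _ => ?_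
    have h2 : ((s.A \ T).card : ℝ) ≤ (s.A.card : ℝ) := by
      exact_mod_cast card_le_card sdiff_subset
    have h3 : 0 ≤ 16 * (uK - (u + 2 * h)) := by linarith
    have h4 := mul_le_mul_of_nonneg_left h2 h3
    linarith
  have e3 := mul_le_mul_of_nonneg_left (gen_zz Bl s.A) (by positivity : (0 : ℝ) ≤ v ^ 3)
  have e4 : GZ Bl uw uK (u + 2 * h) s = v ^ 3 * ZZ Bl s.A + 16 * (uK - (u + 2 * h)) *
      (s.A.card : ℝ) := rfl
  have e5 : GZ Bl uw uK u s = (v - 2 * h) ^ 3 * ZZ Bl s.A + 16 * (uK - u) *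
      (s.A.card : ℝ) := by
    have : v - 2 * h = u - uw := by rw [hv]; ring
    rw [this]
    rfl
  have e6 : 6 * v ^ 2 * ZZ Bl s.A - v ^ 3 * ∑ e ∈ s.A, (dg Bl s.A e : ℝ) ^ 3 ≤
      32 * (s.A.card : ℝ) := by
    have h2 : 32 * (s.A.card : ℝ) = ∑ _e ∈ s.A, (32 : ℝ) := by
      rw [sum_const, nsmul_eq_mul, mul_comm]
    have h3 : 6 * v ^ 2 * ZZ Bl s.A - v ^ 3 * ∑ e ∈ s.A, (dg Bl s.A e : ℝ) ^ 3 =
        ∑ e ∈ s.A, (6 * (v * (dg Bl s.A e : ℝ)) ^ 2 - (v * (dg Bl s.A e : ℝ)) ^ 3) := by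
      unfold ZZ
      rw [mul_sum, mul_sum, ← sum_sub_distrib]
      exact sum_congr rfl fun e _ => by ring
    rw [h2, h3]
    refine sum_le_sum fun e _ => ?_
    have h4 : 0 ≤ v * (dg Bl s.A e : ℝ) := by positivity
    set y := v * (dg Bl s.A e : ℝ)
    nlinarith [mul_nonneg h4 (sq_nonneg (y - 4)), sq_nonneg (y - 4)]
  have e7 := zz_nonneg Bl s.A
  have e8 := zz_le Bl hA
  have e9 : h * NL.gen Bl (1 / (u + 2 * h)) (fun s' => GZ Bl uw uK (u + 2 * h) s') s ≤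
      h * (v ^ 3 * -∑ e ∈ s.A, (dg Bl s.A e : ℝ) ^ 3) := by
    refine mul_le_mul_of_nonneg_left ?_ hh.le
    rw [e1]
    exact e2.trans e3
  have e10 : h * (6 * v ^ 2 * ZZ Bl s.A - v ^ 3 * ∑ e ∈ s.A, (dg Bl s.A e : ℝ) ^ 3) ≤
      h * (32 * (s.A.card : ℝ)) := mul_le_mul_of_nonneg_left e6 hh.le
  have e11 : v ^ 3 * ZZ Bl s.A - (v - 2 * h) ^ 3 * ZZ Bl s.A ≤
      h * (6 * v ^ 2 * ZZ Bl s.A) + 8 * h ^ 3 * ZZ Bl s.A := by
    have h2 : 0 ≤ h ^ 2 * v * ZZ Bl s.A := by positivity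
    nlinarith
  have e12 : 8 * h ^ 3 * ZZ Bl s.A ≤ 8 * ((A₀.card : ℝ) * (Bl.card : ℝ) ^ 2) * h ^ 2 := by
    have h2 : h ^ 3 ≤ h ^ 2 := by
      have : h ^ 2 * h ≤ h ^ 2 * 1 := mul_le_mul_of_nonneg_left hh1 (sq_nonneg h)
      nlinarith
    calc 8 * h ^ 3 * ZZ Bl s.A ≤ 8 * h ^ 2 * ZZ Bl s.A :=
          mul_le_mul_of_nonneg_right (by linarith) e7
      _ ≤ 8 * h ^ 2 * ((A₀.card : ℝ) * (Bl.card : ℝ) ^ 2) :=
          mul_le_mul_of_nonneg_left e8 (by positivity)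
      _ = 8 * ((A₀.card : ℝ) * (Bl.card : ℝ) ^ 2) * h ^ 2 := by ring
  rw [e4, e5]
  nlinarith

/-- the detachments do not change `GZ` -/
theorem gz_fixs (Bl : Finset (Finset α)) (uw uK u th v : ℝ) (s : NL.St α) :
    GZ Bl uw uK u (NL.fixs th v s) = GZ Bl uw uK u s := rfl

/-- start of the window -/
theorem gz_start (Bl : Finset (Finset α)) (uw uK : ℝ) (s : NL.St α) :
    GZ Bl uw uK uw s = 16 * (uK - uw) * (s.A.card : ℝ) := by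
  unfold GZ
  ring

/-- end of the window -/
theorem gz_end (Bl : Finset (Finset α)) (uw uK : ℝ) (s : NL.St α) :
    GZ Bl uw uK uK s = (uK - uw) ^ 3 * ZZ Bl s.A := by
  unfold GZ
  ring

end

end Vale.Agent.P046.CT
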