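import Vale.Agent.P046.NL.Transfer
import Vale.Agent.P046.NL.MidAux
import Vale.Agent.P046.CT.Zw

/-!
P046, sharp constant: calculus of supersolutions of the joint chain.
-/

namespace Vale.Agent.P046.CT

open Finset Vale.Agent.P046 Vale.Agent.P046.NL

noncomputable section

variable {α : Type} [DecidableEq α]

/-- supersolution of the joint chain on `[v, U]` (the form used in `mid_transfer_st`) -/
def Sup (Bl : Finset (Finset α)) (t v U : ℝ) (A₀ : Finset α) (G : ℝ → St α → ℝ) : Prop :=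
  ∃ E h1 : ℝ, 0 ≤ E ∧ 0 < h1 ∧ ∀ h u : ℝ, 0 < h → h ≤ h1 → v ≤ u → u + 2 * h ≤ U →
    ∀ s : St α, s.B ⊆ A₀ → s.A ⊆ A₀ → Inv Bl (2 * t) (u + 2 * h) s →
    G (u + 2 * h) s + h * gen Bl (1 / (u + 2 * h)) (fun s' => G (u + 2 * h) s') s
      ≤ G u s + E * h ^ 2

/-- the detachments do not increase `G` -/
def Fx (Bl : Finset (Finset α)) (t U : ℝ) (G : ℝ → St α → ℝ) : Prop :=
  ∀ u, 0 < u → u ≤ U → ∀ s, Inv Bl (2 * t) u s → G u (fixs t u s) ≤ G u s

namespace Sup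

theorem add {Bl : Finset (Finset α)} {t v U : ℝ} {A₀ : Finset α} {F G : ℝ → St α → ℝ}
    (hF : Sup Bl t v U A₀ F) (hG : Sup Bl t v U A₀ G) :
    Sup Bl t v U A₀ (fun u s => F u s + G u s) := by
  obtain ⟨E1, g1, hE1, hg1, k1⟩ := hF
  obtain ⟨E2, g2, hE2, hg2, k2⟩ := hG
  refine ⟨E1 + E2, min g1 g2, by positivity, lt_min hg1 hg2, ?_⟩
  intro h u hh hh1 hu hu' s hB hA hI
  have a1 := k1 h u hh (hh1.trans (min_le_left _ _)) hu hu' s hB hA hI
  have a2 := k2 h u hh (hh1.trans (min_le_right _ _)) hu hu' s hB hA hI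
  have a3 := MC.g_add Bl (1 / (u + 2 * h)) s (fun s' => F (u + 2 * h) s')
    (fun s' => G (u + 2 * h) s')
  have a4 : h * gen Bl (1 / (u + 2 * h)) (fun s' => F (u + 2 * h) s' + G (u + 2 * h) s') s =
      h * gen Bl (1 / (u + 2 * h)) (fun s' => F (u + 2 * h) s') s +
        h * gen Bl (1 / (u + 2 * h)) (fun s' => G (u + 2 * h) s') s := by
    rw [a3]; ring
  show F (u + 2 * h) s + G (u + 2 * h) s +
    h * gen Bl (1 / (u + 2 * h)) (fun s' => F (u + 2 * h) s' + G (u + 2 * h) s') s ≤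
    F u s + G u s + (E1 + E2) * h ^ 2
  rw [a4]
  linarith

theorem smul {Bl : Finset (Finset α)} {t v U : ℝ} {A₀ : Finset α} {F : ℝ → St α → ℝ}
    (hF : Sup Bl t v U A₀ F) {c : ℝ} (hc : 0 ≤ c) :
    Sup Bl t v U A₀ (fun u s => c * F u s) := by
  obtain ⟨E1, g1, hE1, hg1, k1⟩ := hF
  refine ⟨c * E1, g1, by positivity, hg1, ?_⟩
  intro h u hh hh1 hu hu' s hB hA hI
  have a1 := mul_le_mul_of_nonneg_left (k1 h u hh hh1 hu hu' s hB hA hI) hc
  have a3 := MC.g_smul Bl (1 / (u + 2 * h)) s c (fun s' => F (u + 2 * h) s')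
  show c * F (u + 2 * h) s +
    h * gen Bl (1 / (u + 2 * h)) (fun s' => c * F (u + 2 * h) s') s ≤ c * F u s + c * E1 * h ^ 2
  rw [a3]
  have a5 : c * (F (u + 2 * h) s + h * gen Bl (1 / (u + 2 * h)) (fun s' => F (u + 2 * h) s') s) =
      c * F (u + 2 * h) s + h * (c * gen Bl (1 / (u + 2 * h)) (fun s' => F (u + 2 * h) s') s) := by
    ring
  rw [a5] at a1
  linarith

theorem const {Bl : Finset (Finset α)} {t v U : ℝ} {A₀ : Finset α} (c : ℝ) :
    Sup Bl t v U A₀ (fun _ _ => c) := by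
  refine ⟨0, 1, le_rfl, one_pos, ?_⟩
  intro h u hh hh1 hu hu' s hB hA hI
  have : gen Bl (1 / (u + 2 * h)) (fun _ : St α => c) s = 0 := by
    unfold gen
    simp
  show c + h * gen Bl (1 / (u + 2 * h)) (fun _ : St α => c) s ≤ c + 0 * h ^ 2
  rw [this]
  linarith

theorem mono {Bl : Finset (Finset α)} {t v v' U U' : ℝ} {A₀ : Finset α} {F : ℝ → St α → ℝ}
    (hF : Sup Bl t v U A₀ F) (hv : v ≤ v') (hU : U' ≤ U) : Sup Bl t v' U' A₀ F := by
  obtain ⟨E1, g1, hE1, hg1, k1⟩ := hF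
  exact ⟨E1, g1, hE1, hg1, fun h u hh hh1 hu hu' s hB hA hI =>
    k1 h u hh hh1 (hv.trans hu) (hu'.trans hU) s hB hA hI⟩

/-- the number of alive configurations only decreases -/
theorem nc (Bl : Finset (Finset α)) {t v U : ℝ} (hv : 0 < v) (hU : U ≤ 1 / 2) (ht : t ≤ 1 / 10)
    (A₀ : Finset α) (C : Finset (Finset (Finset α))) :
    Sup Bl t v U A₀ (fun _ s => Nc C s) := by
  refine ⟨0, 1, le_rfl, one_pos, ?_⟩
  intro h u hh hh1 hu hu' s hB hA hI
  have hmono : ∀ s' : St α, s'.W ⊆ s.W → Nc C s' - Nc C s ≤ 0 := by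
    intro s' hs'
    unfold Nc
    have : (C.filter (fun c => c ⊆ s'.W)).card ≤ (C.filter (fun c => c ⊆ s.W)).card :=
      card_le_card fun c hc =>
        mem_filter.2 ⟨(mem_filter.1 hc).1, (mem_filter.1 hc).2.trans hs'⟩
    have h2 : ((C.filter (fun c => c ⊆ s'.W)).card : ℝ) ≤ (C.filter (fun c => c ⊆ s.W)).card := by
      exact_mod_cast this
    linarith
  have hu0 : 0 < u + 2 * h := by linarith
  have hr : 2 ≤ 1 / (u + 2 * h) := by
    rw [le_div_iff₀ hu0]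
    linarith
  have hg : gen Bl (1 / (u + 2 * h)) (fun s' => Nc C s') s ≤ 0 := by
    unfold gen
    have e1 : ∑ T ∈ s.W, (Nc C (ring s T) - Nc C s) ≤ 0 :=
      sum_nonpos fun T _ => hmono _ (filter_subset _ _)
    have e2 : ∑ T ∈ s.W, ∑ f ∈ T \ s.B, (1 / (u + 2 * h) * (1 + s.a f) - 1) *
        (Nc C (virt s T) - Nc C s) ≤ 0 := by
      refine sum_nonpos fun T _ => sum_nonpos fun f _ => ?_
      have ha := (abs_le.1 (hI.bda f)).1
      refine mul_nonpos_of_nonneg_of_nonpos ?_ (hmono _ (erase_subset _ _))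
      nlinarith
    have e3 : ∑ T ∈ bl Bl s.A \ s.W, (Nc C (nring s T) - Nc C s) ≤ 0 :=
      sum_nonpos fun T _ => hmono _ (subset_refl _)
    linarith
  show Nc C s + h * gen Bl (1 / (u + 2 * h)) (fun s' => Nc C s') s ≤ Nc C s + 0 * h ^ 2
  nlinarith

theorem nc_sum (Bl : Finset (Finset α)) {t v U : ℝ} (hv : 0 < v) (hU : U ≤ 1 / 2)
    (ht : t ≤ 1 / 10) (A₀ : Finset α) (L : ℕ) (CB : ℕ → Finset (Finset (Finset α))) :
    Sup Bl t v U A₀ (fun _ s => ∑ l ∈ range L, Nc (CB l) s) := by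
  induction L with
  | zero =>
    simp only [range_zero, sum_empty]
    exact const 0
  | succ L ih =>
    simp only [sum_range_succ]
    exact add ih (nc Bl hv hU ht A₀ (CB L))

theorem gz (Bl : Finset (Finset α)) {t uw uK : ℝ} (A₀ : Finset α) :
    Sup Bl t uw uK A₀ (fun u s => GZ Bl uw uK u s) := by
  obtain ⟨E, h1, hE, hh1, k⟩ := gz_core Bl A₀ uw uK
  exact ⟨E, h1, hE, hh1, fun h u hh hhh hu hu' s hB hA hI => k h u hh hhh hu hu' s hA hI.sub⟩

end Sup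

namespace Fx

theorem add {Bl : Finset (Finset α)} {t U : ℝ} {F G : ℝ → St α → ℝ}
    (hF : Fx Bl t U F) (hG : Fx Bl t U G) : Fx Bl t U (fun u s => F u s + G u s) :=
  fun u hu hU s hI => add_le_add (hF u hu hU s hI) (hG u hu hU s hI)

theorem smul {Bl : Finset (Finset α)} {t U : ℝ} {F : ℝ → St α → ℝ}
    (hF : Fx Bl t U F) {c : ℝ} (hc : 0 ≤ c) : Fx Bl t U (fun u s => c * F u s) :=
  fun u hu hU s hI => mul_le_mul_of_nonneg_left (hF u hu hU s hI) hc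

theorem const {Bl : Finset (Finset α)} {t U : ℝ} (c : ℝ) : Fx Bl t U (fun _ _ => c) :=
  fun _ _ _ _ _ => le_rfl

theorem mono {Bl : Finset (Finset α)} {t U U' : ℝ} {F : ℝ → St α → ℝ}
    (hF : Fx Bl t U F) (hU : U' ≤ U) : Fx Bl t U' F :=
  fun u hu hu' s hI => hF u hu (hu'.trans hU) s hI

theorem nc_sum (Bl : Finset (Finset α)) {t U : ℝ} (L : ℕ)
    (CB : ℕ → Finset (Finset (Finset α))) :
    Fx Bl t U (fun _ s => ∑ l ∈ range L, Nc (CB l) s) :=
  fun _ _ _ _ _ => le_rfl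

theorem gz (Bl : Finset (Finset α)) {t uw uK U : ℝ} :
    Fx Bl t U (fun u s => GZ Bl uw uK u s) :=
  fun _ _ _ _ _ => le_rfl

end Fx

/-- transfer in the language of `Sup` and `Fx` -/
theorem Sup.transfer {Bl : Finset (Finset α)} (hL : Lin3 Bl)
    {t v U : ℝ} (ht : 0 < t) (ht1 : 2 * t ≤ 1 / 10) (hv : 0 < v) (hvU : v < U)
    (hU : 10 * U ≤ t) {A₀ : Finset α} (Phi : Finset α → ℝ) {G : ℝ → St α → ℝ}
    (hS : Sup Bl t v U A₀ G) (hF : Fx Bl t U G)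
    (hend : ∀ s, GS Bl t (2 * t) U s → s.A ⊆ A₀ → s.B ⊆ A₀ →
      run Bl Phi s.A.card s.A ≤ G U s)
    {s0 : St α} (hs0 : GS Bl t (2 * t) v s0) (hsA0 : s0.A ⊆ A₀) (hsB0 : s0.B ⊆ A₀) :
    run Bl Phi s0.A.card s0.A ≤ G v s0 :=
  mid_transfer_st hL ht ht1 hv hvU hU A₀ Phi G hS hF hend s0 hs0 hsA0 hsB0

end

end Vale.Agent.P046.CT
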