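import Vale.Agent.P046.CT.Stg1a
import Vale.Agent.P046.CT.Sup
import Vale.Agent.P046.CT.BadDel
import Vale.Agent.P046.NL.DSFIX
import Vale.Agent.P046.NL.NCORE

/-!
P046, sharp constant: stage 1, from `u0 n` to `n ^ (-d)`.
-/

namespace Vale.Agent.P046.CT

open Finset Vale.Agent.P046 Vale.Agent.P046.NL

noncomputable section

namespace STG1

/-- conditions which hold for large `n` -/
theorem ev {d kapE C' w1 : ℝ} (hd0 : 0 < d) (hd : d ≤ e0 / 100) (hk : 0 < kapE) (hC' : 0 < C')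
    (hw : 0 < w1) : ∃ n0 : ℕ, ∀ n : ℕ, n0 ≤ n → 2 ≤ n ∧ (n : ℝ) ^ (-d) ≤ w1 ∧
      u0 n < (n : ℝ) ^ (-d) ∧ u0 n ≤ w1 ∧
      ((n : ℝ) ^ (-d)) ^ (-(24 / 25) : ℝ) * (C' * (((n : ℝ) ^ (-d)) ^ (1 - 9 / 10 * e0 : ℝ)
        + u0 n ^ ((e0 - 9 / 10 * e0) / 2 : ℝ))) ≤ kapE := by
  have he0 : e0 = 1 / 4000000 := rfl
  have hc0 : c0 = 1 / 1000000 := rfl
  have hp1 : 0 < 1 - 2 * c0 := by rw [hc0]; norm_num
  have hp2 : 0 < d * (1 / 25 - 9 / 10 * e0) := by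
    apply mul_pos hd0
    rw [he0]; norm_num
  have hp3 : 0 < (1 - 2 * c0) * ((e0 - 9 / 10 * e0) / 2) - 24 / 25 * d := by
    rw [hc0]
    rw [he0] at hd ⊢
    norm_num at hd ⊢
    linarith
  have hk2 : 0 < kapE / (2 * C') := by positivity
  have tz : ∀ y : ℝ, 0 < y →
      Filter.Tendsto (fun n : ℕ => (n : ℝ) ^ (-y : ℝ)) Filter.atTop (nhds 0) := fun y hy =>
    (tendsto_rpow_neg_atTop hy).comp tendsto_natCast_atTop_atTop
  have e1 := (tz d hd0).eventually (eventually_le_nhds hw)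
  have e2 := (tz (1 - 2 * c0) hp1).eventually (eventually_le_nhds hw)
  have e3 := (tz (d * (1 / 25 - 9 / 10 * e0)) hp2).eventually (eventually_le_nhds hk2)
  have e4 := (tz ((1 - 2 * c0) * ((e0 - 9 / 10 * e0) / 2) - 24 / 25 * d) hp3).eventually
    (eventually_le_nhds hk2)
  obtain ⟨n0, hn0⟩ := Filter.eventually_atTop.mp
    (e1.and (e2.and (e3.and (e4.and (Filter.eventually_ge_atTop 2)))))
  refine ⟨n0, fun n hn => ?_⟩
  obtain ⟨h1, h2, h3, h4, h5⟩ := hn0 n hn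
  have hn2 : (2 : ℝ) ≤ n := by exact_mod_cast h5
  have hn' : (0 : ℝ) < n := by linarith
  have hn1 : (1 : ℝ) < n := by linarith
  have hU : u0 n = (n : ℝ) ^ (-(1 - 2 * c0) : ℝ) := by
    unfold u0
    congr 1
    ring
  refine ⟨h5, h1, ?_, ?_, ?_⟩
  · rw [hU]
    apply Real.rpow_lt_rpow_of_exponent_lt hn1
    rw [hc0]
    rw [he0] at hd
    norm_num at hd ⊢
    linarith
  · rw [hU]; exact h2
  · have k1 : ((n : ℝ) ^ (-d)) ^ (-(24 / 25) : ℝ) * ((n : ℝ) ^ (-d)) ^ (1 - 9 / 10 * e0 : ℝ) =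
        (n : ℝ) ^ (-(d * (1 / 25 - 9 / 10 * e0)) : ℝ) := by
      rw [← Real.rpow_mul hn'.le, ← Real.rpow_mul hn'.le, ← Real.rpow_add hn']
      congr 1
      ring
    have k2 : ((n : ℝ) ^ (-d)) ^ (-(24 / 25) : ℝ) * u0 n ^ ((e0 - 9 / 10 * e0) / 2 : ℝ) =
        (n : ℝ) ^ (-((1 - 2 * c0) * ((e0 - 9 / 10 * e0) / 2) - 24 / 25 * d) : ℝ) := by
      rw [hU, ← Real.rpow_mul hn'.le, ← Real.rpow_mul hn'.le, ← Real.rpow_add hn']
      congr 1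
      ring
    have k3 : ((n : ℝ) ^ (-d)) ^ (-(24 / 25) : ℝ) * (C' * (((n : ℝ) ^ (-d)) ^ (1 - 9 / 10 * e0 : ℝ)
        + u0 n ^ ((e0 - 9 / 10 * e0) / 2 : ℝ))) =
        C' * (((n : ℝ) ^ (-d)) ^ (-(24 / 25) : ℝ) * ((n : ℝ) ^ (-d)) ^ (1 - 9 / 10 * e0 : ℝ)) +
        C' * (((n : ℝ) ^ (-d)) ^ (-(24 / 25) : ℝ) * u0 n ^ ((e0 - 9 / 10 * e0) / 2 : ℝ)) := by
      ring
    rw [k3, k1, k2]
    have k4 := mul_le_mul_of_nonneg_left h3 hC'.le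
    have k5 := mul_le_mul_of_nonneg_left h4 hC'.le
    have k6 : C' * (kapE / (2 * C')) = kapE / 2 := by
      field_simp
    rw [k6] at k4 k5
    linarith

theorem abs_le_sqrt1 (y : ℝ) : |y| ≤ Real.sqrt (1 + y ^ 2) := by
  apply Real.le_sqrt_of_sq_le
  rw [sq_abs]
  linarith

end STG1

open STG1 in
/-- [STG1] stage 1 -/
theorem stage1 {t d C kapE : ℝ} (J : ℕ) (ht0 : 0 < t) (ht : t ≤ t0 e0) (hd0 : 0 < d)
    (hd : d ≤ e0 / 100) (hC : 0 < C) (hk : 0 < kapE) :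
    ∃ n0 : ℕ, ∀ n : ℕ, n0 ≤ n → ∀ C6 C8 : Finset (Finset (Finset (Sym2 (Fin n)))),
    Sys (BK n) C6 C8 → ∀ (c c2 : ℝ) (Phi : Finset (Sym2 (Fin n)) → ℝ),
    (∀ s : NL.St (Sym2 (Fin n)), GS (BK n) t (2 * t) ((n : ℝ) ^ (-d)) s → s.A ⊆ tr univ →
      s.B ⊆ tr univ → run (BK n) Phi s.A.card s.A ≤
        C * |((n : ℝ) ^ (-d)) ^ (1 / 2 : ℝ) * Q s - c|
        + C * Rst (3 / 4 * e0) (e0 / 4) (BK n) C6 C8 ((n : ℝ) ^ (-d)) s
        + C * ∑ l ∈ range (2 * J + 1), Nc (CTB.CB n J l) s + c2) →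
    ∀ A : Finset (Sym2 (Fin n)), A ⊆ tr univ → (∀ e ∈ A, |xv (u0 n) (toSt (BK n) A) e| ≤ t) →
      run (BK n) Phi A.card A ≤
        C * Real.sqrt (1 + ((u0 n) ^ (1 / 2 : ℝ) * A.card - c) ^ 2)
        + C * kapE * PsiE n C6 C8 (u0 n) A
        + C * (n : ℝ) ^ (d * J) * PsiN t (2 * J) (CTB.CB n J) (u0 n) (toSt (BK n) A) + c2 := by
  have he0 : e0 = 1 / 4000000 := rfl
  have hep : 0 < 9 / 10 * e0 := by rw [he0]; norm_num
  have hep1 : 9 / 10 * e0 ≤ 1 / 100 := by rw [he0]; norm_num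
  have htt : t ≤ (9 / 10 * e0) ^ 2 / 5000 := by
    refine ht.trans ?_
    unfold t0
    rw [he0]; norm_num
  have htn : t ≤ 1 / 100 := by
    refine htt.trans ?_
    rw [he0]; norm_num
  have hdl1 : 9 / 10 * e0 / 8 ≤ e0 / 4 := by rw [he0]; norm_num
  have hdl2 : e0 / 4 ≤ 9 / 10 * e0 / 2 := by rw [he0]; norm_num
  obtain ⟨u1, hu1, hu1', H1⟩ := ds_core (9 / 10 * e0) t (e0 / 4) hep hep1 ht0 htt hdl1 hdl2
  obtain ⟨u2, hu2, hu2', H2⟩ := ds_fix (9 / 10 * e0) t (e0 / 4) hep hep1 ht0 htt hdl1 hdl2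
  obtain ⟨u3, hu3, hu3', H3⟩ := n_core t ht0 htn J (2 * J)
  obtain ⟨C', hC', H4⟩ := cmp_st2 e0 (9 / 10 * e0) hep (by rw [he0]; norm_num)
    (by rw [he0]; norm_num)
  have hT : 0 < 400 * t ^ 4 / (9 / 10 * e0) := by positivity
  obtain ⟨w1, hw1⟩ : ∃ w1 : ℝ, w1 = min (min u1 (min u2 u3)) (min (t / 10)
      (min ((400 * t ^ 4 / (9 / 10 * e0)) ^ (25 / 24 : ℝ)) ((1 / 2 : ℝ) ^ (4 / e0 : ℝ)))) :=
    ⟨_, rfl⟩
  have hw : 0 < w1 := by rw [hw1]; positivity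
  have w_u1 : w1 ≤ u1 := by rw [hw1]; exact (min_le_left _ _).trans (min_le_left _ _)
  have w_u2 : w1 ≤ u2 := by
    rw [hw1]; exact (min_le_left _ _).trans ((min_le_right _ _).trans (min_le_left _ _))
  have w_u3 : w1 ≤ u3 := by
    rw [hw1]; exact (min_le_left _ _).trans ((min_le_right _ _).trans (min_le_right _ _))
  have w_t : w1 ≤ t / 10 := by rw [hw1]; exact (min_le_right _ _).trans (min_le_left _ _)
  have w_T : w1 ≤ (400 * t ^ 4 / (9 / 10 * e0)) ^ (25 / 24 : ℝ) := by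
    rw [hw1]; exact (min_le_right _ _).trans ((min_le_right _ _).trans (min_le_left _ _))
  have w_h : w1 ≤ (1 / 2 : ℝ) ^ (4 / e0 : ℝ) := by
    rw [hw1]; exact (min_le_right _ _).trans ((min_le_right _ _).trans (min_le_right _ _))
  obtain ⟨n0, hn0⟩ := ev hd0 hd hk hC' hw
  refine ⟨n0, ?_⟩
  intro n hn C6 C8 hS c c2 Phi hend A hA hxA
  obtain ⟨hn2, hU1, hxU, hx1, hK⟩ := hn0 n hn
  have hn' : (0 : ℝ) < n := by
    have : (2 : ℝ) ≤ n := by exact_mod_cast hn2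
    linarith
  have hNJ : ((n : ℝ) ^ (-d)) ^ (-(J : ℝ)) = (n : ℝ) ^ (d * J) := by
    rw [← Real.rpow_mul hn'.le]
    congr 1
    ring
  have hNJ0 : 0 < (n : ℝ) ^ (d * J) := Real.rpow_pos_of_pos hn' _
  have hU0 : 0 < (n : ℝ) ^ (-d) := Real.rpow_pos_of_pos hn' _
  have hx0 : 0 < u0 n := by unfold u0; exact Real.rpow_pos_of_pos hn' _
  obtain ⟨U, hU⟩ : ∃ U : ℝ, U = (n : ℝ) ^ (-d) := ⟨_, rfl⟩
  obtain ⟨x, hx⟩ : ∃ x : ℝ, x = u0 n := ⟨_, rfl⟩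
  rw [← hU] at hU0 hNJ hend hU1 hxU hK
  rw [← hx] at hxU hx1 hK hx0 hxA
  rw [← hx]
  obtain ⟨kap, hkap⟩ : ∃ kap : ℝ, kap = U ^ (-(24 / 25) : ℝ) := ⟨_, rfl⟩
  have hkap0 : 0 < kap := by rw [hkap]; exact Real.rpow_pos_of_pos hU0 _
  have hUl : U ≤ 1 / 100 := (hU1.trans w_u1).trans hu1'
  have hUl1 : U ≤ 1 := by linarith
  have hxl1 : x ≤ 1 := by linarith
  have hcond : U ^ (1 / 5 : ℝ) ≤ (kap * U ^ (1 - 9 / 10 * e0 : ℝ)) ^ 2 := by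
    have k1 : kap * U ^ (1 - 9 / 10 * e0 : ℝ) = U ^ (1 / 25 - 9 / 10 * e0 : ℝ) := by
      rw [hkap, ← Real.rpow_add hU0]
      congr 1
      ring
    have k2 : (U ^ (1 / 25 - 9 / 10 * e0 : ℝ)) ^ 2 = U ^ ((1 / 25 - 9 / 10 * e0) * 2 : ℝ) := by
      rw [← Real.rpow_natCast, ← Real.rpow_mul hU0.le]
      norm_num
    rw [k1, k2]
    apply Real.rpow_le_rpow_of_exponent_ge hU0 hUl1
    rw [he0]; norm_num
  have hbase : ∀ A₀ : Finset (Sym2 (Fin n)), Sup (BK n) t x U A₀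
      (fun u s => C * PsiDS (9 / 10 * e0) t (e0 / 4) U c kap (BK n) C6 C8 u s
        + C * (n : ℝ) ^ (d * J) * PsiN t (2 * J) (CTB.CB n J) u s + c2) := by
    intro A₀
    have s1 : Sup (BK n) t x U A₀
        (fun u s => PsiDS (9 / 10 * e0) t (e0 / 4) U c kap (BK n) C6 C8 u s) :=
      H1 (Sym2 (Fin n)) (BK n) C6 C8 hS x U U c kap A₀ hx0 le_rfl (hU1.trans w_u1) hkap0 hcond
    have s2 : Sup (BK n) t x U A₀ (fun u s => PsiN t (2 * J) (CTB.CB n J) u s) := by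
      obtain ⟨E, g1, hE, hg1, k⟩ := H3 (Sym2 (Fin n)) (BK n) hS.lin (CTB.CB n J) (CB_hyp J) x hx0
      exact ⟨E, g1, hE, hg1, fun h u hh hh1 hu hu' s _ _ hI =>
        k h u hh hh1 hu (hu'.trans (hU1.trans w_u3)) s hI⟩
    exact ((s1.smul hC.le).add (s2.smul (by positivity))).add (Sup.const c2)
  have hfix : Fx (BK n) t U
      (fun u s => C * PsiDS (9 / 10 * e0) t (e0 / 4) U c kap (BK n) C6 C8 u s
        + C * (n : ℝ) ^ (d * J) * PsiN t (2 * J) (CTB.CB n J) u s + c2) := by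
    have s1 : Fx (BK n) t U
        (fun u s => PsiDS (9 / 10 * e0) t (e0 / 4) U c kap (BK n) C6 C8 u s) :=
      fun u hu hu' s hI => H2 (Sym2 (Fin n)) (BK n) C6 C8 hS U U u c kap hu hu' le_rfl
        (hU1.trans w_u2) hkap0 hcond s hI
    have s2 : Fx (BK n) t U (fun u s => PsiN t (2 * J) (CTB.CB n J) u s) :=
      fun _ _ _ _ _ => le_rfl
    exact ((s1.smul hC.le).add (s2.smul (by positivity))).add (Fx.const c2)
  have ht3 : t ≤ 1 / 3 := by linarith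
  have hfin : ∀ s : NL.St (Sym2 (Fin n)), GS (BK n) t (2 * t) U s → s.A ⊆ A → s.B ⊆ A →
      run (BK n) Phi s.A.card s.A ≤
        C * PsiDS (9 / 10 * e0) t (e0 / 4) U c kap (BK n) C6 C8 U s
        + C * (n : ℝ) ^ (d * J) * PsiN t (2 * J) (CTB.CB n J) U s + c2 := by
    intro s hs hsA hsB
    have k0 := hend s hs (hsA.trans hA) (hsB.trans hA)
    have k1 := mul_le_mul_of_nonneg_left (abs_le_sqrt1 (U ^ (1 / 2 : ℝ) * Q s - c)) hC.le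
    have hU24 : U ^ (24 / 25 : ℝ) ≤ 400 * t ^ 4 / (9 / 10 * e0) := by
      calc U ^ (24 / 25 : ℝ) ≤ ((400 * t ^ 4 / (9 / 10 * e0)) ^ (25 / 24 : ℝ)) ^ (24 / 25 : ℝ) :=
            Real.rpow_le_rpow hU0.le (hU1.trans w_T) (by norm_num)
        _ = 400 * t ^ 4 / (9 / 10 * e0) := by
            rw [← Real.rpow_mul hT.le]
            norm_num
    have k2 := mul_le_mul_of_nonneg_left (rst_le (e1 := 3 / 4 * e0) (dl := e0 / 4) hep hep1
      (by rw [he0]; norm_num) (by rw [he0]; norm_num) hU0 hUl hU24 (BK n) C6 C8 s) hC.le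
    rw [← hkap] at k2
    have k3 := mul_le_mul_of_nonneg_left (Nc_le_PsiN (J := J) ht0.le ht3 hU0 hUl1 s) hC.le
    rw [hNJ] at k3
    unfold PsiDS
    calc run (BK n) Phi s.A.card s.A ≤ _ := k0
      _ ≤ C * Real.sqrt (1 + (U ^ (1 / 2 : ℝ) * Q s - c) ^ 2)
          + C * (kap * PsiS (9 / 10 * e0) t (e0 / 4) U (BK n) C6 C8 U s)
          + C * ((n : ℝ) ^ (d * J) * PsiN t (2 * J) (CTB.CB n J) U s) + c2 := by linarith
      _ = _ := by ring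
  have key := mid_transfer hS.lin ht0 (by linarith) hx0 hxU (by linarith [hU1.trans w_t]) A hxA Phi
    (fun u s => C * PsiDS (9 / 10 * e0) t (e0 / 4) U c kap (BK n) C6 C8 u s
        + C * (n : ℝ) ^ (d * J) * PsiN t (2 * J) (CTB.CB n J) u s + c2) (hbase A) hfix hfin
  refine key.trans ?_
  -- the start
  have hxh : x ^ (e0 / 4 : ℝ) ≤ 1 / 2 := by
    calc x ^ (e0 / 4 : ℝ) ≤ ((1 / 2 : ℝ) ^ (4 / e0 : ℝ)) ^ (e0 / 4 : ℝ) :=
          Real.rpow_le_rpow hx0.le (hx1.trans w_h) (by rw [he0]; norm_num)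
      _ = 1 / 2 := by
          rw [← Real.rpow_mul (by norm_num)]
          have : 4 / e0 * (e0 / 4) = 1 := by rw [he0]; norm_num
          rw [this, Real.rpow_one]
  have j1 := H4 U hU0 hUl (Sym2 (Fin n)) (BK n) C6 C8 x (toSt (BK n) A) hx0 hxU.le hxh
  rw [← start_le (t := t)] at j1
  have hn1 : 1 ≤ n := by omega
  have j2 := ET.psiM_le_psiE hn1 C6 C8 A
  rw [← hx] at j2
  have j3 := ET.psiE_nonneg hn1 C6 C8 hx0 hxl1 A
  have j4 : 0 ≤ C' * (U ^ (1 - 9 / 10 * e0 : ℝ) + x ^ ((e0 - 9 / 10 * e0) / 2 : ℝ)) := by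
    positivity
  have j5 : kap * PsiS (9 / 10 * e0) t (e0 / 4) U (BK n) C6 C8 x (toSt (BK n) A) ≤
      kapE * PsiE n C6 C8 x A := by
    calc kap * PsiS (9 / 10 * e0) t (e0 / 4) U (BK n) C6 C8 x (toSt (BK n) A) ≤
        kap * (C' * (U ^ (1 - 9 / 10 * e0 : ℝ) + x ^ ((e0 - 9 / 10 * e0) / 2 : ℝ)) *
          PsiE n C6 C8 x A) := by
          refine mul_le_mul_of_nonneg_left (j1.trans ?_) hkap0.le
          exact mul_le_mul_of_nonneg_left j2 j4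
      _ = kap * (C' * (U ^ (1 - 9 / 10 * e0 : ℝ) + x ^ ((e0 - 9 / 10 * e0) / 2 : ℝ))) *
          PsiE n C6 C8 x A := by ring
      _ ≤ kapE * PsiE n C6 C8 x A := by
          rw [hkap]
          exact mul_le_mul_of_nonneg_right hK j3
  have j6 := mul_le_mul_of_nonneg_left j5 hC.le
  have j7 : Q (toSt (BK n) A) = (A.card : ℝ) := rfl
  show C * PsiDS (9 / 10 * e0) t (e0 / 4) U c kap (BK n) C6 C8 x (toSt (BK n) A)
        + C * (n : ℝ) ^ (d * J) * PsiN t (2 * J) (CTB.CB n J) x (toSt (BK n) A) + c2 ≤ _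
  unfold PsiDS
  rw [j7]
  calc C * (Real.sqrt (1 + (x ^ (1 / 2 : ℝ) * (A.card : ℝ) - c) ^ 2)
        + kap * PsiS (9 / 10 * e0) t (e0 / 4) U (BK n) C6 C8 x (toSt (BK n) A))
        + C * (n : ℝ) ^ (d * J) * PsiN t (2 * J) (CTB.CB n J) x (toSt (BK n) A) + c2
      = C * Real.sqrt (1 + (x ^ (1 / 2 : ℝ) * (A.card : ℝ) - c) ^ 2)
        + C * (kap * PsiS (9 / 10 * e0) t (e0 / 4) U (BK n) C6 C8 x (toSt (BK n) A))
        + C * (n : ℝ) ^ (d * J) * PsiN t (2 * J) (CTB.CB n J) x (toSt (BK n) A) + c2 := by ring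
    _ ≤ C * Real.sqrt (1 + (x ^ (1 / 2 : ℝ) * (A.card : ℝ) - c) ^ 2)
        + C * (kapE * PsiE n C6 C8 x A)
        + C * (n : ℝ) ^ (d * J) * PsiN t (2 * J) (CTB.CB n J) x (toSt (BK n) A) + c2 := by
        linarith
    _ = _ := by ring

end

end Vale.Agent.P046.CT
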