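import Vale.Agent.P046.CT.Defs
import Vale.Agent.P046.Chain
import Vale.Agent.P046.NL.QQ

/-!
P046, sharp constant, part C: the source of the final phase for the real points `B2` of the
modified process.
-/

namespace Vale.Agent.P046.CT

open Finset Vale.Agent.P046

noncomputable section

namespace SrcLe

variable {α : Type} [DecidableEq α]

/-- double counting with blocks of size three -/
theorem swap3 {W : Finset (Finset α)} (h3 : ∀ T ∈ W, T.card = 3) (X : Finset α)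
    (g : Finset α → ℝ) (hg : ∀ T ∈ W, 0 ≤ g T) :
    ∑ e ∈ X, ∑ T ∈ W.filter (fun T => e ∈ T), g T ≤ 3 * ∑ T ∈ W, g T := by
  have h1 : ∑ e ∈ X, ∑ T ∈ W.filter (fun T => e ∈ T), g T =
      ∑ T ∈ W, ∑ e ∈ X, if e ∈ T then g T else 0 := by
    simp_rw [sum_filter]
    rw [sum_comm]
  rw [h1, mul_sum]
  refine sum_le_sum fun T hT => ?_
  rw [← sum_filter, sum_const, nsmul_eq_mul]
  refine mul_le_mul_of_nonneg_right ?_ (hg T hT)
  have h2 : (X.filter (fun e => e ∈ T)).card ≤ T.card :=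
    card_le_card fun e he => (mem_filter.mp he).2
  rw [h3 T hT] at h2
  exact_mod_cast h2

/-- missing blocks at `e` -/
def df (W H : Finset (Finset α)) (e : α) : ℝ := NL.dW W e - dH H e

/-- indicator of a missing block -/
def ms (H : Finset (Finset α)) (T : Finset α) : ℝ := if T ∈ H then 0 else 1

theorem ms_nonneg (H : Finset (Finset α)) (T : Finset α) : 0 ≤ ms H T := by
  unfold ms
  split_ifs <;> norm_num

theorem df_eq {W H : Finset (Finset α)} (hHW : H ⊆ W) (e : α) :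
    df W H e = ∑ T ∈ W.filter (fun T => e ∈ T), ms H T := by
  have h1 : NL.dW W e = ∑ T ∈ W.filter (fun T => e ∈ T), (1 : ℝ) := by
    rw [sum_const, nsmul_eq_mul, mul_one]
    rfl
  have h2 : dH H e = ∑ T ∈ W.filter (fun T => e ∈ T), (if T ∈ H then (1 : ℝ) else 0) := by
    unfold dH
    rw [← sum_filter, sum_const, nsmul_eq_mul, mul_one]
    congr 2
    ext T
    simp only [mem_filter]
    constructor
    · rintro ⟨h, h'⟩
      exact ⟨⟨hHW h, h'⟩, h⟩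
    · rintro ⟨⟨_, h'⟩, h⟩
      exact ⟨h, h'⟩
  unfold df
  rw [h1, h2, ← sum_sub_distrib]
  refine sum_congr rfl fun T _ => ?_
  unfold ms
  split_ifs <;> norm_num

theorem df_nonneg {W H : Finset (Finset α)} (hHW : H ⊆ W) (e : α) : 0 ≤ df W H e := by
  rw [df_eq hHW]
  exact sum_nonneg fun T _ => ms_nonneg H T

theorem dH_nonneg (H : Finset (Finset α)) (e : α) : 0 ≤ dH H e := by
  unfold dH
  positivity

variable {Bl : Finset (Finset α)} {th u K : ℝ} {s : NL.St α} {B2 : Finset α}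

theorem blsub (hI : NL.Inv Bl th u s) (hB : B2 ⊆ s.B) : bl Bl B2 ⊆ s.W := by
  intro T hT
  rw [mem_bl] at hT
  exact hI.full T hT.1 (hT.2.trans hB)

/-- number of missing blocks -/
theorem ms_sum (_hL : Lin3 Bl) (hI : NL.Inv Bl th u s) (hth : th ≤ 1 / 10) (huK : u * K = 1)
    (hK : 0 < K) :
    ∑ T ∈ s.W, ms (bl Bl B2) T ≤ NL.V s + 11 / 10 * K * ((s.B \ B2).card : ℝ) := by
  have h1 : ∀ T ∈ s.W, ms (bl Bl B2) T ≤ ((T \ s.B).card : ℝ) +
      ∑ f ∈ s.B \ B2, (if f ∈ T then (1 : ℝ) else 0) := by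
    intro T hT
    have hn : 0 ≤ ∑ f ∈ s.B \ B2, (if f ∈ T then (1 : ℝ) else 0) :=
      sum_nonneg fun f _ => by split_ifs <;> norm_num
    unfold ms
    split_ifs with h
    · positivity
    · have h2 : ¬ T ⊆ B2 := fun h' => h (mem_bl.mpr ⟨hI.sub hT, h'⟩)
      rw [not_subset] at h2
      obtain ⟨f, hfT, hf⟩ := h2
      by_cases hfB : f ∈ s.B
      · have h3 : (1 : ℝ) ≤ ∑ f ∈ s.B \ B2, (if f ∈ T then (1 : ℝ) else 0) := by
          calc (1 : ℝ) = if f ∈ T then (1 : ℝ) else 0 := by rw [if_pos hfT]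
            _ ≤ _ := single_le_sum (f := fun f => if f ∈ T then (1 : ℝ) else 0)
                (fun g _ => by split_ifs <;> norm_num) (mem_sdiff.mpr ⟨hfB, hf⟩)
        have h4 : (0 : ℝ) ≤ ((T \ s.B).card : ℝ) := Nat.cast_nonneg _
        linarith
      · have h3 : (1 : ℝ) ≤ ((T \ s.B).card : ℝ) := by
          exact_mod_cast card_pos.mpr ⟨f, mem_sdiff.mpr ⟨hfT, hfB⟩⟩
        linarith
  refine (sum_le_sum h1).trans ?_
  rw [sum_add_distrib]
  refine add_le_add le_rfl ?_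
  rw [sum_comm]
  have h2 : ∀ f ∈ s.B \ B2, ∑ T ∈ s.W, (if f ∈ T then (1 : ℝ) else 0) ≤ 11 / 10 * K := by
    intro f hf
    have h3 := NL.QQ.dW_le hI hth huK hK (mem_sdiff.mp hf).1
    unfold NL.dW at h3
    rw [← sum_filter, sum_const, nsmul_eq_mul, mul_one]
    exact h3
  refine (sum_le_sum h2).trans (le_of_eq ?_)
  rw [sum_const, nsmul_eq_mul]
  ring

theorem df_sum (hL : Lin3 Bl) (hI : NL.Inv Bl th u s) (hth : th ≤ 1 / 10) (huK : u * K = 1)
    (hK : 0 < K) (hB : B2 ⊆ s.B) :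
    u * ∑ e ∈ B2, df s.W (bl Bl B2) e ≤
      33 / 10 * (u * NL.V s + ((s.B \ B2).card : ℝ)) + 33 / 100 * ((s.B \ B2).card : ℝ) := by
  have hu : 0 < u := by
    by_contra hu
    have : u * K ≤ 0 := mul_nonpos_of_nonpos_of_nonneg (not_lt.mp hu) hK.le
    linarith
  have h1 : ∑ e ∈ B2, df s.W (bl Bl B2) e ≤ 3 * ∑ T ∈ s.W, ms (bl Bl B2) T := by
    rw [sum_congr rfl fun e _ => df_eq (blsub hI hB) e]
    exact swap3 (fun T hT => hL.card3 T (hI.sub hT)) B2 _ fun T _ => ms_nonneg _ T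
  have h2 := ms_sum (B2 := B2) hL hI hth huK hK
  have h3 : u * ∑ e ∈ B2, df s.W (bl Bl B2) e ≤
      u * (3 * (NL.V s + 11 / 10 * K * ((s.B \ B2).card : ℝ))) :=
    mul_le_mul_of_nonneg_left (by linarith) hu.le
  have h4 : u * (3 * (NL.V s + 11 / 10 * K * ((s.B \ B2).card : ℝ))) =
      3 * (u * NL.V s) + 33 / 10 * ((s.B \ B2).card : ℝ) * (u * K) := by ring
  rw [h4, huK] at h3
  have h5 : 0 ≤ NL.V s := sum_nonneg fun T _ => Nat.cast_nonneg _
  have h6 : 0 ≤ u * NL.V s := mul_nonneg hu.le h5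
  have h7 : (0 : ℝ) ≤ ((s.B \ B2).card : ℝ) := Nat.cast_nonneg _
  linarith

theorem dH_le (hI : NL.Inv Bl th u s) (hth : th ≤ 1 / 10) (huK : u * K = 1)
    (hK : 0 < K) (hB : B2 ⊆ s.B) (e : α) : dH (bl Bl B2) e ≤ 11 / 10 * K := by
  by_cases he : e ∈ B2
  · refine le_trans ?_ (NL.QQ.dW_le hI hth huK hK (hB he))
    have := df_nonneg (blsub hI hB) e
    unfold df at this
    linarith
  · have h1 : (bl Bl B2).filter (fun T => e ∈ T) = ∅ := by
      rw [filter_eq_empty_iff]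
      intro T hT heT
      exact he ((mem_bl.mp hT).2 heT)
    unfold dH
    rw [h1, card_empty, Nat.cast_zero]
    positivity

theorem xx_eq (huK : u * K = 1) (hK : 0 < K) (hB : B2 ⊆ s.B) {e : α} (he : e ∈ B2) :
    xx (bl Bl B2) K e = NL.xv u s e - u * df s.W (bl Bl B2) e := by
  have h1 : u = 1 / K := by
    rw [eq_div_iff hK.ne']
    exact huK
  unfold xx NL.xv df
  rw [if_pos (hB he), h1]
  ring

theorem udf_le (hI : NL.Inv Bl th u s) (hth : th ≤ 1 / 10) (huK : u * K = 1)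
    (hK : 0 < K) (hB : B2 ⊆ s.B) {e : α} (he : e ∈ B2) :
    0 ≤ u * df s.W (bl Bl B2) e ∧ u * df s.W (bl Bl B2) e ≤ 11 / 10 := by
  have hu : 0 < u := by
    by_contra hu
    have : u * K ≤ 0 := mul_nonpos_of_nonpos_of_nonneg (not_lt.mp hu) hK.le
    linarith
  refine ⟨mul_nonneg hu.le (df_nonneg (blsub hI hB) e), ?_⟩
  have h1 : df s.W (bl Bl B2) e ≤ 11 / 10 * K := by
    have h2 := NL.QQ.dW_le hI hth huK hK (hB he)
    have h3 := dH_nonneg (bl Bl B2) e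
    unfold df
    linarith
  calc u * df s.W (bl Bl B2) e ≤ u * (11 / 10 * K) := mul_le_mul_of_nonneg_left h1 hu.le
    _ = 11 / 10 * (u * K) := by ring
    _ = 11 / 10 := by rw [huK, mul_one]

/-- the error in `beta` -/
def ww (Bl : Finset (Finset α)) (u K : ℝ) (s : NL.St α) (B2 G : Finset α) (T : Finset α)
    (f : α) : ℝ :=
  |NL.xv u s f - (if T ∈ bl Bl B2 ∧ f ∈ G then xx (bl Bl B2) K f else 0)|

theorem ww_le (hI : NL.Inv Bl th u s) (hth : th ≤ 1 / 10) (huK : u * K = 1)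
    (hK : 0 < K) (hB : B2 ⊆ s.B) {G : Finset α} (hG : G ⊆ B2) (T : Finset α) (f : α) :
    ww Bl u K s B2 G T f ≤ 11 / 10 ∧ (T ∈ bl Bl B2 → ww Bl u K s B2 G T f ≤
      (if f ∈ G then 0 else 1) + (if f ∈ B2 then u * df s.W (bl Bl B2) f else 0)) := by
  have h1 := hI.bd f
  unfold ww
  by_cases h : T ∈ bl Bl B2 ∧ f ∈ G
  · rw [if_pos h]
    have h2 := udf_le hI hth huK hK hB (hG h.2)
    rw [xx_eq huK hK hB (hG h.2)]
    have h3 : NL.xv u s f - (NL.xv u s f - u * df s.W (bl Bl B2) f) =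
        u * df s.W (bl Bl B2) f := by ring
    rw [h3, abs_of_nonneg h2.1, if_pos h.2, if_pos (hG h.2)]
    exact ⟨h2.2, fun _ => by linarith⟩
  · rw [if_neg h, sub_zero]
    refine ⟨by linarith, fun hT => ?_⟩
    have h2 : f ∉ G := fun h' => h ⟨hT, h'⟩
    rw [if_neg h2]
    split_ifs with h3
    · have h4 := udf_le hI hth huK hK hB h3
      linarith
    · linarith

theorem be_sub (hI : NL.Inv Bl th u s) (huK : u * K = 1) (hK : 0 < K)
    (hB : B2 ⊆ s.B) {G : Finset α} (e : α) :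
    |NL.be u s e - bG (bl Bl B2) G K e| ≤
      u * ∑ T ∈ s.W.filter (fun T => e ∈ T), ∑ f ∈ T.erase e, ww Bl u K s B2 G T f := by
  have hu : 0 < u := by
    by_contra hu
    have : u * K ≤ 0 := mul_nonpos_of_nonpos_of_nonneg (not_lt.mp hu) hK.le
    linarith
  have h1 : u = 1 / K := by
    rw [eq_div_iff hK.ne']
    exact huK
  have h2 : bG (bl Bl B2) G K e = u * ∑ T ∈ s.W.filter (fun T => e ∈ T), ∑ f ∈ T.erase e,
      (if T ∈ bl Bl B2 ∧ f ∈ G then xx (bl Bl B2) K f else 0) := by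
    unfold bG
    rw [← h1]
    congr 1
    have h3 : (bl Bl B2).filter (fun T => e ∈ T) ⊆ s.W.filter (fun T => e ∈ T) :=
      filter_subset_filter _ (blsub hI hB)
    rw [← sum_subset h3]
    · refine sum_congr rfl fun T hT => ?_
      rw [mem_filter] at hT
      rw [sum_filter]
      refine sum_congr rfl fun f _ => ?_
      by_cases hf : f ∈ G
      · rw [if_pos hf, if_pos ⟨hT.1, hf⟩]
      · rw [if_neg hf, if_neg fun h => hf h.2]
    · intro T hT hT'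
      rw [mem_filter] at hT hT'
      refine sum_eq_zero fun f _ => ?_
      rw [if_neg]
      rintro ⟨h, _⟩
      exact hT' ⟨h, hT.2⟩
  rw [h2]
  unfold NL.be NL.sm
  rw [← mul_sub, abs_mul, abs_of_pos hu]
  refine mul_le_mul_of_nonneg_left ?_ hu.le
  rw [← sum_sub_distrib]
  refine (abs_sum_le_sum_abs _ _).trans (sum_le_sum fun T _ => ?_)
  rw [← sum_sub_distrib]
  exact abs_sum_le_sum_abs _ _

theorem err_sum (hL : Lin3 Bl) (hI : NL.Inv Bl th u s) (hth : th ≤ 1 / 10) (huK : u * K = 1)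
    (hK : 0 < K) (hB : B2 ⊆ s.B) {G : Finset α} (hG : G ⊆ B2) :
    ∑ e ∈ G, (NL.be u s e - bG (bl Bl B2) G K e) ^ 2 ≤
      100 * (u * NL.V s + ((s.B \ B2).card : ℝ)) + 10 * ((B2 \ G).card : ℝ) := by
  have hu : 0 < u := by
    by_contra hu
    have : u * K ≤ 0 := mul_nonpos_of_nonpos_of_nonneg (not_lt.mp hu) hK.le
    linarith
  have hw0 : ∀ T f, 0 ≤ ww Bl u K s B2 G T f := fun T f => abs_nonneg _
  -- one point
  have h1 : ∀ e ∈ G, (NL.be u s e - bG (bl Bl B2) G K e) ^ 2 ≤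
      121 / 50 * (u * ∑ T ∈ s.W.filter (fun T => e ∈ T), ∑ f ∈ T, ww Bl u K s B2 G T f) := by
    intro e he
    have h2 := be_sub (B2 := B2) (G := G) hI huK hK hB e
    set D := u * ∑ T ∈ s.W.filter (fun T => e ∈ T), ∑ f ∈ T.erase e, ww Bl u K s B2 G T f with hD
    have h3 : D ≤ u * ∑ T ∈ s.W.filter (fun T => e ∈ T), ∑ f ∈ T, ww Bl u K s B2 G T f := by
      refine mul_le_mul_of_nonneg_left (sum_le_sum fun T _ => ?_) hu.le
      exact sum_le_sum_of_subset_of_nonneg (erase_subset _ _) fun f _ _ => hw0 T f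
    have h4 : D ≤ 121 / 50 := by
      have h5 : ∀ T ∈ s.W.filter (fun T => e ∈ T), ∑ f ∈ T.erase e, ww Bl u K s B2 G T f ≤
          22 / 10 := by
        intro T hT
        rw [mem_filter] at hT
        have h6 : ∑ f ∈ T.erase e, ww Bl u K s B2 G T f ≤ ∑ f ∈ T.erase e, (11 / 10 : ℝ) :=
          sum_le_sum fun f _ => (ww_le hI hth huK hK hB hG T f).1
        rw [sum_const, nsmul_eq_mul, card_erase_of_mem hT.2, hL.card3 T (hI.sub hT.1)] at h6
        norm_num at h6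
        linarith
      have h6 := sum_le_sum h5
      rw [sum_const, nsmul_eq_mul] at h6
      have h7 := NL.QQ.dW_le hI hth huK hK (hB (hG he))
      unfold NL.dW at h7
      calc D ≤ u * (((s.W.filter (fun T => e ∈ T)).card : ℝ) * (22 / 10)) :=
            mul_le_mul_of_nonneg_left h6 hu.le
        _ ≤ u * ((11 / 10 * K) * (22 / 10)) :=
            mul_le_mul_of_nonneg_left (mul_le_mul_of_nonneg_right h7 (by norm_num)) hu.le
        _ = 121 / 50 * (u * K) := by ring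
        _ = 121 / 50 := by rw [huK, mul_one]
    have h0 : 0 ≤ D := (abs_nonneg _).trans h2
    calc (NL.be u s e - bG (bl Bl B2) G K e) ^ 2 = |NL.be u s e - bG (bl Bl B2) G K e| ^ 2 := by
          rw [sq_abs]
      _ ≤ D ^ 2 := pow_le_pow_left₀ (abs_nonneg _) h2 2
      _ ≤ 121 / 50 * D := by nlinarith
      _ ≤ _ := by linarith
  refine (sum_le_sum h1).trans ?_
  rw [← mul_sum, ← mul_sum]
  have h2 : ∑ e ∈ G, ∑ T ∈ s.W.filter (fun T => e ∈ T), ∑ f ∈ T, ww Bl u K s B2 G T f ≤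
      3 * ∑ T ∈ s.W, ∑ f ∈ T, ww Bl u K s B2 G T f :=
    swap3 (fun T hT => hL.card3 T (hI.sub hT)) G _ fun T _ => sum_nonneg fun f _ => hw0 T f
  -- the sum over the blocks
  have h3 : ∑ T ∈ s.W, ∑ f ∈ T, ww Bl u K s B2 G T f ≤
      33 / 10 * ∑ T ∈ s.W, ms (bl Bl B2) T + ∑ T ∈ bl Bl B2, ∑ f ∈ T,
        ((if f ∈ G then 0 else 1) + (if f ∈ B2 then u * df s.W (bl Bl B2) f else 0)) := by
    have h4 : ∑ T ∈ bl Bl B2, ∑ f ∈ T,
        ((if f ∈ G then (0 : ℝ) else 1) + (if f ∈ B2 then u * df s.W (bl Bl B2) f else 0)) =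
        ∑ T ∈ s.W, (if T ∈ bl Bl B2 then ∑ f ∈ T,
          ((if f ∈ G then (0 : ℝ) else 1) + (if f ∈ B2 then u * df s.W (bl Bl B2) f else 0))
          else 0) := by
      rw [← sum_filter]
      refine sum_congr ?_ fun _ _ => rfl
      ext T
      rw [mem_filter]
      exact ⟨fun h => ⟨blsub hI hB h, h⟩, fun h => h.2⟩
    rw [h4, mul_sum, ← sum_add_distrib]
    refine sum_le_sum fun T hT => ?_
    unfold ms
    split_ifs with h
    · rw [mul_zero, zero_add]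
      exact sum_le_sum fun f _ => (ww_le hI hth huK hK hB hG T f).2 h
    · rw [mul_one, add_zero]
      have h6 : ∑ f ∈ T, ww Bl u K s B2 G T f ≤ ∑ f ∈ T, (11 / 10 : ℝ) :=
        sum_le_sum fun f _ => (ww_le hI hth huK hK hB hG T f).1
      rw [sum_const, nsmul_eq_mul, hL.card3 T (hI.sub hT)] at h6
      norm_num at h6
      linarith
  have h4 : ∑ T ∈ bl Bl B2, ∑ f ∈ T,
      ((if f ∈ G then (0 : ℝ) else 1) + (if f ∈ B2 then u * df s.W (bl Bl B2) f else 0)) ≤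
      11 / 10 * K * (((B2 \ G).card : ℝ) + u * ∑ e ∈ B2, df s.W (bl Bl B2) e) := by
    have h5 : ∀ T ∈ bl Bl B2, ∑ f ∈ T,
        ((if f ∈ G then (0 : ℝ) else 1) + (if f ∈ B2 then u * df s.W (bl Bl B2) f else 0)) =
        ∑ f ∈ B2, (if f ∈ T then ((if f ∈ G then (0 : ℝ) else 1)
          + (if f ∈ B2 then u * df s.W (bl Bl B2) f else 0)) else 0) := by
      intro T hT
      rw [← sum_filter]
      refine sum_congr ?_ fun _ _ => rfl
      ext f
      rw [mem_filter]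
      exact ⟨fun h => ⟨(mem_bl.mp hT).2 h, h⟩, fun h => h.2⟩
    rw [sum_congr rfl h5, sum_comm]
    have h6 : ∀ f ∈ B2, ∑ T ∈ bl Bl B2, (if f ∈ T then ((if f ∈ G then (0 : ℝ) else 1)
          + (if f ∈ B2 then u * df s.W (bl Bl B2) f else 0)) else 0) ≤
        11 / 10 * K * ((if f ∈ G then (0 : ℝ) else 1) + u * df s.W (bl Bl B2) f) := by
      intro f hf
      rw [← sum_filter, sum_const, nsmul_eq_mul, if_pos hf]
      refine mul_le_mul_of_nonneg_right (dH_le hI hth huK hK hB f) ?_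
      have h7 := (udf_le hI hth huK hK hB hf).1
      split_ifs <;> linarith
    refine (sum_le_sum h6).trans (le_of_eq ?_)
    rw [← mul_sum, sum_add_distrib, ← mul_sum]
    congr 2
    have h7 : ∀ f ∈ B2, (if f ∈ G then (0 : ℝ) else 1) = if f ∉ G then (1 : ℝ) else 0 := by
      intro f _
      by_cases h : f ∈ G
      · simp [h]
      · simp [h]
    rw [sum_congr rfl h7, ← sum_filter, sum_const, nsmul_eq_mul, mul_one]
    congr 2
    ext f
    rw [mem_filter, mem_sdiff]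
  have h5 := ms_sum (B2 := B2) hL hI hth huK hK
  have h6 := df_sum (B2 := B2) hL hI hth huK hK hB
  set X := ((s.B \ B2).card : ℝ) with hX
  set Y := ((B2 \ G).card : ℝ) with hY
  set Df := u * ∑ e ∈ B2, df s.W (bl Bl B2) e with hDf
  have hV : 0 ≤ NL.V s := sum_nonneg fun T _ => Nat.cast_nonneg _
  have hX0 : 0 ≤ X := Nat.cast_nonneg _
  have hY0 : 0 ≤ Y := Nat.cast_nonneg _
  have h7 : u * ∑ T ∈ s.W, ∑ f ∈ T, ww Bl u K s B2 G T f ≤
      33 / 10 * (u * NL.V s) + 363 / 100 * X + 11 / 10 * (Y + Df) := by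
    have h8 : ∑ T ∈ s.W, ∑ f ∈ T, ww Bl u K s B2 G T f ≤
        33 / 10 * (NL.V s + 11 / 10 * K * X) + 11 / 10 * K * (Y + Df) := by linarith
    have h9 := mul_le_mul_of_nonneg_left h8 hu.le
    have h10 : u * (33 / 10 * (NL.V s + 11 / 10 * K * X) + 11 / 10 * K * (Y + Df)) =
        33 / 10 * (u * NL.V s) + (363 / 100 * X + 11 / 10 * (Y + Df)) * (u * K) := by ring
    rw [h10, huK] at h9
    linarith
  have h8 := mul_le_mul_of_nonneg_left h2 hu.le
  have h9 : 0 ≤ u * NL.V s := mul_nonneg hu.le hV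
  have h10 : 121 / 50 * (u * ∑ e ∈ G, ∑ T ∈ s.W.filter (fun T => e ∈ T), ∑ f ∈ T,
      ww Bl u K s B2 G T f) ≤ 121 / 50 * (3 * (33 / 10 * (u * NL.V s) + 363 / 100 * X
        + 11 / 10 * (Y + Df))) := by
    refine mul_le_mul_of_nonneg_left ?_ (by norm_num)
    linarith
  linarith

theorem four (x d : ℝ) (h1 : 0 ≤ d) (h2 : d ≤ 11 / 10) : (x - d) ^ 4 ≤ 8 * x ^ 4 + 12 * d := by
  have h5 : (x - d) ^ 2 ≤ 2 * (x ^ 2 + d ^ 2) := by nlinarith [sq_nonneg (x + d)]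
  have h6 : (x - d) ^ 4 ≤ (2 * (x ^ 2 + d ^ 2)) ^ 2 := by
    have : (x - d) ^ 4 = ((x - d) ^ 2) ^ 2 := by ring
    rw [this]
    exact pow_le_pow_left₀ (sq_nonneg _) h5 2
  have h7 : (2 * (x ^ 2 + d ^ 2)) ^ 2 ≤ 8 * (x ^ 4 + d ^ 4) := by
    nlinarith [sq_nonneg (x ^ 2 - d ^ 2)]
  have h8 : d ^ 2 ≤ 11 / 10 * d := by nlinarith
  have h9 : d ^ 4 ≤ 3 / 2 * d := by
    have h10 : d ^ 4 = (d ^ 2) ^ 2 := by ring
    have h11 : (d ^ 2) ^ 2 ≤ (11 / 10 * d) ^ 2 := pow_le_pow_left₀ (sq_nonneg _) h8 2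
    have h12 : (11 / 10 * d) ^ 2 = 121 / 100 * d ^ 2 := by ring
    rw [h10]
    linarith
  linarith

theorem exc (x d c : ℝ) (hc : 0 < c) (hd : 0 ≤ d) (h : 2 < c * (|x| + d)) :
    1 ≤ c ^ 4 * x ^ 4 + c * d := by
  by_cases h9 : 1 ≤ c * |x|
  · have h10 : 1 ≤ (c * |x|) ^ 4 := one_le_pow₀ h9
    have h11 : (c * |x|) ^ 4 = c ^ 4 * x ^ 4 := by
      rw [mul_pow, Even.pow_abs ⟨2, rfl⟩]
    rw [h11] at h10
    have h12 : 0 ≤ c * d := mul_nonneg hc.le hd
    linarith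
  · push Not at h9
    have h12 : 0 ≤ c ^ 4 * x ^ 4 := by positivity
    have h13 : c * (|x| + d) = c * |x| + c * d := by ring
    rw [h13] at h
    linarith

/-- number of exceptional points -/
theorem exc_card (hI : NL.Inv Bl th u s) (hth : th ≤ 1 / 10) (huK : u * K = 1)
    (hK : 0 < K) (hB : B2 ⊆ s.B) {η Lam c M : ℝ} (he : 0 < η) (hLam : 1 ≤ Lam)
    (hc : c = 2 / η * Lam) (hdf' : ∑ e ∈ B2, u * df s.W (bl Bl B2) e ≤ 4 * M) :
    ((B2 \ B2.filter (fun e => |xx (bl Bl B2) K e| * Lam ≤ η)).card : ℝ) ≤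
      c ^ 4 * NL.S 4 u s + c * (4 * M) := by
  have hc0 : 0 < c := by
    rw [hc]
    positivity
  have hS4 : ∑ e ∈ B2, NL.xv u s e ^ 4 ≤ NL.S 4 u s :=
    sum_le_sum_of_subset_of_nonneg hB fun e _ _ => by positivity
  have h1 : ∀ e ∈ B2 \ B2.filter (fun e => |xx (bl Bl B2) K e| * Lam ≤ η),
      (1 : ℝ) ≤ c ^ 4 * NL.xv u s e ^ 4 + c * (u * df s.W (bl Bl B2) e) := by
    intro e h
    rw [mem_sdiff] at h
    have h2 : η < |xx (bl Bl B2) K e| * Lam := by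
      by_contra h3
      exact h.2 (mem_filter.mpr ⟨h.1, not_lt.mp h3⟩)
    have h4 := udf_le hI hth huK hK hB h.1
    rw [xx_eq huK hK hB h.1] at h2
    have h5 : |NL.xv u s e - u * df s.W (bl Bl B2) e| ≤ |NL.xv u s e| +
        u * df s.W (bl Bl B2) e := by
      refine (abs_sub _ _).trans ?_
      rw [abs_of_nonneg h4.1]
    refine exc _ _ c hc0 h4.1 ?_
    have h7 : η < (|NL.xv u s e| + u * df s.W (bl Bl B2) e) * Lam :=
      lt_of_lt_of_le h2 (mul_le_mul_of_nonneg_right h5 (by linarith))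
    rw [hc]
    have h8 : 2 / η * Lam * (|NL.xv u s e| + u * df s.W (bl Bl B2) e) =
        ((|NL.xv u s e| + u * df s.W (bl Bl B2) e) * Lam) * 2 / η := by ring
    rw [h8, lt_div_iff₀ he]
    linarith
  have h2 := sum_le_sum h1
  rw [sum_const, nsmul_eq_mul, mul_one, sum_add_distrib, ← mul_sum, ← mul_sum] at h2
  have h3 : ∑ e ∈ B2 \ B2.filter (fun e => |xx (bl Bl B2) K e| * Lam ≤ η), NL.xv u s e ^ 4 ≤
      ∑ e ∈ B2, NL.xv u s e ^ 4 :=
    sum_le_sum_of_subset_of_nonneg sdiff_subset fun e _ _ => by positivity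
  have h4 : ∑ e ∈ B2 \ B2.filter (fun e => |xx (bl Bl B2) K e| * Lam ≤ η),
      u * df s.W (bl Bl B2) e ≤ ∑ e ∈ B2, u * df s.W (bl Bl B2) e :=
    sum_le_sum_of_subset_of_nonneg sdiff_subset fun e h _ => (udf_le hI hth huK hK hB h).1
  have h5 := mul_le_mul_of_nonneg_left (h3.trans hS4) (show 0 ≤ c ^ 4 by positivity)
  have h6 := mul_le_mul_of_nonneg_left (h4.trans hdf') hc0.le
  linarith

end SrcLe

open SrcLe

/-- the source of the final phase -/
theorem src_le {η : ℝ} (he : 0 < η) : ∃ C : ℝ, 0 < C ∧ ∀ (α : Type) [DecidableEq α]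
    (Bl : Finset (Finset α)), Lin3 Bl → ∀ (th u K : ℝ) (s : NL.St α), NL.Inv Bl th u s →
    th ≤ 1 / 10 → u * K = 1 → 1 ≤ K → ∀ B2 ⊆ s.B, ∃ G ⊆ B2,
    (∀ e ∈ G, |xx (bl Bl B2) K e| * (1 + Real.log (1 + 2 * K)) ≤ η) ∧
    (∀ e, dH (bl Bl B2) e ≤ 2 * K) ∧ bl Bl B2 ⊆ s.W ∧
    Src (bl Bl B2) B2 G K ≤ C * (1 + Real.log (1 + 2 * K)) ^ 4 *
      (NL.Sb u s + NL.S 4 u s + u * NL.V s + ((s.B \ B2).card : ℝ))
      + (B2.card : ℝ) / K ^ 2 := by
  refine ⟨500 + 25 * ((2 / η) ^ 4 + 4 * (2 / η)), by positivity, ?_⟩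
  intro α _ Bl hL th u K s hI hth huK hK1 B2 hB
  have hK : 0 < K := by linarith
  have hu : 0 < u := by
    by_contra hu
    have : u * K ≤ 0 := mul_nonpos_of_nonpos_of_nonneg (not_lt.mp hu) hK.le
    linarith
  set Lam := 1 + Real.log (1 + 2 * K) with hLam
  have hLam1 : 1 ≤ Lam := by
    have : 0 ≤ Real.log (1 + 2 * K) := Real.log_nonneg (by linarith)
    linarith
  set G := B2.filter (fun e => |xx (bl Bl B2) K e| * Lam ≤ η) with hGdef
  have hG : G ⊆ B2 := filter_subset _ _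
  refine ⟨G, hG, fun e h => (mem_filter.mp h).2, fun e => ?_, blsub hI hB, ?_⟩
  · have := dH_le hI hth huK hK hB e
    linarith
  have hdf := df_sum (B2 := B2) hL hI hth huK hK hB
  have herr := err_sum hL hI hth huK hK hB hG
  set M := u * NL.V s + ((s.B \ B2).card : ℝ) with hM
  have hV : 0 ≤ NL.V s := sum_nonneg fun T _ => Nat.cast_nonneg _
  have hX0 : (0 : ℝ) ≤ ((s.B \ B2).card : ℝ) := Nat.cast_nonneg _
  have huV : 0 ≤ u * NL.V s := mul_nonneg hu.le hV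
  have hM0 : 0 ≤ M := by linarith
  have hXM : ((s.B \ B2).card : ℝ) ≤ M := by linarith
  have hdf' : ∑ e ∈ B2, u * df s.W (bl Bl B2) e ≤ 4 * M := by
    rw [← mul_sum]
    linarith
  have hS4 : ∑ e ∈ B2, NL.xv u s e ^ 4 ≤ NL.S 4 u s :=
    sum_le_sum_of_subset_of_nonneg hB fun e _ _ => by positivity
  have hS40 : 0 ≤ NL.S 4 u s := sum_nonneg fun e _ => by positivity
  have hSb0 : 0 ≤ NL.Sb u s := sum_nonneg fun e _ => sq_nonneg _
  have hSb : ∑ e ∈ G, NL.be u s e ^ 2 ≤ NL.Sb u s :=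
    sum_le_sum_of_subset_of_nonneg (hG.trans hB) fun e _ _ => sq_nonneg _
  -- exceptional points
  set c := 2 / η * Lam with hc
  have hc0 : 0 < c := by positivity
  have hY : ((B2 \ G).card : ℝ) ≤ c ^ 4 * NL.S 4 u s + c * (4 * M) :=
    exc_card hI hth huK hK hB he hLam1 hc hdf'
  -- the three sums
  have hA1 : ∑ e ∈ G, bG (bl Bl B2) G K e ^ 2 ≤
      2 * NL.Sb u s + 200 * M + 20 * ((B2 \ G).card : ℝ) := by
    have h1 : ∀ e ∈ G, bG (bl Bl B2) G K e ^ 2 ≤ 2 * NL.be u s e ^ 2 +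
        2 * (NL.be u s e - bG (bl Bl B2) G K e) ^ 2 := by
      intro e _
      nlinarith [sq_nonneg (NL.be u s e + (NL.be u s e - bG (bl Bl B2) G K e))]
    refine (sum_le_sum h1).trans ?_
    rw [sum_add_distrib, ← mul_sum, ← mul_sum]
    linarith
  have hA2 : ∑ e ∈ G, xx (bl Bl B2) K e ^ 4 ≤ 8 * NL.S 4 u s + 48 * M := by
    have h1 : ∀ e ∈ G, xx (bl Bl B2) K e ^ 4 ≤ 8 * NL.xv u s e ^ 4 +
        12 * (u * df s.W (bl Bl B2) e) := by
      intro e h
      have h4 := udf_le hI hth huK hK hB (hG h)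
      rw [xx_eq huK hK hB (hG h)]
      exact four _ _ h4.1 h4.2
    refine (sum_le_sum h1).trans ?_
    rw [sum_add_distrib, ← mul_sum, ← mul_sum]
    have h3 : ∑ e ∈ G, NL.xv u s e ^ 4 ≤ ∑ e ∈ B2, NL.xv u s e ^ 4 :=
      sum_le_sum_of_subset_of_nonneg hG fun e _ _ => by positivity
    have h4 : ∑ e ∈ G, u * df s.W (bl Bl B2) e ≤ ∑ e ∈ B2, u * df s.W (bl Bl B2) e :=
      sum_le_sum_of_subset_of_nonneg hG fun e h _ => (udf_le hI hth huK hK hB h).1
    linarith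
  have hA3 : ∑ e ∈ B2 \ G, (1 + dH (bl Bl B2) e / K) ≤ 21 / 10 * ((B2 \ G).card : ℝ) := by
    have h1 : ∀ e ∈ B2 \ G, 1 + dH (bl Bl B2) e / K ≤ 21 / 10 := by
      intro e _
      have h2 := dH_le hI hth huK hK hB e
      have h3 : dH (bl Bl B2) e / K ≤ 11 / 10 := by
        rw [div_le_iff₀ hK]
        exact h2
      linarith
    refine (sum_le_sum h1).trans (le_of_eq ?_)
    rw [sum_const, nsmul_eq_mul]
    ring
  have hL4 : 1 ≤ Lam ^ 4 := one_le_pow₀ hLam1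
  have hLL4 : Lam ≤ Lam ^ 4 := by
    calc Lam = Lam ^ 1 := (pow_one _).symm
      _ ≤ Lam ^ 4 := pow_le_pow_right₀ hLam1 (by norm_num)
  unfold Src
  have htot : ∑ e ∈ G, bG (bl Bl B2) G K e ^ 2 + ∑ e ∈ G, xx (bl Bl B2) K e ^ 4
      + ∑ e ∈ B2 \ G, (1 + dH (bl Bl B2) e / K) ≤
      2 * NL.Sb u s + 8 * NL.S 4 u s + 248 * M + 25 * (c ^ 4 * NL.S 4 u s + c * (4 * M)) := by
    have hY0 : (0 : ℝ) ≤ ((B2 \ G).card : ℝ) := Nat.cast_nonneg _
    linarith
  have hc4 : c ^ 4 = (2 / η) ^ 4 * Lam ^ 4 := by rw [hc, mul_pow]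
  set a := (2 / η) ^ 4 with ha
  set b := 2 / η with hb
  have ha0 : 0 < a := by positivity
  have hb0 : 0 < b := by positivity
  have hP : 0 ≤ NL.Sb u s + NL.S 4 u s + M := by linarith
  have h1 : 2 * NL.Sb u s + 8 * NL.S 4 u s + 248 * M ≤
      500 * Lam ^ 4 * (NL.Sb u s + NL.S 4 u s + M) := by
    calc 2 * NL.Sb u s + 8 * NL.S 4 u s + 248 * M ≤ 500 * (NL.Sb u s + NL.S 4 u s + M) := by
          linarith
      _ = 500 * 1 * (NL.Sb u s + NL.S 4 u s + M) := by ring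
      _ ≤ 500 * Lam ^ 4 * (NL.Sb u s + NL.S 4 u s + M) :=
          mul_le_mul_of_nonneg_right (mul_le_mul_of_nonneg_left hL4 (by norm_num)) hP
  have h2 : c ^ 4 * NL.S 4 u s ≤ a * Lam ^ 4 * (NL.Sb u s + NL.S 4 u s + M) := by
    rw [hc4]
    exact mul_le_mul_of_nonneg_left (by linarith) (by positivity)
  have h3 : c * (4 * M) ≤ 4 * b * Lam ^ 4 * (NL.Sb u s + NL.S 4 u s + M) := by
    calc c * (4 * M) = 4 * b * Lam * M := by
          rw [hc]
          ring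
      _ ≤ 4 * b * Lam ^ 4 * M :=
          mul_le_mul_of_nonneg_right (mul_le_mul_of_nonneg_left hLL4 (by positivity)) hM0
      _ ≤ _ := mul_le_mul_of_nonneg_left (by linarith) (by positivity)
  have h4 : NL.Sb u s + NL.S 4 u s + u * NL.V s + ((s.B \ B2).card : ℝ) =
      NL.Sb u s + NL.S 4 u s + M := by
    rw [hM]
    ring
  rw [h4]
  have h5 : (500 + 25 * (a + 4 * b)) * Lam ^ 4 * (NL.Sb u s + NL.S 4 u s + M) =
      500 * Lam ^ 4 * (NL.Sb u s + NL.S 4 u s + M) +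
      25 * (a * Lam ^ 4 * (NL.Sb u s + NL.S 4 u s + M)
        + 4 * b * Lam ^ 4 * (NL.Sb u s + NL.S 4 u s + M)) := by ring
  rw [h5]
  linarith

end

end Vale.Agent.P046.CT
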