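import Vale.Agent.P046.Defs

/-! P046 CONST, row T1: two facts about `run`. -/

namespace Vale.Agent.P046.CT

open Finset Vale.Agent.P046

noncomputable section

variable {α : Type} [DecidableEq α]

theorem bl_bl (Bl : Finset (Finset α)) {A A' : Finset α} (h : A' ⊆ A) :
    bl (bl Bl A) A' = bl Bl A' := by
  unfold bl
  ext T
  simp only [mem_filter]
  constructor
  · rintro ⟨⟨h1, _⟩, h3⟩
    exact ⟨h1, h3⟩
  · rintro ⟨h1, h3⟩
    exact ⟨⟨h1, h3.trans h⟩, h3⟩

/-- only the blocks inside `A` matter -/
theorem run_bl (Bl : Finset (Finset α)) (Φ : Finset α → ℝ) {A : Finset α} (k : ℕ)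
    {A' : Finset α} (h : A' ⊆ A) : run (bl Bl A) Φ k A' = run Bl Φ k A' := by
  induction k generalizing A' with
  | zero => rfl
  | succ k ih =>
    unfold run
    rw [bl_bl Bl h]
    split_ifs with hne
    · congr 1
      exact sum_congr rfl fun T _ => ih (sdiff_subset.trans h)
    · rfl

/-- monotone and additive in the final functional -/
theorem run_le_add (H : Finset (Finset α)) {Φ Ψ : Finset α → ℝ} {c : ℝ} (h : ∀ A, Φ A ≤ Ψ A + c)
    (k : ℕ) (A : Finset α) : run H Φ k A ≤ run H Ψ k A + c := by
  induction k generalizing A with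
  | zero => exact h A
  | succ k ih =>
    unfold run
    split_ifs with hne
    · have hc : (0 : ℝ) < ((bl H A).card : ℝ) := by exact_mod_cast card_pos.2 hne
      have h1 : ∑ T ∈ bl H A, run H Φ k (A \ T) ≤ ∑ T ∈ bl H A, (run H Ψ k (A \ T) + c) :=
        sum_le_sum fun T _ => ih _
      rw [sum_add_distrib, sum_const, nsmul_eq_mul] at h1
      have h2 : (∑ T ∈ bl H A, run H Ψ k (A \ T)) / ((bl H A).card : ℝ) + c =
          (∑ T ∈ bl H A, run H Ψ k (A \ T) + ((bl H A).card : ℝ) * c) / ((bl H A).card : ℝ) := by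
        field_simp
      rw [h2]
      exact div_le_div_of_nonneg_right h1 hc.le
    · exact h A

/-- triangle inequality for the centre -/
theorem run_tri (H : Finset (Finset α)) (x y : ℝ) (k : ℕ) (A : Finset α) :
    run H (fun A' => |(A'.card : ℝ) - x|) k A ≤
      run H (fun A' => |(A'.card : ℝ) - y|) k A + |x - y| := by
  refine run_le_add H (fun A' => ?_) k A
  have h1 : (A'.card : ℝ) - x = ((A'.card : ℝ) - y) + (y - x) := by ring
  rw [h1, abs_sub_comm x y]
  exact abs_add_le _ _

end

end Vale.Agent.P046.CT
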