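import Vale.Agent.P046.NL.Defs2

/-! P046, sharp constant: second moment of the real degrees. -/

namespace Vale.Agent.P046.CT

open Finset Vale.Agent.P046

noncomputable section

variable {α : Type} [DecidableEq α]

/-- second moment of the real degrees -/
def ZZ (Bl : Finset (Finset α)) (A : Finset α) : ℝ := ∑ e ∈ A, (dg Bl A e : ℝ) ^ 2

/-- window functional for `ZZ` on `[uw, uK]` -/
def GZ (Bl : Finset (Finset α)) (uw uK u : ℝ) (s : NL.St α) : ℝ :=
  (u - uw) ^ 3 * ZZ Bl s.A + 16 * (uK - u) * (s.A.card : ℝ)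

end

end Vale.Agent.P046.CT
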