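import Vale.Agent.P046.CT.Det
import Vale.Agent.P046.CT.Del
import Vale.Agent.P046.CT.Sens
import Vale.Agent.P046.CT.SrcLe
import Vale.Agent.P046.CT.Trun
import Vale.Agent.P046.CT.ZDefs
import Vale.Agent.P046.CT.BadDel

/-! P046, sharp constant: row TERM, the bound at the time `u = 1 / K`. -/

namespace Vale.Agent.P046.CT

open Finset Vale.Agent.P046

noncomputable section

namespace Term

/-- growth of powers against logarithms -/
theorem log_pow {a : ℝ} (ha : 0 < a) (k : ℕ) : ∃ C : ℝ, 0 < C ∧ ∀ K : ℝ, 1 ≤ K →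
    (1 + Real.log (1 + 2 * K)) ^ k ≤ C * K ^ a := by
  obtain ⟨b, hb⟩ : ∃ b : ℝ, b = a / (k + 1) := ⟨_, rfl⟩
  have hb0 : 0 < b := by rw [hb]; positivity
  refine ⟨(1 + 3 ^ b / b) ^ k, by positivity, fun K hK => ?_⟩
  have hK0 : 0 < K := by linarith
  have h1 : Real.log (1 + 2 * K) ≤ (1 + 2 * K) ^ b / b := Real.log_le_rpow_div (by linarith) hb0
  have h2 : (1 + 2 * K) ^ b ≤ (3 * K) ^ b :=
    Real.rpow_le_rpow (by linarith) (by linarith) hb0.le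
  have h3 : (3 * K) ^ b = 3 ^ b * K ^ b := Real.mul_rpow (by norm_num) hK0.le
  have h4 : 1 ≤ K ^ b := Real.one_le_rpow hK hb0.le
  have h5 : 1 + Real.log (1 + 2 * K) ≤ (1 + 3 ^ b / b) * K ^ b := by
    have h6 : (1 + 2 * K) ^ b / b ≤ 3 ^ b * K ^ b / b := by
      rw [← h3]
      exact div_le_div_of_nonneg_right h2 hb0.le
    have h7 : (1 + 3 ^ b / b) * K ^ b = K ^ b + 3 ^ b * K ^ b / b := by ring
    rw [h7]
    linarith
  have h0 : 0 ≤ 1 + Real.log (1 + 2 * K) := by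
    have := Real.log_nonneg (by linarith : (1 : ℝ) ≤ 1 + 2 * K)
    linarith
  calc (1 + Real.log (1 + 2 * K)) ^ k ≤ ((1 + 3 ^ b / b) * K ^ b) ^ k :=
        pow_le_pow_left₀ h0 h5 k
    _ = (1 + 3 ^ b / b) ^ k * (K ^ b) ^ k := mul_pow _ _ _
    _ ≤ (1 + 3 ^ b / b) ^ k * K ^ a := by
        refine mul_le_mul_of_nonneg_left ?_ (by positivity)
        rw [← Real.rpow_natCast (K ^ b) k, ← Real.rpow_mul hK0.le]
        refine Real.rpow_le_rpow_of_exponent_le hK ?_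
        rw [hb, div_mul_eq_mul_div, div_le_iff₀ (by positivity)]
        nlinarith

theorem wt_ge {dl : ℝ} (hdl : 0 < dl) (y : ℝ) : 1 ≤ NL.wt dl y := by
  unfold NL.wt
  have h : 0 ≤ 1 / (2 * dl) * (max (y - 1 - dl / 2) 0) ^ 2 := by positivity
  linarith

variable {α : Type} [DecidableEq α]

/-- `|A \ B| ≤ Ph` and `|B \ A| ≤ Ph` -/
theorem ph_AB (Bl : Finset (Finset α)) {dl : ℝ} (hdl : 0 < dl) (u : ℝ) (s : NL.St α) :
    ((s.A \ s.B).card : ℝ) + ((s.B \ s.A).card : ℝ) ≤ NL.Ph Bl dl u s := by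
  have h1 : s.A \ s.B ⊆ ((s.A \ s.B) \ s.Z) ∪ (s.Z ∩ s.A) := by
    intro x hx
    simp only [mem_union, mem_sdiff, mem_inter] at *
    tauto
  have h2 : ((s.A \ s.B).card : ℝ) ≤ (((s.A \ s.B) \ s.Z).card : ℝ) + ((s.Z ∩ s.A).card : ℝ) := by
    exact_mod_cast (card_le_card h1).trans (card_union_le _ _)
  have h3 : (((s.A \ s.B) \ s.Z).card : ℝ) ≤
      ∑ e ∈ (s.A \ s.B) \ s.Z, NL.wt dl (u * NL.gd Bl s e) := by
    have h4 : ∑ _e ∈ (s.A \ s.B) \ s.Z, (1 : ℝ) ≤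
        ∑ e ∈ (s.A \ s.B) \ s.Z, NL.wt dl (u * NL.gd Bl s e) := sum_le_sum fun e _ => wt_ge hdl _
    rwa [sum_const, nsmul_eq_mul, mul_one] at h4
  have h5 : (0 : ℝ) ≤ ((s.Z ∩ s.A).card : ℝ) := Nat.cast_nonneg _
  unfold NL.Ph
  linarith

/-- real degrees inside the modified process -/
theorem dg_le {Bl : Finset (Finset α)} {th u K : ℝ} (huK : u * K = 1) (hK : 0 < K)
    (hth : th ≤ 1 / 10) {s : NL.St α} (hI : NL.Inv Bl th u s) {B' : Finset α} (hB : B' ⊆ s.B)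
    {x : α} (hx : x ∈ s.B) : (dg Bl B' x : ℝ) ≤ 2 * K := by
  have h1 : (dg Bl B' x : ℝ) ≤ NL.dW s.W x := by
    unfold dg NL.dW
    have : (bl Bl B').filter (fun T => x ∈ T) ⊆ s.W.filter (fun T => x ∈ T) := by
      intro T hT
      rw [mem_filter] at hT ⊢
      refine ⟨hI.full T ?_ ?_, hT.2⟩
      · exact (mem_filter.1 hT.1).1
      · exact ((mem_filter.1 hT.1).2).trans hB
    exact_mod_cast card_le_card this
  have h2 := hI.bd x
  unfold NL.xv at h2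
  rw [if_pos hx] at h2
  have h3 := (abs_le.1 h2).2
  have h4 : u * NL.dW s.W x ≤ 2 := by linarith
  have h5 : K * (u * NL.dW s.W x) ≤ K * 2 := mul_le_mul_of_nonneg_left h4 hK.le
  have h6 : K * (u * NL.dW s.W x) = NL.dW s.W x := by
    calc K * (u * NL.dW s.W x) = u * K * NL.dW s.W x := by ring
      _ = NL.dW s.W x := by rw [huK, one_mul]
  linarith

/-- the functional is 1-Lipschitz -/
theorem lip (z : ℝ) (A : Finset α) (x : α) (hx : x ∈ A) :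
    |(fun A' : Finset α => |(A'.card : ℝ) - z|) (A \ {x}) -
      (fun A' : Finset α => |(A'.card : ℝ) - z|) A| ≤ 1 := by
  have h1 : (A \ {x}).card + 1 = A.card := by
    rw [sdiff_singleton_eq_erase]
    exact card_erase_add_one hx
  have h2 : (((A \ {x}).card : ℝ)) = (A.card : ℝ) - 1 := by
    have : (((A \ {x}).card : ℝ)) + 1 = (A.card : ℝ) := by exact_mod_cast h1
    linarith
  refine (abs_abs_sub_abs_le _ _).trans ?_
  rw [h2]
  have : (A.card : ℝ) - 1 - z - ((A.card : ℝ) - z) = -1 := by ring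
  rw [this]
  norm_num

/-- deletion for the final state -/
theorem rdel [Fintype α] {H : Finset (Finset α)} (hL : Lin3 H)
    {Φ : Finset α → ℝ} (hΦ : ∀ A, ∀ x ∈ A, |Φ (A \ {x}) - Φ A| ≤ 1) {t : ℝ} (ht : 0 ≤ t)
    {A B C : Finset α} (h1 : A ⊆ B) (h2 : B ⊆ C) :
    |run H Φ C.card C - run H Φ A.card A| ≤ 2 * Real.exp (-t) * (C.card : ℝ)
      + ∑ x ∈ B \ A, Real.sqrt (1 + 2 * (dg H B x : ℝ) * t)
      + ∑ x ∈ C \ B, Real.sqrt (1 + 2 * (dg H C x : ℝ) * t) := by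
  obtain ⟨sg, hs⟩ := smg_exists H
  exact run_del_of ht (fun A x hx => sens hs hL hΦ ht A hx)
    (fun A => Runt.run_sg_exp hs hL hΦ ht A) h1 h2

/-- linear bound of the deletion cost -/
theorem del_lin {Bl : Finset (Finset α)} {K tau : ℝ} (hK : 1 ≤ K) (ht : 0 ≤ tau)
    {A D : Finset α} (hD : D ⊆ A) :
    ∑ x ∈ D, Real.sqrt (1 + 2 * (dg Bl A x : ℝ) * tau) ≤
      K * (D.card : ℝ) + 1 / K ^ 3 * (2 * (A.card : ℝ) + 8 * tau ^ 2 * ZZ Bl A) := by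
  have hK0 : 0 < K := by linarith
  have h1 : ∀ x ∈ D, Real.sqrt (1 + 2 * (dg Bl A x : ℝ) * tau) ≤
      K + 1 / K ^ 3 * (2 + 8 * tau ^ 2 * (dg Bl A x : ℝ) ^ 2) := by
    intro x _
    obtain ⟨d, hd⟩ : ∃ d : ℝ, d = (dg Bl A x : ℝ) := ⟨_, rfl⟩
    rw [← hd]
    have hd0 : 0 ≤ d := by rw [hd]; exact Nat.cast_nonneg _
    obtain ⟨y, hy⟩ : ∃ y : ℝ, y = 1 + 2 * d * tau := ⟨_, rfl⟩
    have hy0 : 0 ≤ y := by rw [hy]; positivity
    have h2 : y ^ 2 ≤ 2 + 8 * tau ^ 2 * d ^ 2 := by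
      rw [hy]
      nlinarith [sq_nonneg (1 - 2 * d * tau)]
    rw [← hy]
    refine le_trans ?_ (add_le_add_right (mul_le_mul_of_nonneg_left h2
      (by positivity : (0 : ℝ) ≤ 1 / K ^ 3)) K)
    obtain ⟨z, hz⟩ : ∃ z : ℝ, z = Real.sqrt y := ⟨_, rfl⟩
    have hz0 : 0 ≤ z := by rw [hz]; exact Real.sqrt_nonneg _
    have hzy : y = z ^ 2 := by rw [hz, Real.sq_sqrt hy0]
    rw [← hz, hzy]
    rcases le_total z K with h | h
    · have : 0 ≤ 1 / K ^ 3 * (z ^ 2) ^ 2 := by positivity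
      linarith
    · have h3 : z * K ^ 3 ≤ z * z ^ 3 :=
        mul_le_mul_of_nonneg_left (pow_le_pow_left₀ hK0.le h 3) hz0
      have h4 : z ≤ 1 / K ^ 3 * (z ^ 2) ^ 2 := by
        rw [one_div, inv_mul_eq_div, le_div_iff₀ (by positivity)]
        calc z * K ^ 3 ≤ z * z ^ 3 := h3
          _ = (z ^ 2) ^ 2 := by ring
      linarith
  refine (sum_le_sum h1).trans ?_
  rw [sum_add_distrib, sum_const, nsmul_eq_mul, ← mul_sum, mul_comm (D.card : ℝ) K]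
  have h5 : ∑ x ∈ D, (2 + 8 * tau ^ 2 * (dg Bl A x : ℝ) ^ 2) ≤
      2 * (A.card : ℝ) + 8 * tau ^ 2 * ZZ Bl A := by
    calc ∑ x ∈ D, (2 + 8 * tau ^ 2 * (dg Bl A x : ℝ) ^ 2) ≤
        ∑ x ∈ A, (2 + 8 * tau ^ 2 * (dg Bl A x : ℝ) ^ 2) :=
          sum_le_sum_of_subset_of_nonneg hD fun x _ _ => by positivity
      _ = _ := by
        rw [sum_add_distrib, sum_const, nsmul_eq_mul, ← mul_sum, mul_comm]
        rfl
  have := mul_le_mul_of_nonneg_left h5 (by positivity : (0 : ℝ) ≤ 1 / K ^ 3)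
  linarith

/-- the source term -/
theorem src_num {C1 C2 C3 K L4 S R Sr a q : ℝ} (hK1 : 1 ≤ K) (hC1 : 0 < C1) (hC2 : 0 < C2)
    (hS0 : 0 ≤ S) (hR0 : 0 ≤ R) (haq : a ≤ q) (hlog4 : L4 ≤ C3 * K ^ (0.09 : ℝ))
    (hSrc : Sr ≤ C2 * L4 * (S + R) + a / K ^ 2) :
    C1 * K ^ (1.01 : ℝ) * Sr ≤
      C1 * C2 * C3 * K ^ (1.1 : ℝ) * (S + R) + C1 * K ^ (-0.99 : ℝ) * q := by
  have hK0 : 0 < K := by linarith
  have f0 : K ^ (1.01 : ℝ) * K ^ (0.09 : ℝ) = K ^ (1.1 : ℝ) := by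
    rw [← Real.rpow_add hK0]
    norm_num
  have f00 : K ^ (1.01 : ℝ) / K ^ 2 = K ^ (-0.99 : ℝ) := by
    rw [← Real.rpow_natCast K 2, ← Real.rpow_sub hK0]
    norm_num
  have hp101 : 0 < K ^ (1.01 : ℝ) := Real.rpow_pos_of_pos hK0 _
  have h1 : Sr ≤ C2 * (C3 * K ^ (0.09 : ℝ)) * (S + R) + q / K ^ 2 := by
    have h2 : C2 * L4 * (S + R) ≤ C2 * (C3 * K ^ (0.09 : ℝ)) * (S + R) :=
      mul_le_mul_of_nonneg_right (mul_le_mul_of_nonneg_left hlog4 hC2.le) (add_nonneg hS0 hR0)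
    have h3 : a / K ^ 2 ≤ q / K ^ 2 := div_le_div_of_nonneg_right haq (by positivity)
    linarith
  calc C1 * K ^ (1.01 : ℝ) * Sr ≤
      C1 * K ^ (1.01 : ℝ) * (C2 * (C3 * K ^ (0.09 : ℝ)) * (S + R) + q / K ^ 2) :=
        mul_le_mul_of_nonneg_left h1 (by positivity)
    _ = C1 * C2 * C3 * (K ^ (1.01 : ℝ) * K ^ (0.09 : ℝ)) * (S + R)
        + C1 * (K ^ (1.01 : ℝ) / K ^ 2) * q := by ring
    _ = _ := by rw [f0, f00]

/-- the coefficient of the number of points -/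
theorem coef {ε C1 K v : ℝ} (he : 0 < ε) (hC1 : 0 < C1) (hK1 : 1 ≤ K)
    (hvn : v = K ^ (-(1 / 2) : ℝ)) (hKe : ((C1 + 4) * (4 / ε)) ^ (100 / 49 : ℝ) ≤ K) :
    (C1 + 4) * K ^ (-0.99 : ℝ) ≤ ε / 4 * v := by
  have hK0 : 0 < K := by linarith
  have hp99 : 0 < K ^ (-0.99 : ℝ) := Real.rpow_pos_of_pos hK0 _
  have h1 : (C1 + 4) * (4 / ε) ≤ K ^ (0.49 : ℝ) := by
    calc (C1 + 4) * (4 / ε) = (((C1 + 4) * (4 / ε)) ^ (100 / 49 : ℝ)) ^ (0.49 : ℝ) := by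
          rw [← Real.rpow_mul (by positivity)]
          norm_num
      _ ≤ K ^ (0.49 : ℝ) := Real.rpow_le_rpow (by positivity) hKe (by norm_num)
  have h2 : K ^ (0.49 : ℝ) * K ^ (-0.99 : ℝ) = v := by
    rw [hvn, ← Real.rpow_add hK0]
    norm_num
  have h3 : (C1 + 4) * (4 / ε) * K ^ (-0.99 : ℝ) ≤ v := by
    rw [← h2]
    exact mul_le_mul_of_nonneg_right h1 hp99.le
  have h4 : (C1 + 4) * K ^ (-0.99 : ℝ) = ε / 4 * ((C1 + 4) * (4 / ε) * K ^ (-0.99 : ℝ)) := by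
    field_simp
  rw [h4]
  exact mul_le_mul_of_nonneg_left h3 (by positivity)

/-- the real degrees -/
theorem deg_num {C4 K lg Z : ℝ} (hK1 : 1 ≤ K) (hZ0 : 0 ≤ Z)
    (hlog2 : lg ^ 2 ≤ C4 * K ^ (0.1 : ℝ)) :
    1 / K ^ 3 * (8 * lg ^ 2 * Z) ≤ 8 * C4 * K ^ (-2.9 : ℝ) * Z := by
  have hK0 : 0 < K := by linarith
  have h2 : 1 / K ^ 3 * K ^ (0.1 : ℝ) = K ^ (-2.9 : ℝ) := by
    rw [← Real.rpow_natCast K 3, one_div, ← Real.rpow_neg hK0.le, ← Real.rpow_add hK0]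
    norm_num
  calc 1 / K ^ 3 * (8 * lg ^ 2 * Z) = 8 * (1 / K ^ 3) * Z * lg ^ 2 := by ring
    _ ≤ 8 * (1 / K ^ 3) * Z * (C4 * K ^ (0.1 : ℝ)) :=
        mul_le_mul_of_nonneg_left hlog2 (by positivity)
    _ = 8 * C4 * (1 / K ^ 3 * K ^ (0.1 : ℝ)) * Z := by ring
    _ = _ := by rw [h2]

/-- the sum (all powers of `K` are variables) -/
theorem fin_num {ε C1 D1 C4 K v w k11 k99 k29 CK J S P q Z N R a A0 r0 r1 r2 d f inner outer D
    sa sq zt x : ℝ} (he : 0 < ε) (hC1 : 0 < C1) (hD1 : 0 < D1) (hC4 : 0 < C4) (hK : 1 ≤ K)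
    (hv0 : 0 ≤ v) (hv1 : v ≤ 1) (hw : 0 ≤ w) (hJ : 0 ≤ J) (hS : 0 ≤ S) (hP : 0 ≤ P)
    (hq : 0 ≤ q) (hZ : 0 ≤ Z) (hN : 0 ≤ N) (hR : 0 ≤ R) (hA0 : 0 ≤ A0)
    (hk11 : K ≤ k11) (hk99 : K⁻¹ ≤ k99) (hk29 : 0 ≤ k29) (haq : a ≤ q)
    (hRle : R ≤ P + 3 * J * N) (hAle : A0 ≤ q + P) (hsa : sa ≤ sq) (hsq : 0 ≤ sq)
    (hCK : CK = C1 * K + 3 * J * (1 + D1 * k11 + w) + 1)
    (e1 : r0 - r1 ≤ 2 * K⁻¹ * A0 + inner + outer)
    (e2 : inner ≤ w * (3 * J * N))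
    (e3 : outer ≤ K * D + 1 / K ^ 3 * (2 * A0 + zt)) (e3' : D ≤ P)
    (e3z : 1 / K ^ 3 * zt ≤ 8 * C4 * k29 * Z)
    (e5 : r1 ≤ r2 + d) (e7 : d ≤ x + v * R)
    (e6 : r2 ≤ ε / 4 * v * a + f + C1 * K * sa)
    (f1 : f ≤ D1 * k11 * (S + R) + C1 * k99 * q)
    (f2 : (C1 + 4) * k99 ≤ ε / 4 * v) :
    r0 ≤ x + ε * v * q + (D1 + 6 + 8 * C4) * k11 * (S + P)
      + (D1 + 6 + 8 * C4) * k29 * Z + CK * (N + sq) := by
  have hK0 : 0 < K := by linarith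
  have f5 : 1 / K ^ 3 ≤ K⁻¹ := by
    rw [inv_eq_one_div]
    apply one_div_le_one_div_of_le hK0
    calc K = K ^ 1 := (pow_one K).symm
      _ ≤ K ^ 3 := pow_le_pow_right₀ hK (by norm_num)
  have f6 : K⁻¹ ≤ 1 := by
    rw [inv_eq_one_div, div_le_one hK0]
    exact hK
  have hki : 0 < K⁻¹ := by positivity
  have h11 : 1 ≤ k11 := hK.trans hk11
  have hk110 : 0 < k11 := by linarith
  have g1 : C1 * K * sa ≤ CK * sq := by
    have h1 : C1 * K * sa ≤ C1 * K * sq := mul_le_mul_of_nonneg_left hsa (by positivity)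
    have h2 : C1 * K ≤ CK := by
      rw [hCK]
      have : 0 ≤ 3 * J * (1 + D1 * k11 + w) := by positivity
      linarith
    exact h1.trans (mul_le_mul_of_nonneg_right h2 hsq)
  have g2 : ε / 4 * v * a ≤ ε / 4 * v * q := mul_le_mul_of_nonneg_left haq (by positivity)
  have g3 : 2 * K⁻¹ * A0 ≤ 2 * k99 * q + 2 * P := by
    have h1 : 2 * K⁻¹ * A0 ≤ 2 * K⁻¹ * (q + P) := mul_le_mul_of_nonneg_left hAle (by positivity)
    have h2 : K⁻¹ * q ≤ k99 * q := mul_le_mul_of_nonneg_right hk99 hq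
    have h3 : K⁻¹ * P ≤ 1 * P := mul_le_mul_of_nonneg_right f6 hP
    linarith
  have g4 : 1 / K ^ 3 * (2 * A0) ≤ 2 * k99 * q + 2 * P := by
    refine le_trans ?_ g3
    have := mul_le_mul_of_nonneg_right f5 (show (0 : ℝ) ≤ 2 * A0 by positivity)
    linarith
  have g5 : K * D ≤ k11 * P := by
    calc K * D ≤ K * P := mul_le_mul_of_nonneg_left e3' hK0.le
      _ ≤ k11 * P := mul_le_mul_of_nonneg_right hk11 hP
  have g6 : v * R ≤ k11 * P + 3 * J * N := by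
    have h1 : v * R ≤ 1 * R := mul_le_mul_of_nonneg_right hv1 hR
    have h2 : 1 * P ≤ k11 * P := mul_le_mul_of_nonneg_right h11 hP
    linarith
  have g7 : D1 * k11 * R ≤ D1 * k11 * (P + 3 * J * N) :=
    mul_le_mul_of_nonneg_left hRle (by positivity)
  have g8 : 4 * P ≤ 4 * (k11 * P) := by
    have h2 : 1 * P ≤ k11 * P := mul_le_mul_of_nonneg_right h11 hP
    linarith
  have g9 : (C1 + 4) * k99 * q ≤ ε / 4 * v * q := mul_le_mul_of_nonneg_right f2 hq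
  have g10 : 0 ≤ ε / 2 * v * q := by positivity
  have g11 : CK * N = C1 * K * N + 3 * J * N + D1 * k11 * (3 * J * N) + w * (3 * J * N) + N := by
    rw [hCK]
    ring
  have g12 : 0 ≤ C1 * K * N := by positivity
  have g13 : 0 ≤ 8 * C4 * (k11 * (S + P)) := by positivity
  have g14 : 0 ≤ 6 * (k11 * S) := by positivity
  have g15 : 0 ≤ (D1 + 6) * (k29 * Z) := by positivity
  have key : (D1 + 6 + 8 * C4) * k11 * (S + P) = D1 * k11 * S + D1 * k11 * P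
      + 6 * (k11 * S) + 6 * (k11 * P) + 8 * C4 * (k11 * (S + P)) := by ring
  have key2 : (D1 + 6 + 8 * C4) * k29 * Z = 8 * C4 * k29 * Z + (D1 + 6) * (k29 * Z) := by ring
  have key3 : ε * v * q = ε / 4 * v * q + ε / 4 * v * q + ε / 2 * v * q := by ring
  have key4 : D1 * k11 * (S + R) = D1 * k11 * S + D1 * k11 * R := by ring
  have key5 : D1 * k11 * (P + 3 * J * N) = D1 * k11 * P + D1 * k11 * (3 * J * N) := by ring
  have key6 : 1 / K ^ 3 * (2 * A0 + zt) = 1 / K ^ 3 * (2 * A0) + 1 / K ^ 3 * zt := by ring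
  have key7 : (C1 + 4) * k99 * q = C1 * k99 * q + 4 * (k99 * q) := by ring
  have key8 : CK * (N + sq) = CK * N + CK * sq := by ring
  rw [key, key2, key3, key8, g11]
  rw [key4] at f1
  rw [key5] at g7
  rw [key6] at e3
  rw [key7] at g9
  linarith

end Term

open Term in
/-- [TERM] -/
theorem term_K {ε : ℝ} (he : 0 < ε) : ∃ C K0 : ℝ, 0 < C ∧ 1 ≤ K0 ∧ ∀ K : ℝ, K0 ≤ K →
    ∃ (J : ℕ) (CK : ℝ), 0 < CK ∧ ∀ (n : ℕ) (th dl c : ℝ) (s : NL.St (Sym2 (Fin n))), 0 < dl →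
    0 ≤ th → th ≤ 1 / 10 → NL.Inv (BK n) th (1 / K) s →
    run (BK n) (fun A' => |(A'.card : ℝ) - c / Real.sqrt 2|) s.A.card s.A ≤
      |(1 / K) ^ (1 / 2 : ℝ) * NL.Q s - c| + ε * (1 / K) ^ (1 / 2 : ℝ) * NL.Q s
      + C * K ^ (1.1 : ℝ) * (NL.Sb (1 / K) s + NL.S 4 (1 / K) s + (1 / K) * NL.V s
        + NL.Ph (BK n) dl (1 / K) s)
      + C * K ^ (-2.9 : ℝ) * ZZ (BK n) s.A
      + CK * (∑ l ∈ range (2 * J + 1), NL.Nc (CTB.CB n J l) s + Real.sqrt (NL.Q s)) := by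
  obtain ⟨C1, K1, η, hC1, hK1, hη, hdet⟩ := final_det (show 0 < ε / 4 by linarith)
  obtain ⟨C2, hC2, hsrc⟩ := src_le hη
  obtain ⟨C3, hC3, hlog4⟩ := log_pow (show (0 : ℝ) < 0.09 by norm_num) 4
  obtain ⟨C4, hC4, hlog2⟩ := log_pow (show (0 : ℝ) < 0.1 by norm_num) 2
  refine ⟨C1 * C2 * C3 + 6 + 8 * C4, max (max K1 100) (((C1 + 4) * (4 / ε)) ^ (100 / 49 : ℝ)),
    by positivity, le_trans hK1 ((le_max_left _ _).trans (le_max_left _ _)), ?_⟩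
  intro K hK
  have hKK1 : K1 ≤ K := ((le_max_left _ _).trans (le_max_left _ _)).trans hK
  have hK100 : 100 ≤ K := ((le_max_right _ _).trans (le_max_left _ _)).trans hK
  have hKe : ((C1 + 4) * (4 / ε)) ^ (100 / 49 : ℝ) ≤ K := (le_max_right _ _).trans hK
  have hK0 : 0 < K := by linarith
  have hK1' : 1 ≤ K := by linarith
  have hlogK : 0 ≤ Real.log K := Real.log_nonneg hK1'
  obtain ⟨J, hJ⟩ := hdet K hKK1
  obtain ⟨CK, hCK⟩ : ∃ CK : ℝ, CK = C1 * K + 3 * J * (1 + C1 * C2 * C3 * K ^ (1.1 : ℝ)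
    + Real.sqrt (1 + 4 * K * Real.log K)) + 1 := ⟨_, rfl⟩
  have hp11 : 0 < K ^ (1.1 : ℝ) := Real.rpow_pos_of_pos hK0 _
  refine ⟨J, CK, by rw [hCK]; positivity, ?_⟩
  intro n th dl c s hdl hth hth1 hI
  have hL := lin3_BK n
  have huK : 1 / K * K = 1 := by field_simp
  -- the set
  obtain ⟨Bd, hBd, hnb, hcard⟩ := bad_del (n := n) (J := J) s (B' := s.A ∩ s.B) (by
    intro T hT
    have h1 := mem_filter.1 hT
    exact hI.full T h1.1 (h1.2.trans inter_subset_right))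
  have hBdA : Bd ⊆ s.A := hBd.trans inter_subset_left
  have hBdB : Bd ⊆ s.B := hBd.trans inter_subset_right
  obtain ⟨G, hG, hGx, hGd, hGW, hSrc⟩ := hsrc _ (BK n) hL th (1 / K) K s hI hth1 huK hK1'
    Bd hBdB
  -- names
  obtain ⟨N, hN⟩ : ∃ N : ℝ, N = ∑ l ∈ range (2 * J + 1), NL.Nc (CTB.CB n J l) s := ⟨_, rfl⟩
  obtain ⟨P, hP⟩ : ∃ P : ℝ, P = NL.Ph (BK n) dl (1 / K) s := ⟨_, rfl⟩
  obtain ⟨S, hS⟩ : ∃ S : ℝ, S = NL.Sb (1 / K) s + NL.S 4 (1 / K) s + 1 / K * NL.V s := ⟨_, rfl⟩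
  obtain ⟨q, hq⟩ : ∃ q : ℝ, q = NL.Q s := ⟨_, rfl⟩
  obtain ⟨Z, hZ⟩ : ∃ Z : ℝ, Z = ZZ (BK n) s.A := ⟨_, rfl⟩
  obtain ⟨a, ha⟩ : ∃ a : ℝ, a = (Bd.card : ℝ) := ⟨_, rfl⟩
  obtain ⟨R, hR⟩ : ∃ R : ℝ, R = ((s.B \ Bd).card : ℝ) := ⟨_, rfl⟩
  have hN0 : 0 ≤ N := by
    rw [hN]
    exact sum_nonneg fun l _ => Nat.cast_nonneg _
  have hAB := ph_AB (BK n) hdl (1 / K) s
  rw [← hP] at hAB
  have hP0 : 0 ≤ P := le_trans (by positivity) hAB
  have hS0 : 0 ≤ S := by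
    rw [hS]
    have h1 : 0 ≤ NL.Sb (1 / K) s := sum_nonneg fun _ _ => sq_nonneg _
    have h2 : 0 ≤ NL.S 4 (1 / K) s := sum_nonneg fun _ _ => (by decide : Even 4).pow_nonneg _
    have h3 : 0 ≤ NL.V s := sum_nonneg fun _ _ => Nat.cast_nonneg _
    positivity
  have hq0 : 0 ≤ q := by rw [hq]; exact Nat.cast_nonneg _
  have hZ0 : 0 ≤ Z := by
    rw [hZ]
    exact sum_nonneg fun _ _ => sq_nonneg _
  have ha0 : 0 ≤ a := by rw [ha]; exact Nat.cast_nonneg _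
  have hqa : q = a + R := by
    rw [hq, ha, hR]
    unfold NL.Q
    have := card_sdiff_add_card_eq_card hBdB
    rw [add_comm]
    exact_mod_cast this.symm
  have hR0 : 0 ≤ R := by rw [hR]; exact Nat.cast_nonneg _
  have hRle : R ≤ P + 3 * J * N := by
    have h1 : s.B \ Bd ⊆ (s.B \ s.A) ∪ ((s.A ∩ s.B) \ Bd) := by
      intro x hx
      simp only [mem_union, mem_sdiff, mem_inter] at *
      tauto
    have h2 : ((s.B \ Bd).card : ℝ) ≤ ((s.B \ s.A).card : ℝ) + (((s.A ∩ s.B) \ Bd).card : ℝ) := by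
      exact_mod_cast (card_le_card h1).trans (card_union_le _ _)
    have h3 : (0 : ℝ) ≤ ((s.A \ s.B).card : ℝ) := Nat.cast_nonneg _
    rw [hR, hN]
    linarith
  have hAle : (s.A.card : ℝ) ≤ q + P := by
    have h1 : s.A ⊆ (s.A \ s.B) ∪ s.B := by
      intro x hx
      simp only [mem_union, mem_sdiff]
      tauto
    have h2 : (s.A.card : ℝ) ≤ ((s.A \ s.B).card : ℝ) + (s.B.card : ℝ) := by
      exact_mod_cast (card_le_card h1).trans (card_union_le _ _)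
    have h3 : (0 : ℝ) ≤ ((s.B \ s.A).card : ℝ) := Nat.cast_nonneg _
    rw [hq]
    unfold NL.Q
    linarith
  -- powers of K
  have hsq : Real.sqrt K = K ^ (1 / 2 : ℝ) := Real.sqrt_eq_rpow K
  obtain ⟨v, hv⟩ : ∃ v : ℝ, v = (1 / K) ^ (1 / 2 : ℝ) := ⟨_, rfl⟩
  have hv0 : 0 < v := by rw [hv]; positivity
  have hv1 : v ≤ 1 := by
    rw [hv]
    exact Real.rpow_le_one (by positivity) (by rw [div_le_one hK0]; exact hK1') (by norm_num)
  have hvsq : v = 1 / Real.sqrt K := by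
    rw [hv, hsq, Real.div_rpow zero_le_one hK0.le, Real.one_rpow]
  have hvn : v = K ^ (-(1 / 2) : ℝ) := by
    rw [hvsq, hsq, Real.rpow_neg hK0.le, one_div]
  -- step 1: deletion
  have hτ := rdel hL (Φ := fun A' : Finset (Sym2 (Fin n)) => |(A'.card : ℝ) - c / Real.sqrt 2|)
    (fun A x hx => lip _ A x hx) (t := Real.log K) hlogK (A := Bd) (B := s.A ∩ s.B) (C := s.A)
    hBd inter_subset_left
  have e1 := (abs_le.1 hτ).2
  rw [Real.exp_neg, Real.exp_log hK0] at e1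
  -- the inner deleted points
  have e2 : ∑ x ∈ (s.A ∩ s.B) \ Bd, Real.sqrt (1 + 2 * (dg (BK n) (s.A ∩ s.B) x : ℝ) * Real.log K)
      ≤ Real.sqrt (1 + 4 * K * Real.log K) * (3 * J * N) := by
    have h1 : ∀ x ∈ (s.A ∩ s.B) \ Bd,
        Real.sqrt (1 + 2 * (dg (BK n) (s.A ∩ s.B) x : ℝ) * Real.log K) ≤
        Real.sqrt (1 + 4 * K * Real.log K) := by
      intro x hx
      apply Real.sqrt_le_sqrt
      have hxB : x ∈ s.B := (mem_inter.1 (mem_sdiff.1 hx).1).2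
      have h2 := dg_le huK hK0 hth1 hI (B' := s.A ∩ s.B) inter_subset_right hxB
      have h3 := mul_le_mul_of_nonneg_right h2 hlogK
      linarith
    refine (sum_le_sum h1).trans ?_
    rw [sum_const, nsmul_eq_mul, mul_comm]
    refine mul_le_mul_of_nonneg_left ?_ (Real.sqrt_nonneg _)
    rw [hN]
    exact hcard
  -- the outer deleted points
  have e3 := del_lin (Bl := BK n) hK1' hlogK (A := s.A) (D := s.A \ (s.A ∩ s.B)) sdiff_subset
  have e3' : ((s.A \ (s.A ∩ s.B)).card : ℝ) ≤ P := by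
    rw [sdiff_inter_self_left]
    have h3 : (0 : ℝ) ≤ ((s.B \ s.A).card : ℝ) := Nat.cast_nonneg _
    linarith
  -- the run inside
  have e4 : run (BK n) (fun A' => |(A'.card : ℝ) - c / Real.sqrt 2|) Bd.card Bd =
      run (bl (BK n) Bd) (fun A' => |(A'.card : ℝ) - c / Real.sqrt 2|) Bd.card Bd :=
    (run_bl _ _ _ subset_rfl).symm
  have e5 := run_tri (bl (BK n) Bd) (c / Real.sqrt 2) (a / Real.sqrt (2 * K)) Bd.card Bd
  have e6 := hJ (Sym2 (Fin n)) (bl (BK n) Bd) Bd G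
    ⟨fun T hT => hL.card3 T (mem_filter.1 hT).1, fun T hT T' hT' hne =>
      hL.lin T (mem_filter.1 hT).1 T' (mem_filter.1 hT').1 hne⟩
    (fun T hT => (mem_filter.1 hT).2) hG hGd hnb hGx
  rw [← ha] at e6
  -- the distance of the constants
  have e7 : |c / Real.sqrt 2 - a / Real.sqrt (2 * K)| ≤ |v * q - c| + v * R := by
    have h2 : Real.sqrt (2 * K) = Real.sqrt 2 * Real.sqrt K := Real.sqrt_mul (by norm_num) K
    have h3 : c / Real.sqrt 2 - a / Real.sqrt (2 * K) = (1 / Real.sqrt 2) * (c - v * a) := by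
      rw [h2, hvsq]
      have h4 : Real.sqrt 2 ≠ 0 := by positivity
      have h5 : Real.sqrt K ≠ 0 := by positivity
      field_simp
    rw [h3, abs_mul]
    have h6 : |1 / Real.sqrt 2| ≤ 1 := by
      rw [abs_of_pos (by positivity), div_le_one (by positivity)]
      rw [Real.one_le_sqrt]
      norm_num
    have h7 : |c - v * a| ≤ |v * q - c| + v * R := by
      have h8 : c - v * a = -(v * q - c) + v * R := by rw [hqa]; ring
      rw [h8]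
      refine (abs_add_le _ _).trans ?_
      rw [abs_neg, abs_of_nonneg (mul_nonneg hv0.le hR0)]
    calc |1 / Real.sqrt 2| * |c - v * a| ≤ 1 * |c - v * a| :=
          mul_le_mul_of_nonneg_right h6 (abs_nonneg _)
      _ = |c - v * a| := one_mul _
      _ ≤ _ := h7
  -- the sum
  have hlogs : Real.log K ^ 2 ≤ C4 * K ^ (0.1 : ℝ) := by
    refine le_trans ?_ (hlog2 K hK1')
    apply pow_le_pow_left₀ hlogK
    have := Real.log_le_log hK0 (by linarith : K ≤ 1 + 2 * K)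
    linarith
  rw [← hS, ← hR, ← ha] at hSrc
  have haq : a ≤ q := by linarith
  have f1 := src_num hK1' hC1 hC2 hS0 hR0 haq (hlog4 K hK1') hSrc
  have f2 := coef he hC1 hK1' hvn hKe
  have f4 := deg_num hK1' hZ0 hlogs
  have hk11 : K ≤ K ^ (1.1 : ℝ) := by
    calc K = K ^ (1 : ℝ) := (Real.rpow_one K).symm
      _ ≤ K ^ (1.1 : ℝ) := Real.rpow_le_rpow_of_exponent_le hK1' (by norm_num)
  have hk99 : K⁻¹ ≤ K ^ (-0.99 : ℝ) := by
    rw [← Real.rpow_neg_one]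
    exact Real.rpow_le_rpow_of_exponent_le hK1' (by norm_num)
  have hk29 : 0 ≤ K ^ (-2.9 : ℝ) := Real.rpow_nonneg hK0.le _
  have e6' : run (bl (BK n) Bd) (fun A' => |(A'.card : ℝ) - a / Real.sqrt (2 * K)|) Bd.card Bd ≤
      ε / 4 * v * a + C1 * K ^ (1.01 : ℝ) * Src (bl (BK n) Bd) Bd G K
        + C1 * K * Real.sqrt a := by
    refine e6.trans (le_of_eq ?_)
    rw [hvsq]
    ring
  rw [← hZ] at e3
  rw [← e4] at e5
  rw [← hq, ← hS, ← hP, ← hZ, ← hN, ← hv]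
  exact fin_num (ε := ε) (C1 := C1) (D1 := C1 * C2 * C3) (C4 := C4) (K := K) (v := v)
    (w := Real.sqrt (1 + 4 * K * Real.log K)) (k11 := K ^ (1.1 : ℝ)) (k99 := K ^ (-0.99 : ℝ))
    (k29 := K ^ (-2.9 : ℝ)) (CK := CK) (J := (J : ℝ)) (S := S) (P := P) (q := q) (Z := Z)
    (N := N) (R := R) (a := a) (A0 := (s.A.card : ℝ)) he hC1 (by positivity) hC4 hK1' hv0.le hv1
    (Real.sqrt_nonneg _) (Nat.cast_nonneg _) hS0 hP0 hq0 hZ0 hN0 hR0 (Nat.cast_nonneg _)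
    hk11 hk99 hk29 haq hRle hAle (Real.sqrt_le_sqrt haq) (Real.sqrt_nonneg _) hCK
    e1 e2 e3 e3' f4 e5 e7 e6' f1 f2

end

end Vale.Agent.P046.CT
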