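import Vale.Agent.P046.CT.Sup
import Vale.Agent.P046.CT.Term
import Vale.Agent.P046.NL.DS
import Vale.Agent.P046.NL.DSFIX
import Vale.Agent.P046.NL.FIXS
import Vale.Agent.P046.NL.MIDTHMa

/-!
P046, sharp constant: stage 2 (from `u = n^(-delta)` to the end).
-/

namespace Vale.Agent.P046.CT

open Finset Vale.Agent.P046 Vale.Agent.P046.NL

noncomputable section

namespace Stg2

variable {α : Type} [DecidableEq α]

/-- lower bound of `PsiS` -/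
theorem psiS_ge {ep t dl uK u : ℝ} (h0 : 0 < ep) (hdl : 0 < dl) (hu : 0 < u)
    (huK : u ≤ uK) (hK1 : uK ≤ 1 / 100) (Bl : Finset (Finset α))
    (C6 C8 : Finset (Finset (Finset α))) (s : St α) :
    u ^ (-(1 / 2 + ep) : ℝ) * (Sb u s + 1000 / ep * S 4 u s + 400 * t ^ 4 / ep * (u * V s))
      + u ^ (-(1 / 2 + ep / 2) : ℝ) * Ph Bl dl u s ≤ PsiS ep t dl uK Bl C6 C8 u s := by
  unfold PsiS
  have hK : 0 < uK := lt_of_lt_of_le hu huK
  have a1 := FIXS.coef_nonneg (ep := ep) hu huK hK1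
  have a2 := MC.Q_nonneg s
  have a3 := MC.S_nonneg (k := 2) (by decide) u s
  have a4 := MC.Nc_nonneg C6 s
  have a5 := MC.Nc_nonneg C8 s
  have b1 : 0 ≤ 4 * 10 ^ 8 / ep * (uK ^ (1 - ep : ℝ) * u ^ (1 / 2 : ℝ)
      - uK ^ (1 - ep : ℝ) * u ^ (7 / 10 : ℝ)
      - 1 / 2 * uK ^ (1 / 10 - ep : ℝ) * u ^ (7 / 5 : ℝ)) * Q s :=
    mul_nonneg (mul_nonneg (by positivity) a1) a2
  have b2 : 0 ≤ (4 * 10 ^ 6 / ep * uK ^ (1 / 10 - ep : ℝ) * u ^ (2 / 5 : ℝ)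
      + 4 * 10 ^ 8 / ep * uK ^ (1 - ep : ℝ) * u ^ (1 / 10 : ℝ)) * S 2 u s := by positivity
  have b3 : 0 ≤ u ^ (57 / 20 : ℝ) * Nc C6 s := by positivity
  have b4 : 0 ≤ 10 ^ 6 * u ^ (7 / 2 - ep : ℝ) * Nc C8 s := by positivity
  linarith

/-- upper bound of `PsiS` -/
theorem psiS_le {ep t dl uK u : ℝ} (h0 : 0 < ep) (h1 : ep ≤ 1) (ht0 : 0 < t) (ht1 : t ≤ 1)
    (hu : 0 < u) (huK : u ≤ uK) (Bl : Finset (Finset α))
    (C6 C8 : Finset (Finset (Finset α))) (s : St α) :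
    PsiS ep t dl uK Bl C6 C8 u s ≤
      4 * 10 ^ 8 / ep * uK ^ (1 - ep : ℝ) * (u ^ (1 / 2 : ℝ) * Q s)
      + (4 * 10 ^ 6 / ep * uK ^ (1 / 10 - ep : ℝ) * u ^ (2 / 5 : ℝ)
        + 4 * 10 ^ 8 / ep * uK ^ (1 - ep : ℝ) * u ^ (1 / 10 : ℝ)) * S 2 u s
      + 1000 / ep * (u ^ (-(1 / 2 + ep) : ℝ) * (Sb u s + S 4 u s + u * V s))
      + u ^ (-(1 / 2 + ep / 2) : ℝ) * Ph Bl dl u s
      + u ^ (57 / 20 : ℝ) * Nc C6 s + 10 ^ 6 * (u ^ (7 / 2 - ep : ℝ) * Nc C8 s) := by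
  unfold PsiS
  have hK : 0 < uK := lt_of_lt_of_le hu huK
  have a2 := MC.Q_nonneg s
  have a4 := MC.S_nonneg (k := 4) (by decide) u s
  have a5 := MC.Sb_nonneg u s
  have a6 := MC.V_nonneg s
  have b1 : 0 ≤ 4 * 10 ^ 8 / ep * (uK ^ (1 - ep : ℝ) * u ^ (7 / 10 : ℝ)) * Q s := by positivity
  have b2 : 0 ≤ 4 * 10 ^ 8 / ep * (1 / 2 * uK ^ (1 / 10 - ep : ℝ) * u ^ (7 / 5 : ℝ)) * Q s := by
    positivity
  have b3 : u ^ (-(1 / 2 + ep) : ℝ) * (Sb u s + 1000 / ep * S 4 u s + 400 * t ^ 4 / ep * (u * V s)) ≤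
      1000 / ep * (u ^ (-(1 / 2 + ep) : ℝ) * (Sb u s + S 4 u s + u * V s)) := by
    have c1 : 1 ≤ 1000 / ep := by
      rw [le_div_iff₀ h0]
      linarith
    have c2 : 400 * t ^ 4 / ep ≤ 1000 / ep := by
      apply div_le_div_of_nonneg_right _ h0.le
      have : t ^ 4 ≤ 1 := pow_le_one₀ ht0.le ht1
      linarith
    have c3 : Sb u s ≤ 1000 / ep * Sb u s := by nlinarith
    have c4 : 400 * t ^ 4 / ep * (u * V s) ≤ 1000 / ep * (u * V s) :=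
      mul_le_mul_of_nonneg_right c2 (by positivity)
    have c5 : Sb u s + 1000 / ep * S 4 u s + 400 * t ^ 4 / ep * (u * V s) ≤
        1000 / ep * (Sb u s + S 4 u s + u * V s) := by
      rw [mul_add, mul_add]
      linarith
    calc u ^ (-(1 / 2 + ep) : ℝ) * (Sb u s + 1000 / ep * S 4 u s + 400 * t ^ 4 / ep * (u * V s)) ≤
          u ^ (-(1 / 2 + ep) : ℝ) * (1000 / ep * (Sb u s + S 4 u s + u * V s)) :=
          mul_le_mul_of_nonneg_left c5 (by positivity)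
      _ = _ := by ring
  have b4 : 4 * 10 ^ 8 / ep * (uK ^ (1 - ep : ℝ) * u ^ (1 / 2 : ℝ)
      - uK ^ (1 - ep : ℝ) * u ^ (7 / 10 : ℝ)
      - 1 / 2 * uK ^ (1 / 10 - ep : ℝ) * u ^ (7 / 5 : ℝ)) * Q s =
      4 * 10 ^ 8 / ep * uK ^ (1 - ep : ℝ) * (u ^ (1 / 2 : ℝ) * Q s)
      - 4 * 10 ^ 8 / ep * (uK ^ (1 - ep : ℝ) * u ^ (7 / 10 : ℝ)) * Q s
      - 4 * 10 ^ 8 / ep * (1 / 2 * uK ^ (1 / 10 - ep : ℝ) * u ^ (7 / 5 : ℝ)) * Q s := by ring
  rw [b4]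
  linarith

/-- small powers -/
theorem pow_ev {c a δ : ℝ} (ha : 0 < a) (hδ : 0 < δ) :
    ∃ K1 : ℝ, 1 ≤ K1 ∧ ∀ K : ℝ, K1 ≤ K → c * K ^ (-a : ℝ) ≤ δ := by
  have h1 : Filter.Tendsto (fun K : ℝ => c * K ^ (-a : ℝ)) Filter.atTop (nhds (c * 0)) :=
    (tendsto_rpow_neg_atTop ha).const_mul c
  rw [mul_zero] at h1
  have h2 := h1.eventually (gt_mem_nhds hδ)
  obtain ⟨K1, hK1⟩ := Filter.eventually_atTop.1 h2
  exact ⟨max K1 1, le_max_right _ _, fun K hK => (hK1 K ((le_max_left _ _).trans hK)).le⟩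

/-- the last piece of arithmetic at the start -/
theorem start_num {e y c q D P A1 B1 kap R1 w S2 X1 X2 X3 X4 : ℝ} (he : 0 < e) (he1 : e ≤ 1 / 2)
    (hkap : 0 ≤ kap) (hR : 0 ≤ R1) (hw : 0 ≤ w) (hS2 : 0 ≤ S2) (hX1 : 0 ≤ X1) (hX2 : 0 ≤ X2)
    (hX3 : 0 ≤ X3) (hX4 : 0 ≤ X4) (hq0 : 0 ≤ q) (hD : D ≤ 1 + y) (hy : 0 ≤ y)
    (hq : q ≤ c + y) (hP : P ≤ A1 * q + B1 * S2 + R1 * X1 + X2 + X3 + 10 ^ 6 * X4)
    (hA : kap * A1 ≤ e / 2) (hB : kap * B1 ≤ e * w) :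
    (1 + 2 * e) * (D + kap * P) ≤ (1 + 3 * e) * y + e * c + 2 * e * (w * S2)
      + 2 * kap * (R1 + 10 ^ 6) * (X1 + X2 + X3 + X4) + 2 := by
  have k1 : kap * P ≤ e / 2 * (c + y) + e * w * S2
      + kap * (R1 + 10 ^ 6) * (X1 + X2 + X3 + X4) := by
    have k2 := mul_le_mul_of_nonneg_left hP hkap
    have k3 : kap * A1 * q ≤ e / 2 * (c + y) :=
      (mul_le_mul_of_nonneg_right hA hq0).trans (mul_le_mul_of_nonneg_left hq (by positivity))
    have k4 : kap * B1 * S2 ≤ e * w * S2 := mul_le_mul_of_nonneg_right hB hS2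
    have k5 : kap * (R1 * X1 + X2 + X3 + 10 ^ 6 * X4) ≤
        kap * ((R1 + 10 ^ 6) * (X1 + X2 + X3 + X4)) := by
      apply mul_le_mul_of_nonneg_left _ hkap
      nlinarith [mul_nonneg hR hX2, mul_nonneg hR hX3, mul_nonneg hR hX4]
    have k6 : kap * (A1 * q + B1 * S2 + R1 * X1 + X2 + X3 + 10 ^ 6 * X4) =
        kap * A1 * q + kap * B1 * S2 + kap * (R1 * X1 + X2 + X3 + 10 ^ 6 * X4) := by ring
    rw [k6] at k2
    have k7 : kap * ((R1 + 10 ^ 6) * (X1 + X2 + X3 + X4)) =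
        kap * (R1 + 10 ^ 6) * (X1 + X2 + X3 + X4) := by ring
    rw [k7] at k5
    linarith
  have hcy : 0 ≤ c + y := hq0.trans hq
  have m1 : (1 + 2 * e) * (D + kap * P) ≤ (1 + 2 * e) * ((1 + y) + (e / 2 * (c + y) + e * w * S2
      + kap * (R1 + 10 ^ 6) * (X1 + X2 + X3 + X4))) :=
    mul_le_mul_of_nonneg_left (by linarith) (by linarith)
  have m2 : 0 ≤ kap * (R1 + 10 ^ 6) * (X1 + X2 + X3 + X4) := by positivity
  have m3 : 0 ≤ e * w * S2 := by positivity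
  have m4 : 0 ≤ e * (c + y) := by positivity
  have m5 : (1 + 2 * e) * (e / 2 * (c + y)) ≤ 2 * (e / 2 * (c + y)) :=
    mul_le_mul_of_nonneg_right (by linarith) (by positivity)
  have m6 : (1 + 2 * e) * (e * w * S2) ≤ 2 * (e * w * S2) :=
    mul_le_mul_of_nonneg_right (by linarith) (by positivity)
  have m7 : (1 + 2 * e) * (kap * (R1 + 10 ^ 6) * (X1 + X2 + X3 + X4)) ≤
      2 * (kap * (R1 + 10 ^ 6) * (X1 + X2 + X3 + X4)) :=
    mul_le_mul_of_nonneg_right (by linarith) m2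
  linarith

/-- the arithmetic at the end -/
theorem end_num {e c y q D P kap m0 sK C T11 X Z gz CK N V r n : ℝ} (he : 0 < e)
    (hkap : 0 ≤ kap) (hX : 0 ≤ X) (hCK : 0 ≤ CK) (hP0 : 0 ≤ P) (hD0 : 0 ≤ D)
    (hr : r ≤ y + e * q + C * T11 * X + Z + CK * (N + V))
    (hyD : y ≤ D) (hq : q ≤ c + y) (hP : m0 * sK * X ≤ P) (hc2 : C * T11 ≤ kap * (m0 * sK))
    (hZ : Z ≤ gz) (hV : V ≤ n) :
    r ≤ (1 + e) * (D + kap * P) + gz + CK * N + (e * c + CK * n) := by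
  have a1 : C * T11 * X ≤ kap * P := by
    calc C * T11 * X ≤ kap * (m0 * sK) * X := mul_le_mul_of_nonneg_right hc2 hX
      _ = kap * (m0 * sK * X) := by ring
      _ ≤ kap * P := mul_le_mul_of_nonneg_left hP hkap
  have a2 : e * q ≤ e * (c + D) := mul_le_mul_of_nonneg_left (by linarith) he.le
  have a3 : CK * V ≤ CK * n := mul_le_mul_of_nonneg_left hV hCK
  have a4 : 0 ≤ e * (kap * P) := by positivity
  have a5 : CK * (N + V) = CK * N + CK * V := by ring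
  rw [a5] at hr
  have a6 : (1 + e) * (D + kap * P) = D + kap * P + e * D + e * (kap * P) := by ring
  rw [a6]
  linarith

/-- the arithmetic of the window -/
theorem win_num {e c y q D P kap H A Q F gz N k r2 : ℝ} (he : 0 < e) (hq0 : 0 ≤ q)
    (hkap : 1 ≤ kap) (hP0 : 0 ≤ P) (hH : 0 ≤ H) (hF0 : 0 ≤ F) (hr2 : 1 ≤ r2)
    (hgz : gz ≤ H * A) (hA : A ≤ Q + F) (hQ : Q ≤ r2 * q) (hq : q ≤ c + y) (hyD : y ≤ D)
    (hHr : H * r2 ≤ e) (hFP : F ≤ P) :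
    (1 + e) * (D + kap * P) + gz + N + (e * c + k) ≤
      (1 + 2 * e) * (D + kap * P) + N + (2 * e * c + k) := by
  have a1 : H * A ≤ H * (Q + F) := mul_le_mul_of_nonneg_left hA hH
  have a2 : H * Q ≤ H * (r2 * q) := mul_le_mul_of_nonneg_left hQ hH
  have a3 : H * F ≤ e * F := by
    apply mul_le_mul_of_nonneg_right _ hF0
    nlinarith
  have a4 : H * (r2 * q) ≤ H * (r2 * (c + D)) := by
    apply mul_le_mul_of_nonneg_left _ hH
    apply mul_le_mul_of_nonneg_left _ (by linarith)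
    linarith
  have hcD : 0 ≤ c + D := by linarith
  have a5 : F ≤ kap * P := by nlinarith
  have a6 : e * F ≤ e * (kap * P) := mul_le_mul_of_nonneg_left a5 he.le
  have a7 : (1 + 2 * e) * (D + kap * P) = (1 + e) * (D + kap * P) + e * D + e * (kap * P) := by
    ring
  have a8 : H * (Q + F) = H * Q + H * F := by ring
  rw [a7]
  have a9 : H * (r2 * (c + D)) ≤ e * (c + D) := by
    calc H * (r2 * (c + D)) = H * r2 * (c + D) := by ring
      _ ≤ e * (c + D) := mul_le_mul_of_nonneg_right hHr hcD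
  linarith

/-- the concentration functional against the absolute value -/
theorem d_abs (c u : ℝ) (s : St α) :
    |u ^ (1 / 2 : ℝ) * Q s - c| ≤ Real.sqrt (1 + (u ^ (1 / 2 : ℝ) * Q s - c) ^ 2) ∧
    Real.sqrt (1 + (u ^ (1 / 2 : ℝ) * Q s - c) ^ 2) ≤ 1 + |u ^ (1 / 2 : ℝ) * Q s - c| := by
  set y := u ^ (1 / 2 : ℝ) * Q s - c
  constructor
  · rw [← Real.sqrt_sq_eq_abs]
    exact Real.sqrt_le_sqrt (by linarith)
  · rw [Real.sqrt_le_left (by positivity)]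
    have : (1 + |y|) ^ 2 = 1 + 2 * |y| + y ^ 2 := by
      rw [add_sq, sq_abs]; ring
    rw [this]
    have := abs_nonneg y
    linarith

theorem q_le (c u : ℝ) (s : St α) :
    u ^ (1 / 2 : ℝ) * Q s ≤ c + |u ^ (1 / 2 : ℝ) * Q s - c| := by
  have := le_abs_self (u ^ (1 / 2 : ℝ) * Q s - c)
  linarith

/-- the constants -/
theorem consts {e C u1 : ℝ} (K0 : ℝ) (he : 0 < e) (hu1 : 0 < u1) :
    ∃ K : ℝ, K0 ≤ K ∧ 100 ≤ K ∧ 1 / K ≤ u1 ∧ 10 * (1 / K) ≤ t0 e0 ∧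
      C * K ^ (1.1 : ℝ) ≤ K ^ (24 / 25 : ℝ) * (400 * t0 e0 ^ 4 / (3 / 4 * e0) * K ^ (1 / 2 : ℝ)) ∧
      64 * C * K ^ (-(9 / 10) : ℝ) * (2 * K) ^ (1 / 2 : ℝ) ≤ e ∧
      K ^ (24 / 25 : ℝ) * (4 * 10 ^ 8 / (3 / 4 * e0) * (1 / K) ^ (1 - 3 / 4 * e0 : ℝ)) ≤ e / 2 := by
  have he0 : 0 < e0 := by unfold e0; norm_num
  have he0' : e0 ≤ 1 / 1000 := by unfold e0; norm_num
  have ht : 0 < t0 e0 := by unfold t0; positivity
  set m0 : ℝ := 400 * t0 e0 ^ 4 / (3 / 4 * e0) with hm0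
  have hm0' : 0 < m0 := by positivity
  obtain ⟨K1, hK1, p1⟩ := pow_ev (c := C) (a := 9 / 25) (δ := m0) (by norm_num) hm0'
  obtain ⟨K2, hK2, p2⟩ := pow_ev (c := 128 * C) (a := 2 / 5) (δ := e) (by norm_num) he
  obtain ⟨K3, hK3, p3⟩ := pow_ev (c := 4 * 10 ^ 8 / (3 / 4 * e0)) (a := 1 / 25 - 3 / 4 * e0)
    (δ := e / 2) (by linarith) (by positivity)
  set K : ℝ := max (max (max K0 100) (max (1 / u1) (10 / t0 e0))) (max (max K1 K2) K3) with hK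
  have g0 : K0 ≤ K := ((le_max_left _ _).trans (le_max_left _ _)).trans (le_max_left _ _)
  have g1 : 100 ≤ K := ((le_max_right _ _).trans (le_max_left _ _)).trans (le_max_left _ _)
  have g2 : 1 / u1 ≤ K := ((le_max_left _ _).trans (le_max_right _ _)).trans (le_max_left _ _)
  have g3 : 10 / t0 e0 ≤ K := ((le_max_right _ _).trans (le_max_right _ _)).trans (le_max_left _ _)
  have g4 : K1 ≤ K := ((le_max_left _ _).trans (le_max_left _ _)).trans (le_max_right _ _)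
  have g5 : K2 ≤ K := ((le_max_right _ _).trans (le_max_left _ _)).trans (le_max_right _ _)
  have g6 : K3 ≤ K := (le_max_right _ _).trans (le_max_right _ _)
  have hKp : 0 < K := by linarith
  refine ⟨K, g0, g1, ?_, ?_, ?_, ?_, ?_⟩
  · rw [div_le_iff₀ hKp]
    rw [div_le_iff₀ hu1] at g2
    linarith
  · rw [div_le_iff₀ ht] at g3
    rw [mul_one_div, div_le_iff₀ hKp]
    linarith
  · have h1 := p1 K g4
    have h2 : C * K ^ (1.1 : ℝ) = C * K ^ (-(9 / 25) : ℝ) * K ^ (73 / 50 : ℝ) := by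
      rw [mul_assoc, ← Real.rpow_add hKp]
      norm_num
    have h3 : K ^ (24 / 25 : ℝ) * (m0 * K ^ (1 / 2 : ℝ)) = m0 * K ^ (73 / 50 : ℝ) := by
      have : K ^ (73 / 50 : ℝ) = K ^ (24 / 25 : ℝ) * K ^ (1 / 2 : ℝ) := by
        rw [← Real.rpow_add hKp]
        norm_num
      rw [this]; ring
    rw [h2, h3]
    exact mul_le_mul_of_nonneg_right h1 (by positivity)
  · have h1 := p2 K g5
    have h4 : (2 * K) ^ (1 / 2 : ℝ) ≤ 2 * K ^ (1 / 2 : ℝ) := by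
      rw [Real.mul_rpow (by norm_num) hKp.le]
      apply mul_le_mul_of_nonneg_right _ (by positivity)
      calc (2 : ℝ) ^ (1 / 2 : ℝ) ≤ 2 ^ (1 : ℝ) :=
            Real.rpow_le_rpow_of_exponent_le (by norm_num) (by norm_num)
        _ = 2 := Real.rpow_one 2
    rcases le_or_gt 0 C with hC | hC
    · calc 64 * C * K ^ (-(9 / 10) : ℝ) * (2 * K) ^ (1 / 2 : ℝ) ≤
            64 * C * K ^ (-(9 / 10) : ℝ) * (2 * K ^ (1 / 2 : ℝ)) :=
            mul_le_mul_of_nonneg_left h4 (by positivity)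
        _ = 128 * C * (K ^ (-(9 / 10) : ℝ) * K ^ (1 / 2 : ℝ)) := by ring
        _ = 128 * C * K ^ (-(2 / 5) : ℝ) := by
            rw [← Real.rpow_add hKp]
            norm_num
        _ ≤ e := h1
    · have h5 : 0 ≤ K ^ (-(9 / 10) : ℝ) * (2 * K) ^ (1 / 2 : ℝ) := by positivity
      have h6 : 64 * C * K ^ (-(9 / 10) : ℝ) * (2 * K) ^ (1 / 2 : ℝ) =
          64 * C * (K ^ (-(9 / 10) : ℝ) * (2 * K) ^ (1 / 2 : ℝ)) := by ring
      rw [h6]
      nlinarith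
  · have h1 := p3 K g6
    have h2 : (1 / K) ^ (1 - 3 / 4 * e0 : ℝ) = K ^ (-(1 - 3 / 4 * e0) : ℝ) := by
      rw [one_div, Real.inv_rpow hKp.le, Real.rpow_neg hKp.le]
    have h3 : K ^ (-(1 / 25 - 3 / 4 * e0) : ℝ) =
        K ^ (24 / 25 : ℝ) * K ^ (-(1 - 3 / 4 * e0) : ℝ) := by
      rw [← Real.rpow_add hKp]
      congr 1
      ring
    rw [h2]
    rw [h3] at h1
    linarith

theorem e0_pos : 0 < e0 := by unfold e0; norm_num

theorem e0_le : e0 ≤ 1 / 1000 := by unfold e0; norm_num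

theorem t_pos : 0 < t0 e0 := by
  have := e0_pos
  unfold t0; positivity

theorem t_le : t0 e0 ≤ e0 / 1000 := by
  have h1 := e0_pos
  have h2 := e0_le
  unfold t0
  rw [div_le_div_iff₀ (by norm_num) (by norm_num)]
  nlinarith

theorem m0_le : 400 * t0 e0 ^ 4 / (3 / 4 * e0) ≤ 1 := by
  have h1 := e0_pos
  have h2 := e0_le
  have h3 := t_pos
  have h4 := t_le
  rw [div_le_one (by positivity)]
  have h5 : t0 e0 ^ 4 ≤ t0 e0 := by
    have : t0 e0 ≤ 1 := by linarith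
    calc t0 e0 ^ 4 ≤ t0 e0 ^ 1 := pow_le_pow_of_le_one h3.le this (by norm_num)
      _ = t0 e0 := pow_one _
  linarith

/-- a negative power of a small number is large -/
theorem neg_pow_ge {u a : ℝ} (hu : 0 < u) (hu1 : u ≤ 1) (ha : 0 ≤ a) : 1 ≤ u ^ (-a : ℝ) :=
  Real.one_le_rpow_of_pos_of_le_one_of_nonpos hu hu1 (by linarith)

theorem inv_pow {K a : ℝ} (hK : 0 < K) : (1 / K) ^ (a : ℝ) = K ^ (-a : ℝ) := by
  rw [one_div, Real.inv_rpow hK.le, Real.rpow_neg hK.le]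

theorem ph_nonneg (Bl : Finset (Finset α)) (u : ℝ) (s : St α) : 0 ≤ Ph Bl (e0 / 4) u s :=
  MC.Ph_nonneg Bl (by have := e0_pos; positivity) u s

/-- `PsiS` controls the number of discrepancies -/
theorem ph_le_psi {uK u : ℝ} (hu : 0 < u) (huK : u ≤ uK) (hK1 : uK ≤ 1 / 100)
    (Bl : Finset (Finset α)) (C6 C8 : Finset (Finset (Finset α))) (s : St α) :
    Ph Bl (e0 / 4) u s ≤ PsiS (3 / 4 * e0) (t0 e0) (e0 / 4) uK Bl C6 C8 u s ∧
      0 ≤ PsiS (3 / 4 * e0) (t0 e0) (e0 / 4) uK Bl C6 C8 u s := by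
  have h1 := e0_pos
  have h3 := t_pos
  have k := psiS_ge (ep := 3 / 4 * e0) (t := t0 e0) (dl := e0 / 4) (by positivity)
    (by positivity) hu huK hK1 Bl C6 C8 s
  have a1 := MC.S_nonneg (k := 4) (by decide) u s
  have a2 := MC.Sb_nonneg u s
  have a3 := MC.V_nonneg s
  have a4 := ph_nonneg Bl u s
  have b1 : 0 ≤ u ^ (-(1 / 2 + 3 / 4 * e0) : ℝ) * (Sb u s + 1000 / (3 / 4 * e0) * S 4 u s
      + 400 * t0 e0 ^ 4 / (3 / 4 * e0) * (u * V s)) := by positivity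
  have b2 := neg_pow_ge hu (by linarith) (show 0 ≤ 1 / 2 + 3 / 4 * e0 / 2 by positivity)
  have b3 : Ph Bl (e0 / 4) u s ≤ u ^ (-(1 / 2 + 3 / 4 * e0 / 2) : ℝ) * Ph Bl (e0 / 4) u s := by
    nlinarith
  constructor
  · linarith
  · linarith

/-- lower bound of `PsiS` at the end -/
theorem psi_end {K : ℝ} (hK : 100 ≤ K) (Bl : Finset (Finset α))
    (C6 C8 : Finset (Finset (Finset α))) (s : St α) :
    400 * t0 e0 ^ 4 / (3 / 4 * e0) * K ^ (1 / 2 : ℝ) *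
      (Sb (1 / K) s + S 4 (1 / K) s + 1 / K * V s + Ph Bl (e0 / 4) (1 / K) s) ≤
      PsiS (3 / 4 * e0) (t0 e0) (e0 / 4) (1 / K) Bl C6 C8 (1 / K) s := by
  have h1 := e0_pos
  have h2 := e0_le
  have h3 := t_pos
  have hKp : 0 < K := by linarith
  have hu : 0 < 1 / K := by positivity
  have hu1 : 1 / K ≤ 1 / 100 := one_div_le_one_div_of_le (by norm_num) hK
  have k := psiS_ge (ep := 3 / 4 * e0) (t := t0 e0) (dl := e0 / 4) (uK := 1 / K) (by positivity)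
    (by positivity) hu le_rfl hu1 Bl C6 C8 s
  have a1 := MC.S_nonneg (k := 4) (by decide) (1 / K) s
  have a2 := MC.Sb_nonneg (1 / K) s
  have a3 := MC.V_nonneg s
  have a4 := ph_nonneg Bl (1 / K) s
  have w1 : K ^ (1 / 2 : ℝ) ≤ (1 / K) ^ (-(1 / 2 + 3 / 4 * e0) : ℝ) := by
    rw [inv_pow hKp, neg_neg]
    exact Real.rpow_le_rpow_of_exponent_le (by linarith) (by linarith)
  have w2 : K ^ (1 / 2 : ℝ) ≤ (1 / K) ^ (-(1 / 2 + 3 / 4 * e0 / 2) : ℝ) := by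
    rw [inv_pow hKp, neg_neg]
    exact Real.rpow_le_rpow_of_exponent_le (by linarith) (by linarith)
  have hm1 := m0_le
  have hm0 : 0 < 400 * t0 e0 ^ 4 / (3 / 4 * e0) := by positivity
  set m0 := 400 * t0 e0 ^ 4 / (3 / 4 * e0) with hm
  set w := (1 / K) ^ (-(1 / 2 + 3 / 4 * e0) : ℝ)
  set w' := (1 / K) ^ (-(1 / 2 + 3 / 4 * e0 / 2) : ℝ)
  set sK := K ^ (1 / 2 : ℝ) with hsK
  have hsK0 : 0 < sK := by positivity
  have hX : 0 ≤ 1 / K * V s := by positivity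
  have c1 : m0 * sK ≤ 1 * w := mul_le_mul hm1 w1 hsK0.le (by norm_num)
  have c2 : m0 * sK ≤ 1 * w' := mul_le_mul hm1 w2 hsK0.le (by norm_num)
  have c3 : 1 ≤ 1000 / (3 / 4 * e0) := by
    rw [le_div_iff₀ (by positivity)]
    linarith
  have c4 : m0 * sK * Sb (1 / K) s ≤ w * Sb (1 / K) s := by
    have := mul_le_mul_of_nonneg_right c1 a2
    linarith
  have c5 : m0 * sK * S 4 (1 / K) s ≤ w * (1000 / (3 / 4 * e0) * S 4 (1 / K) s) := by
    have d1 := mul_le_mul_of_nonneg_right c1 a1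
    have d2 : w * S 4 (1 / K) s ≤ w * (1000 / (3 / 4 * e0) * S 4 (1 / K) s) := by
      apply mul_le_mul_of_nonneg_left _ (hsK0.le.trans w1)
      nlinarith
    linarith
  have c6 : m0 * sK * (1 / K * V s) ≤ w * (m0 * (1 / K * V s)) := by
    have d1 : sK * (m0 * (1 / K * V s)) ≤ w * (m0 * (1 / K * V s)) :=
      mul_le_mul_of_nonneg_right w1 (by positivity)
    linarith
  have c7 : m0 * sK * Ph Bl (e0 / 4) (1 / K) s ≤ w' * Ph Bl (e0 / 4) (1 / K) s := by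
    have := mul_le_mul_of_nonneg_right c2 a4
    linarith
  rw [mul_add, mul_add, mul_add]
  rw [mul_add, mul_add] at k
  linarith

/-- the condition of `ds_core` -/
theorem cond {K : ℝ} (hK : 100 ≤ K) :
    (1 / K) ^ (1 / 5 : ℝ) ≤ (K ^ (24 / 25 : ℝ) * (1 / K) ^ (1 - 3 / 4 * e0 : ℝ)) ^ 2 := by
  have h1 := e0_pos
  have h2 := e0_le
  have hKp : 0 < K := by linarith
  rw [inv_pow hKp, inv_pow hKp, ← Real.rpow_add hKp, ← Real.rpow_natCast, ← Real.rpow_mul hKp.le]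
  apply Real.rpow_le_rpow_of_exponent_le (by linarith)
  push_cast
  linarith

/-- the S 2 coefficient at the start -/
theorem coef_start {K u e : ℝ} (hK : 100 ≤ K) (he : 0 < e) (hu : 0 < u) (huK : u ≤ 1)
    (hk : K ^ (24 / 25 : ℝ) * (4 * 10 ^ 8 / (3 / 4 * e0) * (1 / K) ^ (1 - 3 / 4 * e0 : ℝ)) ≤ e / 2)
    (hum : u ≤ (e * (3 / 4 * e0) / (8 * 10 ^ 6 * K ^ (24 / 25 : ℝ))) ^ (10 / 3 : ℝ)) :
    K ^ (24 / 25 : ℝ) * (4 * 10 ^ 6 / (3 / 4 * e0) * (1 / K) ^ (1 / 10 - 3 / 4 * e0 : ℝ) *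
      u ^ (2 / 5 : ℝ) + 4 * 10 ^ 8 / (3 / 4 * e0) * (1 / K) ^ (1 - 3 / 4 * e0 : ℝ) *
      u ^ (1 / 10 : ℝ)) ≤ e * u ^ (1 / 10 : ℝ) := by
  have h1 := e0_pos
  have h2 := e0_le
  have hKp : 0 < K := by linarith
  have hkap : 0 < K ^ (24 / 25 : ℝ) := by positivity
  set kap := K ^ (24 / 25 : ℝ) with hkapd
  set δ := e * (3 / 4 * e0) / (8 * 10 ^ 6 * kap) with hδ
  have hδ0 : 0 < δ := by positivity
  have hw : 0 < u ^ (1 / 10 : ℝ) := by positivity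
  have q1 : u ^ (3 / 10 : ℝ) ≤ δ := by
    calc u ^ (3 / 10 : ℝ) ≤ (δ ^ (10 / 3 : ℝ)) ^ (3 / 10 : ℝ) :=
          Real.rpow_le_rpow hu.le hum (by norm_num)
      _ = δ := by
          rw [← Real.rpow_mul hδ0.le]
          norm_num
  have q2 : u ^ (2 / 5 : ℝ) = u ^ (3 / 10 : ℝ) * u ^ (1 / 10 : ℝ) := by
    rw [← Real.rpow_add hu]
    norm_num
  have q3 : (1 / K) ^ (1 / 10 - 3 / 4 * e0 : ℝ) ≤ 1 := by
    apply Real.rpow_le_one (by positivity) _ (by linarith)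
    rw [div_le_one hKp]
    linarith
  have q4 : kap * (4 * 10 ^ 6 / (3 / 4 * e0) * (1 / K) ^ (1 / 10 - 3 / 4 * e0 : ℝ) *
      u ^ (2 / 5 : ℝ)) ≤ e / 2 * u ^ (1 / 10 : ℝ) := by
    rw [q2]
    calc kap * (4 * 10 ^ 6 / (3 / 4 * e0) * (1 / K) ^ (1 / 10 - 3 / 4 * e0 : ℝ) *
          (u ^ (3 / 10 : ℝ) * u ^ (1 / 10 : ℝ))) ≤
          kap * (4 * 10 ^ 6 / (3 / 4 * e0) * 1 * (δ * u ^ (1 / 10 : ℝ))) := by
          gcongr
      _ = e / 2 * u ^ (1 / 10 : ℝ) := by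
          rw [hδ]
          field_simp
          norm_num
  have q5 : kap * (4 * 10 ^ 8 / (3 / 4 * e0) * (1 / K) ^ (1 - 3 / 4 * e0 : ℝ) *
      u ^ (1 / 10 : ℝ)) ≤ e / 2 * u ^ (1 / 10 : ℝ) := by
    have := mul_le_mul_of_nonneg_right hk hw.le
    linarith
  rw [mul_add]
  linarith

/-- the points of `K_n` -/
theorem sqrt_Q_le {n : ℕ} {s : St (Sym2 (Fin n))} (hB : s.B ⊆ tr univ) :
    Real.sqrt (Q s) ≤ n := by
  have h1 : Q s ≤ ((tr (univ : Finset (Fin n))).card : ℝ) := MC.Q_le hB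
  have h2 : ((tr (univ : Finset (Fin n))).card : ℝ) ≤ (n : ℝ) ^ 2 := by
    rw [card_tr, card_univ, Fintype.card_fin]
    have h3 : n.choose 2 ≤ n ^ 2 := Nat.choose_le_pow n 2
    exact_mod_cast h3
  calc Real.sqrt (Q s) ≤ Real.sqrt ((n : ℝ) ^ 2) := Real.sqrt_le_sqrt (h1.trans h2)
    _ = n := Real.sqrt_sq (Nat.cast_nonneg n)

/-- the functional on the window -/
def Gb (n : ℕ) (e C CK K c : ℝ) (J : ℕ) (C6 C8 : Finset (Finset (Finset (Sym2 (Fin n)))))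
    (u : ℝ) (s : St (Sym2 (Fin n))) : ℝ :=
  (1 + e) * PsiDS (3 / 4 * e0) (t0 e0) (e0 / 4) (1 / K) c (K ^ (24 / 25 : ℝ)) (BK n) C6 C8 u s
    + 8 * C * K ^ (1 / 10 : ℝ) * GZ (BK n) (1 / (2 * K)) (1 / K) u s
    + CK * ∑ l ∈ range (2 * J + 1), Nc (CTB.CB n J l) s + (e * c + CK * n)

/-- the functional before the window -/
def Ga (n : ℕ) (e CK K c : ℝ) (J : ℕ) (C6 C8 : Finset (Finset (Finset (Sym2 (Fin n)))))
    (u : ℝ) (s : St (Sym2 (Fin n))) : ℝ :=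
  (1 + 2 * e) * PsiDS (3 / 4 * e0) (t0 e0) (e0 / 4) (1 / K) c (K ^ (24 / 25 : ℝ)) (BK n) C6 C8 u s
    + CK * ∑ l ∈ range (2 * J + 1), Nc (CTB.CB n J l) s + (2 * e * c + CK * n)

/-- the statement of the terminal row for one `K` -/
def TermK (e C CK K : ℝ) (J : ℕ) : Prop :=
  ∀ (n : ℕ) (th dl c : ℝ) (s : NL.St (Sym2 (Fin n))), 0 < dl →
    0 ≤ th → th ≤ 1 / 10 → NL.Inv (BK n) th (1 / K) s →
    run (BK n) (fun A' => |(A'.card : ℝ) - c / Real.sqrt 2|) s.A.card s.A ≤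
      |(1 / K) ^ (1 / 2 : ℝ) * NL.Q s - c| + e * (1 / K) ^ (1 / 2 : ℝ) * NL.Q s
      + C * K ^ (1.1 : ℝ) * (NL.Sb (1 / K) s + NL.S 4 (1 / K) s + (1 / K) * NL.V s
        + NL.Ph (BK n) dl (1 / K) s)
      + C * K ^ (-2.9 : ℝ) * ZZ (BK n) s.A
      + CK * (∑ l ∈ range (2 * J + 1), NL.Nc (CTB.CB n J l) s + Real.sqrt (NL.Q s))

/-- at `u = 1/K` -/
theorem end_step {e C CK K : ℝ} {J : ℕ} (he : 0 < e) (hC : 0 < C) (hCK : 0 < CK)
    (hK : 100 ≤ K) (hterm : TermK e C CK K J)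
    (hA : C * K ^ (1.1 : ℝ) ≤
      K ^ (24 / 25 : ℝ) * (400 * t0 e0 ^ 4 / (3 / 4 * e0) * K ^ (1 / 2 : ℝ)))
    {n : ℕ} (C6 C8 : Finset (Finset (Finset (Sym2 (Fin n))))) (c : ℝ)
    {s : St (Sym2 (Fin n))} (hs : GS (BK n) (t0 e0) (2 * t0 e0) (1 / K) s)
    (hsB : s.B ⊆ tr univ) :
    run (BK n) (fun A' => |(A'.card : ℝ) - c / Real.sqrt 2|) s.A.card s.A ≤
      Gb n e C CK K c J C6 C8 (1 / K) s := by
  have h1 := e0_pos
  have h3 := t_pos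
  have h4 := t_le
  have h5 := e0_le
  have hKp : 0 < K := by linarith
  have hu : 0 < 1 / K := by positivity
  have hu1 : 1 / K ≤ 1 / 100 := one_div_le_one_div_of_le (by norm_num) hK
  have ht := hterm n (2 * t0 e0) (e0 / 4) c s (by positivity) (by positivity) (by linarith) hs.inv
  have hgz : GZ (BK n) (1 / (2 * K)) (1 / K) (1 / K) s = 1 / (8 * K ^ 3) * ZZ (BK n) s.A := by
    rw [gz_end]
    have : 1 / K - 1 / (2 * K) = 1 / (2 * K) := by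
      field_simp
      norm_num
    rw [this]
    ring
  have hZ : C * K ^ (-2.9 : ℝ) * ZZ (BK n) s.A ≤
      8 * C * K ^ (1 / 10 : ℝ) * GZ (BK n) (1 / (2 * K)) (1 / K) (1 / K) s := by
    rw [hgz]
    have h6 : K ^ (-2.9 : ℝ) = K ^ (1 / 10 : ℝ) * (1 / K ^ 3) := by
      have h7 : (1 : ℝ) / K ^ 3 = K ^ (-(3 : ℝ)) := by
        rw [Real.rpow_neg hKp.le, one_div]
        norm_cast
      rw [h7, ← Real.rpow_add hKp]
      norm_num
    rw [h6]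
    apply le_of_eq
    field_simp
  have hX : 0 ≤ Sb (1 / K) s + S 4 (1 / K) s + 1 / K * V s + Ph (BK n) (e0 / 4) (1 / K) s := by
    have a1 := MC.S_nonneg (k := 4) (by decide) (1 / K) s
    have a2 := MC.Sb_nonneg (1 / K) s
    have a3 := MC.V_nonneg s
    have a4 := ph_nonneg (BK n) (1 / K) s
    positivity
  have hD := d_abs c (1 / K) s
  have hq := q_le c (1 / K) s
  have hr : run (BK n) (fun A' => |(A'.card : ℝ) - c / Real.sqrt 2|) s.A.card s.A ≤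
      |(1 / K) ^ (1 / 2 : ℝ) * Q s - c| + e * ((1 / K) ^ (1 / 2 : ℝ) * Q s)
      + C * K ^ (1.1 : ℝ) * (Sb (1 / K) s + S 4 (1 / K) s + 1 / K * V s
        + Ph (BK n) (e0 / 4) (1 / K) s)
      + C * K ^ (-2.9 : ℝ) * ZZ (BK n) s.A
      + CK * (∑ l ∈ range (2 * J + 1), Nc (CTB.CB n J l) s + Real.sqrt (Q s)) := by
    rw [← mul_assoc e]
    exact ht
  exact end_num he (by positivity) hX hCK.le (ph_le_psi hu le_rfl hu1 (BK n) C6 C8 s).2
    (Real.sqrt_nonneg _) hr hD.1 hq (psi_end hK (BK n) C6 C8 s) hA hZ (sqrt_Q_le hsB)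

/-- at the beginning of the window -/
theorem win_step {e C CK K : ℝ} {J : ℕ} (he : 0 < e) (hC : 0 < C) (hK : 100 ≤ K)
    (hB : 64 * C * K ^ (-(9 / 10) : ℝ) * (2 * K) ^ (1 / 2 : ℝ) ≤ e)
    {n : ℕ} (C6 C8 : Finset (Finset (Finset (Sym2 (Fin n))))) (c : ℝ)
    (s : St (Sym2 (Fin n))) :
    Gb n e C CK K c J C6 C8 (1 / (2 * K)) s ≤ Ga n e CK K c J C6 C8 (1 / (2 * K)) s := by
  have h1 := e0_pos
  have hKp : 0 < K := by linarith
  have hu : 0 < 1 / (2 * K) := by positivity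
  have huK : 1 / (2 * K) ≤ 1 / K := one_div_le_one_div_of_le hKp (by linarith)
  have hu1 : 1 / K ≤ 1 / 100 := one_div_le_one_div_of_le (by norm_num) hK
  have hkap : 1 ≤ K ^ (24 / 25 : ℝ) := Real.one_le_rpow (by linarith) (by norm_num)
  have hPh := ph_le_psi hu huK hu1 (BK n) C6 C8 s
  have hgz : 8 * C * K ^ (1 / 10 : ℝ) * GZ (BK n) (1 / (2 * K)) (1 / K) (1 / (2 * K)) s ≤
      64 * C * K ^ (-(9 / 10) : ℝ) * (s.A.card : ℝ) := by
    rw [gz_start]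
    have h6 : K ^ (-(9 / 10) : ℝ) = K ^ (1 / 10 : ℝ) * (1 / K) := by
      have h7 : (1 : ℝ) / K = K ^ (-(1 : ℝ)) := by
        rw [Real.rpow_neg hKp.le, one_div, Real.rpow_one]
      rw [h7, ← Real.rpow_add hKp]
      norm_num
    rw [h6]
    apply le_of_eq
    field_simp
    ring
  have hA : (s.A.card : ℝ) ≤ Q s + Ph (BK n) (e0 / 4) (1 / (2 * K)) s :=
    MidThm.card_A_le (BK n) (by positivity) (1 / (2 * K)) s
  have hQ : Q s ≤ (2 * K) ^ (1 / 2 : ℝ) * ((1 / (2 * K)) ^ (1 / 2 : ℝ) * Q s) := by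
    rw [← mul_assoc, ← Real.mul_rpow (by positivity) (by positivity)]
    have : 2 * K * (1 / (2 * K)) = 1 := by field_simp
    rw [this, Real.one_rpow, one_mul]
  have hD := d_abs c (1 / (2 * K)) s
  have hq := q_le c (1 / (2 * K)) s
  have hq0 : 0 ≤ (1 / (2 * K)) ^ (1 / 2 : ℝ) * Q s :=
    mul_nonneg (by positivity) (MC.Q_nonneg s)
  have hr2 : 1 ≤ (2 * K) ^ (1 / 2 : ℝ) := Real.one_le_rpow (by linarith) (by norm_num)
  exact win_num he hq0 hkap hPh.2 (by positivity) (ph_nonneg (BK n) _ s) hr2 hgz hA hQ hq hD.1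
    hB hPh.1

/-- the two transfers -/
theorem both {e C CK K : ℝ} {J : ℕ} (he : 0 < e) (hC : 0 < C) (hCK : 0 < CK)
    (hK : 100 ≤ K) (ht10 : 10 * (1 / K) ≤ t0 e0) (hterm : TermK e C CK K J)
    (hA : C * K ^ (1.1 : ℝ) ≤
      K ^ (24 / 25 : ℝ) * (400 * t0 e0 ^ 4 / (3 / 4 * e0) * K ^ (1 / 2 : ℝ)))
    (hB : 64 * C * K ^ (-(9 / 10) : ℝ) * (2 * K) ^ (1 / 2 : ℝ) ≤ e)
    {n : ℕ} (C6 C8 : Finset (Finset (Finset (Sym2 (Fin n))))) (c : ℝ)
    (hDS : ∀ v, 0 < v → Sup (BK n) (t0 e0) v (1 / K) (tr univ)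
      (PsiDS (3 / 4 * e0) (t0 e0) (e0 / 4) (1 / K) c (K ^ (24 / 25 : ℝ)) (BK n) C6 C8))
    (hFX : Fx (BK n) (t0 e0) (1 / K)
      (PsiDS (3 / 4 * e0) (t0 e0) (e0 / 4) (1 / K) c (K ^ (24 / 25 : ℝ)) (BK n) C6 C8))
    {u : ℝ} {s : St (Sym2 (Fin n))} (hu : 0 < u) (huK : u < 1 / (2 * K))
    (hs : GS (BK n) (t0 e0) (2 * t0 e0) u s) (hsA : s.A ⊆ tr univ) (hsB : s.B ⊆ tr univ) :
    run (BK n) (fun A' => |(A'.card : ℝ) - c / Real.sqrt 2|) s.A.card s.A ≤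
      Ga n e CK K c J C6 C8 u s := by
  have h1 := e0_pos
  have h3 := t_pos
  have h4 := t_le
  have h5 := e0_le
  have hKp : 0 < K := by linarith
  have hw : 0 < 1 / (2 * K) := by positivity
  have hwK : 1 / (2 * K) < 1 / K := one_div_lt_one_div_of_lt hKp (by linarith)
  have hu1 : 1 / K ≤ 1 / 100 := one_div_le_one_div_of_le (by norm_num) hK
  -- window
  have hb : ∀ s' : St (Sym2 (Fin n)), GS (BK n) (t0 e0) (2 * t0 e0) (1 / (2 * K)) s' →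
      s'.A ⊆ tr univ → s'.B ⊆ tr univ →
      run (BK n) (fun A' => |(A'.card : ℝ) - c / Real.sqrt 2|) s'.A.card s'.A ≤
        Gb n e C CK K c J C6 C8 (1 / (2 * K)) s' := by
    intro s' hs' hA' hB'
    refine Sup.transfer (lin3_BK n) h3 (by linarith) hw hwK (by linarith)
      (fun A' => |(A'.card : ℝ) - c / Real.sqrt 2|) (G := Gb n e C CK K c J C6 C8) ?_ ?_
      (fun s'' hs'' _ hB'' => end_step he hC hCK hK hterm hA C6 C8 c hs'' hB'') hs' hA' hB'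
    · exact ((((hDS _ hw).smul (by linarith)).add ((Sup.gz (BK n) (tr univ)).smul
        (by positivity))).add ((Sup.nc_sum (BK n) hw (by linarith) (by linarith) (tr univ) _
          (CTB.CB n J)).smul hCK.le)).add (Sup.const _)
    · exact (((hFX.smul (by linarith)).add ((Fx.gz (BK n)).smul (by positivity))).add
        ((Fx.nc_sum (BK n) _ (CTB.CB n J)).smul hCK.le)).add (Fx.const _)
  refine Sup.transfer (lin3_BK n) h3 (by linarith) hu huK (by linarith)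
    (fun A' => |(A'.card : ℝ) - c / Real.sqrt 2|) (G := Ga n e CK K c J C6 C8) ?_ ?_
    (fun s'' hs'' hA'' hB'' => (hb s'' hs'' hA'' hB'').trans (win_step he hC hK hB C6 C8 c s''))
    hs hsA hsB
  · exact ((((hDS _ hu).mono le_rfl hwK.le).smul (by linarith)).add
      ((Sup.nc_sum (BK n) hu (by linarith) (by linarith) (tr univ) _
        (CTB.CB n J)).smul hCK.le)).add (Sup.const _)
  · exact (((hFX.mono hwK.le).smul (by linarith)).add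
      ((Fx.nc_sum (BK n) _ (CTB.CB n J)).smul hCK.le)).add (Fx.const _)

/-- the final arithmetic -/
theorem fin_num {e eps c y w X N r G CK n k : ℝ} (he : 0 < e) (hee : e ≤ eps / 4)
    (hc : 0 ≤ c) (hy : 0 ≤ y) (hw : 0 ≤ w) (hN : 0 ≤ N) (hX : 0 ≤ X) (hk : 0 ≤ k) (hCK : 0 ≤ CK)
    (hn : 1 ≤ n) (hr : r ≤ G + CK * N + (2 * e * c + CK * n))
    (hG : G ≤ (1 + 3 * e) * y + e * c + 2 * e * w + k * X + 2) :
    r ≤ (1 + eps) * y + eps * c + eps * w + (k + CK + 2) * X + (k + CK + 2) * N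
      + (k + CK + 2) * n := by
  have a1 : 3 * e * y ≤ eps * y := mul_le_mul_of_nonneg_right (by linarith) hy
  have a2 : 3 * e * c ≤ eps * c := mul_le_mul_of_nonneg_right (by linarith) hc
  have a3 : 2 * e * w ≤ eps * w := mul_le_mul_of_nonneg_right (by linarith) hw
  have a4 : 0 ≤ (CK + 2) * X := by positivity
  have a5 : 0 ≤ (k + 2) * N := by positivity
  have a6 : 0 ≤ k * n := by positivity
  nlinarith

/-- threshold -/
def um (e K : ℝ) : ℝ :=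
  min (1 / (4 * K)) ((e * (3 / 4 * e0) / (8 * 10 ^ 6 * K ^ (24 / 25 : ℝ))) ^ (10 / 3 : ℝ))

theorem um_pos {e K : ℝ} (he : 0 < e) (hK : 0 < K) : 0 < um e K := by
  have h1 := e0_pos
  unfold um
  exact lt_min (by positivity) (by positivity)

theorem um_lt {e K u : ℝ} (hK : 0 < K) (hu : u ≤ um e K) : u < 1 / (2 * K) :=
  lt_of_le_of_lt (hu.trans (min_le_left _ _))
    (one_div_lt_one_div_of_lt (by positivity) (by linarith))

theorem rest_nonneg {u : ℝ} (hu : 0 < u) (Bl : Finset (Finset α))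
    (C6 C8 : Finset (Finset (Finset α))) (s : St α) :
    0 ≤ u ^ (-(1 / 2 + 3 / 4 * e0) : ℝ) * (Sb u s + S 4 u s + u * V s)
        + u ^ (-(1 / 2 + 3 / 4 * e0 / 2) : ℝ) * Ph Bl (e0 / 4) u s
        + u ^ (57 / 20 : ℝ) * Nc C6 s + u ^ (7 / 2 - 3 / 4 * e0 : ℝ) * Nc C8 s := by
  have a1 := MC.S_nonneg (k := 4) (by decide) u s
  have a2 := MC.Sb_nonneg u s
  have a3 := MC.V_nonneg s
  have a4 := ph_nonneg Bl u s
  have a6 := MC.Nc_nonneg C6 s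
  have a7 := MC.Nc_nonneg C8 s
  positivity

/-- the functional at the start of stage 2 -/
theorem start_step {e K c u : ℝ} (hK : 100 ≤ K) (he : 0 < e) (he1 : e ≤ 1 / 2) (hu : 0 < u)
    (hum : u ≤ um e K)
    (hk : K ^ (24 / 25 : ℝ) * (4 * 10 ^ 8 / (3 / 4 * e0) * (1 / K) ^ (1 - 3 / 4 * e0 : ℝ)) ≤ e / 2)
    (Bl : Finset (Finset α)) (C6 C8 : Finset (Finset (Finset α))) (s : St α) :
    (1 + 2 * e) * PsiDS (3 / 4 * e0) (t0 e0) (e0 / 4) (1 / K) c (K ^ (24 / 25 : ℝ)) Bl C6 C8 u s ≤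
      (1 + 3 * e) * |u ^ (1 / 2 : ℝ) * Q s - c| + e * c + 2 * e * (u ^ (1 / 10 : ℝ) * S 2 u s)
      + 2 * K ^ (24 / 25 : ℝ) * (1000 / (3 / 4 * e0) + 10 ^ 6) *
        (u ^ (-(1 / 2 + 3 / 4 * e0) : ℝ) * (Sb u s + S 4 u s + u * V s)
        + u ^ (-(1 / 2 + 3 / 4 * e0 / 2) : ℝ) * Ph Bl (e0 / 4) u s
        + u ^ (57 / 20 : ℝ) * Nc C6 s + u ^ (7 / 2 - 3 / 4 * e0 : ℝ) * Nc C8 s) + 2 := by
  have h1 := e0_pos
  have h3 := t_pos
  have h4 := t_le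
  have h5 := e0_le
  have hKp : 0 < K := by linarith
  have hum1 : u ≤ 1 / (4 * K) := hum.trans (min_le_left _ _)
  have hum2 : u ≤ (e * (3 / 4 * e0) / (8 * 10 ^ 6 * K ^ (24 / 25 : ℝ))) ^ (10 / 3 : ℝ) :=
    hum.trans (min_le_right _ _)
  have hK4 : 1 / (4 * K) < 1 / K := one_div_lt_one_div_of_lt hKp (by linarith)
  have hK100 : 1 / K ≤ 1 / 100 := one_div_le_one_div_of_le (by norm_num) hK
  have huK : u ≤ 1 / K := by linarith
  have hD := d_abs c u s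
  have hq := q_le c u s
  have hq0 : 0 ≤ u ^ (1 / 2 : ℝ) * Q s := mul_nonneg (by positivity) (MC.Q_nonneg s)
  have a1 := MC.S_nonneg (k := 4) (by decide) u s
  have a2 := MC.Sb_nonneg u s
  have a3 := MC.V_nonneg s
  have a4 := ph_nonneg Bl u s
  have a5 := MC.S_nonneg (k := 2) (by decide) u s
  have a6 := MC.Nc_nonneg C6 s
  have a7 := MC.Nc_nonneg C8 s
  have hP := psiS_le (ep := 3 / 4 * e0) (t := t0 e0) (dl := e0 / 4) (uK := 1 / K) (by positivity)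
    (by linarith) h3 (by linarith) hu huK Bl C6 C8 s
  have hB := coef_start hK he hu (by linarith) hk hum2
  have hX1 : 0 ≤ u ^ (-(1 / 2 + 3 / 4 * e0) : ℝ) * (Sb u s + S 4 u s + u * V s) := by positivity
  have hX2 : 0 ≤ u ^ (-(1 / 2 + 3 / 4 * e0 / 2) : ℝ) * Ph Bl (e0 / 4) u s := by positivity
  have hX3 : 0 ≤ u ^ (57 / 20 : ℝ) * Nc C6 s := by positivity
  have hX4 : 0 ≤ u ^ (7 / 2 - 3 / 4 * e0 : ℝ) * Nc C8 s := by positivity
  exact start_num (c := c) he he1 (by positivity) (by positivity)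
    (by positivity) a5 hX1 hX2 hX3 hX4 hq0 hD.2 (abs_nonneg _) hq hP hk hB

/-- the trivial case `n = 0` -/
theorem zero_case {eps c u C : ℝ} {J : ℕ} (hc : 0 < c) (hu : 0 < u) (he : 0 ≤ eps) (hC : 0 ≤ C)
    {s : St (Sym2 (Fin 0))} (hsA : s.A ⊆ tr univ) (hsB : s.B ⊆ tr univ)
    (C6 C8 : Finset (Finset (Finset (Sym2 (Fin 0))))) :
    run (BK 0) (fun A => |(A.card : ℝ) - c / Real.sqrt 2|) s.A.card s.A ≤
      (1 + eps) * |u ^ (1 / 2 : ℝ) * Q s - c| + eps * c + eps * (u ^ (1 / 10 : ℝ) * S 2 u s)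
      + C * (u ^ (-(1 / 2 + 3 / 4 * e0) : ℝ) * (Sb u s + S 4 u s + u * V s)
        + u ^ (-(1 / 2 + 3 / 4 * e0 / 2) : ℝ) * Ph (BK 0) (e0 / 4) u s
        + u ^ (57 / 20 : ℝ) * Nc C6 s + u ^ (7 / 2 - 3 / 4 * e0 : ℝ) * Nc C8 s)
      + C * ∑ l ∈ range (2 * J + 1), Nc (CTB.CB 0 J l) s + C * ((0 : ℕ) : ℝ) := by
  have htr : tr (univ : Finset (Fin 0)) = ∅ := by
    rw [← card_eq_zero, card_tr]
    simp
  rw [htr] at hsA hsB
  have hAe : s.A = ∅ := subset_empty.1 hsA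
  have hBe : s.B = ∅ := subset_empty.1 hsB
  have hQ0 : Q s = 0 := by
    unfold Q
    rw [hBe]
    simp
  have hrun : run (BK 0) (fun A => |(A.card : ℝ) - c / Real.sqrt 2|) s.A.card s.A =
      c / Real.sqrt 2 := by
    rw [hAe, card_empty]
    show |((∅ : Finset (Sym2 (Fin 0))).card : ℝ) - c / Real.sqrt 2| = _
    rw [card_empty, Nat.cast_zero, zero_sub, abs_neg, abs_of_nonneg (by positivity)]
  have h2 : c / Real.sqrt 2 ≤ c := by
    apply div_le_self hc.le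
    rw [Real.one_le_sqrt]
    norm_num
  have a5 := MC.S_nonneg (k := 2) (by decide) u s
  have b0 := rest_nonneg hu (BK 0) C6 C8 s
  have hN : 0 ≤ ∑ l ∈ range (2 * J + 1), Nc (CTB.CB 0 J l) s :=
    sum_nonneg fun l _ => MC.Nc_nonneg _ s
  rw [hrun, hQ0, mul_zero, zero_sub, abs_neg, abs_of_pos hc, Nat.cast_zero, mul_zero]
  have b1 : 0 ≤ eps * c := by positivity
  have b2 : 0 ≤ eps * (u ^ (1 / 10 : ℝ) * S 2 u s) := by positivity
  have b3 := mul_nonneg hC b0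
  have b4 := mul_nonneg hC hN
  linarith

end Stg2

open Stg2

/-- [STG2] stage 2: from a good state at `u = n^(-delta)` to the end -/
theorem stage2 {eps : ℝ} (he : 0 < eps) : ∃ (J : ℕ) (C um : ℝ), 0 < C ∧ 0 < um ∧
    ∀ (n : ℕ) (C6 C8 : Finset (Finset (Finset (Sym2 (Fin n))))), Sys (BK n) C6 C8 →
    ∀ (c u : ℝ) (s : St (Sym2 (Fin n))), 0 < c → 0 < u → u ≤ um →
    GS (BK n) (t0 e0) (2 * t0 e0) u s → s.A ⊆ tr univ → s.B ⊆ tr univ →
    run (BK n) (fun A => |(A.card : ℝ) - c / Real.sqrt 2|) s.A.card s.A ≤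
      (1 + eps) * |u ^ (1 / 2 : ℝ) * Q s - c| + eps * c + eps * (u ^ (1 / 10 : ℝ) * S 2 u s)
      + C * (u ^ (-(1 / 2 + 3 / 4 * e0) : ℝ) * (Sb u s + S 4 u s + u * V s)
        + u ^ (-(1 / 2 + 3 / 4 * e0 / 2) : ℝ) * Ph (BK n) (e0 / 4) u s
        + u ^ (57 / 20 : ℝ) * Nc C6 s + u ^ (7 / 2 - 3 / 4 * e0 : ℝ) * Nc C8 s)
      + C * ∑ l ∈ range (2 * J + 1), Nc (CTB.CB n J l) s + C * n := by
  have h1 := e0_pos
  have h3 := t_pos
  have h4 := t_le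
  have h5 := e0_le
  obtain ⟨e, he0', hee1, hee2⟩ : ∃ e : ℝ, 0 < e ∧ e ≤ eps / 4 ∧ e ≤ 1 / 4 :=
    ⟨min (eps / 4) (1 / 4), lt_min (by positivity) (by norm_num), min_le_left _ _,
      min_le_right _ _⟩
  have htt : t0 e0 ≤ (3 / 4 * e0) ^ 2 / 5000 := by
    unfold t0
    rw [div_le_div_iff₀ (by norm_num) (by norm_num)]
    nlinarith [sq_nonneg e0]
  obtain ⟨u1, hu1, hu1', hcore⟩ := ds_core (3 / 4 * e0) (t0 e0) (e0 / 4) (by positivity)
    (by linarith) h3 htt (by linarith) (by linarith)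
  obtain ⟨u2, hu2, hu2', hfix⟩ := ds_fix (3 / 4 * e0) (t0 e0) (e0 / 4) (by positivity)
    (by linarith) h3 htt (by linarith) (by linarith)
  obtain ⟨C, K0, hC, hK0, hT⟩ := term_K he0'
  obtain ⟨K, g0, g1, g2, g3, gA, gB, gC⟩ := consts (C := C) K0 he0' (lt_min hu1 hu2)
  obtain ⟨J, CK, hCK, hterm⟩ := hT K g0
  have hKp : 0 < K := by linarith
  have hkap : 0 < K ^ (24 / 25 : ℝ) := by positivity
  have hR1 : 0 < 1000 / (3 / 4 * e0) := by positivity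
  have hCs : 0 < 2 * K ^ (24 / 25 : ℝ) * (1000 / (3 / 4 * e0) + 10 ^ 6) + CK + 2 := by positivity
  refine ⟨J, 2 * K ^ (24 / 25 : ℝ) * (1000 / (3 / 4 * e0) + 10 ^ 6) + CK + 2, um e K,
    hCs, um_pos he0' hKp, ?_⟩
  intro n C6 C8 hS c u s hc hu hum hGS hsA hsB
  rcases Nat.eq_zero_or_pos n with hn | hn
  · subst hn
    exact zero_case hc hu he.le hCs.le hsA hsB C6 C8
  · have hn1 : (1 : ℝ) ≤ n := by exact_mod_cast hn
    have main := both he0' hC hCK g1 g3 hterm gA gB C6 C8 c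
      (fun v hv => hcore _ (BK n) C6 C8 hS v (1 / K) (1 / K) c (K ^ (24 / 25 : ℝ)) (tr univ) hv
        le_rfl (g2.trans (min_le_left _ _)) hkap (cond g1))
      (fun v hv hvK s' hs' => hfix _ (BK n) C6 C8 hS (1 / K) (1 / K) v c (K ^ (24 / 25 : ℝ)) hv
        hvK le_rfl (g2.trans (min_le_right _ _)) hkap (cond g1) s' hs')
      hu (um_lt hKp hum) hGS hsA hsB
    have hst := start_step (c := c) g1 he0' (by linarith) hu hum gC (BK n) C6 C8 s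
    exact fin_num he0' hee1 hc.le (abs_nonneg _)
      (mul_nonneg (by positivity) (MC.S_nonneg (k := 2) (by decide) u s))
      (sum_nonneg fun l _ => MC.Nc_nonneg _ s) (rest_nonneg hu (BK n) C6 C8 s) (by positivity)
      hCK.le hn1 main hst

end

end Vale.Agent.P046.CT
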