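import Vale.Agent.P046.CT.SharpOf
import Vale.Agent.P046.CT.Stg1
import Vale.Agent.P046.CT.Stg2

/-!
P046, sharp constant: the main theorem.
-/

namespace Vale.Agent.P046.CT

open Finset Vale.Agent.P046

noncomputable section

/-- [SHARP] the mean absolute deviation of the final number of points from
`n ^ (3/2) / (2 √2)` is `o(n ^ (3/2))` -/
theorem sharp_main : ∀ ε : ℝ, 0 < ε → ∃ n0 : ℕ, ∀ n : ℕ, n0 ≤ n →
    run (BK n) (fun A => |(A.card : ℝ) - (n : ℝ) ^ (3 / 2 : ℝ) / (2 * Real.sqrt 2)|)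
      (tr (univ : Finset (Fin n))).card (tr (univ : Finset (Fin n))) ≤
      ε * (n : ℝ) ^ (3 / 2 : ℝ) := by
  refine NL.sharp_of_stages ?_ ?_
  · intro eps he
    exact stage2 he
  · intro t d C kapE J ht0 ht hd0 hd hC hk
    exact stage1 J ht0 ht hd0 hd hC hk

end

end Vale.Agent.P046.CT
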