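import Vale.Agent.P046.CT.Stg0
import Vale.Agent.P046.CT.BadDel
import Vale.Agent.P046.NL.Defs6
import Vale.Agent.P046.NL.MidAux
import Vale.Agent.P046.NL.SYSBK

/-!
P046, sharp constant: final assembly from stage 0 (early phase), stage 1 (from `u0 n` to
`n ^ (-d)`) and stage 2 (from `n ^ (-d)` to the end).
-/

namespace Vale.Agent.P046.NL

open Finset Vale.Agent.P046

noncomputable section

namespace SO

/-- statement of `stage2` -/
def Stage2 : Prop := ∀ eps : ℝ, 0 < eps → ∃ (J : ℕ) (C um : ℝ), 0 < C ∧ 0 < um ∧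
    ∀ (n : ℕ) (C6 C8 : Finset (Finset (Finset (Sym2 (Fin n))))), Sys (BK n) C6 C8 →
    ∀ (c u : ℝ) (s : St (Sym2 (Fin n))), 0 < c → 0 < u → u ≤ um →
    GS (BK n) (t0 e0) (2 * t0 e0) u s → s.A ⊆ tr univ → s.B ⊆ tr univ →
    run (BK n) (fun A => |(A.card : ℝ) - c / Real.sqrt 2|) s.A.card s.A ≤
      (1 + eps) * |u ^ (1 / 2 : ℝ) * Q s - c| + eps * c + eps * (u ^ (1 / 10 : ℝ) * S 2 u s)
        + C * (u ^ (-(1 / 2 + 3 / 4 * e0) : ℝ) * (Sb u s + S 4 u s + u * V s)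
          + u ^ (-(1 / 2 + 3 / 4 * e0 / 2) : ℝ) * Ph (BK n) (e0 / 4) u s
          + u ^ (57 / 20 : ℝ) * Nc C6 s + u ^ (7 / 2 - 3 / 4 * e0 : ℝ) * Nc C8 s)
        + C * ∑ l ∈ range (2 * J + 1), Nc (CTB.CB n J l) s + C * n

/-- statement of `stage1` -/
def Stage1 : Prop := ∀ (t d C kapE : ℝ) (J : ℕ), 0 < t → t ≤ t0 e0 → 0 < d → d ≤ e0 / 100 →
    0 < C → 0 < kapE → ∃ n0 : ℕ, ∀ n : ℕ, n0 ≤ n →
    ∀ (C6 C8 : Finset (Finset (Finset (Sym2 (Fin n))))), Sys (BK n) C6 C8 →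
    ∀ (c c2 : ℝ) (Phi : Finset (Sym2 (Fin n)) → ℝ),
    (∀ s : St (Sym2 (Fin n)), GS (BK n) t (2 * t) ((n : ℝ) ^ (-d)) s → s.A ⊆ tr univ →
      s.B ⊆ tr univ → run (BK n) Phi s.A.card s.A ≤
        C * |((n : ℝ) ^ (-d)) ^ (1 / 2 : ℝ) * Q s - c|
        + C * Rst (3 / 4 * e0) (e0 / 4) (BK n) C6 C8 ((n : ℝ) ^ (-d)) s
        + C * ∑ l ∈ range (2 * J + 1), Nc (CTB.CB n J l) s + c2) →
    ∀ A, A ⊆ tr univ → (∀ e ∈ A, |xv (u0 n) (toSt (BK n) A) e| ≤ t) →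
    run (BK n) Phi A.card A ≤
      C * Real.sqrt (1 + (u0 n ^ (1 / 2 : ℝ) * (A.card : ℝ) - c) ^ 2)
      + C * kapE * PsiE n C6 C8 (u0 n) A
      + C * (n : ℝ) ^ (d * J) * PsiN t (2 * J) (CTB.CB n J) (u0 n) (toSt (BK n) A) + c2

theorem gs_mono {α : Type} [DecidableEq α] {Bl : Finset (Finset α)} {t t' u : ℝ} {s : St α}
    (h : GS Bl t (2 * t) u s) (ht : t ≤ t') : GS Bl t' (2 * t') u s :=
  ⟨MC.inv_mono h.inv (by linarith), fun e he => (h.det e he).trans ht⟩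

/-- the functional is at most `n ^ 2` -/
theorem phi_le {n : ℕ} (hn : 1 ≤ n) (A : Finset (Sym2 (Fin n))) :
    |(A.card : ℝ) - (n : ℝ) ^ (3 / 2 : ℝ) / 2 / Real.sqrt 2| ≤ (n : ℝ) ^ 2 := by
  have hn1 : (1 : ℝ) ≤ n := by exact_mod_cast hn
  have h1 : A.card ≤ Fintype.card (Sym2 (Fin n)) := Finset.card_le_univ A
  have h2 : Fintype.card (Sym2 (Fin n)) ≤ n ^ 2 := by
    rw [Sym2.card, Fintype.card_fin]
    have h3 : (n + 1).choose 2 = (n + 1) * n / 2 := by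
      rw [Nat.choose_two_right]
      rfl
    rw [h3]
    apply Nat.div_le_of_le_mul
    nlinarith
  have h4 : (A.card : ℝ) ≤ (n : ℝ) ^ 2 := by exact_mod_cast h1.trans h2
  have h5 : (n : ℝ) ^ (3 / 2 : ℝ) ≤ (n : ℝ) ^ 2 := by
    rw [← Real.rpow_two]
    exact Real.rpow_le_rpow_of_exponent_le hn1 (by norm_num)
  have h6 : 0 ≤ (n : ℝ) ^ (3 / 2 : ℝ) := Real.rpow_nonneg (by linarith) _
  have h7 : (1 : ℝ) ≤ Real.sqrt 2 := Real.one_le_sqrt.mpr (by norm_num)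
  have h8 : (n : ℝ) ^ (3 / 2 : ℝ) / 2 / Real.sqrt 2 ≤ (n : ℝ) ^ (3 / 2 : ℝ) / 2 :=
    div_le_self (by linarith) h7
  exact abs_sub_le_of_nonneg_of_le (Nat.cast_nonneg _) h4 (by positivity) (by linarith)

/-- the error terms -/
theorem ev_err (ε C C' CP : ℝ) (hε : 0 < ε) : ∃ n0 : ℕ, ∀ n : ℕ, n0 ≤ n →
    2 * C' ≤ ε / 10 * (n : ℝ) ^ (3 / 2 : ℝ) ∧
    C' * CP * (n : ℝ) ^ (5 / 4 : ℝ) ≤ ε / 10 * (n : ℝ) ^ (3 / 2 : ℝ) ∧
    C * (n : ℝ) ≤ ε / 10 * (n : ℝ) ^ (3 / 2 : ℝ) ∧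
    C' * ((n : ℝ) ^ (249 / 100 : ℝ) * u0 n) ≤ ε / 10 * (n : ℝ) ^ (3 / 2 : ℝ) := by
  have hd : 0 < ε / 10 := by positivity
  obtain ⟨n1, h1⟩ := DE.ev_pow (2 * C' / (ε / 10)) 0 (3 / 2) (by norm_num)
  obtain ⟨n2, h2⟩ := DE.ev_pow (C' * CP / (ε / 10)) (5 / 4) (3 / 2) (by norm_num)
  obtain ⟨n3, h3⟩ := DE.ev_pow (C / (ε / 10)) 1 (3 / 2) (by norm_num)
  obtain ⟨n4, h4⟩ := DE.ev_pow (C' / (ε / 10)) (249 / 100 + (-1 + 2 * c0)) (3 / 2)
    (by unfold c0; norm_num)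
  refine ⟨max (max n1 n2) (max (max n3 n4) 1), fun n hn => ?_⟩
  have e1 := h1 n ((le_max_left _ _).trans ((le_max_left _ _).trans hn))
  have e2 := h2 n ((le_max_right _ _).trans ((le_max_left _ _).trans hn))
  have e3 := h3 n ((le_max_left _ _).trans ((le_max_left _ _).trans ((le_max_right _ _).trans hn)))
  have e4 := h4 n ((le_max_right _ _).trans ((le_max_left _ _).trans ((le_max_right _ _).trans hn)))
  have hn1 : 1 ≤ n := (le_max_right _ _).trans ((le_max_right _ _).trans hn)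
  have hn0 : (0 : ℝ) < n := by exact_mod_cast hn1
  have key : ∀ a b x : ℝ, a / (ε / 10) * x ≤ b → a * x ≤ ε / 10 * b := by
    intro a b x h
    have h' := mul_le_mul_of_nonneg_left h hd.le
    have h'' : ε / 10 * (a / (ε / 10) * x) = a * x := by
      field_simp
    linarith
  refine ⟨?_, key _ _ _ e2, ?_, ?_⟩
  · have := key _ _ _ e1
    rwa [Real.rpow_zero, mul_one] at this
  · have := key _ _ _ e3
    rwa [Real.rpow_one] at this
  · have := key _ _ _ e4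
    rwa [Real.rpow_add hn0] at this

end SO

open SO in
/-- [SHARP] from the stages -/
theorem sharp_of_stages (H2 : Stage2) (H1 : Stage1) : ∀ ε : ℝ, 0 < ε → ∃ n0 : ℕ, ∀ n : ℕ,
    n0 ≤ n → run (BK n) (fun A => |(A.card : ℝ) - (n : ℝ) ^ (3 / 2 : ℝ) / (2 * Real.sqrt 2)|)
      (tr (univ : Finset (Fin n))).card (tr (univ : Finset (Fin n))) ≤
      ε * (n : ℝ) ^ (3 / 2 : ℝ) := by
  intro ε hε
  obtain ⟨e, he⟩ : ∃ e : ℝ, e = min 1 (ε / 8) := ⟨_, rfl⟩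
  have he0 : 0 < e := by rw [he]; exact lt_min one_pos (by positivity)
  have he1 : e ≤ 1 := by rw [he]; exact min_le_left _ _
  have he2 : e ≤ ε / 8 := by rw [he]; exact min_le_right _ _
  obtain ⟨J, C, um, hC, hum, h2⟩ := H2 e he0
  obtain ⟨C', hC'⟩ : ∃ C' : ℝ, C' = C + 2 := ⟨_, rfl⟩
  have hC'0 : 0 < C' := by rw [hC']; linarith
  have hC'2 : 2 ≤ C' := by rw [hC']; linarith
  have hCC : C ≤ C' := by rw [hC']; linarith
  have hJ : (0 : ℝ) ≤ J := Nat.cast_nonneg J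
  obtain ⟨t, ht⟩ : ∃ t : ℝ, t = min (t0 e0) (1 / (24 * ((J : ℝ) + 1))) := ⟨_, rfl⟩
  have ht0 : 0 < t := by rw [ht]; exact lt_min ET.t0_pos (by positivity)
  have ht1 : t ≤ t0 e0 := by rw [ht]; exact min_le_left _ _
  have ht2 : t ≤ 1 / (24 * ((J : ℝ) + 1)) := by rw [ht]; exact min_le_right _ _
  have ht100 : t ≤ 1 / 100 := by
    have : t0 e0 ≤ 1 / 100 := by unfold t0 e0; norm_num
    linarith
  obtain ⟨d, hd⟩ : ∃ d : ℝ, d = min (e0 / 100) (1 / (8 * ((J : ℝ) + 1))) := ⟨_, rfl⟩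
  have hd0 : 0 < d := by
    rw [hd]; exact lt_min (div_pos ET.e0_pos (by norm_num)) (by positivity)
  have hd1 : d ≤ e0 / 100 := by rw [hd]; exact min_le_left _ _
  have hd2 : d ≤ 1 / (8 * ((J : ℝ) + 1)) := by rw [hd]; exact min_le_right _ _
  obtain ⟨kap, hkap⟩ : ∃ kap : ℝ, kap = min 1 (ε / (10 ^ 14 * C')) := ⟨_, rfl⟩
  have hk0 : 0 < kap := by rw [hkap]; exact lt_min one_pos (by positivity)
  have hk1 : kap ≤ 1 := by rw [hkap]; exact min_le_left _ _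
  have hk2 : kap * C' ≤ ε / 10 ^ 14 := by
    have h : kap ≤ ε / (10 ^ 14 * C') := by rw [hkap]; exact min_le_right _ _
    calc kap * C' ≤ ε / (10 ^ 14 * C') * C' := mul_le_mul_of_nonneg_right h hC'0.le
      _ = ε / 10 ^ 14 := by field_simp
  obtain ⟨n1, h1⟩ := H1 t d C' kap J ht0 ht1 hd0 hd1 hC'0 hk0
  obtain ⟨n2, h0⟩ := stage0 t kap ht0 ht100 hk0 hk1 J
  obtain ⟨CP, hCP, hstart⟩ := CT.PsiN_start J
  obtain ⟨n3, herr⟩ := ev_err ε C C' CP hε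
  obtain ⟨n4, hu⟩ := DE.ev_const (1 / um) d hd0
  obtain ⟨n5, hev⟩ := ET.ev_u0 1 one_pos
  refine ⟨max (max (max n1 n2) (max n3 n4)) n5, fun n hn => ?_⟩
  have hn5 : n5 ≤ n := (le_max_right _ _).trans hn
  have hnn : max (max n1 n2) (max n3 n4) ≤ n := (le_max_left _ _).trans hn
  have hn1 : n1 ≤ n := (le_max_left _ _).trans ((le_max_left _ _).trans hnn)
  have hn2 : n2 ≤ n := (le_max_right _ _).trans ((le_max_left _ _).trans hnn)
  have hn3 : n3 ≤ n := (le_max_left _ _).trans ((le_max_right _ _).trans hnn)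
  have hn4 : n4 ≤ n := (le_max_right _ _).trans ((le_max_right _ _).trans hnn)
  obtain ⟨hn4', hU1, hU2, hU3⟩ := hev n hn5
  have hn4r : (4 : ℝ) ≤ n := by exact_mod_cast hn4'
  have hn' : (0 : ℝ) < n := by linarith
  have hn1' : 1 ≤ n := by omega
  have hU0 : 0 < u0 n := lt_trans (div_pos one_pos (by linarith)) hU3
  obtain ⟨er1, er2, er3, er4⟩ := herr n hn3
  obtain ⟨C6, C8, hS, hC6, hC8⟩ := sys_BK n
  have hN : 0 < (n : ℝ) ^ (3 / 2 : ℝ) := Real.rpow_pos_of_pos hn' _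
  obtain ⟨c, hc⟩ : ∃ c : ℝ, c = (n : ℝ) ^ (3 / 2 : ℝ) / 2 := ⟨_, rfl⟩
  have hc0 : 0 < c := by rw [hc]; linarith
  have hud0 : 0 < (n : ℝ) ^ (-d) := Real.rpow_pos_of_pos hn' _
  have hud : (n : ℝ) ^ (-d) ≤ um := by
    have h := hu n hn4
    rw [Real.rpow_neg hn'.le, inv_le_comm₀ (Real.rpow_pos_of_pos hn' _) hum, ← one_div]
    exact h
  have hfun : (fun A : Finset (Sym2 (Fin n)) =>
      |(A.card : ℝ) - (n : ℝ) ^ (3 / 2 : ℝ) / (2 * Real.sqrt 2)|) =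
      fun A => |(A.card : ℝ) - c / Real.sqrt 2| := by
    funext A
    rw [hc, div_div]
  rw [hfun]
  -- stage 1
  have k1 := h1 n hn1 C6 C8 hS c (e * c + C * n) (fun A => |(A.card : ℝ) - c / Real.sqrt 2|)
    (by
      intro s hs hsA hsB
      have g := h2 n C6 C8 hS c ((n : ℝ) ^ (-d)) s hc0 hud0 hud (gs_mono hs ht1) hsA hsB
      refine g.trans ?_
      have q0 : 0 ≤ ((n : ℝ) ^ (-d)) ^ (1 / 10 : ℝ) * S 2 ((n : ℝ) ^ (-d)) s :=
        mul_nonneg (Real.rpow_nonneg hud0.le _) (ET.S_nonneg 2 (by decide) _ _)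
      have q1 : 0 ≤ ((n : ℝ) ^ (-d)) ^ (-(1 / 2 + 3 / 4 * e0) : ℝ) *
          (Sb ((n : ℝ) ^ (-d)) s + S 4 ((n : ℝ) ^ (-d)) s + (n : ℝ) ^ (-d) * V s) :=
        mul_nonneg (Real.rpow_nonneg hud0.le _) (add_nonneg (add_nonneg (ET.Sb_nonneg _ _)
          (ET.S_nonneg 4 (by decide) _ _)) (mul_nonneg hud0.le (MC.V_nonneg s)))
      have q2 : 0 ≤ ((n : ℝ) ^ (-d)) ^ (-(1 / 2 + 3 / 4 * e0 / 2) : ℝ) *
          Ph (BK n) (e0 / 4) ((n : ℝ) ^ (-d)) s :=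
        mul_nonneg (Real.rpow_nonneg hud0.le _)
          (MC.Ph_nonneg _ (by have := ET.e0_pos; linarith) _ s)
      have q3 : 0 ≤ ((n : ℝ) ^ (-d)) ^ (57 / 20 : ℝ) * Nc C6 s :=
        mul_nonneg (Real.rpow_nonneg hud0.le _) (Nat.cast_nonneg _)
      have q4 : 0 ≤ ((n : ℝ) ^ (-d)) ^ (7 / 2 - 3 / 4 * e0 : ℝ) * Nc C8 s :=
        mul_nonneg (Real.rpow_nonneg hud0.le _) (Nat.cast_nonneg _)
      have q5 : 0 ≤ ∑ l ∈ range (2 * J + 1), Nc (CTB.CB n J l) s :=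
        sum_nonneg fun _ _ => Nat.cast_nonneg _
      have a1 : (1 + e) * |((n : ℝ) ^ (-d)) ^ (1 / 2 : ℝ) * Q s - c| ≤
          C' * |((n : ℝ) ^ (-d)) ^ (1 / 2 : ℝ) * Q s - c| :=
        mul_le_mul_of_nonneg_right (by linarith) (abs_nonneg _)
      have a2 : e * (((n : ℝ) ^ (-d)) ^ (1 / 10 : ℝ) * S 2 ((n : ℝ) ^ (-d)) s) ≤
          C' * (((n : ℝ) ^ (-d)) ^ (1 / 10 : ℝ) * S 2 ((n : ℝ) ^ (-d)) s) :=
        mul_le_mul_of_nonneg_right (by linarith) q0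
      have a3 := mul_le_mul_of_nonneg_right hCC (add_nonneg (add_nonneg (add_nonneg q1 q2) q3) q4)
      have a4 := mul_le_mul_of_nonneg_right hCC q5
      unfold Rst
      linarith)
  -- stage 0
  have k0 := h0 n hn2 C6 C8 hS hC6 hC8 C' (C' * (n : ℝ) ^ (d * J)) (e * c + C * n)
    (by linarith) (by positivity) (by positivity) (fun A => |(A.card : ℝ) - c / Real.sqrt 2|)
    (by
      intro A
      rw [hc]
      exact phi_le hn1' A)
    (by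
      intro A hA _ hx
      have g := k1 A hA hx
      refine g.trans ?_
      have b1 : 0 ≤ (n : ℝ) ^ (1 / 100 : ℝ) * BadE n (u0 n) A :=
        mul_nonneg (Real.rpow_nonneg hn'.le _) (TH.badE_nonneg hU0 A)
      have b2 : C' * Real.sqrt (1 + (u0 n ^ (1 / 2 : ℝ) * (A.card : ℝ) - c) ^ 2)
          + C' * kap * PsiE n C6 C8 (u0 n) A ≤
          C' * PsiDE n ((n : ℝ) ^ (3 / 2 : ℝ) / 2) kap C6 C8 (u0 n) A := by
        rw [← hc]
        unfold PsiDE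
        have := mul_nonneg hC'0.le b1
        linarith
      linarith)
  refine k0.trans ?_
  have m1 := hstart n (by omega) t ht0.le (by linarith) (toSt (BK n) (tr univ))
  have m2 : C' * (n : ℝ) ^ (d * J) * PsiN t (2 * J) (CTB.CB n J) (1 / ((n : ℝ) - 2))
      (toSt (BK n) (tr univ)) ≤ C' * CP * (n : ℝ) ^ (5 / 4 : ℝ) := by
    have x1 : 0 ≤ C' * (n : ℝ) ^ (d * J) := by positivity
    have x2 := mul_le_mul_of_nonneg_left m1 x1
    refine x2.trans ?_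
    have x3 : C' * (n : ℝ) ^ (d * J) * (CP * (n : ℝ) ^ (1 + 3 * J * t)) =
        C' * CP * (n : ℝ) ^ (d * J + (1 + 3 * J * t)) := by
      rw [Real.rpow_add hn' (d * J) (1 + 3 * J * t)]
      ring
    rw [x3]
    refine mul_le_mul_of_nonneg_left ?_ (by positivity)
    refine Real.rpow_le_rpow_of_exponent_le (by linarith) ?_
    have x4 : d * J ≤ 1 / 8 := by
      calc d * J ≤ 1 / (8 * ((J : ℝ) + 1)) * J := mul_le_mul_of_nonneg_right hd2 hJ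
        _ = 1 / 8 * (J / (J + 1)) := by field_simp
        _ ≤ 1 / 8 * 1 := by
          refine mul_le_mul_of_nonneg_left ?_ (by norm_num)
          rw [div_le_one (by linarith)]
          linarith
        _ = 1 / 8 := by ring
    have x5 : 3 * J * t ≤ 1 / 8 := by
      calc 3 * J * t ≤ 3 * J * (1 / (24 * ((J : ℝ) + 1))) :=
            mul_le_mul_of_nonneg_left ht2 (by positivity)
        _ = 1 / 8 * (J / (J + 1)) := by field_simp; ring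
        _ ≤ 1 / 8 * 1 := by
          refine mul_le_mul_of_nonneg_left ?_ (by norm_num)
          rw [div_le_one (by linarith)]
          linarith
        _ = 1 / 8 := by ring
    linarith
  have m3 : C' * (2 + kap * (2 * 10 ^ 12 * (n : ℝ) ^ (3 / 2 : ℝ))) ≤
      2 * C' + ε / 50 * (n : ℝ) ^ (3 / 2 : ℝ) := by
    have y1 : C' * (2 + kap * (2 * 10 ^ 12 * (n : ℝ) ^ (3 / 2 : ℝ))) =
        2 * C' + (kap * C') * (2 * 10 ^ 12 * (n : ℝ) ^ (3 / 2 : ℝ)) := by ring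
    have y2 := mul_le_mul_of_nonneg_right hk2
      (show 0 ≤ 2 * 10 ^ 12 * (n : ℝ) ^ (3 / 2 : ℝ) by positivity)
    have y3 : ε / 10 ^ 14 * (2 * 10 ^ 12 * (n : ℝ) ^ (3 / 2 : ℝ)) =
        ε / 50 * (n : ℝ) ^ (3 / 2 : ℝ) := by ring
    linarith
  have m4 : e * c ≤ ε / 16 * (n : ℝ) ^ (3 / 2 : ℝ) := by
    rw [hc]
    have := mul_le_mul_of_nonneg_right he2 (show 0 ≤ (n : ℝ) ^ (3 / 2 : ℝ) / 2 by positivity)
    linarith
  have m5 : 0 < ε * (n : ℝ) ^ (3 / 2 : ℝ) := by positivity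
  linarith

end

end Vale.Agent.P046.NL
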