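import Vale.Agent.P046.CT.E0
import Vale.Agent.P046.NL.ETR
import Vale.Agent.P046.NL.ThetaOf

/-!
P046, sharp constant, stage 0: the early phase, from the start to `u0 n`.
-/

namespace Vale.Agent.P046.NL

open Finset Vale.Agent.P046

noncomputable section

/-- the functional of the early phase is non-negative -/
theorem psiDE_nonneg {n : ℕ} (hn : 1 ≤ n) (c : ℝ) {kap : ℝ} (hk : 0 ≤ kap)
    (C6 C8 : Finset (Finset (Finset (Sym2 (Fin n))))) {u : ℝ} (hu : 0 < u) (hu1 : u ≤ 1)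
    (A : Finset (Sym2 (Fin n))) : 0 ≤ PsiDE n c kap C6 C8 u A := by
  have h1 := mul_nonneg hk (ET.psiE_nonneg hn C6 C8 hu hu1 A)
  have h2 := mul_nonneg (Real.rpow_nonneg (Nat.cast_nonneg n) (1 / 100 : ℝ))
    (TH.badE_nonneg (n := n) hu A)
  have h3 : 0 ≤ Real.sqrt (1 + (u ^ (1 / 2 : ℝ) * (A.card : ℝ) - c) ^ 2) := Real.sqrt_nonneg _
  unfold PsiDE
  linarith

/-- [STG0] -/
theorem stage0 (t kap : ℝ) (ht0 : 0 < t) (ht : t ≤ 1 / 100) (hk : 0 < kap) (hk1 : kap ≤ 1)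
    (J : ℕ) : ∃ n0 : ℕ, ∀ n : ℕ, n0 ≤ n →
    ∀ (C6 C8 : Finset (Finset (Finset (Sym2 (Fin n))))), Sys (BK n) C6 C8 →
    (C6.card : ℝ) ≤ 10 ^ 4 * (n : ℝ) ^ 4 → (C8.card : ℝ) ≤ 10 ^ 5 * (n : ℝ) ^ 5 →
    ∀ lam CN c2 : ℝ, 1 ≤ lam → 0 ≤ CN → 0 ≤ c2 → ∀ Phi : Finset (Sym2 (Fin n)) → ℝ,
    (∀ A, Phi A ≤ (n : ℝ) ^ 2) →
    (∀ A, A ⊆ tr univ → GoodE n (u0 n) A → (∀ e ∈ A, |xv (u0 n) (toSt (BK n) A) e| ≤ t) →
      run (BK n) Phi A.card A ≤ lam * PsiDE n ((n : ℝ) ^ (3 / 2 : ℝ) / 2) kap C6 C8 (u0 n) A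
        + CN * PsiN t (2 * J) (CTB.CB n J) (u0 n) (toSt (BK n) A) + c2) →
    run (BK n) Phi (tr (univ : Finset (Fin n))).card (tr (univ : Finset (Fin n))) ≤
      lam * (2 + kap * (2 * 10 ^ 12 * (n : ℝ) ^ (3 / 2 : ℝ)))
        + CN * PsiN t (2 * J) (CTB.CB n J) (1 / ((n : ℝ) - 2)) (toSt (BK n) (tr univ))
        + c2 + lam * ((n : ℝ) ^ (249 / 100 : ℝ) * u0 n) := by
  obtain ⟨n1, hD⟩ := de_core kap hk hk1
  obtain ⟨n2, hN⟩ := EZ.n_early t ht0 ht J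
  obtain ⟨n3, hB⟩ := EZ.g0_bad t kap 0 ht0 hk.le le_rfl
  obtain ⟨n4, hU⟩ := ET.ev_u0 1 one_pos
  refine ⟨max (max n1 n2) (max n3 n4), fun n hn C6 C8 hS hC6 hC8 lam CN c2 hl hCN hc2 Phi hPhi
    hend => ?_⟩
  have hn1 : n1 ≤ n := (le_max_left _ _).trans ((le_max_left _ _).trans hn)
  have hn2 : n2 ≤ n := (le_max_right _ _).trans ((le_max_left _ _).trans hn)
  have hn3 : n3 ≤ n := (le_max_left _ _).trans ((le_max_right _ _).trans hn)
  have hn4 : n4 ≤ n := (le_max_right _ _).trans ((le_max_right _ _).trans hn)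
  obtain ⟨hn4', hU1, hU2, hU3⟩ := hU n hn4
  obtain ⟨c, hc⟩ : ∃ c : ℝ, c = (n : ℝ) ^ (3 / 2 : ℝ) / 2 := ⟨_, rfl⟩
  rw [← hc] at hend
  obtain ⟨E1, k1, hE1, hk1', h1⟩ := hD n hn1 C6 C8 hS c
  obtain ⟨E2, k2, hE2, hk2', h2⟩ := hN n hn2
  have hn4r : (4 : ℝ) ≤ n := by exact_mod_cast hn4'
  have hn' : (0 : ℝ) < n := by linarith
  have hn1' : 1 ≤ n := by omega
  have hus : 0 < 1 / ((n : ℝ) - 2) := div_pos one_pos (by linarith)
  have hl0 : 0 ≤ lam := by linarith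
  have key := early_transfer_gen hn4' hS.lin hU3 Phi (fun u A => EZ.GoodT n t u A)
    (fun u A => lam * PsiDE n c kap C6 C8 u A
      + CN * PsiN t (2 * J) (CTB.CB n J) u (toSt (BK n) A) + c2)
    (lam * (2 * (n : ℝ) ^ (249 / 100 : ℝ))) (by positivity) ?_ ?_ ?_
  · have s1 := ET.start hn4' C6 C8 hC6 hC8
    have s2 := TH.start_Q hn4'
    have s3 := TH.badE_start (show 3 ≤ n by omega)
    have s4 : PsiDE n c kap C6 C8 (1 / ((n : ℝ) - 2)) (tr univ) ≤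
        2 + kap * (2 * 10 ^ 12 * (n : ℝ) ^ (3 / 2 : ℝ)) := by
      unfold PsiDE
      rw [s3, hc, mul_zero, add_zero]
      have := mul_le_mul_of_nonneg_left s1 hk.le
      linarith
    have s5 := mul_le_mul_of_nonneg_left s4 hl0
    have s6 : lam * (2 * (n : ℝ) ^ (249 / 100 : ℝ)) * (u0 n / 2) =
        lam * ((n : ℝ) ^ (249 / 100 : ℝ) * u0 n) := by ring
    rw [s6] at key
    linarith
  · intro u A hA hu hu' hbad
    have hu0 : 0 < u := lt_of_lt_of_le hus hu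
    have hu1 : u ≤ 1 := hu'.trans hU2
    have b1 : run (BK n) Phi A.card A ≤ (n : ℝ) ^ 2 := by
      refine (TZ.run_mono (BK n) Phi (fun _ => (n : ℝ) ^ 2) hPhi _ _).trans ?_
      rw [TZ.run_const]
    have b2 := hB n hn3 J C6 C8 c u A hu hu' hbad
    have b3 : (n : ℝ) ^ 2 ≤ (n : ℝ) ^ (2 + 1 / 200 : ℝ) := by
      rw [← Real.rpow_two]
      exact Real.rpow_le_rpow_of_exponent_le (by linarith) (by norm_num)
    have b4 := psiDE_nonneg hn1' c hk.le C6 C8 hu0 hu1 A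
    have b5 : 0 ≤ CN * PsiN t (2 * J) (CTB.CB n J) u (toSt (BK n) A) :=
      mul_nonneg hCN (EZ.PsiN_nonneg _ _ _ hu0 _)
    have b6 : EZ.G0 n J t c kap 0 C6 C8 u A = PsiDE n c kap C6 C8 u A := by
      unfold EZ.G0
      ring
    rw [b6] at b2
    have b7 : 1 * PsiDE n c kap C6 C8 u A ≤ lam * PsiDE n c kap C6 C8 u A :=
      mul_le_mul_of_nonneg_right hl b4
    show run (BK n) Phi A.card A ≤ lam * PsiDE n c kap C6 C8 u A
      + CN * PsiN t (2 * J) (CTB.CB n J) u (toSt (BK n) A) + c2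
    linarith
  · refine ⟨lam * E1 + CN * E2, min k1 k2, by positivity, lt_min hk1' hk2', ?_⟩
    intro h u hh hhg hu hu' A hA hG
    have c1 := h1 h u hh (hhg.trans (min_le_left _ _)) hu hu' A hA hG.1
    have c2' := h2 h u hh (hhg.trans (min_le_right _ _)) hu hu' A hG.2
    have e1 : ∑ T ∈ bl (BK n) A, ((lam * PsiDE n c kap C6 C8 (u + 2 * h) (A \ T)
        + CN * PsiN t (2 * J) (CTB.CB n J) (u + 2 * h) (toSt (BK n) (A \ T)) + c2)
        - (lam * PsiDE n c kap C6 C8 (u + 2 * h) A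
        + CN * PsiN t (2 * J) (CTB.CB n J) (u + 2 * h) (toSt (BK n) A) + c2)) =
        lam * ∑ T ∈ bl (BK n) A,
          (PsiDE n c kap C6 C8 (u + 2 * h) (A \ T) - PsiDE n c kap C6 C8 (u + 2 * h) A)
        + CN * ∑ T ∈ bl (BK n) A,
          (PsiN t (2 * J) (CTB.CB n J) (u + 2 * h) (toSt (BK n) (A \ T))
            - PsiN t (2 * J) (CTB.CB n J) (u + 2 * h) (toSt (BK n) A)) := by
      rw [mul_sum, mul_sum, ← sum_add_distrib]
      exact sum_congr rfl fun T _ => by ring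
    rw [e1]
    have c1'' := mul_le_mul_of_nonneg_left c1 hl0
    have c2'' := mul_le_mul_of_nonneg_left c2' hCN
    linarith
  · intro A hA hG
    exact hend A hA hG.1 (EZ.xv_of_S6 ht0 hG.2)

end

end Vale.Agent.P046.NL
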