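import Vale.Agent.P046.NL.Defs6
import Vale.Agent.P046.NL.MidAux
import Vale.Agent.P046.NL.CMP2
import Vale.Agent.P046.NL.EARLYTHM

/-!
P046, sharp constant: comparison of the functionals of stage 1 at its end and at its start.
-/

namespace Vale.Agent.P046.CT

open Finset Vale.Agent.P046 Vale.Agent.P046.NL

noncomputable section

variable {α : Type} [DecidableEq α]

namespace STG1

theorem coef_nonneg' {ep U : ℝ} (hU : 0 < U) (hU1 : U ≤ 1 / 100) :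
    0 ≤ U ^ (1 - ep : ℝ) * U ^ (1 / 2 : ℝ) - U ^ (1 - ep : ℝ) * U ^ (7 / 10 : ℝ)
      - 1 / 2 * U ^ (1 / 10 - ep : ℝ) * U ^ (7 / 5 : ℝ) := by
  have e1 : U ^ (1 - ep : ℝ) * U ^ (1 / 2 : ℝ) = U ^ (3 / 2 - ep : ℝ) := by
    rw [← Real.rpow_add hU]; congr 1; ring
  have e2 : U ^ (1 - ep : ℝ) * U ^ (7 / 10 : ℝ) = U ^ (3 / 2 - ep : ℝ) * U ^ (1 / 5 : ℝ) := by
    rw [← Real.rpow_add hU, ← Real.rpow_add hU]; congr 1; ring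
  have e3 : U ^ (1 / 10 - ep : ℝ) * U ^ (7 / 5 : ℝ) = U ^ (3 / 2 - ep : ℝ) := by
    rw [← Real.rpow_add hU]; congr 1; ring
  have e4 : U ^ (1 / 5 : ℝ) ≤ 1 / 2 := by
    have h1 : (U ^ (1 / 5 : ℝ)) ^ 5 = U := by
      rw [← Real.rpow_natCast, ← Real.rpow_mul hU.le]; norm_num
    have h0 : 0 ≤ U ^ (1 / 5 : ℝ) := (Real.rpow_pos_of_pos hU _).le
    by_contra hc
    push Not at hc
    have h2 : (1 / 2 : ℝ) ^ 5 < (U ^ (1 / 5 : ℝ)) ^ 5 :=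
      pow_lt_pow_left₀ hc (by norm_num) (by norm_num)
    rw [h1] at h2
    norm_num at h2
    linarith
  have e5 : 0 < U ^ (3 / 2 - ep : ℝ) := Real.rpow_pos_of_pos hU _
  rw [mul_assoc, e1, e2, e3]
  nlinarith

theorem r9 {ep t kap sb s4 uv : ℝ} (h0 : 0 < ep) (h1 : ep ≤ 1 / 100) (hk1 : 1 ≤ kap)
    (hkT : 1 ≤ kap * (400 * t ^ 4 / ep)) (hSb : 0 ≤ sb) (hS4 : 0 ≤ s4) (hV : 0 ≤ uv) :
    sb + s4 + uv ≤ kap * (sb + 1000 / ep * s4 + 400 * t ^ 4 / ep * uv) := by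
  have b1 : 1 ≤ 1000 / ep := by rw [le_div_iff₀ h0]; linarith
  have b2 : sb ≤ kap * sb := le_mul_of_one_le_left hSb hk1
  have b4 : s4 ≤ 1000 / ep * s4 := le_mul_of_one_le_left hS4 b1
  have b3 : s4 ≤ kap * (1000 / ep * s4) := b4.trans (le_mul_of_one_le_left (hS4.trans b4) hk1)
  have b6 : uv ≤ kap * (400 * t ^ 4 / ep) * uv := le_mul_of_one_le_left hV hkT
  calc sb + s4 + uv ≤ kap * sb + kap * (1000 / ep * s4) + kap * (400 * t ^ 4 / ep) * uv :=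
        add_le_add (add_le_add b2 b3) b6
    _ = _ := by ring

theorem fin {kap r3 r4 r2 r6 r8 p1 p2 p3 p4 p6 p8 : ℝ} (c1 : 0 ≤ kap * p1)
    (c2 : r2 ≤ kap * p2) (c3 : r3 ≤ kap * p3) (c4 : r4 ≤ kap * p4) (c6 : r6 ≤ kap * p6)
    (c8 : r8 ≤ kap * p8) :
    r3 + r4 + r2 + r6 + r8 ≤ kap * (p1 + p2 + p3 + p4 + p6 + p8) := by
  have : kap * (p1 + p2 + p3 + p4 + p6 + p8) =
    kap * p1 + kap * p2 + kap * p3 + kap * p4 + kap * p6 + kap * p8 := by ring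
  rw [this]
  linarith

theorem r2 {ep kap U : ℝ} (h0 : 0 < ep) (h1 : ep ≤ 1 / 100) (hU : 0 < U) (hUl : U ≤ 1)
    (hkap : kap = U ^ (-(24 / 25) : ℝ)) :
    U ^ (1 / 10 : ℝ) ≤ kap * (4 * 10 ^ 6 / ep * U ^ (1 / 10 - ep : ℝ) * U ^ (2 / 5 : ℝ)
      + 4 * 10 ^ 8 / ep * U ^ (1 - ep : ℝ) * U ^ (1 / 10 : ℝ)) := by
  have hk0 : 0 < kap := by rw [hkap]; exact Real.rpow_pos_of_pos hU _
  have b1 : U ^ (1 / 10 : ℝ) ≤ 1 := Real.rpow_le_one hU.le hUl (by norm_num)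
  have b2 : 1 ≤ kap * (U ^ (1 / 10 - ep : ℝ) * U ^ (2 / 5 : ℝ)) := by
    rw [hkap, ← Real.rpow_add hU, ← Real.rpow_add hU]
    exact Real.one_le_rpow_of_pos_of_le_one_of_nonpos hU hUl (by linarith)
  have b3 : 1 ≤ 4 * 10 ^ 6 / ep := by
    rw [le_div_iff₀ h0]; linarith
  have b4 : 0 ≤ kap * (4 * 10 ^ 8 / ep * U ^ (1 - ep : ℝ) * U ^ (1 / 10 : ℝ)) := by positivity
  have b5 : kap * (4 * 10 ^ 6 / ep * U ^ (1 / 10 - ep : ℝ) * U ^ (2 / 5 : ℝ)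
    + 4 * 10 ^ 8 / ep * U ^ (1 - ep : ℝ) * U ^ (1 / 10 : ℝ)) =
    4 * 10 ^ 6 / ep * (kap * (U ^ (1 / 10 - ep : ℝ) * U ^ (2 / 5 : ℝ))) +
      kap * (4 * 10 ^ 8 / ep * U ^ (1 - ep : ℝ) * U ^ (1 / 10 : ℝ)) := by ring
  rw [b5]
  have b6 : (1 : ℝ) * 1 ≤ 4 * 10 ^ 6 / ep * (kap * (U ^ (1 / 10 - ep : ℝ) * U ^ (2 / 5 : ℝ))) :=
    mul_le_mul b3 b2 zero_le_one (by linarith)
  rw [mul_one] at b6
  exact b1.trans (b6.trans (le_add_of_nonneg_right b4))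

theorem mulR {kap a b x : ℝ} (hk1 : 1 ≤ kap) (hb : 0 ≤ b) (hab : a ≤ b) (hx : 0 ≤ x) :
    a * x ≤ kap * (b * x) :=
  (mul_le_mul_of_nonneg_right hab hx).trans (le_mul_of_one_le_left (mul_nonneg hb hx) hk1)

/-- the end of stage 1 -/
theorem rst_le {e1 ep t dl U : ℝ} (h0 : 0 < ep) (h1 : ep ≤ 1 / 100) (he : e1 ≤ ep)
    (hdl : 0 < dl) (hU : 0 < U)
    (hU1 : U ≤ 1 / 100) (hU2 : U ^ (24 / 25 : ℝ) ≤ 400 * t ^ 4 / ep)
    (Bl : Finset (Finset α)) (C6 C8 : Finset (Finset (Finset α))) (s : St α) :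
    Rst e1 dl Bl C6 C8 U s ≤ U ^ (-(24 / 25) : ℝ) * PsiS ep t dl U Bl C6 C8 U s := by
  obtain ⟨kap, hkap⟩ : ∃ kap : ℝ, kap = U ^ (-(24 / 25) : ℝ) := ⟨_, rfl⟩
  have hUl : U ≤ 1 := by linarith
  have hk1 : 1 ≤ kap := by
    rw [hkap]; exact Real.one_le_rpow_of_pos_of_le_one_of_nonpos hU hUl (by norm_num)
  have hk0 : 0 < kap := by linarith
  have hkT : 1 ≤ kap * (400 * t ^ 4 / ep) := by
    have h2 : kap * U ^ (24 / 25 : ℝ) = 1 := by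
      rw [hkap, ← Real.rpow_add hU]; norm_num
    have h3 := mul_le_mul_of_nonneg_left hU2 hk0.le
    rw [h2] at h3
    exact h3
  have q0 := coef_nonneg' (ep := ep) hU hU1
  have hV : 0 ≤ U * V s := mul_nonneg hU.le (MC.V_nonneg s)
  have hS2 := MC.S_nonneg (k := 2) (by decide) U s
  have hS4 := MC.S_nonneg (k := 4) (by decide) U s
  have hSb := ET.Sb_nonneg U s
  have a3 : U ^ (-(1 / 2 + e1) : ℝ) ≤ U ^ (-(1 / 2 + ep) : ℝ) :=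
    Real.rpow_le_rpow_of_exponent_ge hU hUl (by linarith)
  have a3' : 0 < U ^ (-(1 / 2 + ep) : ℝ) := Real.rpow_pos_of_pos hU _
  have a4 : U ^ (-(1 / 2 + e1 / 2) : ℝ) ≤ U ^ (-(1 / 2 + ep / 2) : ℝ) :=
    Real.rpow_le_rpow_of_exponent_ge hU hUl (by linarith)
  have a8 : U ^ (7 / 2 - e1 : ℝ) ≤ 10 ^ 6 * U ^ (7 / 2 - ep : ℝ) := by
    have b1 : U ^ (7 / 2 - e1 : ℝ) ≤ U ^ (7 / 2 - ep : ℝ) :=
      Real.rpow_le_rpow_of_exponent_ge hU hUl (by linarith)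
    exact b1.trans (le_mul_of_one_le_left (Real.rpow_nonneg hU.le _) (by norm_num))
  have b0 : 0 ≤ Sb U s + S 4 U s + U * V s := add_nonneg (add_nonneg hSb hS4) hV
  have c3 : U ^ (-(1 / 2 + e1) : ℝ) * (Sb U s + S 4 U s + U * V s) ≤
      kap * (U ^ (-(1 / 2 + ep) : ℝ) *
        (Sb U s + 1000 / ep * S 4 U s + 400 * t ^ 4 / ep * (U * V s))) := by
    calc U ^ (-(1 / 2 + e1) : ℝ) * (Sb U s + S 4 U s + U * V s) ≤
        U ^ (-(1 / 2 + ep) : ℝ) * (Sb U s + S 4 U s + U * V s) :=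
          mul_le_mul_of_nonneg_right a3 b0
      _ ≤ U ^ (-(1 / 2 + ep) : ℝ) *
          (kap * (Sb U s + 1000 / ep * S 4 U s + 400 * t ^ 4 / ep * (U * V s))) :=
          mul_le_mul_of_nonneg_left (r9 h0 h1 hk1 hkT hSb hS4 hV) a3'.le
      _ = _ := by ring
  have c1 : 0 ≤ kap * (4 * 10 ^ 8 / ep * (U ^ (1 - ep : ℝ) * U ^ (1 / 2 : ℝ)
      - U ^ (1 - ep : ℝ) * U ^ (7 / 10 : ℝ)
      - 1 / 2 * U ^ (1 / 10 - ep : ℝ) * U ^ (7 / 5 : ℝ)) * Q s) := by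
    have : 0 ≤ 4 * 10 ^ 8 / ep := by positivity
    exact mul_nonneg hk0.le (mul_nonneg (mul_nonneg this q0) (MC.Q_nonneg s))
  have c2 : U ^ (1 / 10 : ℝ) * S 2 U s ≤
      kap * ((4 * 10 ^ 6 / ep * U ^ (1 / 10 - ep : ℝ) * U ^ (2 / 5 : ℝ)
      + 4 * 10 ^ 8 / ep * U ^ (1 - ep : ℝ) * U ^ (1 / 10 : ℝ)) * S 2 U s) := by
    rw [← mul_assoc]
    exact mul_le_mul_of_nonneg_right (r2 h0 h1 hU hUl hkap) hS2
  have c4 := mulR hk1 (Real.rpow_nonneg hU.le _) a4 (MC.Ph_nonneg Bl hdl U s)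
  have c6 := mulR hk1 (Real.rpow_nonneg hU.le (57 / 20 : ℝ)) le_rfl (ET.Nc_nonneg C6 s)
  have c8 := mulR hk1 (by positivity) a8 (ET.Nc_nonneg C8 s)
  unfold Rst PsiS
  rw [← hkap]
  exact fin c1 c2 c3 c4 c6 c8

/-- the start of stage 1 -/
theorem start_le {e1 ep t U u : ℝ} (C6 C8 : Finset (Finset (Finset α)))
    (Bl : Finset (Finset α)) (A : Finset α) :
    PsiS e1 t (ep / 4) U Bl C6 C8 u (toSt Bl A) =
      PsiS e1 (t0 ep) (ep / 4) U Bl C6 C8 u (toSt Bl A) := by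
  unfold PsiS
  rw [ET.V_real]
  ring

end STG1

end

end Vale.Agent.P046.CT
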