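import Vale.Agent.P046.CT.HDefs
import Vale.Agent.P046.CT.Bad

/-!
P046, sharp constant: sufficient conditions for tree-like neighbourhoods (`TL`), and the number of
points for which they fail.
-/

namespace Vale.Agent.P046.CTB

open Finset Vale.Agent.P046 Vale.Agent.P046.CT

noncomputable section

variable {α : Type} [DecidableEq α]

/-- degree -/
def dgH (H : Finset (Finset α)) (x : α) : ℕ := (H.filter (fun T => x ∈ T)).card

theorem mem_bu {c : Finset (Finset α)} {x : α} : x ∈ c.biUnion id ↔ ∃ T ∈ c, x ∈ T := by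
  rw [mem_biUnion]
  rfl

/-! ### Connected sets -/

theorem Cn.insert' {H c : Finset (Finset α)} (h : Cn H c) {T : Finset α} (hT : T ∈ H)
    (hm : ¬ Disjoint T (c.biUnion id)) : Cn H (insert T c) := by
  by_cases hTc : T ∈ c
  · rwa [insert_eq_self.mpr hTc]
  · exact Cn.step h hT hTc hm

theorem Cn.union {H c' : Finset (Finset α)} (h' : Cn H c') : ∀ {c : Finset (Finset α)}, Cn H c →
    ¬ Disjoint (c.biUnion id) (c'.biUnion id) → Cn H (c ∪ c') := by
  induction h' with
  | @one T hT =>
    intro c h hd
    rw [singleton_biUnion, id] at hd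
    have h1 : c ∪ {T} = insert T c := by
      rw [union_comm]
      rfl
    rw [h1]
    exact h.insert' hT fun hd' => hd hd'.symm
  | @step c'' T hc hT hTc hm ih =>
    intro c h hd
    rw [bu_insert, disjoint_union_right, not_and_or] at hd
    have h1 : c ∪ insert T c'' = insert T (c ∪ c'') := union_insert _ _ _
    by_cases hd2 : Disjoint (c.biUnion id) (c''.biUnion id)
    · rcases hd with hd | hd
      · have h2 : Cn H (insert T c) := h.insert' hT fun hd' => hd hd'.symm
        have h3 := ih h2 (by
          rw [bu_insert, disjoint_union_left, not_and_or]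
          exact Or.inl hm)
        rw [h1, ← insert_union]
        exact h3
      · exact absurd hd2 hd
    · rw [h1]
      refine (ih h hd2).insert' hT fun hd' => hm ?_
      refine disjoint_of_subset_right ?_ hd'
      exact biUnion_subset_biUnion_of_subset_left _ subset_union_right

/-! ### Nice points -/

/-- no bad configuration of at most `m` blocks at `e`, degrees at most `D` up to distance `m` -/
structure Nice (H : Finset (Finset α)) (D m : ℕ) (e : α) : Prop where
  deg0 : dgH H e ≤ D
  deg : ∀ c, Cn H c → c.card ≤ m → e ∈ c.biUnion id → ∀ x ∈ c.biUnion id, dgH H x ≤ D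
  tree : ∀ c, Cn H c → c.card ≤ m → e ∈ c.biUnion id → 2 * c.card < (c.biUnion id).card

/-- `c` is a rooted configuration at `e` -/
def Rt (H : Finset (Finset α)) (e : α) (c : Finset (Finset α)) : Prop :=
  c = ∅ ∨ (Cn H c ∧ e ∈ c.biUnion id)

theorem pts_rt {H : Finset (Finset α)} {e : α} {c : Finset (Finset α)}
    (h : Cn H c ∧ e ∈ c.biUnion id) : pts {e} c = c.biUnion id := by
  unfold pts
  rw [union_eq_right, singleton_subset_iff]
  exact h.2

theorem Nice.ext {H : Finset (Finset α)} (h3 : ∀ T ∈ H, T.card = 3) {D m : ℕ} {e : α}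
    (hN : Nice H D m e) {c : Finset (Finset α)} (hc : Rt H e c) (hm : c.card + 1 ≤ m)
    {T : Finset α} (hT : T ∈ H) (hTc : T ∉ c) (hd : ¬ Disjoint T (pts {e} c)) :
    (Cn H (insert T c) ∧ e ∈ (insert T c).biUnion id) ∧ (T ∩ pts {e} c).card = 1 := by
  rcases hc with rfl | hc
  · have h1 : pts {e} (∅ : Finset (Finset α)) = {e} := by
      unfold pts
      rw [biUnion_empty, union_empty]
    rw [h1] at hd ⊢
    have heT : e ∈ T := by
      by_contra h
      exact hd (disjoint_singleton_right.mpr h)
    refine ⟨⟨?_, ?_⟩, ?_⟩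
    · rw [insert_empty_eq]
      exact Cn.one hT
    · rw [mem_bu]
      exact ⟨T, mem_insert_self _ _, heT⟩
    · rw [inter_singleton_of_mem heT, card_singleton]
  · rw [pts_rt hc] at hd ⊢
    have h1 : Cn H (insert T c) := Cn.step hc.1 hT hTc hd
    have h2 : e ∈ (insert T c).biUnion id := by
      rw [bu_insert]
      exact mem_union_right _ hc.2
    refine ⟨⟨h1, h2⟩, ?_⟩
    have h4 : (insert T c).card = c.card + 1 := card_insert_of_notMem hTc
    have h5 := hN.tree _ h1 (by omega) h2
    rw [bu_insert, h4] at h5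
    have h6 := card_union_add_card_inter T (c.biUnion id)
    have h7 := hc.1.card_le (Bl := H) h3
    have h8 : 0 < (T ∩ c.biUnion id).card := by
      rw [card_pos, nonempty_iff_ne_empty]
      intro h
      exact hd (disjoint_iff_inter_eq_empty.mpr h)
    rw [h3 T hT] at h6
    omega

theorem Nice.deg_pts {H : Finset (Finset α)} {D m : ℕ} {e : α} (hN : Nice H D m e)
    {c : Finset (Finset α)} (hc : Rt H e c) (hm : c.card ≤ m) {x : α} (hx : x ∈ pts {e} c) :
    dgH H x ≤ D := by
  rcases hc with rfl | hc
  · unfold pts at hx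
    rw [biUnion_empty, union_empty, mem_singleton] at hx
    rw [hx]
    exact hN.deg0
  · rw [pts_rt hc] at hx
    exact hN.deg c hc.1 hm hc.2 x hx

/-- one root -/
theorem tl_rt {H : Finset (Finset α)} (h3 : ∀ T ∈ H, T.card = 3) {D m : ℕ} {e : α}
    (hN : Nice H D m e) (R : ℕ) : ∀ Bs : Finset (Finset α), Rt H e Bs → Bs.card + R ≤ m →
    TL H D {e} R Bs := by
  induction R with
  | zero => exact fun _ _ _ => trivial
  | succ R ih =>
    intro Bs hB hm
    refine ⟨fun x hx => hN.deg_pts hB (by omega) hx, fun T hT hd => ?_⟩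
    by_cases hTB : T ∈ Bs
    · refine ⟨fun h => absurd hTB h, ?_⟩
      rw [insert_eq_self.mpr hTB]
      exact ih Bs hB (by omega)
    · have h1 := hN.ext h3 hB (by omega) hT hTB hd
      refine ⟨fun _ => h1.2, ih _ (Or.inr h1.1) ?_⟩
      rw [card_insert_of_notMem hTB]
      omega

/-- one point -/
theorem tl_one {H : Finset (Finset α)} (h3 : ∀ T ∈ H, T.card = 3) {D m R : ℕ} {e : α}
    (hN : Nice H D m e) (hR : R ≤ m) : TL H D {e} R ∅ :=
  tl_rt h3 hN R ∅ (Or.inl rfl) (by rw [card_empty]; omega)

theorem pts_pair (e f : α) (c c' : Finset (Finset α)) :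
    pts {e, f} (c ∪ c') = pts {e} c ∪ pts {f} c' := by
  unfold pts
  rw [union_biUnion]
  ext x
  simp only [mem_union, mem_insert, mem_singleton]
  tauto

/-- two roots far apart -/
theorem tl_rt2 {H : Finset (Finset α)} (h3 : ∀ T ∈ H, T.card = 3) {D m : ℕ} {e f : α}
    (hN : Nice H D m e) (hN' : Nice H D m f)
    (hfar : ∀ c, Cn H c → c.card ≤ m → e ∈ c.biUnion id → f ∉ c.biUnion id) (R : ℕ) :
    ∀ c c' : Finset (Finset α), Rt H e c → Rt H f c' → (c ∪ c').card + R ≤ m →
    TL H D {e, f} R (c ∪ c') := by
  induction R with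
  | zero => exact fun _ _ _ _ _ => trivial
  | succ R ih =>
    intro c c' hc hc' hm
    have hcc : c.card ≤ (c ∪ c').card := card_le_card subset_union_left
    have hcc' : c'.card ≤ (c ∪ c').card := card_le_card subset_union_right
    refine ⟨fun x hx => ?_, fun T hT hd => ?_⟩
    · rw [pts_pair, mem_union] at hx
      rcases hx with hx | hx
      · exact hN.deg_pts hc (by omega) hx
      · exact hN'.deg_pts hc' (by omega) hx
    by_cases hTB : T ∈ c ∪ c'
    · refine ⟨fun h => absurd hTB h, ?_⟩
      rw [insert_eq_self.mpr hTB]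
      exact ih c c' hc hc' (by omega)
    · have hTc : T ∉ c := fun h => hTB (mem_union_left _ h)
      have hTc' : T ∉ c' := fun h => hTB (mem_union_right _ h)
      have hTne : T.Nonempty := by
        rw [← card_pos, h3 T hT]
        norm_num
      have hins : (insert T (c ∪ c')).card = (c ∪ c').card + 1 := card_insert_of_notMem hTB
      rw [pts_pair] at hd ⊢
      -- `T` cannot meet both parts
      have hboth : ¬ (¬ Disjoint T (pts {e} c) ∧ ¬ Disjoint T (pts {f} c')) := by
        rintro ⟨h1, h2⟩
        have h4 := hN.ext h3 hc (by omega) hT hTc h1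
        have h5 := hN'.ext h3 hc' (by omega) hT hTc' h2
        have h6 : Cn H (insert T c ∪ insert T c') := by
          refine Cn.union h5.1.1 h4.1.1 ?_
          obtain ⟨x, hx⟩ := hTne
          rw [not_disjoint_iff]
          exact ⟨x, mem_bu.mpr ⟨T, mem_insert_self _ _, hx⟩,
            mem_bu.mpr ⟨T, mem_insert_self _ _, hx⟩⟩
        have h7 : insert T c ∪ insert T c' = insert T (c ∪ c') := by
          ext S
          simp only [mem_union, mem_insert]
          tauto
        rw [h7] at h6
        refine hfar _ h6 (by omega) ?_ ?_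
        · rw [← h7, union_biUnion]
          exact mem_union_left _ h4.1.2
        · rw [← h7, union_biUnion]
          exact mem_union_right _ h5.1.2
      rw [disjoint_union_right, not_and_or] at hd
      by_cases h1 : Disjoint T (pts {e} c)
      · have h2 : ¬ Disjoint T (pts {f} c') := by
          rcases hd with h | h
          · exact absurd h1 h
          · exact h
        have h5 := hN'.ext h3 hc' (by omega) hT hTc' h2
        refine ⟨fun _ => ?_, ?_⟩
        · rw [inter_union_distrib_left, disjoint_iff_inter_eq_empty.mp h1, empty_union]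
          exact h5.2
        · have h7 : insert T (c ∪ c') = c ∪ insert T c' := (union_insert _ _ _).symm
          rw [h7]
          refine ih c (insert T c') hc (Or.inr h5.1) ?_
          rw [← h7]
          omega
      · have h2 : Disjoint T (pts {f} c') := by
          by_contra h
          exact hboth ⟨h1, h⟩
        have h4 := hN.ext h3 hc (by omega) hT hTc h1
        refine ⟨fun _ => ?_, ?_⟩
        · rw [inter_union_distrib_left, disjoint_iff_inter_eq_empty.mp h2, union_empty]
          exact h4.2
        · have h7 : insert T (c ∪ c') = insert T c ∪ c' := (insert_union _ _ _).symm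
          rw [h7]
          refine ih (insert T c) c' (Or.inr h4.1) hc' ?_
          rw [← h7]
          omega

/-- two points -/
theorem tl_pair {H : Finset (Finset α)} (h3 : ∀ T ∈ H, T.card = 3) {D m R : ℕ} {e f : α}
    (hN : Nice H D m e) (hN' : Nice H D m f)
    (hfar : ∀ c, Cn H c → c.card ≤ m → e ∈ c.biUnion id → f ∉ c.biUnion id) (hR : R ≤ m) :
    TL H D {e, f} R ∅ := by
  have := tl_rt2 h3 hN hN' hfar R ∅ ∅ (Or.inl rfl) (Or.inl rfl)
    (by rw [empty_union, card_empty]; omega)
  rwa [empty_union] at this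

/-! ### Neighbourhoods -/

/-- `S` and all points on a common block with a point of `S` -/
def nb (H : Finset (Finset α)) (S : Finset α) : Finset α :=
  S ∪ (H.filter (fun T => ¬ Disjoint T S)).biUnion id

theorem mem_nb {H : Finset (Finset α)} {S : Finset α} {y : α} :
    y ∈ nb H S ↔ y ∈ S ∨ ∃ T ∈ H, y ∈ T ∧ ∃ x ∈ S, x ∈ T := by
  unfold nb
  rw [mem_union, mem_bu]
  refine or_congr Iff.rfl ⟨?_, ?_⟩
  · rintro ⟨T, hT, hy⟩
    rw [mem_filter, not_disjoint_iff] at hT
    obtain ⟨hT, x, hx, hxS⟩ := hT
    exact ⟨T, hT, hy, x, hxS, hx⟩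
  · rintro ⟨T, hT, hy, x, hxS, hx⟩
    refine ⟨T, ?_, hy⟩
    rw [mem_filter, not_disjoint_iff]
    exact ⟨hT, x, hx, hxS⟩

theorem subset_nb (H : Finset (Finset α)) (S : Finset α) : S ⊆ nb H S := subset_union_left

theorem nb_mono (H : Finset (Finset α)) {S S' : Finset α} (h : S ⊆ S') : nb H S ⊆ nb H S' := by
  intro y hy
  rw [mem_nb] at hy ⊢
  rcases hy with hy | ⟨T, hT, hy, x, hx, hxT⟩
  · exact Or.inl (h hy)
  · exact Or.inr ⟨T, hT, hy, x, h hx, hxT⟩

theorem iter_mono (H : Finset (Finset α)) (k : ℕ) {S S' : Finset α} (h : S ⊆ S') :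
    (nb H)^[k] S ⊆ (nb H)^[k] S' := by
  induction k generalizing S S' with
  | zero => exact h
  | succ k ih =>
    rw [Function.iterate_succ_apply, Function.iterate_succ_apply]
    exact ih (nb_mono H h)

theorem iter_le (H : Finset (Finset α)) {k m : ℕ} (hkm : k ≤ m) (S : Finset α) :
    (nb H)^[k] S ⊆ (nb H)^[m] S := by
  induction hkm with
  | refl => exact Subset.rfl
  | step _ ih =>
    rw [Function.iterate_succ_apply']
    exact ih.trans (subset_nb H _)

theorem iter_symm (H : Finset (Finset α)) (k : ℕ) : ∀ {x y : α}, y ∈ (nb H)^[k] {x} →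
    x ∈ (nb H)^[k] {y} := by
  induction k with
  | zero =>
    intro x y h
    have h' : y ∈ ({x} : Finset α) := h
    rw [mem_singleton] at h'
    rw [h']
    exact mem_singleton_self x
  | succ k ih =>
    intro x y h
    rw [Function.iterate_succ_apply', mem_nb] at h
    rw [Function.iterate_succ_apply]
    rcases h with h | ⟨T, hT, hy, z, hz, hzT⟩
    · exact iter_mono H k (subset_nb H {y}) (ih h)
    · refine iter_mono H k ?_ (ih hz)
      rw [singleton_subset_iff, mem_nb]
      exact Or.inr ⟨T, hT, hzT, y, mem_singleton_self y, hy⟩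

theorem Cn.reach {H c : Finset (Finset α)} (h : Cn H c) : ∀ x ∈ c.biUnion id,
    c.biUnion id ⊆ (nb H)^[c.card] {x} := by
  induction h with
  | @one T hT =>
    intro x hx y hy
    rw [singleton_biUnion, id] at hx hy
    rw [card_singleton, Function.iterate_one, mem_nb]
    exact Or.inr ⟨T, hT, hy, x, mem_singleton_self x, hx⟩
  | @step c T hc hT hTc hm ih =>
    intro x hx
    rw [bu_insert] at hx ⊢
    rw [card_insert_of_notMem hTc]
    rw [not_disjoint_iff] at hm
    obtain ⟨z, hzT, hzc⟩ := hm
    rw [mem_union] at hx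
    by_cases hxc : x ∈ c.biUnion id
    · refine union_subset ?_ ((ih x hxc).trans (iter_le H (Nat.le_succ _) _))
      intro y hy
      rw [Function.iterate_succ_apply', mem_nb]
      exact Or.inr ⟨T, hT, hy, z, ih x hxc hzc, hzT⟩
    · have hxT : x ∈ T := by
        rcases hx with h | h
        · exact h
        · exact absurd h hxc
      refine union_subset ?_ ?_
      · intro y hy
        refine iter_le H (Nat.le_add_left 1 c.card) _ ?_
        rw [Function.iterate_one, mem_nb]
        exact Or.inr ⟨T, hT, hy, x, mem_singleton_self x, hxT⟩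
      · refine (ih z hzc).trans ?_
        rw [Function.iterate_succ_apply]
        refine iter_mono H _ ?_
        rw [singleton_subset_iff, mem_nb]
        exact Or.inr ⟨T, hT, hzT, x, mem_singleton_self x, hxT⟩

theorem Cn.reach' {H c : Finset (Finset α)} (h : Cn H c) {m : ℕ} (hm : c.card ≤ m) {x e : α}
    (hx : x ∈ c.biUnion id) (he : e ∈ c.biUnion id) {S : Finset α} (hxS : x ∈ S) :
    e ∈ (nb H)^[m] S :=
  iter_le H hm S (iter_mono H _ (singleton_subset_iff.mpr hxS) (h.reach x hx he))

/-- a point is nice if it is far from the exceptional points and not in a bad configuration -/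
theorem nice_of {H : Finset (Finset α)} {D m : ℕ} {Ex : Finset α}
    (hEx : ∀ x, D < dgH H x → x ∈ Ex) {e : α} (he : e ∉ (nb H)^[m] Ex)
    (hb : ∀ c, Cn H c → c.card ≤ m → (c.biUnion id).card ≤ 2 * c.card → e ∉ c.biUnion id) :
    Nice H D m e := by
  refine ⟨?_, ?_, ?_⟩
  · by_contra h
    push Not at h
    exact he (iter_le H (Nat.zero_le m) Ex (hEx e h))
  · intro c hc hm hec x hx
    by_contra h
    push Not at h
    exact he (hc.reach' hm hx hec (hEx x h))
  · intro c hc hm hec
    by_contra h
    push Not at h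
    exact hb c hc hm h hec

/-! ### Counting -/

theorem card_nb_le {H : Finset (Finset α)} (h3 : ∀ T ∈ H, T.card = 3) (S : Finset α) :
    (nb H S).card ≤ S.card + 2 * ∑ x ∈ S, dgH H x := by
  have h1 : nb H S ⊆ S ∪ S.biUnion (fun x => (H.filter (fun T => x ∈ T)).biUnion
      (fun T => T.erase x)) := by
    intro y hy
    rw [mem_nb] at hy
    rw [mem_union]
    rcases hy with hy | ⟨T, hT, hy, x, hx, hxT⟩
    · exact Or.inl hy
    · by_cases hyx : y = x
      · exact Or.inl (hyx ▸ hx)
      · refine Or.inr (mem_biUnion.mpr ⟨x, hx, mem_biUnion.mpr ⟨T, ?_, ?_⟩⟩)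
        · exact mem_filter.mpr ⟨hT, hxT⟩
        · exact mem_erase.mpr ⟨hyx, hy⟩
  refine (card_le_card h1).trans ((card_union_le _ _).trans (Nat.add_le_add_left ?_ _))
  refine card_biUnion_le.trans ?_
  rw [mul_sum]
  refine sum_le_sum fun x _ => ?_
  have h2 : ∀ T ∈ H.filter (fun T => x ∈ T), (T.erase x).card ≤ 2 := by
    intro T hT
    rw [mem_filter] at hT
    rw [card_erase_of_mem hT.2, h3 T hT.1]
  refine (card_biUnion_le_card_mul _ _ _ h2).trans ?_
  unfold dgH
  omega

/-- number of points within distance `k` of the exceptional points -/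
theorem card_reach_le {H : Finset (Finset α)} (h3 : ∀ T ∈ H, T.card = 3) {D : ℕ} {Ex : Finset α}
    (hEx : ∀ x, D < dgH H x → x ∈ Ex) (k : ℕ) :
    ((nb H)^[k] Ex).card ≤ (2 * D + 2) ^ k * (Ex.card + 2 * ∑ x ∈ Ex, dgH H x) := by
  induction k with
  | zero =>
    rw [pow_zero, one_mul]
    exact Nat.le_add_right _ _
  | succ k ih =>
    rw [Function.iterate_succ_apply']
    set N := (nb H)^[k] Ex with hN
    refine (card_nb_le h3 N).trans ?_
    have h1 : ∑ x ∈ N, dgH H x ≤ N.card * D + ∑ x ∈ Ex, dgH H x := by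
      have h2 : ∀ x ∈ N, dgH H x ≤ D + (if x ∈ Ex then dgH H x else 0) := by
        intro x _
        split_ifs with h
        · exact Nat.le_add_left _ _
        · by_contra hcon
          push Not at hcon
          exact h (hEx x (by omega))
      refine (sum_le_sum h2).trans ?_
      rw [sum_add_distrib, sum_const, smul_eq_mul]
      refine Nat.add_le_add_left ?_ _
      rw [← sum_filter]
      refine sum_le_sum_of_subset ?_
      intro x hx
      exact (mem_filter.mp hx).2
    set E := Ex.card + 2 * ∑ x ∈ Ex, dgH H x with hE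
    have h3' : 1 ≤ (2 * D + 2) ^ k := Nat.one_le_pow _ _ (by omega)
    calc N.card + 2 * ∑ x ∈ N, dgH H x ≤ N.card + 2 * (N.card * D + ∑ x ∈ Ex, dgH H x) := by
          omega
      _ ≤ (2 * D + 1) * N.card + E := by
          rw [hE]
          nlinarith
      _ ≤ (2 * D + 1) * ((2 * D + 2) ^ k * E) + (2 * D + 2) ^ k * E := by
          refine Nat.add_le_add (Nat.mul_le_mul_left _ ih) ?_
          exact Nat.le_mul_of_pos_left E h3'
      _ = (2 * D + 2) ^ (k + 1) * E := by ring

/-- the number of points within distance `k ≤ m` of a point which is far from the exceptional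
points -/
theorem card_ball_le {H : Finset (Finset α)} (h3 : ∀ T ∈ H, T.card = 3) {D m : ℕ} {Ex : Finset α}
    (hEx : ∀ x, D < dgH H x → x ∈ Ex) {e : α} (he : e ∉ (nb H)^[m] Ex) (k : ℕ) (hk : k ≤ m) :
    ((nb H)^[k] {e}).card ≤ (2 * D + 1) ^ k := by
  induction k with
  | zero =>
    have : ((nb H)^[0] {e}) = {e} := rfl
    rw [this, card_singleton, pow_zero]
  | succ k ih =>
    rw [Function.iterate_succ_apply']
    set N := (nb H)^[k] {e} with hN
    refine (card_nb_le h3 N).trans ?_
    have h1 : ∑ x ∈ N, dgH H x ≤ N.card * D := by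
      refine (sum_le_card_nsmul N _ D ?_).trans (le_of_eq (by rw [smul_eq_mul]))
      intro x hx
      by_contra hcon
      push Not at hcon
      refine he (iter_le H (show k ≤ m by omega) Ex ?_)
      exact iter_mono H k (singleton_subset_iff.mpr (hEx x hcon)) (iter_symm H k hx)
    have h2 := ih (by omega)
    calc N.card + 2 * ∑ x ∈ N, dgH H x ≤ N.card + 2 * (N.card * D) := by omega
      _ = (2 * D + 1) * N.card := by ring
      _ ≤ (2 * D + 1) * (2 * D + 1) ^ k := Nat.mul_le_mul_left _ h2
      _ = (2 * D + 1) ^ (k + 1) := by ring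

/-- far pairs -/
theorem far_of {H : Finset (Finset α)} {m : ℕ} {e f : α} (h : f ∉ (nb H)^[m] {e}) :
    ∀ c, Cn H c → c.card ≤ m → e ∈ c.biUnion id → f ∉ c.biUnion id :=
  fun _ hc hm he hf => h (hc.reach' hm he hf (mem_singleton_self e))

/-- the number of points in bad configurations -/
theorem card_in_bad {H : Finset (Finset α)} (h3 : ∀ T ∈ H, T.card = 3) {m : ℕ}
    (C : Finset (Finset (Finset α))) (hC : ∀ c ∈ C, c ⊆ H ∧ c.card ≤ m) :
    (C.biUnion (fun c => c.biUnion id)).card ≤ 3 * m * C.card := by
  have h1 : ∀ c ∈ C, (c.biUnion id).card ≤ 3 * m := by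
    intro c hc
    have h2 : ∀ T ∈ c, (id T).card ≤ 3 := fun T hT => le_of_eq (h3 T ((hC c hc).1 hT))
    have h4 := card_biUnion_le_card_mul c id 3 h2
    have h5 := (hC c hc).2
    nlinarith
  refine (card_biUnion_le_card_mul _ _ _ h1).trans (le_of_eq ?_)
  ring

end

end Vale.Agent.P046.CTB
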