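import Vale.Agent.P046.CT.ZDefs

/-! P046, sharp constant, part C, row [T2]: deletion costs through the second moment of the
degrees, and `log` against powers. -/

namespace Vale.Agent.P046.CT

open Finset Vale.Agent.P046

noncomputable section

variable {α : Type} [DecidableEq α]

namespace Tdel

theorem sqrt_le {K y : ℝ} (hK : 1 ≤ K) (hy : 0 ≤ y) :
    Real.sqrt (1 + y) ≤ K + 1 / K ^ 3 * (2 + 2 * y ^ 2) := by
  have hK0 : 0 < K := by linarith
  have h0 : 0 ≤ 1 / K ^ 3 * (2 + 2 * y ^ 2) := by positivity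
  rcases le_total (Real.sqrt (1 + y)) K with h | h
  · linarith
  · set s := Real.sqrt (1 + y) with hs
    have hs0 : 0 ≤ s := Real.sqrt_nonneg _
    have h2 : s ^ 2 = 1 + y := Real.sq_sqrt (by linarith)
    have h3 : s ^ 4 ≤ 2 + 2 * y ^ 2 := by
      have : s ^ 4 = (1 + y) ^ 2 := by rw [← h2]; ring
      rw [this]
      nlinarith [sq_nonneg (1 - y)]
    have h4 : s * K ^ 3 ≤ s ^ 4 := by
      have : K ^ 3 ≤ s ^ 3 := pow_le_pow_left₀ hK0.le h 3
      calc s * K ^ 3 ≤ s * s ^ 3 := mul_le_mul_of_nonneg_left this hs0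
        _ = s ^ 4 := by ring
    have h5 : s ≤ 1 / K ^ 3 * (2 + 2 * y ^ 2) := by
      rw [one_div, inv_mul_eq_div, le_div_iff₀ (by positivity)]
      linarith
    linarith

end Tdel

/-- deletion costs are linear in the number of deleted points, up to the second moment -/
theorem del_lin {Bl : Finset (Finset α)} {A D : Finset α} {K τ : ℝ} (hK : 1 ≤ K) (hτ : 0 ≤ τ)
    (hD : D ⊆ A) :
    ∑ x ∈ D, Real.sqrt (1 + 2 * (dg Bl A x : ℝ) * τ) ≤
      K * (D.card : ℝ) + 1 / K ^ 3 * (2 * (A.card : ℝ) + 8 * τ ^ 2 * ZZ Bl A) := by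
  have hK0 : 0 < K := by linarith
  have h1 : ∑ x ∈ D, Real.sqrt (1 + 2 * (dg Bl A x : ℝ) * τ) ≤
      ∑ x ∈ D, (K + 1 / K ^ 3 * (2 + 8 * τ ^ 2 * (dg Bl A x : ℝ) ^ 2)) := by
    refine sum_le_sum fun x _ => ?_
    have := Tdel.sqrt_le (y := 2 * (dg Bl A x : ℝ) * τ) hK (by positivity)
    refine this.trans (le_of_eq ?_)
    ring
  refine h1.trans ?_
  rw [sum_add_distrib, sum_const, nsmul_eq_mul, ← mul_sum, mul_comm K]
  have h2 : ∑ x ∈ D, (2 + 8 * τ ^ 2 * (dg Bl A x : ℝ) ^ 2) ≤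
      ∑ x ∈ A, (2 + 8 * τ ^ 2 * (dg Bl A x : ℝ) ^ 2) :=
    sum_le_sum_of_subset_of_nonneg hD fun x _ _ => by positivity
  have h3 : ∑ x ∈ A, (2 + 8 * τ ^ 2 * (dg Bl A x : ℝ) ^ 2) =
      2 * (A.card : ℝ) + 8 * τ ^ 2 * ZZ Bl A := by
    rw [sum_add_distrib, sum_const, nsmul_eq_mul, ← mul_sum, mul_comm (A.card : ℝ)]
    rfl
  rw [← h3]
  have h4 : 0 ≤ 1 / K ^ 3 := by positivity
  have h5 := mul_le_mul_of_nonneg_left h2 h4
  linarith

/-- powers of the logarithm against small powers -/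
theorem ev_logm (m : ℕ) {a : ℝ} (ha : 0 < a) (C : ℝ) : ∃ K0 : ℝ, 1 ≤ K0 ∧ ∀ K : ℝ, K0 ≤ K →
    C * (1 + Real.log (1 + 2 * K)) ^ m ≤ K ^ a := by
  have h1 : Filter.Tendsto (fun x : ℝ => Real.log x ^ m / x ^ a) Filter.atTop (nhds 0) := by
    have := isLittleO_log_rpow_rpow_atTop (m : ℝ) ha
    have h2 := this.tendsto_div_nhds_zero
    refine h2.congr fun x => ?_
    rw [Real.rpow_natCast]
  set E : ℝ := |C| * 4 ^ m + 1 with hE
  have hE0 : 0 < E := by positivity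
  have h2 : ∀ᶠ x : ℝ in Filter.atTop, Real.log x ^ m / x ^ a < 1 / E :=
    h1.eventually_lt_const (by positivity)
  obtain ⟨x0, hx0⟩ := Filter.eventually_atTop.mp h2
  refine ⟨max x0 3, le_trans (by norm_num) (le_max_right _ _), fun K hK => ?_⟩
  have hK3 : 3 ≤ K := (le_max_right _ _).trans hK
  have hKx : x0 ≤ K := (le_max_left _ _).trans hK
  have hK0 : 0 < K := by linarith
  have hlog1 : 1 ≤ Real.log K := by
    rw [Real.le_log_iff_exp_le hK0]
    have := Real.exp_one_lt_d9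
    linarith
  have h3 : 1 + Real.log (1 + 2 * K) ≤ 4 * Real.log K := by
    have h4 : Real.log (1 + 2 * K) ≤ Real.log (K ^ 2) := by
      apply Real.log_le_log (by linarith)
      nlinarith
    rw [Real.log_pow] at h4
    push_cast at h4
    linarith
  have h0 : 0 ≤ 1 + Real.log (1 + 2 * K) := by
    have := Real.log_nonneg (show (1 : ℝ) ≤ 1 + 2 * K by linarith)
    linarith
  have h5 : (1 + Real.log (1 + 2 * K)) ^ m ≤ (4 * Real.log K) ^ m := pow_le_pow_left₀ h0 h3 m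
  have h6 := hx0 K hKx
  have hKa : 0 < K ^ a := Real.rpow_pos_of_pos hK0 a
  rw [div_lt_div_iff₀ hKa hE0, one_mul] at h6
  calc C * (1 + Real.log (1 + 2 * K)) ^ m ≤ |C| * (1 + Real.log (1 + 2 * K)) ^ m :=
        mul_le_mul_of_nonneg_right (le_abs_self C) (pow_nonneg h0 m)
    _ ≤ |C| * (4 * Real.log K) ^ m := mul_le_mul_of_nonneg_left h5 (abs_nonneg C)
    _ = |C| * 4 ^ m * Real.log K ^ m := by rw [mul_pow]; ring
    _ ≤ E * Real.log K ^ m := by
        refine mul_le_mul_of_nonneg_right ?_ (pow_nonneg (by linarith) m)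
        rw [hE]; linarith
    _ ≤ K ^ a := by rw [mul_comm]; exact h6.le

/-- powers of the logarithm against small powers -/
theorem ev_log {a : ℝ} (ha : 0 < a) (C : ℝ) : ∃ K0 : ℝ, 1 ≤ K0 ∧ ∀ K : ℝ, K0 ≤ K →
    C * (1 + Real.log (1 + 2 * K)) ^ 4 ≤ K ^ a := ev_logm 4 ha C

end

end Vale.Agent.P046.CT
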